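/-
S0453 core definitions (helper5).  Blueprint: notes on the team board, file SW/README at the end of this header.

Abstract part: `dot`, `avg`, `Qop` on functions on a finite type.
Graph part: `ent E u v` (0/1 adjacency entries), `Om d` (realizations as a type),
`rowRel a b` (the fibre relation of the pair a,b), `Qab a b f`.
-/
import Mathlib
import Crest.Prelude.Def_SwitchChain

set_option autoImplicit false

namespace Crest.Agent.SW

open Finset Crest.SwitchChain

section Abstract

variable {X : Type*} [Fintype X]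

/-- Counting inner product. -/
noncomputable def dot (f g : X → ℝ) : ℝ := ∑ x, f x * g x

open Classical in
/-- The class of `x` for a setoid, as a finset. -/
noncomputable def cls (r : Setoid X) (x : X) : Finset X := univ.filter (fun y => r y x)

/-- Average of `f` over the class of `x`. -/
noncomputable def avg (r : Setoid X) (f : X → ℝ) (x : X) : ℝ :=
  (∑ y ∈ cls r x, f y) / ((cls r x).card : ℝ)

/-- `Q = I - R`. -/
noncomputable def Qop (r : Setoid X) (f : X → ℝ) (x : X) : ℝ := f x - avg r f x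

end Abstract

section Graph

variable {n : ℕ}

/-- The edge `{u,v}`. -/
def mkEdge (u v : Fin n) (h : u ≠ v) : Edge n := ⟨s(u, v), by simpa using h⟩

open Classical in
/-- 0/1 adjacency entry; 0 on the diagonal. -/
noncomputable def ent (E : Finset (Edge n)) (u v : Fin n) : ℕ :=
  if h : u = v then 0 else if mkEdge u v h ∈ E then 1 else 0

/-- Realizations as a type. -/
abbrev Om (d : Fin n → ℕ) := {E : Finset (Edge n) // E ∈ realizations d}

/-- Fibre relation of the pair `a,b`: everything not touching `a,b` agrees and for every third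
vertex `v` the sum `x_av + x_bv` agrees.  (On `Om d` this also forces `x_ab` to agree.) -/
def rowRel {d : Fin n → ℕ} (a b : Fin n) : Setoid (Om d) where
  r G H := (∀ u v, u ≠ a → u ≠ b → v ≠ a → v ≠ b → ent G.1 u v = ent H.1 u v) ∧
    (∀ v, v ≠ a → v ≠ b → ent G.1 a v + ent G.1 b v = ent H.1 a v + ent H.1 b v)
  iseqv := by
    refine ⟨fun _ => ⟨fun _ _ _ _ _ _ => rfl, fun _ _ _ => rfl⟩, ?_, ?_⟩
    · intro G H h
      exact ⟨fun u v h1 h2 h3 h4 => (h.1 u v h1 h2 h3 h4).symm, fun v h1 h2 => (h.2 v h1 h2).symm⟩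
    · intro G H K h k
      exact ⟨fun u v h1 h2 h3 h4 => (h.1 u v h1 h2 h3 h4).trans (k.1 u v h1 h2 h3 h4),
        fun v h1 h2 => (h.2 v h1 h2).trans (k.2 v h1 h2)⟩

/-- `Q_ab f`. -/
noncomputable def Qab {d : Fin n → ℕ} (a b : Fin n) (f : Om d → ℝ) : Om d → ℝ :=
  Qop (rowRel a b) f

/-- Graph `G` has the pattern `ac, be` present, `ae, bc` absent. -/
def D1 (a b c e : Fin n) (G : Finset (Edge n)) : Prop :=
  ent G a c = 1 ∧ ent G b e = 1 ∧ ent G a e = 0 ∧ ent G b c = 0

/-- `G'` is the switch of `G` on the 4-cycle `a c b e`: `ac, be` replaced by `ae, bc`. -/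
def IsSw (a b c e : Fin n) (G G' : Finset (Edge n)) : Prop :=
  D1 a b c e G ∧ D1 a b e c G' ∧
  ∀ u v, ¬ ((u = a ∧ v = c) ∨ (u = c ∧ v = a) ∨ (u = b ∧ v = e) ∨ (u = e ∧ v = b) ∨
            (u = a ∧ v = e) ∨ (u = e ∧ v = a) ∨ (u = b ∧ v = c) ∨ (u = c ∧ v = b)) →
    ent G u v = ent G' u v

open Classical in
/-- Sum over switches `G → G'` on the 4-cycle `a c b e` of the squared difference. -/
noncomputable def SwT {d : Fin n → ℕ} (a b c e : Fin n) (f : Om d → ℝ) : ℝ :=
  ∑ G : Om d, ∑ G' : Om d, if IsSw a b c e G.1 G'.1 then (f G - f G') ^ 2 else 0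

/-- `c,e` both in `M_ab`, on different sides, in the graph `G`. -/
def Dst (a b c e : Fin n) (G : Finset (Edge n)) : Prop :=
  ent G a c ≠ ent G a e ∧ ent G a c ≠ ent G b c ∧ ent G a e ≠ ent G b e

open Classical in
/-- `T = ∑_{G' in the (a,b)-class of G, Dst G'} (f G' - mean)`. -/
noncomputable def Tsum {d : Fin n → ℕ} (a b c e : Fin n) (f : Om d → ℝ) (G : Om d) : ℝ :=
  ∑ G' ∈ (cls (rowRel a b) G).filter (fun G' => Dst a b c e G'.1), (f G' - avg (rowRel a b) f G)

open Classical in
/-- Number of `D1` states in the `(a,b)`-class of `G`. -/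
noncomputable def nOne {d : Fin n → ℕ} (a b c e : Fin n) (G : Om d) : ℕ :=
  ((cls (rowRel a b) G).filter (fun G' => D1 a b c e G'.1)).card

/-- The negative term: sum over `(a,b)`-classes (as a sum over `G` with weight `1/|class|`) of
`T^2/(2 n_1)`. -/
noncomputable def Neg {d : Fin n → ℕ} (a b c e : Fin n) (f : Om d → ℝ) : ℝ :=
  ∑ G : Om d, (Tsum a b c e f G) ^ 2 / (2 * (nOne a b c e G : ℝ)) / ((cls (rowRel a b) G).card : ℝ)

end Graph

end Crest.Agent.SW
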