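/- Graph API for S0453: adjacency entries `ent`. -/
import Crest.Agent.Lib.SW.Core

set_option autoImplicit false

namespace Crest.Agent.SW

open Finset Crest.SwitchChain

variable {n : ℕ}

theorem mkEdge_comm (u v : Fin n) (h : u ≠ v) : mkEdge u v h = mkEdge v u h.symm := by
  apply Subtype.ext
  simp [mkEdge, Sym2.eq_swap]

@[simp] theorem ent_self (E : Finset (Edge n)) (u : Fin n) : ent E u u = 0 := by
  simp [ent]

theorem ent_symm (E : Finset (Edge n)) (u v : Fin n) : ent E u v = ent E v u := by
  unfold ent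
  by_cases h : u = v
  · subst h; rfl
  · rw [dif_neg h, dif_neg (Ne.symm h), mkEdge_comm u v h]

theorem ent_le_one (E : Finset (Edge n)) (u v : Fin n) : ent E u v ≤ 1 := by
  unfold ent
  split_ifs <;> simp

theorem ent_zero_or_one (E : Finset (Edge n)) (u v : Fin n) : ent E u v = 0 ∨ ent E u v = 1 := by
  have := ent_le_one E u v
  omega

theorem ent_eq_one_iff (E : Finset (Edge n)) (u v : Fin n) (h : u ≠ v) :
    ent E u v = 1 ↔ mkEdge u v h ∈ E := by
  unfold ent
  rw [dif_neg h]
  split_ifs with h' <;> simp [h']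

theorem ne_of_ent_eq_one {E : Finset (Edge n)} {u v : Fin n} (h : ent E u v = 1) : u ≠ v := by
  rintro rfl
  simp at h

/-- Every edge is `mkEdge` of its endpoints. -/
theorem edge_exists (e : Edge n) : ∃ (u v : Fin n) (h : u ≠ v), e = mkEdge u v h := by
  obtain ⟨z, hz⟩ := e
  induction z using Sym2.ind with
  | _ u v =>
    have h : u ≠ v := by simpa using hz
    exact ⟨u, v, h, rfl⟩

/-- A graph is determined by its entries. -/
theorem graph_ext {E E' : Finset (Edge n)} (h : ∀ u v, ent E u v = ent E' u v) : E = E' := by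
  ext e
  obtain ⟨u, v, huv, rfl⟩ := edge_exists e
  rw [← ent_eq_one_iff E u v huv, ← ent_eq_one_iff E' u v huv, h]

/-- Degree as a sum of entries. -/
theorem deg_eq_sum (E : Finset (Edge n)) (v : Fin n) : deg E v = ∑ u, ent E v u := by
  classical
  have h1 : ∑ u, ent E v u = ((univ : Finset (Fin n)).filter (fun u => ent E v u = 1)).card := by
    rw [card_filter]
    apply sum_congr rfl
    intro u _
    rcases ent_zero_or_one E v u with h | h <;> simp [h]
  rw [h1]
  unfold deg
  symm
  apply card_bij (fun u hu => mkEdge v u (ne_of_ent_eq_one (mem_filter.mp hu).2))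
  · intro u hu
    have h := (mem_filter.mp hu).2
    simp only [mem_filter]
    exact ⟨(ent_eq_one_iff E v u _).mp h, by simp [mkEdge]⟩
  · intro u hu w hw hEq
    have : s(v, u) = s(v, w) := congrArg Subtype.val hEq
    have := Sym2.congr_right.mp this
    exact this
  · intro e he
    obtain ⟨heE, hve⟩ := mem_filter.mp he
    obtain ⟨x, y, hxy, rfl⟩ := edge_exists e
    have hve' : v = x ∨ v = y := by simpa [mkEdge] using hve
    rcases hve' with rfl | rfl
    · exact ⟨y, mem_filter.mpr ⟨mem_univ _, (ent_eq_one_iff E v y hxy).mpr heE⟩, rfl⟩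
    · refine ⟨x, mem_filter.mpr ⟨mem_univ _, ?_⟩, ?_⟩
      · rw [ent_symm]; exact (ent_eq_one_iff E x v hxy).mpr heE
      · exact (mkEdge_comm x v hxy).symm

theorem mem_realizations_iff (d : Fin n → ℕ) (E : Finset (Edge n)) :
    E ∈ realizations d ↔ ∀ v, ∑ u, ent E v u = d v := by
  unfold realizations
  simp only [mem_filter, mem_univ, true_and]
  constructor
  · intro h v; rw [← deg_eq_sum]; exact h v
  · intro h v; rw [deg_eq_sum]; exact h v

open Classical in
/-- The graph with entry pattern `m`. -/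
noncomputable def ofEnt (m : Fin n → Fin n → ℕ) : Finset (Edge n) :=
  univ.filter (fun e => ∃ (u v : Fin n) (h : u ≠ v), e = mkEdge u v h ∧ m u v = 1)

theorem ent_ofEnt (m : Fin n → Fin n → ℕ) (hsymm : ∀ u v, m u v = m v u)
    (hdiag : ∀ u, m u u = 0) (h01 : ∀ u v, m u v ≤ 1) (u v : Fin n) :
    ent (ofEnt m) u v = m u v := by
  classical
  by_cases huv : u = v
  · subst huv; simp [hdiag]
  · have key : ent (ofEnt m) u v = 1 ↔ m u v = 1 := by
      rw [ent_eq_one_iff _ u v huv]
      unfold ofEnt
      simp only [mem_filter, mem_univ, true_and]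
      constructor
      · rintro ⟨x, y, hxy, hEq, hm⟩
        have : s(u, v) = s(x, y) := congrArg Subtype.val hEq
        rcases Sym2.eq_iff.mp this with ⟨rfl, rfl⟩ | ⟨rfl, rfl⟩
        · exact hm
        · rw [hsymm]; exact hm
      · intro hm
        exact ⟨u, v, huv, rfl, hm⟩
    have h1 := h01 u v
    have h2 := ent_le_one (ofEnt m) u v
    omega

/-- Row sum of `a` and `b` over third vertices, plus twice `x_ab`. -/
theorem sum_row_pair (E : Finset (Edge n)) (a b : Fin n) (hab : a ≠ b) :
    ∑ u, ent E a u + ∑ u, ent E b u =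
      2 * ent E a b + ∑ u ∈ (univ.erase a).erase b, (ent E a u + ent E b u) := by
  classical
  have h : ∀ g : Fin n → ℕ, ∑ u, g u = g a + (g b + ∑ u ∈ (univ.erase a).erase b, g u) := by
    intro g
    rw [← add_sum_erase univ g (mem_univ a),
      ← add_sum_erase (univ.erase a) g (mem_erase.mpr ⟨hab.symm, mem_univ b⟩)]
  rw [h (ent E a), h (ent E b), sum_add_distrib, ent_self, ent_self, ent_symm E b a]
  ring

/-- On `Om d`, the fibre relation forces `x_ab` to agree. -/
theorem rowRel_ent_ab {d : Fin n → ℕ} {a b : Fin n} (hab : a ≠ b) {G H : Om d}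
    (h : (rowRel a b).r G H) : ent G.1 a b = ent H.1 a b := by
  have hG := (mem_realizations_iff d G.1).mp G.2
  have hH := (mem_realizations_iff d H.1).mp H.2
  have h1 := sum_row_pair G.1 a b hab
  have h2 := sum_row_pair H.1 a b hab
  rw [hG a, hG b] at h1
  rw [hH a, hH b] at h2
  have h3 : ∑ u ∈ (univ.erase a).erase b, (ent G.1 a u + ent G.1 b u) =
      ∑ u ∈ (univ.erase a).erase b, (ent H.1 a u + ent H.1 b u) := by
    apply sum_congr rfl
    intro u hu
    have hub : u ≠ b := (mem_erase.mp hu).1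
    have hua : u ≠ a := (mem_erase.mp (mem_erase.mp hu).2).1
    exact h.2 u hua hub
  omega

/-- `rowRel` is symmetric in the pair. -/
theorem rowRel_comm {d : Fin n → ℕ} (a b : Fin n) (G H : Om d) :
    (rowRel a b).r G H ↔ (rowRel b a).r G H := by
  constructor
  · rintro ⟨h1, h2⟩
    exact ⟨fun u v a1 a2 a3 a4 => h1 u v a2 a1 a4 a3, fun v a1 a2 => by
      have := h2 v a2 a1; omega⟩
  · rintro ⟨h1, h2⟩
    exact ⟨fun u v a1 a2 a3 a4 => h1 u v a2 a1 a4 a3, fun v a1 a2 => by
      have := h2 v a2 a1; omega⟩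

end Crest.Agent.SW
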