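/- Generic lemmas on `dot`, `avg`, `Qop` (S0453). -/
import Crest.Agent.Lib.SW.Core

set_option autoImplicit false

namespace Crest.Agent.SW

open Finset

section
variable {X : Type*} [Fintype X]

open Classical

theorem mem_cls (r : Setoid X) (x y : X) : y ∈ cls r x ↔ r y x := by
  simp [cls]

theorem self_mem_cls (r : Setoid X) (x : X) : x ∈ cls r x := (mem_cls r x x).2 (r.refl x)

theorem cls_eq_of_rel (r : Setoid X) {x y : X} (h : r x y) : cls r x = cls r y := by
  ext z
  rw [mem_cls, mem_cls]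
  exact ⟨fun k => r.trans k h, fun k => r.trans k (r.symm h)⟩

theorem cls_card_pos (r : Setoid X) (x : X) : 0 < ((cls r x).card : ℝ) := by
  exact_mod_cast card_pos.mpr ⟨x, self_mem_cls r x⟩

theorem avg_eq_of_rel (r : Setoid X) (f : X → ℝ) {x y : X} (h : r x y) :
    avg r f x = avg r f y := by
  unfold avg; rw [cls_eq_of_rel r h]

theorem avg_of_const (r : Setoid X) (f : X → ℝ) (x : X) (c : ℝ)
    (h : ∀ y, r y x → f y = c) : avg r f x = c := by
  unfold avg
  have : ∑ y ∈ cls r x, f y = ∑ y ∈ cls r x, c :=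
    sum_congr rfl (fun y hy => h y ((mem_cls r x y).1 hy))
  rw [this, sum_const, nsmul_eq_mul]
  have := cls_card_pos r x
  field_simp

theorem avg_avg (r : Setoid X) (f : X → ℝ) (x : X) : avg r (avg r f) x = avg r f x :=
  avg_of_const r _ x _ (fun _ hy => avg_eq_of_rel r f hy)

/-- Kernel form of `avg`. -/
theorem avg_eq_sum_kernel (r : Setoid X) (f : X → ℝ) (x : X) :
    avg r f x = ∑ y, (if y ∈ cls r x then 1 / ((cls r x).card : ℝ) else 0) * f y := by
  classical
  unfold avg
  have : ∀ y, (if y ∈ cls r x then 1 / ((cls r x).card : ℝ) else 0) * f y =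
      if y ∈ cls r x then f y / ((cls r x).card : ℝ) else 0 := by
    intro y; split_ifs <;> ring
  simp_rw [this]
  rw [sum_ite_mem, univ_inter, sum_div]

theorem avg_kernel_symm (r : Setoid X) (x y : X) :
    (if y ∈ cls r x then 1 / ((cls r x).card : ℝ) else 0) =
      (if x ∈ cls r y then 1 / ((cls r y).card : ℝ) else 0) := by
  classical
  by_cases h : r y x
  · rw [if_pos ((mem_cls r x y).2 h), if_pos ((mem_cls r y x).2 (r.symm h)),
      cls_eq_of_rel r h]
  · have h' : ¬ r x y := fun k => h (r.symm k)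
    rw [if_neg (fun k => h ((mem_cls r x y).1 k)), if_neg (fun k => h' ((mem_cls r y x).1 k))]

theorem dot_avg_symm (r : Setoid X) (f g : X → ℝ) :
    dot (avg r f) g = dot f (avg r g) := by
  unfold dot
  simp_rw [avg_eq_sum_kernel r]
  simp_rw [sum_mul, mul_sum]
  rw [sum_comm]
  apply sum_congr rfl; intro y _
  apply sum_congr rfl; intro x _
  rw [avg_kernel_symm r y x]; ring

theorem dot_comm (f g : X → ℝ) : dot f g = dot g f := by
  unfold dot; exact sum_congr rfl (fun _ _ => mul_comm _ _)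

theorem dot_sub_left (f g h : X → ℝ) : dot (fun x => f x - g x) h = dot f h - dot g h := by
  unfold dot; rw [← sum_sub_distrib]; exact sum_congr rfl (fun _ _ => by ring)

theorem dot_sub_right (f g h : X → ℝ) : dot f (fun x => g x - h x) = dot f g - dot f h := by
  unfold dot; rw [← sum_sub_distrib]; exact sum_congr rfl (fun _ _ => by ring)

theorem dot_self_nonneg (f : X → ℝ) : 0 ≤ dot f f := sum_nonneg (fun _ _ => mul_self_nonneg _)

theorem dot_self_eq_zero {f : X → ℝ} (h : dot f f = 0) (x : X) : f x = 0 := by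
  have h1 := (sum_eq_zero_iff_of_nonneg (fun _ _ => mul_self_nonneg _)).1 h x (mem_univ x)
  exact mul_self_eq_zero.mp h1

theorem Qop_eq_sub (r : Setoid X) (f : X → ℝ) : Qop r f = fun x => f x - avg r f x := rfl

theorem avg_Qop (r : Setoid X) (f : X → ℝ) (x : X) : avg r (Qop r f) x = 0 := by
  have h : ∑ y ∈ cls r x, Qop r f y = 0 := by
    unfold Qop
    rw [sum_sub_distrib]
    have : ∑ y ∈ cls r x, avg r f y = ∑ _y ∈ cls r x, avg r f x :=
      sum_congr rfl (fun y hy => avg_eq_of_rel r f ((mem_cls r x y).1 hy))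
    rw [this, sum_const, nsmul_eq_mul]
    have hc := cls_card_pos r x
    unfold avg
    field_simp
    ring
  unfold avg
  rw [h]; simp

theorem Qop_Qop (r : Setoid X) (f : X → ℝ) : Qop r (Qop r f) = Qop r f := by
  funext x
  show Qop r f x - avg r (Qop r f) x = Qop r f x
  rw [avg_Qop]; ring

/-- `⟨f, Q f⟩ = ⟨Q f, Q f⟩`. -/
theorem dot_Qop_self (r : Setoid X) (f : X → ℝ) :
    dot f (Qop r f) = dot (Qop r f) (Qop r f) := by
  have h : dot (avg r f) (Qop r f) = 0 := by
    rw [dot_avg_symm]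
    unfold dot
    apply sum_eq_zero
    intro x _
    rw [avg_Qop]; ring
  have : dot (Qop r f) (Qop r f) = dot f (Qop r f) - dot (avg r f) (Qop r f) := by
    rw [Qop_eq_sub r f]
    exact dot_sub_left _ _ _
  rw [this, h]; ring

/-- `Q` is symmetric. -/
theorem dot_Qop_symm (r : Setoid X) (f g : X → ℝ) :
    dot (Qop r f) g = dot f (Qop r g) := by
  rw [Qop_eq_sub r f, Qop_eq_sub r g, dot_sub_left, dot_sub_right, dot_avg_symm]

theorem Qop_zero_const (r : Setoid X) (f : X → ℝ) (h : ∀ x, Qop r f x = 0) {x y : X}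
    (hxy : r x y) : f x = f y := by
  have hx := h x
  have hy := h y
  unfold Qop at hx hy
  rw [avg_eq_of_rel r f hxy] at hx
  linarith

/-- Partition of unity over the classes of a setoid. -/
theorem sum_eq_sum_cls_div (κ : Setoid X) (φ : X → ℝ) :
    ∑ x, φ x = ∑ x, (∑ y ∈ cls κ x, φ y) / ((cls κ x).card : ℝ) := by
  classical
  have key : ∀ x, (∑ y ∈ cls κ x, φ y) / ((cls κ x).card : ℝ) =
      ∑ y, (if y ∈ cls κ x then 1 / ((cls κ x).card : ℝ) else 0) * φ y := by
    intro x
    have : ∀ y, (if y ∈ cls κ x then 1 / ((cls κ x).card : ℝ) else 0) * φ y =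
        if y ∈ cls κ x then φ y / ((cls κ x).card : ℝ) else 0 := by
      intro y; split_ifs <;> ring
    simp_rw [this]
    rw [sum_ite_mem, univ_inter, sum_div]
  simp_rw [key]
  rw [sum_comm]
  apply sum_congr rfl
  intro y _
  have : ∀ x, (if y ∈ cls κ x then 1 / ((cls κ x).card : ℝ) else 0) * φ y =
      (if x ∈ cls κ y then 1 / ((cls κ y).card : ℝ) else 0) * φ y := by
    intro x; rw [avg_kernel_symm κ x y]
  simp_rw [this]
  rw [← sum_mul]
  have h2 : ∑ x, (if x ∈ cls κ y then 1 / ((cls κ y).card : ℝ) else 0) = 1 := by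
    rw [sum_ite_mem, univ_inter, sum_const, nsmul_eq_mul]
    have := cls_card_pos κ y
    field_simp
  rw [h2, one_mul]

/-- To prove a global sum nonneg, prove it on each class. -/
theorem sum_nonneg_of_cls (κ : Setoid X) (φ : X → ℝ)
    (h : ∀ x, 0 ≤ ∑ y ∈ cls κ x, φ y) : 0 ≤ ∑ x, φ x := by
  rw [sum_eq_sum_cls_div κ]
  exact sum_nonneg (fun x _ => div_nonneg (h x) (cls_card_pos κ x).le)

/-- Inequality between global sums from inequalities on each class. -/
theorem sum_le_sum_of_cls (κ : Setoid X) (φ ψ : X → ℝ)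
    (h : ∀ x, ∑ y ∈ cls κ x, φ y ≤ ∑ y ∈ cls κ x, ψ y) : ∑ x, φ x ≤ ∑ x, ψ x := by
  rw [sum_eq_sum_cls_div κ φ, sum_eq_sum_cls_div κ ψ]
  exact sum_le_sum (fun x _ => div_le_div_of_nonneg_right (h x) (cls_card_pos κ x).le)

end

section Transport
variable {X Y : Type*} [Fintype X] [Fintype Y]

/-- Sum over a class through an equivalence. -/
theorem sum_cls_equiv (κ : Setoid X) (x₀ : X) (e : {y // κ y x₀} ≃ Y) (φ : X → ℝ) :
    ∑ y ∈ cls κ x₀, φ y = ∑ z : Y, φ (e.symm z).1 := by
  classical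
  have h1 : ∑ y ∈ cls κ x₀, φ y = ∑ y : {y // κ y x₀}, φ y.1 := by
    unfold cls
    exact sum_subtype _ (fun y => by simp) φ
  rw [h1]
  exact (Equiv.sum_comp e.symm (fun y : {y // κ y x₀} => φ y.1)).symm

/-- Transport of `avg` along an equivalence of a coarser class. -/
theorem avg_transport (r κ : Setoid X) (hrκ : ∀ x y, r x y → κ x y) (x₀ : X) (s : Setoid Y)
    (e : {y // κ y x₀} ≃ Y) (he : ∀ y y' : {y // κ y x₀}, r y.1 y'.1 ↔ s (e y) (e y'))
    (f : X → ℝ) (y : {y // κ y x₀}) :
    avg r f y.1 = avg s (fun z => f (e.symm z).1) (e y) := by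
  classical
  unfold avg
  have hcard : (cls r y.1).card = (cls s (e y)).card := by
    apply card_bij (fun (w : X) hw => e ⟨w, κ.trans (hrκ _ _ ((mem_cls r y.1 w).1 hw)) y.2⟩)
    · intro w hw
      rw [mem_cls, ← he]
      exact (mem_cls r y.1 w).1 hw
    · intro w hw w' hw' h
      have := e.injective h
      exact congrArg Subtype.val this
    · intro z hz
      rw [mem_cls] at hz
      refine ⟨(e.symm z).1, ?_, ?_⟩
      · rw [mem_cls, he]; simpa using hz
      · simp
  have hsum : ∑ w ∈ cls r y.1, f w = ∑ z ∈ cls s (e y), f (e.symm z).1 := by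
    apply sum_bij (fun (w : X) hw => e ⟨w, κ.trans (hrκ _ _ ((mem_cls r y.1 w).1 hw)) y.2⟩)
    · intro w hw
      rw [mem_cls, ← he]
      exact (mem_cls r y.1 w).1 hw
    · intro w hw w' hw' h
      have := e.injective h
      exact congrArg Subtype.val this
    · intro z hz
      rw [mem_cls] at hz
      refine ⟨(e.symm z).1, ?_, ?_⟩
      · rw [mem_cls, he]; simpa using hz
      · simp
    · intro w hw; simp
  rw [hsum, hcard]

/-- Transport of `Qop`. -/
theorem Qop_transport (r κ : Setoid X) (hrκ : ∀ x y, r x y → κ x y) (x₀ : X) (s : Setoid Y)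
    (e : {y // κ y x₀} ≃ Y) (he : ∀ y y' : {y // κ y x₀}, r y.1 y'.1 ↔ s (e y) (e y'))
    (f : X → ℝ) (z : Y) :
    Qop r f (e.symm z).1 = Qop s (fun z => f (e.symm z).1) z := by
  unfold Qop
  have := avg_transport r κ hrκ x₀ s e he f (e.symm z)
  simp only [Equiv.apply_symm_apply] at this
  rw [this]

end Transport

end Crest.Agent.SW
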