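/- S0453 package F, abstract part (helper5): block structures on a finite set. -/
import Crest.Agent.Lib.SW.Core
import Crest.Agent.Lib.SW.Avg

set_option autoImplicit false
set_option linter.unusedVariables false
set_option linter.unusedSimpArgs false
namespace Crest.Agent.SW
open Finset

section Abs
open Classical

variable {X α γ : Type*} [Fintype X]

/-- The six-block structure of a class. -/
structure BS (X α γ : Type*) [Fintype X] where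
  Y : Finset X
  pA : X → α
  pC : X → γ
  A0 : Finset α
  A1 : Finset α
  A2 : Finset α
  C0 : Finset γ
  C1 : Finset γ
  C2 : Finset γ
  H1 : α → γ → X
  H2 : α → γ → X
  V1 : α → γ → X
  V2 : α → γ → X
  D1 : α → γ → X
  D2 : α → γ → X
  typ : X → Fin 6
  r1 : Setoid X
  r2 : Setoid X
  m0 : ∀ A ∈ A2, ∀ C ∈ C1, H1 A C ∈ Y ∧ pA (H1 A C) = A ∧ pC (H1 A C) = C ∧ typ (H1 A C) = 0
  m1 : ∀ A ∈ A0, ∀ C ∈ C1, H2 A C ∈ Y ∧ pA (H2 A C) = A ∧ pC (H2 A C) = C ∧ typ (H2 A C) = 1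
  m2 : ∀ A ∈ A1, ∀ C ∈ C2, V1 A C ∈ Y ∧ pA (V1 A C) = A ∧ pC (V1 A C) = C ∧ typ (V1 A C) = 2
  m3 : ∀ A ∈ A1, ∀ C ∈ C0, V2 A C ∈ Y ∧ pA (V2 A C) = A ∧ pC (V2 A C) = C ∧ typ (V2 A C) = 3
  m4 : ∀ A ∈ A1, ∀ C ∈ C1, D1 A C ∈ Y ∧ pA (D1 A C) = A ∧ pC (D1 A C) = C ∧ typ (D1 A C) = 4
  m5 : ∀ A ∈ A1, ∀ C ∈ C1, D2 A C ∈ Y ∧ pA (D2 A C) = A ∧ pC (D2 A C) = C ∧ typ (D2 A C) = 5
  g0 : ∀ G ∈ Y, typ G = 0 → pA G ∈ A2 ∧ pC G ∈ C1 ∧ H1 (pA G) (pC G) = G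
  g1 : ∀ G ∈ Y, typ G = 1 → pA G ∈ A0 ∧ pC G ∈ C1 ∧ H2 (pA G) (pC G) = G
  g2 : ∀ G ∈ Y, typ G = 2 → pA G ∈ A1 ∧ pC G ∈ C2 ∧ V1 (pA G) (pC G) = G
  g3 : ∀ G ∈ Y, typ G = 3 → pA G ∈ A1 ∧ pC G ∈ C0 ∧ V2 (pA G) (pC G) = G
  g4 : ∀ G ∈ Y, typ G = 4 → pA G ∈ A1 ∧ pC G ∈ C1 ∧ D1 (pA G) (pC G) = G
  g5 : ∀ G ∈ Y, typ G = 5 → pA G ∈ A1 ∧ pC G ∈ C1 ∧ D2 (pA G) (pC G) = G
  dA01 : Disjoint A0 A1
  dA02 : Disjoint A0 A2
  dA12 : Disjoint A1 A2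
  dC01 : Disjoint C0 C1
  dC02 : Disjoint C0 C2
  dC12 : Disjoint C1 C2
  hr1 : ∀ G ∈ Y, ∀ G', r1 G' G ↔ G' ∈ Y ∧ pC G' = pC G
  hr2 : ∀ G ∈ Y, ∀ G', r2 G' G ↔ G' ∈ Y ∧ pA G' = pA G

theorem block_fiber (Y : Finset X) (pA : X → α) (pC : X → γ) (typ : X → Fin 6) (k : Fin 6)
    (S : Finset α) (S' : Finset γ) (P : α → γ → X)
    (h1 : ∀ A ∈ S, ∀ C ∈ S', P A C ∈ Y ∧ pA (P A C) = A ∧ pC (P A C) = C ∧ typ (P A C) = k)
    (h2 : ∀ G ∈ Y, typ G = k → pA G ∈ S ∧ pC G ∈ S' ∧ P (pA G) (pC G) = G) (φ : X → ℝ) :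
    ∑ G ∈ Y.filter (fun G => typ G = k), φ G = ∑ A ∈ S, ∑ C ∈ S', φ (P A C) := by
  rw [← sum_product']
  refine sum_nbij' (fun G => (pA G, pC G)) (fun p => P p.1 p.2) ?_ ?_ ?_ ?_ ?_
  · intro G hG
    obtain ⟨hGY, hk⟩ := mem_filter.1 hG
    obtain ⟨a1, a2, _⟩ := h2 G hGY hk
    simp [a1, a2]
  · intro p hp
    obtain ⟨p1, p2⟩ := mem_product.1 hp
    obtain ⟨a, _, _, b⟩ := h1 p.1 p1 p.2 p2
    exact mem_filter.2 ⟨a, b⟩
  · intro G hG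
    obtain ⟨hGY, hk⟩ := mem_filter.1 hG
    exact (h2 G hGY hk).2.2
  · intro p hp
    obtain ⟨p1, p2⟩ := mem_product.1 hp
    obtain ⟨_, a, b, _⟩ := h1 p.1 p1 p.2 p2
    exact Prod.ext a b
  · intro G hG
    obtain ⟨hGY, hk⟩ := mem_filter.1 hG
    rw [(h2 G hGY hk).2.2]

namespace BS
variable (B : BS X α γ)

/-- The block-sum formula. -/
theorem sum_eq (φ : X → ℝ) :
    ∑ G ∈ B.Y, φ G =
      ∑ A ∈ B.A2, ∑ C ∈ B.C1, φ (B.H1 A C) + ∑ A ∈ B.A0, ∑ C ∈ B.C1, φ (B.H2 A C) +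
      ∑ A ∈ B.A1, ∑ C ∈ B.C2, φ (B.V1 A C) + ∑ A ∈ B.A1, ∑ C ∈ B.C0, φ (B.V2 A C) +
      ∑ A ∈ B.A1, ∑ C ∈ B.C1, φ (B.D1 A C) + ∑ A ∈ B.A1, ∑ C ∈ B.C1, φ (B.D2 A C) := by
  rw [← sum_fiberwise B.Y B.typ φ, Fin.sum_univ_six]
  rw [block_fiber B.Y B.pA B.pC B.typ 0 B.A2 B.C1 B.H1 B.m0 B.g0,
    block_fiber B.Y B.pA B.pC B.typ 1 B.A0 B.C1 B.H2 B.m1 B.g1,
    block_fiber B.Y B.pA B.pC B.typ 2 B.A1 B.C2 B.V1 B.m2 B.g2,
    block_fiber B.Y B.pA B.pC B.typ 3 B.A1 B.C0 B.V2 B.m3 B.g3,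
    block_fiber B.Y B.pA B.pC B.typ 4 B.A1 B.C1 B.D1 B.m4 B.g4,
    block_fiber B.Y B.pA B.pC B.typ 5 B.A1 B.C1 B.D2 B.m5 B.g5]

theorem cls_r1 {G : X} (hG : G ∈ B.Y) : cls B.r1 G = B.Y.filter (fun G' => B.pC G' = B.pC G) := by
  ext G'
  rw [mem_cls, mem_filter]
  exact B.hr1 G hG G'

theorem term_C (S : Finset α) (S' : Finset γ) (P : α → γ → X)
    (h : ∀ A ∈ S, ∀ C' ∈ S', B.pC (P A C') = C') (φ : X → ℝ) (C : γ) :
    ∑ A ∈ S, ∑ C' ∈ S', (if B.pC (P A C') = C then φ (P A C') else 0) =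
      if C ∈ S' then ∑ A ∈ S, φ (P A C) else 0 := by
  have : ∀ A ∈ S, ∑ C' ∈ S', (if B.pC (P A C') = C then φ (P A C') else 0) =
      if C ∈ S' then φ (P A C) else 0 := by
    intro A hA
    rw [← sum_ite_eq' S' C (fun C' => φ (P A C'))]
    refine sum_congr rfl (fun C' hC' => ?_)
    rw [h A hA C' hC']
  rw [sum_congr rfl this]
  split_ifs <;> simp

/-- Sum over an `r1`-class. -/
theorem sum_cls_r1 {G : X} (hG : G ∈ B.Y) (φ : X → ℝ) :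
    ∑ G' ∈ cls B.r1 G, φ G' =
      (if B.pC G ∈ B.C1 then ∑ A ∈ B.A2, φ (B.H1 A (B.pC G)) else 0) +
      (if B.pC G ∈ B.C1 then ∑ A ∈ B.A0, φ (B.H2 A (B.pC G)) else 0) +
      (if B.pC G ∈ B.C2 then ∑ A ∈ B.A1, φ (B.V1 A (B.pC G)) else 0) +
      (if B.pC G ∈ B.C0 then ∑ A ∈ B.A1, φ (B.V2 A (B.pC G)) else 0) +
      (if B.pC G ∈ B.C1 then ∑ A ∈ B.A1, φ (B.D1 A (B.pC G)) else 0) +
      (if B.pC G ∈ B.C1 then ∑ A ∈ B.A1, φ (B.D2 A (B.pC G)) else 0) := by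
  rw [cls_r1 B hG, sum_filter, sum_eq]
  rw [term_C B B.A2 B.C1 B.H1 (fun A hA C hC => (B.m0 A hA C hC).2.2.1) φ (B.pC G),
    term_C B B.A0 B.C1 B.H2 (fun A hA C hC => (B.m1 A hA C hC).2.2.1) φ (B.pC G),
    term_C B B.A1 B.C2 B.V1 (fun A hA C hC => (B.m2 A hA C hC).2.2.1) φ (B.pC G),
    term_C B B.A1 B.C0 B.V2 (fun A hA C hC => (B.m3 A hA C hC).2.2.1) φ (B.pC G),
    term_C B B.A1 B.C1 B.D1 (fun A hA C hC => (B.m4 A hA C hC).2.2.1) φ (B.pC G),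
    term_C B B.A1 B.C1 B.D2 (fun A hA C hC => (B.m5 A hA C hC).2.2.1) φ (B.pC G)]

theorem not_C2_of_C1 {C : γ} (h : C ∈ B.C1) : C ∉ B.C2 := fun k => (disjoint_left.1 B.dC12) h k
theorem not_C0_of_C1 {C : γ} (h : C ∈ B.C1) : C ∉ B.C0 := fun k => (disjoint_left.1 B.dC01) k h
theorem not_C1_of_C2 {C : γ} (h : C ∈ B.C2) : C ∉ B.C1 := fun k => (disjoint_left.1 B.dC12) k h
theorem not_C0_of_C2 {C : γ} (h : C ∈ B.C2) : C ∉ B.C0 := fun k => (disjoint_left.1 B.dC02) k h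
theorem not_C1_of_C0 {C : γ} (h : C ∈ B.C0) : C ∉ B.C1 := fun k => (disjoint_left.1 B.dC01) h k
theorem not_C2_of_C0 {C : γ} (h : C ∈ B.C0) : C ∉ B.C2 := fun k => (disjoint_left.1 B.dC02) h k

theorem sum_cls_r1_C1 {G : X} (hG : G ∈ B.Y) (hC : B.pC G ∈ B.C1) (φ : X → ℝ) :
    ∑ G' ∈ cls B.r1 G, φ G' =
      ∑ A ∈ B.A2, φ (B.H1 A (B.pC G)) + ∑ A ∈ B.A0, φ (B.H2 A (B.pC G)) +
      ∑ A ∈ B.A1, φ (B.D1 A (B.pC G)) + ∑ A ∈ B.A1, φ (B.D2 A (B.pC G)) := by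
  rw [sum_cls_r1 B hG, if_pos hC, if_pos hC, if_pos hC, if_pos hC,
    if_neg (not_C2_of_C1 B hC), if_neg (not_C0_of_C1 B hC)]
  ring

theorem sum_cls_r1_C2 {G : X} (hG : G ∈ B.Y) (hC : B.pC G ∈ B.C2) (φ : X → ℝ) :
    ∑ G' ∈ cls B.r1 G, φ G' = ∑ A ∈ B.A1, φ (B.V1 A (B.pC G)) := by
  rw [sum_cls_r1 B hG]
  simp [not_C1_of_C2 B hC, hC, not_C0_of_C2 B hC]

theorem sum_cls_r1_C0 {G : X} (hG : G ∈ B.Y) (hC : B.pC G ∈ B.C0) (φ : X → ℝ) :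
    ∑ G' ∈ cls B.r1 G, φ G' = ∑ A ∈ B.A1, φ (B.V2 A (B.pC G)) := by
  rw [sum_cls_r1 B hG]
  simp [not_C1_of_C0 B hC, hC, not_C2_of_C0 B hC]

theorem card_cast (s : Finset X) : (s.card : ℝ) = ∑ _x ∈ s, (1 : ℝ) := by simp

/-- The mean on a `C₁`-class. -/
noncomputable def cm (f : X → ℝ) (C : γ) : ℝ :=
  (∑ A ∈ B.A2, f (B.H1 A C) + ∑ A ∈ B.A0, f (B.H2 A C) +
    ∑ A ∈ B.A1, (f (B.D1 A C) + f (B.D2 A C))) /
    ((B.A2.card : ℝ) + B.A0.card + 2 * B.A1.card)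

theorem avg_r1_C1 {G : X} (hG : G ∈ B.Y) (hC : B.pC G ∈ B.C1) (f : X → ℝ) :
    avg B.r1 f G = B.cm f (B.pC G) := by
  unfold avg cm
  rw [sum_cls_r1_C1 B hG hC f, card_cast, sum_cls_r1_C1 B hG hC (fun _ => (1 : ℝ))]
  simp only [sum_const, nsmul_eq_mul, mul_one, sum_add_distrib]
  congr 1
  · ring
  · ring

theorem avg_r1_C2 {G : X} (hG : G ∈ B.Y) (hC : B.pC G ∈ B.C2) (f : X → ℝ) :
    avg B.r1 f G = (∑ A ∈ B.A1, f (B.V1 A (B.pC G))) / (B.A1.card : ℝ) := by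
  unfold avg
  rw [sum_cls_r1_C2 B hG hC f, card_cast, sum_cls_r1_C2 B hG hC (fun _ => (1 : ℝ))]
  simp

theorem avg_r1_C0 {G : X} (hG : G ∈ B.Y) (hC : B.pC G ∈ B.C0) (f : X → ℝ) :
    avg B.r1 f G = (∑ A ∈ B.A1, f (B.V2 A (B.pC G))) / (B.A1.card : ℝ) := by
  unfold avg
  rw [sum_cls_r1_C0 B hG hC f, card_cast, sum_cls_r1_C0 B hG hC (fun _ => (1 : ℝ))]
  simp

/-- The `T` value on a `C₁`-class. -/
noncomputable def tv (f : X → ℝ) (C : γ) : ℝ :=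
  ∑ A ∈ B.A1, (f (B.D1 A C) + f (B.D2 A C)) - 2 * (B.A1.card : ℝ) * B.cm f C

/-- The `Neg` sum on the `r1` side. -/
theorem neg_sum (f : X → ℝ) (P1 P2 : X → Prop)
    (hP1 : ∀ G ∈ B.Y, P1 G ↔ B.typ G = 4) (hP2 : ∀ G ∈ B.Y, P2 G ↔ (B.typ G = 4 ∨ B.typ G = 5)) :
    ∑ G ∈ B.Y, (∑ G' ∈ (cls B.r1 G).filter P2, (f G' - avg B.r1 f G)) ^ 2 /
        (2 * (((cls B.r1 G).filter P1).card : ℝ)) / ((cls B.r1 G).card : ℝ) =
      ∑ C ∈ B.C1, (B.tv f C) ^ 2 / (2 * (B.A1.card : ℝ)) := by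
  set M : ℝ := (B.A2.card : ℝ) + B.A0.card + 2 * B.A1.card with hM
  -- value on a class with `C ∈ C₁`
  have hT : ∀ G ∈ B.Y, B.pC G ∈ B.C1 →
      (∑ G' ∈ (cls B.r1 G).filter P2, (f G' - avg B.r1 f G)) = B.tv f (B.pC G) := by
    intro G hG hC
    rw [sum_filter, sum_cls_r1_C1 B hG hC, avg_r1_C1 B hG hC]
    have e1 : ∀ A ∈ B.A2, (if P2 (B.H1 A (B.pC G)) then f (B.H1 A (B.pC G)) - B.cm f (B.pC G) else 0) = 0 := by
      intro A hA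
      obtain ⟨a, _, _, b⟩ := B.m0 A hA _ hC
      rw [if_neg]
      rw [hP2 _ a, b]
      decide
    have e2 : ∀ A ∈ B.A0, (if P2 (B.H2 A (B.pC G)) then f (B.H2 A (B.pC G)) - B.cm f (B.pC G) else 0) = 0 := by
      intro A hA
      obtain ⟨a, _, _, b⟩ := B.m1 A hA _ hC
      rw [if_neg]
      rw [hP2 _ a, b]
      decide
    have e3 : ∀ A ∈ B.A1, (if P2 (B.D1 A (B.pC G)) then f (B.D1 A (B.pC G)) - B.cm f (B.pC G) else 0) =
        f (B.D1 A (B.pC G)) - B.cm f (B.pC G) := by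
      intro A hA
      obtain ⟨a, _, _, b⟩ := B.m4 A hA _ hC
      rw [if_pos]
      rw [hP2 _ a, b]
      decide
    have e4 : ∀ A ∈ B.A1, (if P2 (B.D2 A (B.pC G)) then f (B.D2 A (B.pC G)) - B.cm f (B.pC G) else 0) =
        f (B.D2 A (B.pC G)) - B.cm f (B.pC G) := by
      intro A hA
      obtain ⟨a, _, _, b⟩ := B.m5 A hA _ hC
      rw [if_pos]
      rw [hP2 _ a, b]
      decide
    rw [sum_congr rfl e1, sum_congr rfl e2, sum_congr rfl e3, sum_congr rfl e4]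
    unfold tv
    simp only [sum_const_zero, sum_sub_distrib, sum_add_distrib, sum_const, nsmul_eq_mul]
    ring
  have hn : ∀ G ∈ B.Y, B.pC G ∈ B.C1 → (((cls B.r1 G).filter P1).card : ℝ) = B.A1.card := by
    intro G hG hC
    rw [card_cast, sum_filter, sum_cls_r1_C1 B hG hC]
    have e1 : ∀ A ∈ B.A2, (if P1 (B.H1 A (B.pC G)) then (1 : ℝ) else 0) = 0 := by
      intro A hA
      obtain ⟨a, _, _, b⟩ := B.m0 A hA _ hC
      rw [if_neg]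
      rw [hP1 _ a, b]
      decide
    have e2 : ∀ A ∈ B.A0, (if P1 (B.H2 A (B.pC G)) then (1 : ℝ) else 0) = 0 := by
      intro A hA
      obtain ⟨a, _, _, b⟩ := B.m1 A hA _ hC
      rw [if_neg]
      rw [hP1 _ a, b]
      decide
    have e3 : ∀ A ∈ B.A1, (if P1 (B.D1 A (B.pC G)) then (1 : ℝ) else 0) = 1 := by
      intro A hA
      obtain ⟨a, _, _, b⟩ := B.m4 A hA _ hC
      rw [if_pos]
      rw [hP1 _ a, b]
    have e4 : ∀ A ∈ B.A1, (if P1 (B.D2 A (B.pC G)) then (1 : ℝ) else 0) = 0 := by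
      intro A hA
      obtain ⟨a, _, _, b⟩ := B.m5 A hA _ hC
      rw [if_neg]
      rw [hP1 _ a, b]
      decide
    rw [sum_congr rfl e1, sum_congr rfl e2, sum_congr rfl e3, sum_congr rfl e4]
    simp
  have hcard : ∀ G ∈ B.Y, B.pC G ∈ B.C1 → ((cls B.r1 G).card : ℝ) = M := by
    intro G hG hC
    rw [card_cast, sum_cls_r1_C1 B hG hC (fun _ => (1 : ℝ))]
    simp only [sum_const, nsmul_eq_mul, mul_one]
    rw [hM]
    ring
  -- the value on any member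
  have hval : ∀ G ∈ B.Y, B.pC G ∈ B.C1 →
      (∑ G' ∈ (cls B.r1 G).filter P2, (f G' - avg B.r1 f G)) ^ 2 /
        (2 * (((cls B.r1 G).filter P1).card : ℝ)) / ((cls B.r1 G).card : ℝ) =
        (B.tv f (B.pC G)) ^ 2 / (2 * (B.A1.card : ℝ)) / M := by
    intro G hG hC
    rw [hT G hG hC, hn G hG hC, hcard G hG hC]
  -- the values vanish off `C₁`
  have hzero2 : ∀ G ∈ B.Y, B.pC G ∈ B.C2 →
      (∑ G' ∈ (cls B.r1 G).filter P2, (f G' - avg B.r1 f G)) = 0 := by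
    intro G hG hC
    rw [sum_filter, sum_cls_r1_C2 B hG hC]
    apply sum_eq_zero
    intro A hA
    obtain ⟨a, _, _, b⟩ := B.m2 A hA _ hC
    rw [if_neg]
    rw [hP2 _ a, b]
    decide
  have hzero0 : ∀ G ∈ B.Y, B.pC G ∈ B.C0 →
      (∑ G' ∈ (cls B.r1 G).filter P2, (f G' - avg B.r1 f G)) = 0 := by
    intro G hG hC
    rw [sum_filter, sum_cls_r1_C0 B hG hC]
    apply sum_eq_zero
    intro A hA
    obtain ⟨a, _, _, b⟩ := B.m3 A hA _ hC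
    rw [if_neg]
    rw [hP2 _ a, b]
    decide
  rw [sum_eq]
  have t0 : ∀ A ∈ B.A2, ∑ C ∈ B.C1, ((∑ G' ∈ (cls B.r1 (B.H1 A C)).filter P2, (f G' - avg B.r1 f (B.H1 A C))) ^ 2 /
        (2 * (((cls B.r1 (B.H1 A C)).filter P1).card : ℝ)) / ((cls B.r1 (B.H1 A C)).card : ℝ)) =
      ∑ C ∈ B.C1, (B.tv f C) ^ 2 / (2 * (B.A1.card : ℝ)) / M := by
    intro A hA
    refine sum_congr rfl (fun C hC => ?_)
    obtain ⟨a, _, b, _⟩ := B.m0 A hA C hC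
    rw [hval _ a (by rw [b]; exact hC), b]
  have t1 : ∀ A ∈ B.A0, ∑ C ∈ B.C1, ((∑ G' ∈ (cls B.r1 (B.H2 A C)).filter P2, (f G' - avg B.r1 f (B.H2 A C))) ^ 2 /
        (2 * (((cls B.r1 (B.H2 A C)).filter P1).card : ℝ)) / ((cls B.r1 (B.H2 A C)).card : ℝ)) =
      ∑ C ∈ B.C1, (B.tv f C) ^ 2 / (2 * (B.A1.card : ℝ)) / M := by
    intro A hA
    refine sum_congr rfl (fun C hC => ?_)
    obtain ⟨a, _, b, _⟩ := B.m1 A hA C hC
    rw [hval _ a (by rw [b]; exact hC), b]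
  have t4 : ∀ A ∈ B.A1, ∑ C ∈ B.C1, ((∑ G' ∈ (cls B.r1 (B.D1 A C)).filter P2, (f G' - avg B.r1 f (B.D1 A C))) ^ 2 /
        (2 * (((cls B.r1 (B.D1 A C)).filter P1).card : ℝ)) / ((cls B.r1 (B.D1 A C)).card : ℝ)) =
      ∑ C ∈ B.C1, (B.tv f C) ^ 2 / (2 * (B.A1.card : ℝ)) / M := by
    intro A hA
    refine sum_congr rfl (fun C hC => ?_)
    obtain ⟨a, _, b, _⟩ := B.m4 A hA C hC
    rw [hval _ a (by rw [b]; exact hC), b]
  have t5 : ∀ A ∈ B.A1, ∑ C ∈ B.C1, ((∑ G' ∈ (cls B.r1 (B.D2 A C)).filter P2, (f G' - avg B.r1 f (B.D2 A C))) ^ 2 /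
        (2 * (((cls B.r1 (B.D2 A C)).filter P1).card : ℝ)) / ((cls B.r1 (B.D2 A C)).card : ℝ)) =
      ∑ C ∈ B.C1, (B.tv f C) ^ 2 / (2 * (B.A1.card : ℝ)) / M := by
    intro A hA
    refine sum_congr rfl (fun C hC => ?_)
    obtain ⟨a, _, b, _⟩ := B.m5 A hA C hC
    rw [hval _ a (by rw [b]; exact hC), b]
  have t2 : ∀ A ∈ B.A1, ∑ C ∈ B.C2, ((∑ G' ∈ (cls B.r1 (B.V1 A C)).filter P2, (f G' - avg B.r1 f (B.V1 A C))) ^ 2 /
        (2 * (((cls B.r1 (B.V1 A C)).filter P1).card : ℝ)) / ((cls B.r1 (B.V1 A C)).card : ℝ)) = 0 := by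
    intro A hA
    refine sum_eq_zero (fun C hC => ?_)
    obtain ⟨a, _, b, _⟩ := B.m2 A hA C hC
    rw [hzero2 _ a (by rw [b]; exact hC)]
    simp
  have t3 : ∀ A ∈ B.A1, ∑ C ∈ B.C0, ((∑ G' ∈ (cls B.r1 (B.V2 A C)).filter P2, (f G' - avg B.r1 f (B.V2 A C))) ^ 2 /
        (2 * (((cls B.r1 (B.V2 A C)).filter P1).card : ℝ)) / ((cls B.r1 (B.V2 A C)).card : ℝ)) = 0 := by
    intro A hA
    refine sum_eq_zero (fun C hC => ?_)
    obtain ⟨a, _, b, _⟩ := B.m3 A hA C hC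
    rw [hzero0 _ a (by rw [b]; exact hC)]
    simp
  rw [sum_congr rfl t0, sum_congr rfl t1, sum_congr rfl t2, sum_congr rfl t3, sum_congr rfl t4,
    sum_congr rfl t5]
  simp only [sum_const, sum_const_zero, nsmul_eq_mul]
  set Z := ∑ C ∈ B.C1, (B.tv f C) ^ 2 / (2 * (B.A1.card : ℝ)) with hZ
  have hZdiv : ∑ C ∈ B.C1, (B.tv f C) ^ 2 / (2 * (B.A1.card : ℝ)) / M = Z / M := by
    rw [hZ, sum_div]
  rw [hZdiv]
  by_cases hM0 : M = 0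
  · -- then `A₁` is empty
    have h1 : (B.A1.card : ℝ) = 0 := by
      have h2 : (0 : ℝ) ≤ B.A2.card := Nat.cast_nonneg _
      have h3 : (0 : ℝ) ≤ B.A0.card := Nat.cast_nonneg _
      have h4 : (0 : ℝ) ≤ B.A1.card := Nat.cast_nonneg _
      rw [hM] at hM0
      linarith
    have hZ0 : Z = 0 := by
      rw [hZ]
      simp [h1]
    simp [hZ0]
  · field_simp
    rw [hM]
    ring


/-- Exchange the two sides. -/
def swap : BS X γ α where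
  Y := B.Y
  pA := B.pC
  pC := B.pA
  A0 := B.C0
  A1 := B.C1
  A2 := B.C2
  C0 := B.A0
  C1 := B.A1
  C2 := B.A2
  H1 := fun C A => B.V1 A C
  H2 := fun C A => B.V2 A C
  V1 := fun C A => B.H1 A C
  V2 := fun C A => B.H2 A C
  D1 := fun C A => B.D1 A C
  D2 := fun C A => B.D2 A C
  typ := fun G => (![2, 3, 0, 1, 4, 5] : Fin 6 → Fin 6) (B.typ G)
  r1 := B.r2
  r2 := B.r1
  m0 := fun C hC A hA => by
    obtain ⟨a, b, c, d⟩ := B.m2 A hA C hC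
    exact ⟨a, c, b, by rw [d]; rfl⟩
  m1 := fun C hC A hA => by
    obtain ⟨a, b, c, d⟩ := B.m3 A hA C hC
    exact ⟨a, c, b, by rw [d]; rfl⟩
  m2 := fun C hC A hA => by
    obtain ⟨a, b, c, d⟩ := B.m0 A hA C hC
    exact ⟨a, c, b, by rw [d]; rfl⟩
  m3 := fun C hC A hA => by
    obtain ⟨a, b, c, d⟩ := B.m1 A hA C hC
    exact ⟨a, c, b, by rw [d]; rfl⟩
  m4 := fun C hC A hA => by
    obtain ⟨a, b, c, d⟩ := B.m4 A hA C hC
    exact ⟨a, c, b, by rw [d]; rfl⟩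
  m5 := fun C hC A hA => by
    obtain ⟨a, b, c, d⟩ := B.m5 A hA C hC
    exact ⟨a, c, b, by rw [d]; rfl⟩
  g0 := fun G hG h => by
    have h2 : B.typ G = 2 := by
      revert h; generalize B.typ G = k; revert k; decide
    obtain ⟨a, b, c⟩ := B.g2 G hG h2
    exact ⟨b, a, c⟩
  g1 := fun G hG h => by
    have h2 : B.typ G = 3 := by
      revert h; generalize B.typ G = k; revert k; decide
    obtain ⟨a, b, c⟩ := B.g3 G hG h2
    exact ⟨b, a, c⟩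
  g2 := fun G hG h => by
    have h2 : B.typ G = 0 := by
      revert h; generalize B.typ G = k; revert k; decide
    obtain ⟨a, b, c⟩ := B.g0 G hG h2
    exact ⟨b, a, c⟩
  g3 := fun G hG h => by
    have h2 : B.typ G = 1 := by
      revert h; generalize B.typ G = k; revert k; decide
    obtain ⟨a, b, c⟩ := B.g1 G hG h2
    exact ⟨b, a, c⟩
  g4 := fun G hG h => by
    have h2 : B.typ G = 4 := by
      revert h; generalize B.typ G = k; revert k; decide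
    obtain ⟨a, b, c⟩ := B.g4 G hG h2
    exact ⟨b, a, c⟩
  g5 := fun G hG h => by
    have h2 : B.typ G = 5 := by
      revert h; generalize B.typ G = k; revert k; decide
    obtain ⟨a, b, c⟩ := B.g5 G hG h2
    exact ⟨b, a, c⟩
  dA01 := B.dC01
  dA02 := B.dC02
  dA12 := B.dC12
  dC01 := B.dA01
  dC02 := B.dA02
  dC12 := B.dA12
  hr1 := B.hr2
  hr2 := B.hr1

/-- **The block inequality on a class, abstractly.**  The hypothesis `hE` is the algebraic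
inequality on the six arrays. -/
theorem main (f : X → ℝ) (sw : X → ℝ)
    (hsw4 : ∀ A ∈ B.A1, ∀ C ∈ B.C1, sw (B.D1 A C) = (f (B.D1 A C) - f (B.D2 A C)) ^ 2)
    (hsw0 : ∀ G ∈ B.Y, B.typ G ≠ 4 → sw G = 0)
    (P1 P2 P1' P2' : X → Prop)
    (hP1 : ∀ G ∈ B.Y, P1 G ↔ B.typ G = 4) (hP2 : ∀ G ∈ B.Y, P2 G ↔ (B.typ G = 4 ∨ B.typ G = 5))
    (hP1' : ∀ G ∈ B.Y, P1' G ↔ B.typ G = 4) (hP2' : ∀ G ∈ B.Y, P2' G ↔ (B.typ G = 4 ∨ B.typ G = 5))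
    (hE : ∑ A ∈ B.A1, ∑ C ∈ B.C1, (f (B.D1 A C) - f (B.D2 A C)) ^ 2
        - ∑ C ∈ B.C1, (B.tv f C) ^ 2 / (2 * (B.A1.card : ℝ))
        - ∑ A ∈ B.A1, (B.swap.tv f A) ^ 2 / (2 * (B.C1.card : ℝ)) ≤
      2 * (∑ A ∈ B.A2, ∑ C ∈ B.C1, (f (B.H1 A C) - B.cm f C) *
              (f (B.H1 A C) - (∑ C' ∈ B.C1, f (B.H1 A C')) / (B.C1.card : ℝ))
          + ∑ A ∈ B.A0, ∑ C ∈ B.C1, (f (B.H2 A C) - B.cm f C) *
              (f (B.H2 A C) - (∑ C' ∈ B.C1, f (B.H2 A C')) / (B.C1.card : ℝ))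
          + ∑ A ∈ B.A1, ∑ C ∈ B.C2, (f (B.V1 A C) - (∑ A' ∈ B.A1, f (B.V1 A' C)) / (B.A1.card : ℝ)) *
              (f (B.V1 A C) - B.swap.cm f A)
          + ∑ A ∈ B.A1, ∑ C ∈ B.C0, (f (B.V2 A C) - (∑ A' ∈ B.A1, f (B.V2 A' C)) / (B.A1.card : ℝ)) *
              (f (B.V2 A C) - B.swap.cm f A)
          + ∑ A ∈ B.A1, ∑ C ∈ B.C1, ((f (B.D1 A C) - B.cm f C) * (f (B.D1 A C) - B.swap.cm f A)
              + (f (B.D2 A C) - B.cm f C) * (f (B.D2 A C) - B.swap.cm f A)))) :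
    ∑ G ∈ B.Y, sw G
      - ∑ G ∈ B.Y, (∑ G' ∈ (cls B.r1 G).filter P2, (f G' - avg B.r1 f G)) ^ 2 /
        (2 * (((cls B.r1 G).filter P1).card : ℝ)) / ((cls B.r1 G).card : ℝ)
      - ∑ G ∈ B.Y, (∑ G' ∈ (cls B.r2 G).filter P2', (f G' - avg B.r2 f G)) ^ 2 /
        (2 * (((cls B.r2 G).filter P1').card : ℝ)) / ((cls B.r2 G).card : ℝ)
      ≤ ∑ G ∈ B.Y, 2 * (Qop B.r1 f G * Qop B.r2 f G) := by
  have h1 := neg_sum B f P1 P2 hP1 hP2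
  have h2 := neg_sum B.swap f P1' P2'
    (fun G hG => by
      rw [hP1' G hG]
      show B.typ G = 4 ↔ (![2, 3, 0, 1, 4, 5] : Fin 6 → Fin 6) (B.typ G) = 4
      generalize B.typ G = k; revert k; decide)
    (fun G hG => by
      rw [hP2' G hG]
      show (B.typ G = 4 ∨ B.typ G = 5) ↔
        ((![2, 3, 0, 1, 4, 5] : Fin 6 → Fin 6) (B.typ G) = 4 ∨
          (![2, 3, 0, 1, 4, 5] : Fin 6 → Fin 6) (B.typ G) = 5)
      generalize B.typ G = k; revert k; decide)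
  have hsw : ∑ G ∈ B.Y, sw G = ∑ A ∈ B.A1, ∑ C ∈ B.C1, (f (B.D1 A C) - f (B.D2 A C)) ^ 2 := by
    rw [sum_eq]
    have t0 : ∀ A ∈ B.A2, ∑ C ∈ B.C1, sw (B.H1 A C) = 0 := fun A hA =>
      sum_eq_zero (fun C hC => by
        obtain ⟨a, _, _, b⟩ := B.m0 A hA C hC
        exact hsw0 _ a (by rw [b]; decide))
    have t1 : ∀ A ∈ B.A0, ∑ C ∈ B.C1, sw (B.H2 A C) = 0 := fun A hA =>
      sum_eq_zero (fun C hC => by
        obtain ⟨a, _, _, b⟩ := B.m1 A hA C hC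
        exact hsw0 _ a (by rw [b]; decide))
    have t2 : ∀ A ∈ B.A1, ∑ C ∈ B.C2, sw (B.V1 A C) = 0 := fun A hA =>
      sum_eq_zero (fun C hC => by
        obtain ⟨a, _, _, b⟩ := B.m2 A hA C hC
        exact hsw0 _ a (by rw [b]; decide))
    have t3 : ∀ A ∈ B.A1, ∑ C ∈ B.C0, sw (B.V2 A C) = 0 := fun A hA =>
      sum_eq_zero (fun C hC => by
        obtain ⟨a, _, _, b⟩ := B.m3 A hA C hC
        exact hsw0 _ a (by rw [b]; decide))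
    have t5 : ∀ A ∈ B.A1, ∑ C ∈ B.C1, sw (B.D2 A C) = 0 := fun A hA =>
      sum_eq_zero (fun C hC => by
        obtain ⟨a, _, _, b⟩ := B.m5 A hA C hC
        exact hsw0 _ a (by rw [b]; decide))
    have t4 : ∀ A ∈ B.A1, ∑ C ∈ B.C1, sw (B.D1 A C) =
        ∑ C ∈ B.C1, (f (B.D1 A C) - f (B.D2 A C)) ^ 2 := fun A hA =>
      sum_congr rfl (fun C hC => hsw4 A hA C hC)
    rw [sum_congr rfl t0, sum_congr rfl t1, sum_congr rfl t2, sum_congr rfl t3, sum_congr rfl t4,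
      sum_congr rfl t5]
    simp
  have hQ : ∑ G ∈ B.Y, 2 * (Qop B.r1 f G * Qop B.r2 f G) =
      2 * (∑ A ∈ B.A2, ∑ C ∈ B.C1, (f (B.H1 A C) - B.cm f C) *
              (f (B.H1 A C) - (∑ C' ∈ B.C1, f (B.H1 A C')) / (B.C1.card : ℝ))
          + ∑ A ∈ B.A0, ∑ C ∈ B.C1, (f (B.H2 A C) - B.cm f C) *
              (f (B.H2 A C) - (∑ C' ∈ B.C1, f (B.H2 A C')) / (B.C1.card : ℝ))
          + ∑ A ∈ B.A1, ∑ C ∈ B.C2, (f (B.V1 A C) - (∑ A' ∈ B.A1, f (B.V1 A' C)) / (B.A1.card : ℝ)) *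
              (f (B.V1 A C) - B.swap.cm f A)
          + ∑ A ∈ B.A1, ∑ C ∈ B.C0, (f (B.V2 A C) - (∑ A' ∈ B.A1, f (B.V2 A' C)) / (B.A1.card : ℝ)) *
              (f (B.V2 A C) - B.swap.cm f A)
          + ∑ A ∈ B.A1, ∑ C ∈ B.C1, ((f (B.D1 A C) - B.cm f C) * (f (B.D1 A C) - B.swap.cm f A)
              + (f (B.D2 A C) - B.cm f C) * (f (B.D2 A C) - B.swap.cm f A))) := by
    rw [← mul_sum, sum_eq]
    congr 1
    have t0 : ∀ A ∈ B.A2, ∀ C ∈ B.C1, Qop B.r1 f (B.H1 A C) * Qop B.r2 f (B.H1 A C) =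
        (f (B.H1 A C) - B.cm f C) *
              (f (B.H1 A C) - (∑ C' ∈ B.C1, f (B.H1 A C')) / (B.C1.card : ℝ)) := by
      intro A hA C hC
      obtain ⟨a, b, c, _⟩ := B.m0 A hA C hC
      unfold Qop
      rw [avg_r1_C1 B a (by rw [c]; exact hC), c]
      have := avg_r1_C2 B.swap (G := B.H1 A C) a (by show B.pA _ ∈ B.A2; rw [b]; exact hA) f
      have h3 : avg B.r2 f (B.H1 A C) = (∑ C' ∈ B.C1, f (B.H1 A C')) / (B.C1.card : ℝ) := by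
        rw [show B.r2 = B.swap.r1 from rfl, this]
        show (∑ C' ∈ B.C1, f (B.H1 (B.pA (B.H1 A C)) C')) / (B.C1.card : ℝ) = _
        rw [b]
      rw [h3]
    have t1 : ∀ A ∈ B.A0, ∀ C ∈ B.C1, Qop B.r1 f (B.H2 A C) * Qop B.r2 f (B.H2 A C) =
        (f (B.H2 A C) - B.cm f C) *
              (f (B.H2 A C) - (∑ C' ∈ B.C1, f (B.H2 A C')) / (B.C1.card : ℝ)) := by
      intro A hA C hC
      obtain ⟨a, b, c, _⟩ := B.m1 A hA C hC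
      unfold Qop
      rw [avg_r1_C1 B a (by rw [c]; exact hC), c]
      have := avg_r1_C0 B.swap (G := B.H2 A C) a (by show B.pA _ ∈ B.A0; rw [b]; exact hA) f
      have h3 : avg B.r2 f (B.H2 A C) = (∑ C' ∈ B.C1, f (B.H2 A C')) / (B.C1.card : ℝ) := by
        rw [show B.r2 = B.swap.r1 from rfl, this]
        show (∑ C' ∈ B.C1, f (B.H2 (B.pA (B.H2 A C)) C')) / (B.C1.card : ℝ) = _
        rw [b]
      rw [h3]
    have t2 : ∀ A ∈ B.A1, ∀ C ∈ B.C2, Qop B.r1 f (B.V1 A C) * Qop B.r2 f (B.V1 A C) =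
        (f (B.V1 A C) - (∑ A' ∈ B.A1, f (B.V1 A' C)) / (B.A1.card : ℝ)) *
              (f (B.V1 A C) - B.swap.cm f A) := by
      intro A hA C hC
      obtain ⟨a, b, c, _⟩ := B.m2 A hA C hC
      unfold Qop
      rw [avg_r1_C2 B a (by rw [c]; exact hC), c]
      have := avg_r1_C1 B.swap (G := B.V1 A C) a (by show B.pA _ ∈ B.A1; rw [b]; exact hA) f
      have h3 : avg B.r2 f (B.V1 A C) = B.swap.cm f A := by
        rw [show B.r2 = B.swap.r1 from rfl, this]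
        show B.swap.cm f (B.pA (B.V1 A C)) = _
        rw [b]
      rw [h3]
    have t3 : ∀ A ∈ B.A1, ∀ C ∈ B.C0, Qop B.r1 f (B.V2 A C) * Qop B.r2 f (B.V2 A C) =
        (f (B.V2 A C) - (∑ A' ∈ B.A1, f (B.V2 A' C)) / (B.A1.card : ℝ)) *
              (f (B.V2 A C) - B.swap.cm f A) := by
      intro A hA C hC
      obtain ⟨a, b, c, _⟩ := B.m3 A hA C hC
      unfold Qop
      rw [avg_r1_C0 B a (by rw [c]; exact hC), c]
      have := avg_r1_C1 B.swap (G := B.V2 A C) a (by show B.pA _ ∈ B.A1; rw [b]; exact hA) f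
      have h3 : avg B.r2 f (B.V2 A C) = B.swap.cm f A := by
        rw [show B.r2 = B.swap.r1 from rfl, this]
        show B.swap.cm f (B.pA (B.V2 A C)) = _
        rw [b]
      rw [h3]
    have t4 : ∀ A ∈ B.A1, ∀ C ∈ B.C1, Qop B.r1 f (B.D1 A C) * Qop B.r2 f (B.D1 A C) =
        (f (B.D1 A C) - B.cm f C) * (f (B.D1 A C) - B.swap.cm f A) := by
      intro A hA C hC
      obtain ⟨a, b, c, _⟩ := B.m4 A hA C hC
      unfold Qop
      rw [avg_r1_C1 B a (by rw [c]; exact hC), c]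
      have := avg_r1_C1 B.swap (G := B.D1 A C) a (by show B.pA _ ∈ B.A1; rw [b]; exact hA) f
      have h3 : avg B.r2 f (B.D1 A C) = B.swap.cm f A := by
        rw [show B.r2 = B.swap.r1 from rfl, this]
        show B.swap.cm f (B.pA (B.D1 A C)) = _
        rw [b]
      rw [h3]
    have t5 : ∀ A ∈ B.A1, ∀ C ∈ B.C1, Qop B.r1 f (B.D2 A C) * Qop B.r2 f (B.D2 A C) =
        (f (B.D2 A C) - B.cm f C) * (f (B.D2 A C) - B.swap.cm f A) := by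
      intro A hA C hC
      obtain ⟨a, b, c, _⟩ := B.m5 A hA C hC
      unfold Qop
      rw [avg_r1_C1 B a (by rw [c]; exact hC), c]
      have := avg_r1_C1 B.swap (G := B.D2 A C) a (by show B.pA _ ∈ B.A1; rw [b]; exact hA) f
      have h3 : avg B.r2 f (B.D2 A C) = B.swap.cm f A := by
        rw [show B.r2 = B.swap.r1 from rfl, this]
        show B.swap.cm f (B.pA (B.D2 A C)) = _
        rw [b]
      rw [h3]
    rw [sum_congr rfl (fun A hA => sum_congr rfl (t0 A hA)),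
      sum_congr rfl (fun A hA => sum_congr rfl (t1 A hA)),
      sum_congr rfl (fun A hA => sum_congr rfl (t2 A hA)),
      sum_congr rfl (fun A hA => sum_congr rfl (t3 A hA)),
      sum_congr rfl (fun A hA => sum_congr rfl (t4 A hA)),
      sum_congr rfl (fun A hA => sum_congr rfl (t5 A hA))]
    simp only [sum_add_distrib]
    ring
  rw [h1, hsw, hQ]
  have h2' : ∑ G ∈ B.Y, (∑ G' ∈ (cls B.r2 G).filter P2', (f G' - avg B.r2 f G)) ^ 2 /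
        (2 * (((cls B.r2 G).filter P1').card : ℝ)) / ((cls B.r2 G).card : ℝ) =
      ∑ A ∈ B.A1, (B.swap.tv f A) ^ 2 / (2 * (B.C1.card : ℝ)) := h2
  rw [h2']
  exact hE

end BS


/-- The product inequality. -/
theorem prod_sos (S : Finset α) (S' : Finset γ) (F : α → γ → ℝ) :
    0 ≤ ∑ A ∈ S, ∑ C ∈ S', (F A C - (∑ A' ∈ S, F A' C) / (S.card : ℝ)) *
      (F A C - (∑ C' ∈ S', F A C') / (S'.card : ℝ)) := by
  rcases S.eq_empty_or_nonempty with rfl | hS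
  · simp
  rcases S'.eq_empty_or_nonempty with rfl | hS'
  · simp
  have hs : (S.card : ℝ) ≠ 0 := by exact_mod_cast (card_pos.mpr hS).ne'
  have hs' : (S'.card : ℝ) ≠ 0 := by exact_mod_cast (card_pos.mpr hS').ne'
  set u : γ → ℝ := fun C => (∑ A' ∈ S, F A' C) / (S.card : ℝ) with hu
  set v : α → ℝ := fun A => (∑ C' ∈ S', F A C') / (S'.card : ℝ) with hv
  set μ : ℝ := (∑ A ∈ S, v A) / (S.card : ℝ) with hμ
  have hu1 : ∀ C, ∑ A ∈ S, F A C = (S.card : ℝ) * u C := by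
    intro C
    simp only [hu]
    field_simp
  have hv1 : ∀ A, ∑ C ∈ S', F A C = (S'.card : ℝ) * v A := by
    intro A
    simp only [hv]
    field_simp
  have hμ1 : ∑ A ∈ S, v A = (S.card : ℝ) * μ := by
    rw [hμ]
    field_simp
  have hμ2 : ∑ C ∈ S', u C = (S'.card : ℝ) * μ := by
    have : ∑ C ∈ S', u C = (∑ C ∈ S', ∑ A ∈ S, F A C) / (S.card : ℝ) := by
      simp only [hu, sum_div]
    rw [this, sum_comm]
    simp only [hv1]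
    rw [← mul_sum, hμ1]
    field_simp
  set r : α → γ → ℝ := fun A C => F A C - u C - v A + μ with hr
  have hr1 : ∀ C, ∑ A ∈ S, r A C = 0 := by
    intro C
    simp only [hr, sum_add_distrib, sum_sub_distrib, hu1, sum_const, hμ1, nsmul_eq_mul]
    ring
  have hr2 : ∀ A, ∑ C ∈ S', r A C = 0 := by
    intro A
    simp only [hr, sum_add_distrib, sum_sub_distrib, hv1, sum_const, hμ2, nsmul_eq_mul]
    ring
  have hpt : ∀ A C, (F A C - u C) * (F A C - v A) =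
      r A C ^ 2 + r A C * (u C - μ) + r A C * (v A - μ) + (v A - μ) * (u C - μ) := by
    intro A C
    simp only [hr]
    ring
  have hsum : ∑ A ∈ S, ∑ C ∈ S', (F A C - u C) * (F A C - v A) =
      ∑ A ∈ S, ∑ C ∈ S', r A C ^ 2 := by
    simp only [hpt, sum_add_distrib]
    have e1 : ∑ A ∈ S, ∑ C ∈ S', r A C * (u C - μ) = 0 := by
      rw [sum_comm]
      apply sum_eq_zero
      intro C _
      rw [← sum_mul, hr1, zero_mul]
    have e2 : ∑ A ∈ S, ∑ C ∈ S', r A C * (v A - μ) = 0 := by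
      apply sum_eq_zero
      intro A _
      rw [← sum_mul, hr2, zero_mul]
    have e3 : ∑ A ∈ S, ∑ C ∈ S', (v A - μ) * (u C - μ) = 0 := by
      simp only [← mul_sum]
      have : ∑ C ∈ S', (u C - μ) = 0 := by
        rw [sum_sub_distrib, hμ2]
        simp
      simp [this]
    rw [e1, e2, e3]
    ring
  show 0 ≤ ∑ A ∈ S, ∑ C ∈ S', (F A C - u C) * (F A C - v A)
  rw [hsum]
  exact sum_nonneg (fun A _ => sum_nonneg (fun C _ => sq_nonneg _))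

/-- The product case, abstractly. -/
theorem prod_abs (Y : Finset X) (pA : X → α) (pC : X → γ) (r1 r2 : Setoid X)
    (hr1 : ∀ G ∈ Y, ∀ G', r1 G' G ↔ G' ∈ Y ∧ pC G' = pC G)
    (hr2 : ∀ G ∈ Y, ∀ G', r2 G' G ↔ G' ∈ Y ∧ pA G' = pA G)
    (inj : ∀ G ∈ Y, ∀ G' ∈ Y, pA G = pA G' → pC G = pC G' → G = G')
    (mix : ∀ G1 ∈ Y, ∀ G2 ∈ Y, ∃ G ∈ Y, pA G = pA G1 ∧ pC G = pC G2) (f : X → ℝ) :
    0 ≤ ∑ G ∈ Y, Qop r1 f G * Qop r2 f G := by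
  rcases Y.eq_empty_or_nonempty with rfl | ⟨G₀, hG₀⟩
  · simp
  set SA := Y.image pA with hSA
  set SC := Y.image pC with hSC
  have hex : ∀ A ∈ SA, ∀ C ∈ SC, ∃ G ∈ Y, pA G = A ∧ pC G = C := by
    intro A hA C hC
    obtain ⟨G1, hG1, rfl⟩ := mem_image.1 hA
    obtain ⟨G2, hG2, rfl⟩ := mem_image.1 hC
    exact mix G1 hG1 G2 hG2
  set Ψ : α → γ → X := fun A C =>
    if h : ∃ G ∈ Y, pA G = A ∧ pC G = C then h.choose else G₀ with hΨ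
  have hΨ1 : ∀ A ∈ SA, ∀ C ∈ SC, Ψ A C ∈ Y ∧ pA (Ψ A C) = A ∧ pC (Ψ A C) = C := by
    intro A hA C hC
    have h := hex A hA C hC
    simp only [hΨ, dif_pos h]
    exact h.choose_spec
  have hΨ2 : ∀ G ∈ Y, Ψ (pA G) (pC G) = G := by
    intro G hG
    have hA : pA G ∈ SA := mem_image_of_mem _ hG
    have hC : pC G ∈ SC := mem_image_of_mem _ hG
    obtain ⟨a, b, c⟩ := hΨ1 _ hA _ hC
    exact inj _ a _ hG b c
  have hsum : ∀ φ : X → ℝ, ∑ G ∈ Y, φ G = ∑ A ∈ SA, ∑ C ∈ SC, φ (Ψ A C) := by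
    intro φ
    rw [← sum_product']
    refine sum_nbij' (fun G => (pA G, pC G)) (fun p => Ψ p.1 p.2) ?_ ?_ ?_ ?_ ?_
    · intro G hG
      exact mem_product.2 ⟨mem_image_of_mem _ hG, mem_image_of_mem _ hG⟩
    · intro p hp
      obtain ⟨p1, p2⟩ := mem_product.1 hp
      exact (hΨ1 _ p1 _ p2).1
    · intro G hG
      exact hΨ2 G hG
    · intro p hp
      obtain ⟨p1, p2⟩ := mem_product.1 hp
      obtain ⟨_, a, b⟩ := hΨ1 _ p1 _ p2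
      exact Prod.ext a b
    · intro G hG
      rw [hΨ2 G hG]
  have hclsC : ∀ G ∈ Y, ∀ φ : X → ℝ, ∑ G' ∈ cls r1 G, φ G' = ∑ A ∈ SA, φ (Ψ A (pC G)) := by
    intro G hG φ
    have hC : pC G ∈ SC := mem_image_of_mem _ hG
    refine sum_nbij' pA (fun A => Ψ A (pC G)) ?_ ?_ ?_ ?_ ?_
    · intro G' hG'
      exact mem_image_of_mem _ ((hr1 G hG G').1 ((mem_cls _ _ _).1 hG')).1
    · intro A hA
      obtain ⟨a, _, c⟩ := hΨ1 A hA _ hC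
      exact (mem_cls _ _ _).2 ((hr1 G hG _).2 ⟨a, c⟩)
    · intro G' hG'
      obtain ⟨h1, h2⟩ := (hr1 G hG G').1 ((mem_cls _ _ _).1 hG')
      rw [← h2]
      exact hΨ2 G' h1
    · intro A hA
      exact (hΨ1 A hA _ hC).2.1
    · intro G' hG'
      obtain ⟨h1, h2⟩ := (hr1 G hG G').1 ((mem_cls _ _ _).1 hG')
      rw [← h2, hΨ2 G' h1]
  have hclsA : ∀ G ∈ Y, ∀ φ : X → ℝ, ∑ G' ∈ cls r2 G, φ G' = ∑ C ∈ SC, φ (Ψ (pA G) C) := by
    intro G hG φ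
    have hA : pA G ∈ SA := mem_image_of_mem _ hG
    refine sum_nbij' pC (fun C => Ψ (pA G) C) ?_ ?_ ?_ ?_ ?_
    · intro G' hG'
      exact mem_image_of_mem _ ((hr2 G hG G').1 ((mem_cls _ _ _).1 hG')).1
    · intro C hC
      obtain ⟨a, c, _⟩ := hΨ1 _ hA C hC
      exact (mem_cls _ _ _).2 ((hr2 G hG _).2 ⟨a, c⟩)
    · intro G' hG'
      obtain ⟨h1, h2⟩ := (hr2 G hG G').1 ((mem_cls _ _ _).1 hG')
      rw [← h2]
      exact hΨ2 G' h1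
    · intro C hC
      exact (hΨ1 _ hA C hC).2.2
    · intro G' hG'
      obtain ⟨h1, h2⟩ := (hr2 G hG G').1 ((mem_cls _ _ _).1 hG')
      rw [← h2, hΨ2 G' h1]
  have havg1 : ∀ G ∈ Y, avg r1 f G = (∑ A ∈ SA, f (Ψ A (pC G))) / (SA.card : ℝ) := by
    intro G hG
    unfold avg
    rw [hclsC G hG f, BS.card_cast, hclsC G hG (fun _ => (1 : ℝ))]
    simp
  have havg2 : ∀ G ∈ Y, avg r2 f G = (∑ C ∈ SC, f (Ψ (pA G) C)) / (SC.card : ℝ) := by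
    intro G hG
    unfold avg
    rw [hclsA G hG f, BS.card_cast, hclsA G hG (fun _ => (1 : ℝ))]
    simp
  rw [hsum]
  have := prod_sos SA SC (fun A C => f (Ψ A C))
  refine this.trans_eq ?_
  refine sum_congr rfl (fun A hA => sum_congr rfl (fun C hC => ?_))
  obtain ⟨a, b, c⟩ := hΨ1 A hA C hC
  unfold Qop
  rw [havg1 _ a, havg2 _ a, b, c]

end Abs

end Crest.Agent.SW
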