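/- S0453 package F, graph part (helper5): coordinates on the join class of a pair of pairs. -/
import Crest.Agent.Lib.SW.Core
import Crest.Agent.Lib.SW.Api
import Crest.Agent.Lib.SW.Avg

set_option autoImplicit false
set_option linter.unusedVariables false
set_option linter.unusedSimpArgs false
namespace Crest.Agent.SW
open Finset Crest.SwitchChain

variable {n : ℕ} {d : Fin n → ℕ}

/-- Four distinct vertices. -/
structure Dis4 (a b c e : Fin n) : Prop where
  ab : a ≠ b
  ac : a ≠ c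
  ae : a ≠ e
  bc : b ≠ c
  be : b ≠ e
  ce : c ≠ e

theorem Dis4.swap {a b c e : Fin n} (h : Dis4 a b c e) : Dis4 c e a b :=
  ⟨h.ce, h.ac.symm, h.bc.symm, h.ae.symm, h.be.symm, h.ab⟩

/-- Vertices outside the four. -/
def InW (a b c e v : Fin n) : Prop := v ≠ a ∧ v ≠ b ∧ v ≠ c ∧ v ≠ e

instance (a b c e v : Fin n) : Decidable (InW a b c e v) := by unfold InW; infer_instance

/-- The remaining vertices. -/
def W4 (a b c e : Fin n) : Finset (Fin n) := univ.filter (fun v => InW a b c e v)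

theorem mem_W4 {a b c e v : Fin n} : v ∈ W4 a b c e ↔ InW a b c e v := by simp [W4]

theorem InW_swap {a b c e v : Fin n} : InW a b c e v ↔ InW c e a b v := by
  unfold InW; tauto

theorem W4_swap (a b c e : Fin n) : W4 a b c e = W4 c e a b := by
  ext v; rw [mem_W4, mem_W4]; exact InW_swap

theorem vcases {a b c e : Fin n} (v : Fin n) : a = v ∨ b = v ∨ c = v ∨ e = v ∨ InW a b c e v := by
  unfold InW
  by_cases h1 : v = a
  · exact Or.inl h1.symm
  by_cases h2 : v = b
  · exact Or.inr (Or.inl h2.symm)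
  by_cases h3 : v = c
  · exact Or.inr (Or.inr (Or.inl h3.symm))
  by_cases h4 : v = e
  · exact Or.inr (Or.inr (Or.inr (Or.inl h4.symm)))
  · exact Or.inr (Or.inr (Or.inr (Or.inr ⟨h1, h2, h3, h4⟩)))

/-- Splitting a natural-number sum. -/
theorem sum_split4 {a b c e : Fin n} (h : Dis4 a b c e) (φ : Fin n → ℕ) :
    ∑ u, φ u = φ a + φ b + φ c + φ e + ∑ u ∈ W4 a b c e, φ u := by
  have hW : W4 a b c e = (((univ.erase a).erase b).erase c).erase e := by
    ext v
    simp only [mem_W4, InW, mem_erase, mem_univ, and_true, ne_eq]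
    tauto
  have h1 : φ a + ∑ u ∈ univ.erase a, φ u = ∑ u, φ u := add_sum_erase _ _ (mem_univ a)
  have h2 : φ b + ∑ u ∈ (univ.erase a).erase b, φ u = ∑ u ∈ univ.erase a, φ u :=
    add_sum_erase _ _ (by simp [h.ab.symm])
  have h3 : φ c + ∑ u ∈ ((univ.erase a).erase b).erase c, φ u =
      ∑ u ∈ (univ.erase a).erase b, φ u :=
    add_sum_erase _ _ (by simp [h.ac.symm, h.bc.symm])
  have h4 : φ e + ∑ u ∈ (((univ.erase a).erase b).erase c).erase e, φ u =
      ∑ u ∈ ((univ.erase a).erase b).erase c, φ u :=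
    add_sum_erase _ _ (by simp [h.ae.symm, h.be.symm, h.ce.symm])
  rw [hW]
  omega

theorem row_sum' (G : Om d) (v : Fin n) : ∑ u, ent G.1 v u = d v :=
  (mem_realizations_iff d G.1).1 G.2 v

theorem Om_ext' {G H : Om d} (h : ∀ u v, ent G.1 u v = ent H.1 u v) : G = H :=
  Subtype.ext (graph_ext h)

/-- Build a realization from an adjacency matrix. -/
noncomputable def mkOm' (m : Fin n → Fin n → ℕ) (hsymm : ∀ u v, m u v = m v u)
    (hdiag : ∀ u, m u u = 0) (h01 : ∀ u v, m u v ≤ 1) (hdeg : ∀ v, ∑ u, m v u = d v) : Om d :=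
  ⟨ofEnt m, (mem_realizations_iff d _).2 (fun v => by
    simp only [ent_ofEnt m hsymm hdiag h01]
    exact hdeg v)⟩

theorem ent_mkOm' (m : Fin n → Fin n → ℕ) (hsymm : ∀ u v, m u v = m v u)
    (hdiag : ∀ u, m u u = 0) (h01 : ∀ u v, m u v ≤ 1) (hdeg : ∀ v, ∑ u, m v u = d v) (u v : Fin n) :
    ent (mkOm' m hsymm hdiag h01 hdeg : Om d).1 u v = m u v :=
  ent_ofEnt m hsymm hdiag h01 u v

/-- The join relation. -/
def bJ (a b c e : Fin n) : Setoid (Om d) where
  r G H := (∀ u v, InW a b c e u → InW a b c e v → ent G.1 u v = ent H.1 u v) ∧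
    ent G.1 a b = ent H.1 a b ∧ ent G.1 c e = ent H.1 c e ∧
    (∀ v, InW a b c e v → ent G.1 a v + ent G.1 b v = ent H.1 a v + ent H.1 b v) ∧
    (∀ v, InW a b c e v → ent G.1 c v + ent G.1 e v = ent H.1 c v + ent H.1 e v)
  iseqv := by
    refine ⟨fun _ => ⟨fun _ _ _ _ => rfl, rfl, rfl, fun _ _ => rfl, fun _ _ => rfl⟩, ?_, ?_⟩
    · rintro G H ⟨h1, h2, h3, h4, h5⟩
      exact ⟨fun u v hu hv => (h1 u v hu hv).symm, h2.symm, h3.symm, fun v hv => (h4 v hv).symm,
        fun v hv => (h5 v hv).symm⟩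
    · rintro G H K ⟨h1, h2, h3, h4, h5⟩ ⟨k1, k2, k3, k4, k5⟩
      exact ⟨fun u v hu hv => (h1 u v hu hv).trans (k1 u v hu hv), h2.trans k2, h3.trans k3,
        fun v hv => (h4 v hv).trans (k4 v hv), fun v hv => (h5 v hv).trans (k5 v hv)⟩

theorem bJ_swap {a b c e : Fin n} {G H : Om d} :
    (bJ a b c e).r G H ↔ (bJ c e a b).r G H := by
  constructor
  · rintro ⟨h1, h2, h3, h4, h5⟩
    exact ⟨fun u v hu hv => h1 u v (InW_swap.2 hu) (InW_swap.2 hv), h3, h2,
      fun v hv => h5 v (InW_swap.2 hv), fun v hv => h4 v (InW_swap.2 hv)⟩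
  · rintro ⟨h1, h2, h3, h4, h5⟩
    exact ⟨fun u v hu hv => h1 u v (InW_swap.1 hu) (InW_swap.1 hv), h3, h2,
      fun v hv => h5 v (InW_swap.1 hv), fun v hv => h4 v (InW_swap.1 hv)⟩

theorem rowRel_le_bJ {a b c e : Fin n} (h : Dis4 a b c e) {G H : Om d}
    (hr : (rowRel a b).r G H) : (bJ a b c e).r G H := by
  obtain ⟨h1, h2⟩ := hr
  refine ⟨fun u v hu hv => h1 u v hu.1 hu.2.1 hv.1 hv.2.1, rowRel_ent_ab h.ab ⟨h1, h2⟩,
    h1 c e h.ac.symm h.bc.symm h.ae.symm h.be.symm, fun v hv => h2 v hv.1 hv.2.1, fun v hv => ?_⟩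
  rw [h1 c v h.ac.symm h.bc.symm hv.1 hv.2.1, h1 e v h.ae.symm h.be.symm hv.1 hv.2.1]

/-- Neighbours of `p` among `W`. -/
noncomputable def rowSet (p : Fin n) (W : Finset (Fin n)) (G : Om d) : Finset (Fin n) :=
  W.filter (fun v => ent G.1 p v = 1)

theorem card_rowSet (p : Fin n) (W : Finset (Fin n)) (G : Om d) :
    (rowSet p W G).card = ∑ u ∈ W, ent G.1 p u := by
  unfold rowSet
  rw [card_filter]
  refine sum_congr rfl (fun u _ => ?_)
  rcases ent_zero_or_one G.1 p u with h | h <;> simp [h]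

theorem ent_eq_of_rowSet {p : Fin n} {W : Finset (Fin n)} {G H : Om d}
    (h : rowSet p W G = rowSet p W H) {v : Fin n} (hv : v ∈ W) : ent G.1 p v = ent H.1 p v := by
  have h1 : v ∈ rowSet p W G ↔ v ∈ rowSet p W H := by rw [h]
  simp only [rowSet, mem_filter, hv, true_and] at h1
  rcases ent_zero_or_one G.1 p v with h2 | h2 <;> rcases ent_zero_or_one H.1 p v with h3 | h3
  · rw [h2, h3]
  · rw [h3] at h1; simp [h2] at h1
  · rw [h2] at h1; simp [h3] at h1
  · rw [h2, h3]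

theorem rowSet_eq_of_ent {p : Fin n} {W : Finset (Fin n)} {G H : Om d}
    (h : ∀ v ∈ W, ent G.1 p v = ent H.1 p v) : rowSet p W G = rowSet p W H := by
  unfold rowSet
  ext v
  simp only [mem_filter]
  constructor
  · rintro ⟨a, b⟩
    exact ⟨a, by rw [← h v a]; exact b⟩
  · rintro ⟨a, b⟩
    exact ⟨a, by rw [h v a]; exact b⟩

/-- The four row identities. -/
theorem row_a {a b c e : Fin n} (h : Dis4 a b c e) (G : Om d) :
    ent G.1 a b + ent G.1 a c + ent G.1 a e + ∑ u ∈ W4 a b c e, ent G.1 a u = d a := by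
  have := sum_split4 h (ent G.1 a)
  rw [row_sum' G a] at this
  simp only [ent_self] at this
  omega

theorem row_b {a b c e : Fin n} (h : Dis4 a b c e) (G : Om d) :
    ent G.1 a b + ent G.1 b c + ent G.1 b e + ∑ u ∈ W4 a b c e, ent G.1 b u = d b := by
  have := sum_split4 h (ent G.1 b)
  rw [row_sum' G b, ent_symm G.1 b a] at this
  simp only [ent_self] at this
  omega

theorem row_c {a b c e : Fin n} (h : Dis4 a b c e) (G : Om d) :
    ent G.1 a c + ent G.1 b c + ent G.1 c e + ∑ u ∈ W4 a b c e, ent G.1 c u = d c := by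
  have := sum_split4 h (ent G.1 c)
  rw [row_sum' G c, ent_symm G.1 c a, ent_symm G.1 c b] at this
  simp only [ent_self] at this
  omega

theorem row_e {a b c e : Fin n} (h : Dis4 a b c e) (G : Om d) :
    ent G.1 a e + ent G.1 b e + ent G.1 c e + ∑ u ∈ W4 a b c e, ent G.1 e u = d e := by
  have := sum_split4 h (ent G.1 e)
  rw [row_sum' G e, ent_symm G.1 e a, ent_symm G.1 e b, ent_symm G.1 e c] at this
  simp only [ent_self] at this
  omega

/-- Total of the `2 × 2` block. -/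
noncomputable def sig (a b c e : Fin n) (G : Om d) : ℕ :=
  ent G.1 a c + ent G.1 a e + ent G.1 b c + ent G.1 b e

theorem sig_of_bJ {a b c e : Fin n} (h : Dis4 a b c e) {G H : Om d}
    (hJ : (bJ a b c e).r G H) : sig a b c e G = sig a b c e H := by
  obtain ⟨h1, h2, h3, h4, h5⟩ := hJ
  have e1 := row_a h G
  have e2 := row_b h G
  have e3 := row_a h H
  have e4 := row_b h H
  have e5 : ∑ u ∈ W4 a b c e, ent G.1 a u + ∑ u ∈ W4 a b c e, ent G.1 b u =
      ∑ u ∈ W4 a b c e, ent H.1 a u + ∑ u ∈ W4 a b c e, ent H.1 b u := by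
    rw [← sum_add_distrib, ← sum_add_distrib]
    exact sum_congr rfl (fun v hv => h4 v (mem_W4.1 hv))
  unfold sig
  omega

/-- Same `a`-row on `W` forces the same row total on the block. -/
theorem tau_of_rowSet {a b c e : Fin n} (h : Dis4 a b c e) {G H : Om d}
    (hJ : (bJ a b c e).r G H) (hA : rowSet a (W4 a b c e) G = rowSet a (W4 a b c e) H) :
    ent G.1 a c + ent G.1 a e = ent H.1 a c + ent H.1 a e := by
  obtain ⟨h1, h2, h3, h4, h5⟩ := hJ
  have e1 := row_a h G
  have e3 := row_a h H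
  have e5 : ∑ u ∈ W4 a b c e, ent G.1 a u = ∑ u ∈ W4 a b c e, ent H.1 a u := by
    rw [← card_rowSet, ← card_rowSet, hA]
  omega

/-- Same `c`-row on `W` forces the same column total on the block. -/
theorem sig_of_rowSet {a b c e : Fin n} (h : Dis4 a b c e) {G H : Om d}
    (hJ : (bJ a b c e).r G H) (hC : rowSet c (W4 a b c e) G = rowSet c (W4 a b c e) H) :
    ent G.1 a c + ent G.1 b c = ent H.1 a c + ent H.1 b c := by
  obtain ⟨h1, h2, h3, h4, h5⟩ := hJ
  have e1 := row_c h G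
  have e3 := row_c h H
  have e5 : ∑ u ∈ W4 a b c e, ent G.1 c u = ∑ u ∈ W4 a b c e, ent H.1 c u := by
    rw [← card_rowSet, ← card_rowSet, hC]
  omega

/-- On a join class, `(a,b)`-relatedness is the equality of the `c`-row. -/
theorem rel_of_bJ {a b c e : Fin n} (h : Dis4 a b c e) {G H : Om d}
    (hJ : (bJ a b c e).r G H) (hC : rowSet c (W4 a b c e) G = rowSet c (W4 a b c e) H) :
    (rowRel a b).r G H := by
  have hsig := sig_of_rowSet h hJ hC
  have hsig2 := sig_of_bJ h hJ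
  obtain ⟨h1, h2, h3, h4, h5⟩ := hJ
  have kc : ∀ v, InW a b c e v → ent G.1 c v = ent H.1 c v := fun v hv =>
    ent_eq_of_rowSet hC (mem_W4.2 hv)
  have ke : ∀ v, InW a b c e v → ent G.1 e v = ent H.1 e v := fun v hv => by
    have := h5 v hv
    have := kc v hv
    omega
  have hsym : ∀ (G : Om d) (u v : Fin n), ent G.1 u v = ent G.1 v u := fun G u v => ent_symm _ _ _
  refine ⟨?_, ?_⟩
  · intro u v hua hub hva hvb
    rcases vcases (a := a) (b := b) (c := c) (e := e) u with rfl | rfl | rfl | rfl | hu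
    · exact absurd rfl hua
    · exact absurd rfl hub
    · rcases vcases (a := a) (b := b) (c := c) (e := e) v with rfl | rfl | rfl | rfl | hv
      · exact absurd rfl hva
      · exact absurd rfl hvb
      · simp
      · exact h3
      · exact kc v hv
    · rcases vcases (a := a) (b := b) (c := c) (e := e) v with rfl | rfl | rfl | rfl | hv
      · exact absurd rfl hva
      · exact absurd rfl hvb
      · rw [hsym G, hsym H]; exact h3
      · simp
      · exact ke v hv
    · rcases vcases (a := a) (b := b) (c := c) (e := e) v with rfl | rfl | rfl | rfl | hv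
      · exact absurd rfl hva
      · exact absurd rfl hvb
      · rw [hsym G, hsym H]; exact kc u hu
      · rw [hsym G, hsym H]; exact ke u hu
      · exact h1 u v hu hv
  · intro v hva hvb
    rcases vcases (a := a) (b := b) (c := c) (e := e) v with rfl | rfl | rfl | rfl | hv
    · exact absurd rfl hva
    · exact absurd rfl hvb
    · exact hsig
    · unfold sig at hsig2
      omega
    · exact h4 v hv

theorem rowSet_of_rel {a b c e : Fin n} (h : Dis4 a b c e) {G H : Om d}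
    (hr : (rowRel a b).r G H) : rowSet c (W4 a b c e) G = rowSet c (W4 a b c e) H := by
  apply rowSet_eq_of_ent
  intro v hv
  have hv' := mem_W4.1 hv
  exact hr.1 c v h.ac.symm h.bc.symm hv'.1 hv'.2.1

/-- Equality from the coordinates. -/
theorem eq_of_coords {a b c e : Fin n} (h : Dis4 a b c e) {G H : Om d}
    (hJ : (bJ a b c e).r G H)
    (hA : rowSet a (W4 a b c e) G = rowSet a (W4 a b c e) H)
    (hC : rowSet c (W4 a b c e) G = rowSet c (W4 a b c e) H)
    (t1 : ent G.1 a c = ent H.1 a c) (t2 : ent G.1 a e = ent H.1 a e)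
    (t3 : ent G.1 b c = ent H.1 b c) (t4 : ent G.1 b e = ent H.1 b e) : G = H := by
  obtain ⟨h1, h2, h3, h4, h5⟩ := hJ
  have ka : ∀ v, InW a b c e v → ent G.1 a v = ent H.1 a v := fun v hv =>
    ent_eq_of_rowSet hA (mem_W4.2 hv)
  have kb : ∀ v, InW a b c e v → ent G.1 b v = ent H.1 b v := fun v hv => by
    have := h4 v hv
    have := ka v hv
    omega
  have kc : ∀ v, InW a b c e v → ent G.1 c v = ent H.1 c v := fun v hv =>
    ent_eq_of_rowSet hC (mem_W4.2 hv)
  have ke : ∀ v, InW a b c e v → ent G.1 e v = ent H.1 e v := fun v hv => by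
    have := h5 v hv
    have := kc v hv
    omega
  have hsym : ∀ (G : Om d) (u v : Fin n), ent G.1 u v = ent G.1 v u := fun G u v => ent_symm _ _ _
  apply Om_ext'
  intro u v
  rcases vcases (a := a) (b := b) (c := c) (e := e) u with rfl | rfl | rfl | rfl | hu <;>
    rcases vcases (a := a) (b := b) (c := c) (e := e) v with rfl | rfl | rfl | rfl | hv
  all_goals first
    | simp; done
    | assumption
    | (rw [hsym G, hsym H]; assumption)
    | exact ka _ hv
    | exact kb _ hv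
    | exact kc _ hv
    | exact ke _ hv
    | (rw [hsym G, hsym H]; exact ka _ hu)
    | (rw [hsym G, hsym H]; exact kb _ hu)
    | (rw [hsym G, hsym H]; exact kc _ hu)
    | (rw [hsym G, hsym H]; exact ke _ hu)
    | exact h1 _ _ hu hv

/-- All entries outside the `2 × 2` block agree. -/
theorem same_outside {a b c e : Fin n} (h : Dis4 a b c e) {G H : Om d}
    (hJ : (bJ a b c e).r G H)
    (hA : rowSet a (W4 a b c e) G = rowSet a (W4 a b c e) H)
    (hC : rowSet c (W4 a b c e) G = rowSet c (W4 a b c e) H)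
    (u v : Fin n)
    (huv : ¬ ((u = a ∧ v = c) ∨ (u = c ∧ v = a) ∨ (u = b ∧ v = e) ∨ (u = e ∧ v = b) ∨
            (u = a ∧ v = e) ∨ (u = e ∧ v = a) ∨ (u = b ∧ v = c) ∨ (u = c ∧ v = b))) :
    ent G.1 u v = ent H.1 u v := by
  obtain ⟨h1, h2, h3, h4, h5⟩ := hJ
  have ka : ∀ v, InW a b c e v → ent G.1 a v = ent H.1 a v := fun v hv =>
    ent_eq_of_rowSet hA (mem_W4.2 hv)
  have kb : ∀ v, InW a b c e v → ent G.1 b v = ent H.1 b v := fun v hv => by
    have := h4 v hv
    have := ka v hv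
    omega
  have kc : ∀ v, InW a b c e v → ent G.1 c v = ent H.1 c v := fun v hv =>
    ent_eq_of_rowSet hC (mem_W4.2 hv)
  have ke : ∀ v, InW a b c e v → ent G.1 e v = ent H.1 e v := fun v hv => by
    have := h5 v hv
    have := kc v hv
    omega
  have hsym : ∀ (G : Om d) (u v : Fin n), ent G.1 u v = ent G.1 v u := fun G u v => ent_symm _ _ _
  rcases vcases (a := a) (b := b) (c := c) (e := e) u with rfl | rfl | rfl | rfl | hu <;>
    rcases vcases (a := a) (b := b) (c := c) (e := e) v with rfl | rfl | rfl | rfl | hv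
  all_goals first
    | simp; done
    | (exfalso; apply huv; simp; done)
    | assumption
    | (rw [hsym G, hsym H]; assumption)
    | exact ka _ hv
    | exact kb _ hv
    | exact kc _ hv
    | exact ke _ hv
    | (rw [hsym G, hsym H]; exact ka _ hu)
    | (rw [hsym G, hsym H]; exact kb _ hu)
    | (rw [hsym G, hsym H]; exact kc _ hu)
    | (rw [hsym G, hsym H]; exact ke _ hu)
    | exact h1 _ _ hu hv

/-- Entries of the mixed graph. -/
noncomputable def mixEnt (G0 G1 G2 : Finset (Edge n)) (a b c e : Fin n) (t1 t2 t3 t4 : ℕ)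
    (u v : Fin n) : ℕ :=
  if u = a then
    (if v = a then 0 else if v = b then ent G0 a b else if v = c then t1 else if v = e then t2
      else ent G1 a v)
  else if u = b then
    (if v = a then ent G0 a b else if v = b then 0 else if v = c then t3 else if v = e then t4
      else ent G1 b v)
  else if u = c then
    (if v = a then t1 else if v = b then t3 else if v = c then 0 else if v = e then ent G0 c e
      else ent G2 c v)
  else if u = e then
    (if v = a then t2 else if v = b then t4 else if v = c then ent G0 c e else if v = e then 0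
      else ent G2 e v)
  else
    (if v = a then ent G1 a u else if v = b then ent G1 b u else if v = c then ent G2 c u
      else if v = e then ent G2 e u else ent G0 u v)

section Mix
variable {G0 G1 G2 : Finset (Edge n)} {a b c e : Fin n} {t1 t2 t3 t4 : ℕ}

theorem mixEnt_symm (h : Dis4 a b c e) (u v : Fin n) :
    mixEnt G0 G1 G2 a b c e t1 t2 t3 t4 u v = mixEnt G0 G1 G2 a b c e t1 t2 t3 t4 v u := by
  have h1 := h.ab
  have h2 := h.ac
  have h3 := h.ae
  have h4 := h.bc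
  have h5 := h.be
  have h6 := h.ce
  rcases vcases (a := a) (b := b) (c := c) (e := e) u with rfl | rfl | rfl | rfl | hu <;>
    rcases vcases (a := a) (b := b) (c := c) (e := e) v with rfl | rfl | rfl | rfl | hv
  all_goals
    first
    | (simp [mixEnt, h1, h2, h3, h4, h5, h6, h1.symm, h2.symm, h3.symm, h4.symm, h5.symm, h6.symm]; done)
    | (obtain ⟨hu1, hu2, hu3, hu4⟩ := hu
       simp [mixEnt, h1, h2, h3, h4, h5, h6, h1.symm, h2.symm, h3.symm, h4.symm, h5.symm, h6.symm,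
        hu1, hu2, hu3, hu4, hu1.symm, hu2.symm, hu3.symm, hu4.symm]; done)
    | (obtain ⟨hv1, hv2, hv3, hv4⟩ := hv
       simp [mixEnt, h1, h2, h3, h4, h5, h6, h1.symm, h2.symm, h3.symm, h4.symm, h5.symm, h6.symm,
        hv1, hv2, hv3, hv4, hv1.symm, hv2.symm, hv3.symm, hv4.symm]; done)
    | (obtain ⟨hu1, hu2, hu3, hu4⟩ := hu
       obtain ⟨hv1, hv2, hv3, hv4⟩ := hv
       simp [mixEnt, hu1, hu2, hu3, hu4, hv1, hv2, hv3, hv4]
       exact ent_symm _ _ _)

theorem mixEnt_self (h : Dis4 a b c e) (u : Fin n) :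
    mixEnt G0 G1 G2 a b c e t1 t2 t3 t4 u u = 0 := by
  unfold mixEnt
  split_ifs <;> simp_all

theorem mixEnt_aW (h : Dis4 a b c e) {v : Fin n} (hv : InW a b c e v) :
    mixEnt G0 G1 G2 a b c e t1 t2 t3 t4 a v = ent G1 a v := by
  obtain ⟨v1, v2, v3, v4⟩ := hv
  simp [mixEnt, v1, v2, v3, v4]

theorem mixEnt_bW (h : Dis4 a b c e) {v : Fin n} (hv : InW a b c e v) :
    mixEnt G0 G1 G2 a b c e t1 t2 t3 t4 b v = ent G1 b v := by
  obtain ⟨v1, v2, v3, v4⟩ := hv
  simp [mixEnt, v1, v2, v3, v4, h.ab.symm]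

theorem mixEnt_cW (h : Dis4 a b c e) {v : Fin n} (hv : InW a b c e v) :
    mixEnt G0 G1 G2 a b c e t1 t2 t3 t4 c v = ent G2 c v := by
  obtain ⟨v1, v2, v3, v4⟩ := hv
  simp [mixEnt, v1, v2, v3, v4, h.ac.symm, h.bc.symm]

theorem mixEnt_eW (h : Dis4 a b c e) {v : Fin n} (hv : InW a b c e v) :
    mixEnt G0 G1 G2 a b c e t1 t2 t3 t4 e v = ent G2 e v := by
  obtain ⟨v1, v2, v3, v4⟩ := hv
  simp [mixEnt, v1, v2, v3, v4, h.ae.symm, h.be.symm, h.ce.symm]

theorem mixEnt_WW {u v : Fin n} (hu : InW a b c e u) (hv : InW a b c e v) :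
    mixEnt G0 G1 G2 a b c e t1 t2 t3 t4 u v = ent G0 u v := by
  obtain ⟨v1, v2, v3, v4⟩ := hv
  obtain ⟨u1, u2, u3, u4⟩ := hu
  simp [mixEnt, v1, v2, v3, v4, u1, u2, u3, u4]

theorem mixEnt_Wa (h : Dis4 a b c e) {v : Fin n} (hv : InW a b c e v) :
    mixEnt G0 G1 G2 a b c e t1 t2 t3 t4 v a = ent G1 a v := by
  rw [mixEnt_symm h, mixEnt_aW h hv]

theorem mixEnt_Wb (h : Dis4 a b c e) {v : Fin n} (hv : InW a b c e v) :
    mixEnt G0 G1 G2 a b c e t1 t2 t3 t4 v b = ent G1 b v := by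
  rw [mixEnt_symm h, mixEnt_bW h hv]

theorem mixEnt_Wc (h : Dis4 a b c e) {v : Fin n} (hv : InW a b c e v) :
    mixEnt G0 G1 G2 a b c e t1 t2 t3 t4 v c = ent G2 c v := by
  rw [mixEnt_symm h, mixEnt_cW h hv]

theorem mixEnt_We (h : Dis4 a b c e) {v : Fin n} (hv : InW a b c e v) :
    mixEnt G0 G1 G2 a b c e t1 t2 t3 t4 v e = ent G2 e v := by
  rw [mixEnt_symm h, mixEnt_eW h hv]

theorem mixEnt_ab (h : Dis4 a b c e) :
    mixEnt G0 G1 G2 a b c e t1 t2 t3 t4 a b = ent G0 a b := by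
  simp [mixEnt, h.ab.symm]

theorem mixEnt_ce (h : Dis4 a b c e) :
    mixEnt G0 G1 G2 a b c e t1 t2 t3 t4 c e = ent G0 c e := by
  simp [mixEnt, h.ac.symm, h.bc.symm, h.ae.symm, h.be.symm, h.ce.symm]

theorem mixEnt_ac (h : Dis4 a b c e) : mixEnt G0 G1 G2 a b c e t1 t2 t3 t4 a c = t1 := by
  simp [mixEnt, h.ac.symm, h.bc.symm]

theorem mixEnt_ae (h : Dis4 a b c e) : mixEnt G0 G1 G2 a b c e t1 t2 t3 t4 a e = t2 := by
  simp [mixEnt, h.ae.symm, h.be.symm, h.ce.symm]

theorem mixEnt_bc (h : Dis4 a b c e) : mixEnt G0 G1 G2 a b c e t1 t2 t3 t4 b c = t3 := by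
  simp [mixEnt, h.ab.symm, h.ac.symm, h.bc.symm]

theorem mixEnt_be (h : Dis4 a b c e) : mixEnt G0 G1 G2 a b c e t1 t2 t3 t4 b e = t4 := by
  simp [mixEnt, h.ab.symm, h.ae.symm, h.be.symm, h.ce.symm]

end Mix

/-- **Mixing lemma**: rows `a,b` of `G1`, rows `c,e` of `G2`, prescribed `2 × 2` block. -/
theorem exists_mix {a b c e : Fin n} (h : Dis4 a b c e) {G0 G1 G2 : Om d}
    (h1 : (bJ a b c e).r G1 G0) (h2 : (bJ a b c e).r G2 G0) (t1 t2 t3 t4 : ℕ)
    (ht1 : t1 ≤ 1) (ht2 : t2 ≤ 1) (ht3 : t3 ≤ 1) (ht4 : t4 ≤ 1)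
    (s1 : t1 + t2 = ent G1.1 a c + ent G1.1 a e)
    (s2 : t3 + t4 = ent G1.1 b c + ent G1.1 b e)
    (s3 : t1 + t3 = ent G2.1 a c + ent G2.1 b c)
    (s4 : t2 + t4 = ent G2.1 a e + ent G2.1 b e) :
    ∃ G : Om d, (bJ a b c e).r G G0 ∧ ent G.1 a c = t1 ∧ ent G.1 a e = t2 ∧ ent G.1 b c = t3 ∧
      ent G.1 b e = t4 ∧ rowSet a (W4 a b c e) G = rowSet a (W4 a b c e) G1 ∧
      rowSet c (W4 a b c e) G = rowSet c (W4 a b c e) G2 := by
  set m := mixEnt G0.1 G1.1 G2.1 a b c e t1 t2 t3 t4 with hm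
  have J1 := h1
  have J2 := h2
  obtain ⟨a1, a2, a3, a4, a5⟩ := h1
  obtain ⟨b1, b2, b3, b4, b5⟩ := h2
  have hsymm : ∀ u v, m u v = m v u := mixEnt_symm h
  have hdiag : ∀ u, m u u = 0 := mixEnt_self h
  have h01 : ∀ u v, m u v ≤ 1 := by
    intro u v
    simp only [hm, mixEnt]
    split_ifs <;> first | omega | exact ent_le_one _ _ _
  have hsumW : ∀ (p : Fin n) (φ : Fin n → ℕ), (∀ v, InW a b c e v → m p v = φ v) →
      ∑ u ∈ W4 a b c e, m p u = ∑ u ∈ W4 a b c e, φ u := by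
    intro p φ hφ
    exact sum_congr rfl (fun v hv => hφ v (mem_W4.1 hv))
  have hdeg : ∀ v, ∑ u, m v u = d v := by
    intro v
    rw [sum_split4 h (m v)]
    rcases vcases (a := a) (b := b) (c := c) (e := e) v with rfl | rfl | rfl | rfl | hv
    · rw [hsumW a (ent G1.1 a) (fun v hv => mixEnt_aW h hv), hdiag, hm, mixEnt_ab h, mixEnt_ac h,
        mixEnt_ae h]
      have := row_a h G1
      omega
    · rw [hsumW b (ent G1.1 b) (fun v hv => mixEnt_bW h hv), hdiag, hsymm b a, hm, mixEnt_ab h,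
        mixEnt_bc h, mixEnt_be h]
      have := row_b h G1
      omega
    · rw [hsumW c (ent G2.1 c) (fun v hv => mixEnt_cW h hv), hdiag, hsymm c a, hsymm c b, hm,
        mixEnt_ac h, mixEnt_bc h, mixEnt_ce h]
      have := row_c h G2
      omega
    · rw [hsumW e (ent G2.1 e) (fun v hv => mixEnt_eW h hv), hdiag, hsymm e a, hsymm e b, hsymm e c,
        hm, mixEnt_ae h, mixEnt_be h, mixEnt_ce h]
      have := row_e h G2
      omega
    · rw [hsumW v (ent G0.1 v) (fun u hu => mixEnt_WW hv hu), hm, mixEnt_Wa h hv, mixEnt_Wb h hv,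
        mixEnt_Wc h hv, mixEnt_We h hv]
      have e1 := sum_split4 h (ent G0.1 v)
      rw [row_sum' G0 v] at e1
      have e2 := a4 v hv
      have e3 := b5 v hv
      rw [ent_symm G0.1 v a, ent_symm G0.1 v b, ent_symm G0.1 v c, ent_symm G0.1 v e] at e1
      omega
  set G : Om d := mkOm' m hsymm hdiag h01 hdeg with hG
  have hent : ∀ u v, ent G.1 u v = m u v := ent_mkOm' m hsymm hdiag h01 hdeg
  refine ⟨G, ⟨?_, ?_, ?_, ?_, ?_⟩, ?_, ?_, ?_, ?_, ?_, ?_⟩
  · intro u v hu hv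
    rw [hent, hm, mixEnt_WW hu hv]
  · rw [hent, hm, mixEnt_ab h]
  · rw [hent, hm, mixEnt_ce h]
  · intro v hv
    rw [hent, hent, hm, mixEnt_aW h hv, mixEnt_bW h hv]
    exact a4 v hv
  · intro v hv
    rw [hent, hent, hm, mixEnt_cW h hv, mixEnt_eW h hv]
    exact b5 v hv
  · rw [hent, hm, mixEnt_ac h]
  · rw [hent, hm, mixEnt_ae h]
  · rw [hent, hm, mixEnt_bc h]
  · rw [hent, hm, mixEnt_be h]
  · apply rowSet_eq_of_ent
    intro v hv
    rw [hent, hm, mixEnt_aW h (mem_W4.1 hv)]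
  · apply rowSet_eq_of_ent
    intro v hv
    rw [hent, hm, mixEnt_cW h (mem_W4.1 hv)]

end Crest.Agent.SW
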