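/-
S0453 package E (lead): the block inequality as pure algebra on finite sums.
-/
import Mathlib

set_option autoImplicit false

namespace Crest.Agent.SW.BlockSOS

open Finset

section Generic

variable {ι κ : Type*}

/-- Sum of deviations from the row mean vanishes. -/
lemma sum_sub_rowMean (Y : Finset κ) (f : κ → ℝ) (b : ℝ) (hb : b = (∑ y ∈ Y, f y) / (Y.card : ℝ)) :
    ∑ y ∈ Y, (f y - b) = 0 := by
  rw [Finset.sum_sub_distrib, Finset.sum_const, nsmul_eq_mul]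
  rcases Y.eq_empty_or_nonempty with rfl | hY
  · simp
  · have : (0 : ℝ) < (Y.card : ℝ) := by exact_mod_cast Finset.card_pos.2 hY
    rw [hb]
    field_simp
    ring

/-- ANOVA identity: cross term with an arbitrary right function. -/
lemma anova_eq (X : Finset ι) (Y : Finset κ) (F : ι → κ → ℝ) (u : κ → ℝ) (Fb : ι → ℝ)
    (hFb : ∀ x ∈ X, Fb x = (∑ y ∈ Y, F x y) / (Y.card : ℝ)) :
    ∑ x ∈ X, ∑ y ∈ Y, (F x y - u y) * (F x y - Fb x) =
      ∑ x ∈ X, ∑ y ∈ Y, (F x y - Fb x) ^ 2 - ∑ y ∈ Y, u y * ∑ x ∈ X, (F x y - Fb x) := by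
  have h1 : ∀ x ∈ X, ∑ y ∈ Y, (F x y - u y) * (F x y - Fb x) =
      ∑ y ∈ Y, (F x y - Fb x) ^ 2 - ∑ y ∈ Y, u y * (F x y - Fb x) := by
    intro x hx
    have h0 := sum_sub_rowMean Y (F x) (Fb x) (hFb x hx)
    have : ∑ y ∈ Y, (F x y - u y) * (F x y - Fb x) =
        ∑ y ∈ Y, ((F x y - Fb x) ^ 2 - u y * (F x y - Fb x) + Fb x * (F x y - Fb x)) := by
      refine Finset.sum_congr rfl fun y _ => ?_
      ring
    rw [this, Finset.sum_add_distrib, Finset.sum_sub_distrib, ← Finset.mul_sum, h0]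
    ring
  rw [Finset.sum_congr rfl h1, Finset.sum_sub_distrib]
  congr 1
  rw [Finset.sum_comm]
  refine Finset.sum_congr rfl fun y _ => ?_
  rw [Finset.mul_sum]

/-- Column Cauchy--Schwarz. -/
lemma anova_ge (X : Finset ι) (Y : Finset κ) (E : ι → κ → ℝ) :
    ∑ y ∈ Y, (∑ x ∈ X, E x y) ^ 2 / (X.card : ℝ) ≤ ∑ x ∈ X, ∑ y ∈ Y, E x y ^ 2 := by
  rw [Finset.sum_comm (s := X) (t := Y)]
  refine Finset.sum_le_sum fun y _ => ?_
  rcases X.eq_empty_or_nonempty with rfl | hX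
  · simp
  · have hc : (0 : ℝ) < (X.card : ℝ) := by exact_mod_cast Finset.card_pos.2 hX
    rw [div_le_iff₀ hc, mul_comm]
    exact sq_sum_le_card_mul_sum_sq

/-- Titu's lemma for two terms, with the `x/0 = 0` convention. -/
lemma titu (g1 g2 a b : ℝ) (ha : 0 ≤ a) (hb : 0 ≤ b) (h1 : a = 0 → g1 = 0) (h2 : b = 0 → g2 = 0) :
    (g1 + g2) ^ 2 / (a + b) ≤ g1 ^ 2 / a + g2 ^ 2 / b := by
  rcases ha.eq_or_lt with ha0 | ha0
  · have := h1 ha0.symm
    subst this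
    rw [← ha0]
    simp
  rcases hb.eq_or_lt with hb0 | hb0
  · have := h2 hb0.symm
    subst this
    rw [← hb0]
    simp
  have hab : 0 < a + b := by linarith
  rw [div_add_div _ _ ha0.ne' hb0.ne', div_le_div_iff₀ hab (mul_pos ha0 hb0)]
  nlinarith [sq_nonneg (g1 * b - g2 * a), mul_pos ha0 hb0]

/-- The two-block reduction. -/
lemma twoBlock (X1 X2 : Finset ι) (Y : Finset κ) (F1 F2 : ι → κ → ℝ) (u : κ → ℝ)
    (Fb1 Fb2 : ι → ℝ)
    (h1 : ∀ x ∈ X1, Fb1 x = (∑ y ∈ Y, F1 x y) / (Y.card : ℝ))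
    (h2 : ∀ x ∈ X2, Fb2 x = (∑ y ∈ Y, F2 x y) / (Y.card : ℝ)) :
    ∃ (G : κ → ℝ) (abar : ℝ),
      (∀ y, G y = ∑ x ∈ X1, F1 x y + ∑ x ∈ X2, F2 x y - abar) ∧
      (∑ y ∈ Y, G y = 0) ∧
      (((X1.card : ℝ) + X2.card = 0) → ∀ y, G y = 0) ∧
      ∑ y ∈ Y, (G y ^ 2 / ((X1.card : ℝ) + X2.card) - u y * G y) ≤
        ∑ x ∈ X1, ∑ y ∈ Y, (F1 x y - u y) * (F1 x y - Fb1 x) +
        ∑ x ∈ X2, ∑ y ∈ Y, (F2 x y - u y) * (F2 x y - Fb2 x) := by
  set G1 : κ → ℝ := fun y => ∑ x ∈ X1, (F1 x y - Fb1 x) with hG1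
  set G2 : κ → ℝ := fun y => ∑ x ∈ X2, (F2 x y - Fb2 x) with hG2
  have hc1 : ∀ x ∈ X1, ∑ y ∈ Y, (F1 x y - Fb1 x) = 0 := fun x hx =>
    sum_sub_rowMean Y (F1 x) (Fb1 x) (h1 x hx)
  have hc2 : ∀ x ∈ X2, ∑ y ∈ Y, (F2 x y - Fb2 x) = 0 := fun x hx =>
    sum_sub_rowMean Y (F2 x) (Fb2 x) (h2 x hx)
  refine ⟨fun y => G1 y + G2 y, ∑ x ∈ X1, Fb1 x + ∑ x ∈ X2, Fb2 x, ?_, ?_, ?_, ?_⟩
  · intro y
    simp only [hG1, hG2, Finset.sum_sub_distrib]
    ring
  · rw [Finset.sum_add_distrib]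
    have e1 : ∑ y ∈ Y, G1 y = 0 := by
      simp only [hG1]
      rw [Finset.sum_comm]
      exact Finset.sum_eq_zero hc1
    have e2 : ∑ y ∈ Y, G2 y = 0 := by
      simp only [hG2]
      rw [Finset.sum_comm]
      exact Finset.sum_eq_zero hc2
    rw [e1, e2, add_zero]
  · intro h y
    have ha : (0 : ℝ) ≤ (X1.card : ℝ) := Nat.cast_nonneg _
    have hb : (0 : ℝ) ≤ (X2.card : ℝ) := Nat.cast_nonneg _
    have h10 : (X1.card : ℝ) = 0 := by linarith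
    have h20 : (X2.card : ℝ) = 0 := by linarith
    have e1 : X1 = ∅ := by
      apply Finset.card_eq_zero.1
      exact_mod_cast h10
    have e2 : X2 = ∅ := by
      apply Finset.card_eq_zero.1
      exact_mod_cast h20
    simp [hG1, hG2, e1, e2]
  · rw [anova_eq X1 Y F1 u Fb1 h1, anova_eq X2 Y F2 u Fb2 h2]
    have a1 := anova_ge X1 Y (fun x y => F1 x y - Fb1 x)
    have a2 := anova_ge X2 Y (fun x y => F2 x y - Fb2 x)
    have ht : ∀ y ∈ Y, (G1 y + G2 y) ^ 2 / ((X1.card : ℝ) + X2.card) ≤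
        G1 y ^ 2 / (X1.card : ℝ) + G2 y ^ 2 / (X2.card : ℝ) := by
      intro y _
      apply titu _ _ _ _ (Nat.cast_nonneg _) (Nat.cast_nonneg _)
      · intro h
        have e1 : X1 = ∅ := by
          apply Finset.card_eq_zero.1
          exact_mod_cast h
        simp [hG1, e1]
      · intro h
        have e1 : X2 = ∅ := by
          apply Finset.card_eq_zero.1
          exact_mod_cast h
        simp [hG2, e1]
    have hsum := Finset.sum_le_sum ht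
    rw [Finset.sum_add_distrib] at hsum
    rw [Finset.sum_sub_distrib]
    have hu : ∑ y ∈ Y, u y * (G1 y + G2 y) = ∑ y ∈ Y, u y * G1 y + ∑ y ∈ Y, u y * G2 y := by
      rw [← Finset.sum_add_distrib]
      exact Finset.sum_congr rfl fun y _ => by ring
    rw [hu]
    simp only [hG1, hG2] at hsum ⊢
    linarith

/-- The marginal lower bound for the sum of squares. -/
lemma twoWay (X : Finset ι) (Y : Finset κ) (F : ι → κ → ℝ) :
    ∑ x ∈ X, (∑ y ∈ Y, F x y) ^ 2 / (Y.card : ℝ) + ∑ y ∈ Y, (∑ x ∈ X, F x y) ^ 2 / (X.card : ℝ)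
      - (∑ x ∈ X, ∑ y ∈ Y, F x y) ^ 2 / ((X.card : ℝ) * Y.card) ≤
      ∑ x ∈ X, ∑ y ∈ Y, F x y ^ 2 := by
  rcases X.eq_empty_or_nonempty with rfl | hX
  · simp
  rcases Y.eq_empty_or_nonempty with rfl | hY
  · simp
  have hn : (0 : ℝ) < (X.card : ℝ) := by exact_mod_cast Finset.card_pos.2 hX
  have hl : (0 : ℝ) < (Y.card : ℝ) := by exact_mod_cast Finset.card_pos.2 hY
  set R : ι → ℝ := fun x => ∑ y ∈ Y, F x y with hR
  set K : κ → ℝ := fun y => ∑ x ∈ X, F x y with hK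
  set W : ℝ := ∑ x ∈ X, ∑ y ∈ Y, F x y with hW
  have hWK : ∑ y ∈ Y, K y = W := by
    simp only [hK, hW]
    rw [Finset.sum_comm]
  have hWR : ∑ x ∈ X, R x = W := rfl
  -- Pythagoras along the rows
  have hp : ∀ x ∈ X, ∑ y ∈ Y, F x y ^ 2 =
      ∑ y ∈ Y, (F x y - R x / (Y.card : ℝ)) ^ 2 + R x ^ 2 / (Y.card : ℝ) := by
    intro x _
    have h0 := sum_sub_rowMean Y (F x) (R x / (Y.card : ℝ)) rfl
    have : ∑ y ∈ Y, F x y ^ 2 = ∑ y ∈ Y, ((F x y - R x / (Y.card : ℝ)) ^ 2 +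
        (2 * (R x / (Y.card : ℝ))) * (F x y - R x / (Y.card : ℝ)) + (R x / (Y.card : ℝ)) ^ 2) := by
      refine Finset.sum_congr rfl fun y _ => ?_
      ring
    rw [this, Finset.sum_add_distrib, Finset.sum_add_distrib, ← Finset.mul_sum, h0,
      Finset.sum_const, nsmul_eq_mul]
    have e : (Y.card : ℝ) * (R x / (Y.card : ℝ)) ^ 2 = R x ^ 2 / (Y.card : ℝ) := by field_simp
    rw [e]
    ring
  rw [Finset.sum_congr rfl hp, Finset.sum_add_distrib]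
  have ha := anova_ge X Y (fun x y => F x y - R x / (Y.card : ℝ))
  have hcol : ∀ y ∈ Y, ∑ x ∈ X, (F x y - R x / (Y.card : ℝ)) = K y - W / (Y.card : ℝ) := by
    intro y _
    rw [Finset.sum_sub_distrib, ← Finset.sum_div]
  have hb : ∑ y ∈ Y, (K y - W / (Y.card : ℝ)) ^ 2 / (X.card : ℝ) =
      ∑ y ∈ Y, K y ^ 2 / (X.card : ℝ) - W ^ 2 / ((X.card : ℝ) * Y.card) := by
    have : ∀ y ∈ Y, (K y - W / (Y.card : ℝ)) ^ 2 / (X.card : ℝ) =
        K y ^ 2 / (X.card : ℝ) - (2 * W / ((Y.card : ℝ) * X.card)) * K y +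
          W ^ 2 / ((Y.card : ℝ) ^ 2 * X.card) := by
      intro y _
      field_simp
      ring
    rw [Finset.sum_congr rfl this, Finset.sum_add_distrib, Finset.sum_sub_distrib, ← Finset.mul_sum,
      hWK, Finset.sum_const, nsmul_eq_mul]
    field_simp
    ring
  have hc2 : ∑ y ∈ Y, (∑ x ∈ X, (F x y - R x / (Y.card : ℝ))) ^ 2 / (X.card : ℝ) =
      ∑ y ∈ Y, (K y - W / (Y.card : ℝ)) ^ 2 / (X.card : ℝ) :=
    Finset.sum_congr rfl fun y hy => by rw [hcol y hy]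
  rw [hc2, hb] at ha
  linarith

end Generic

/-! ### the one-sided estimate -/

/-- Pointwise algebra for the side lemma. -/
lemma side_point (n N μ mb q mt : ℝ) (hn : n ≠ 0) (hN : N ≠ 0) :
    6 * (n * (μ + q)) ^ 2 / n - 8 * (mb + mt) * (n * (μ + q)) + 2 * n * (mb + mt) ^ 2
      + 2 * (N * mt + 2 * n * (mt - q)) ^ 2 / N - 2 * (mb + mt) * (N * mt + 2 * n * (mt - q)) =
    n * (6 * μ ^ 2 - 8 * mb * μ + 2 * mb ^ 2) + (12 * n * μ - 8 * n * mb) * q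
      + (4 * n * mb - 8 * n * μ) * mt - 2 * mb * (N * mt + 2 * n * (mt - q))
      + 6 * n * (mt - q) ^ 2 + 8 * n ^ 2 * (mt - q) ^ 2 / N := by
  field_simp
  ring

lemma side_point0 (n μ mb q : ℝ) (hn : n ≠ 0) :
    6 * (n * (μ + q)) ^ 2 / n - 8 * (mb + q) * (n * (μ + q)) + 2 * n * (mb + q) ^ 2 =
    n * (6 * μ ^ 2 - 8 * mb * μ + 2 * mb ^ 2) + (12 * n * μ - 8 * n * mb) * q
      + (4 * n * mb - 8 * n * μ) * q := by
  field_simp
  ring

/-- The one-sided estimate. -/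
lemma side {κ : Type*} (Y : Finset κ) (n N abar : ℝ) (hn : 0 < n) (hN : 0 ≤ N)
    (hY : Y.Nonempty) (m K G : κ → ℝ)
    (hrel : ∀ y ∈ Y, G y = (N + 2 * n) * m y - 2 * K y - abar)
    (hG : ∑ y ∈ Y, G y = 0) (hN0 : N = 0 → ∀ y ∈ Y, G y = 0) :
    6 * (∑ y ∈ Y, K y) ^ 2 / (n * Y.card) - 8 * (∑ y ∈ Y, m y) * (∑ y ∈ Y, K y) / Y.card
      + 2 * n * (∑ y ∈ Y, m y) ^ 2 / Y.card ≤
    ∑ y ∈ Y, (6 * K y ^ 2 / n - 8 * m y * K y + 2 * n * m y ^ 2 + 2 * G y ^ 2 / N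
      - 2 * m y * G y) := by
  have hl : (0 : ℝ) < (Y.card : ℝ) := by exact_mod_cast Finset.card_pos.2 hY
  set l : ℝ := (Y.card : ℝ) with hl'
  set W := ∑ y ∈ Y, K y with hW
  set Ms := ∑ y ∈ Y, m y with hMs
  set μ := W / (n * l) with hμ
  set mb := Ms / l with hmb
  set q : κ → ℝ := fun y => K y / n - μ with hq
  set mt : κ → ℝ := fun y => m y - mb with hmt
  have hKq : ∀ y, K y = n * (μ + q y) := by
    intro y
    simp only [hq]
    field_simp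
    ring
  have hmq : ∀ y, m y = mb + mt y := by
    intro y
    simp only [hmt]
    ring
  have hsq : ∑ y ∈ Y, q y = 0 := by
    simp only [hq]
    rw [Finset.sum_sub_distrib, Finset.sum_const, nsmul_eq_mul, ← Finset.sum_div, ← hW, hμ]
    rw [← hl']
    field_simp
    ring
  have hsm : ∑ y ∈ Y, mt y = 0 := by
    simp only [hmt]
    rw [Finset.sum_sub_distrib, Finset.sum_const, nsmul_eq_mul, ← hMs, hmb]
    rw [← hl']
    field_simp
    ring
  -- the constant relation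
  have habar : (N + 2 * n) * mb - 2 * n * μ - abar = 0 := by
    have h1 : ∑ y ∈ Y, G y = (N + 2 * n) * Ms - 2 * W - l * abar := by
      rw [Finset.sum_congr rfl hrel, Finset.sum_sub_distrib, Finset.sum_sub_distrib,
        ← Finset.mul_sum, ← Finset.mul_sum, Finset.sum_const, nsmul_eq_mul]
    rw [hG] at h1
    have h2 : (N + 2 * n) * mb - 2 * n * μ - abar =
        ((N + 2 * n) * Ms - 2 * W - l * abar) / l := by
      rw [hmb, hμ]
      field_simp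
    rw [h2, ← h1]
    simp
  have hGz : ∀ y ∈ Y, G y = N * mt y + 2 * n * (mt y - q y) := by
    intro y hy
    rw [hrel y hy, hKq y, hmq y]
    linear_combination habar
  -- pointwise inequality
  have hpt : ∀ y ∈ Y, n * (6 * μ ^ 2 - 8 * mb * μ + 2 * mb ^ 2) + (12 * n * μ - 8 * n * mb) * q y
      + (4 * n * mb - 8 * n * μ) * mt y - 2 * mb * G y ≤
      6 * K y ^ 2 / n - 8 * m y * K y + 2 * n * m y ^ 2 + 2 * G y ^ 2 / N - 2 * m y * G y := by
    intro y hy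
    rcases hN.eq_or_lt with h0 | h0
    · have hG0 := hN0 h0.symm y hy
      have hz := hGz y hy
      rw [hG0, ← h0] at hz
      have hmtq : mt y = q y := by
        have : 2 * n * (mt y - q y) = 0 := by linarith
        have h3 : mt y - q y = 0 := by
          rcases mul_eq_zero.1 this with h | h
          · exfalso; linarith
          · exact h
        linarith
      rw [hG0, hKq y, hmq y, hmtq]
      have := side_point0 n μ mb (q y) hn.ne'
      simp only [ne_eq, OfNat.ofNat_ne_zero, not_false_eq_true, zero_pow, mul_zero, zero_div,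
        add_zero, sub_zero]
      rw [this]
    · rw [hGz y hy, hKq y, hmq y, side_point n N μ mb (q y) (mt y) hn.ne' h0.ne']
      have h1 : 0 ≤ 6 * n * (mt y - q y) ^ 2 := by positivity
      have h2 : 0 ≤ 8 * n ^ 2 * (mt y - q y) ^ 2 / N := by positivity
      linarith
  have hsum := Finset.sum_le_sum hpt
  rw [Finset.sum_sub_distrib, Finset.sum_add_distrib, Finset.sum_add_distrib, Finset.sum_const,
    nsmul_eq_mul, ← Finset.mul_sum, ← Finset.mul_sum, ← Finset.mul_sum, hsq, hsm, hG] at hsum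
  have hfin : 6 * W ^ 2 / (n * l) - 8 * Ms * W / l + 2 * n * Ms ^ 2 / l =
      l * (n * (6 * μ ^ 2 - 8 * mb * μ + 2 * mb ^ 2)) := by
    rw [hμ, hmb]
    field_simp
  rw [hfin]
  linarith

/-- The degenerate (product) case. -/
lemma product_P {κ : Type*} (Y : Finset κ) (N abar : ℝ) (m G : κ → ℝ)
    (hrel : ∀ y ∈ Y, N * m y = G y + abar) (hG : ∑ y ∈ Y, G y = 0)
    (hN0 : N = 0 → ∀ y ∈ Y, G y = 0) :
    0 ≤ ∑ y ∈ Y, (G y ^ 2 / N - m y * G y) := by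
  by_cases h0 : N = 0
  · have : ∀ y ∈ Y, G y ^ 2 / N - m y * G y = 0 := by
      intro y hy
      rw [hN0 h0 y hy]
      simp
    rw [Finset.sum_eq_zero this]
  · have : ∀ y ∈ Y, G y ^ 2 / N - m y * G y = -(abar / N) * G y := by
      intro y hy
      have hm : m y = (G y + abar) / N := by
        rw [eq_div_iff h0, mul_comm]
        exact hrel y hy
      rw [hm]
      field_simp
      ring
    rw [Finset.sum_congr rfl this, ← Finset.mul_sum, hG, mul_zero]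

lemma sum2_split {α γ : Type*} (s : Finset α) (t : Finset γ) (a b c d e : α → γ → ℝ) :
    ∑ x ∈ s, ∑ y ∈ t, (a x y + 2 * (b x y - c x y - d x y + e x y)) =
      ∑ x ∈ s, ∑ y ∈ t, a x y + 2 * (∑ x ∈ s, ∑ y ∈ t, b x y - ∑ x ∈ s, ∑ y ∈ t, c x y
        - ∑ x ∈ s, ∑ y ∈ t, d x y + ∑ x ∈ s, ∑ y ∈ t, e x y) := by
  simp only [Finset.sum_add_distrib, Finset.sum_sub_distrib, ← Finset.mul_sum]

lemma card_add_zero {α : Type*} (s t : Finset α) (h : (s.card : ℝ) + t.card = 0) :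
    s = ∅ ∧ t = ∅ := by
  have ha : (0 : ℝ) ≤ (s.card : ℝ) := Nat.cast_nonneg _
  have hb : (0 : ℝ) ≤ (t.card : ℝ) := Nat.cast_nonneg _
  have h10 : (s.card : ℝ) = 0 := by linarith
  have h20 : (t.card : ℝ) = 0 := by linarith
  exact ⟨Finset.card_eq_zero.1 (by exact_mod_cast h10), Finset.card_eq_zero.1 (by exact_mod_cast h20)⟩

set_option maxHeartbeats 2000000 in
/-- **The block inequality** (package E). -/
theorem block_sos {α γ : Type*} (A0 A1 A2 : Finset α) (C0 C1 C2 : Finset γ)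
    (H1 H2 V1 V2 D1 D2 : α → γ → ℝ) (m : γ → ℝ) (m' : α → ℝ) (h1 h2 : α → ℝ) (v1 v2 : γ → ℝ)
    (hm : ∀ C ∈ C1, m C = (∑ A ∈ A2, H1 A C + ∑ A ∈ A0, H2 A C + ∑ A ∈ A1, (D1 A C + D2 A C)) /
        ((A2.card : ℝ) + A0.card + 2 * A1.card))
    (hm' : ∀ A ∈ A1, m' A = (∑ C ∈ C2, V1 A C + ∑ C ∈ C0, V2 A C + ∑ C ∈ C1, (D1 A C + D2 A C)) /
        ((C2.card : ℝ) + C0.card + 2 * C1.card))
    (hh1 : ∀ A ∈ A2, h1 A = (∑ C ∈ C1, H1 A C) / C1.card)
    (hh2 : ∀ A ∈ A0, h2 A = (∑ C ∈ C1, H2 A C) / C1.card)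
    (hv1 : ∀ C ∈ C2, v1 C = (∑ A ∈ A1, V1 A C) / A1.card)
    (hv2 : ∀ C ∈ C0, v2 C = (∑ A ∈ A1, V2 A C) / A1.card) :
    ∑ A ∈ A1, ∑ C ∈ C1, (D1 A C - D2 A C) ^ 2
      - ∑ C ∈ C1, (∑ A ∈ A1, (D1 A C + D2 A C) - 2 * A1.card * m C) ^ 2 / (2 * A1.card)
      - ∑ A ∈ A1, (∑ C ∈ C1, (D1 A C + D2 A C) - 2 * C1.card * m' A) ^ 2 / (2 * C1.card)
    ≤ 2 * (∑ A ∈ A2, ∑ C ∈ C1, (H1 A C - m C) * (H1 A C - h1 A)
         + ∑ A ∈ A0, ∑ C ∈ C1, (H2 A C - m C) * (H2 A C - h2 A)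
         + ∑ A ∈ A1, ∑ C ∈ C2, (V1 A C - v1 C) * (V1 A C - m' A)
         + ∑ A ∈ A1, ∑ C ∈ C0, (V2 A C - v2 C) * (V2 A C - m' A)
         + ∑ A ∈ A1, ∑ C ∈ C1,
            ((D1 A C - m C) * (D1 A C - m' A) + (D2 A C - m C) * (D2 A C - m' A))) := by
  -- reductions of H and V
  obtain ⟨G, abar, hGdef, hGsum, hG0, hPH⟩ :=
    twoBlock A2 A0 C1 H1 H2 m h1 h2 hh1 hh2
  obtain ⟨G', abar', hGdef', hGsum', hG0', hPV⟩ :=
    twoBlock C2 C0 A1 (fun C A => V1 A C) (fun C A => V2 A C) m' v1 v2 hv1 hv2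
  have hV1 : ∑ A ∈ A1, ∑ C ∈ C2, (V1 A C - v1 C) * (V1 A C - m' A) =
      ∑ C ∈ C2, ∑ A ∈ A1, (V1 A C - m' A) * (V1 A C - v1 C) := by
    rw [Finset.sum_comm]
    exact Finset.sum_congr rfl fun C _ => Finset.sum_congr rfl fun A _ => by ring
  have hV2 : ∑ A ∈ A1, ∑ C ∈ C0, (V2 A C - v2 C) * (V2 A C - m' A) =
      ∑ C ∈ C0, ∑ A ∈ A1, (V2 A C - m' A) * (V2 A C - v2 C) := by
    rw [Finset.sum_comm]
    exact Finset.sum_congr rfl fun C _ => Finset.sum_congr rfl fun A _ => by ring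
  rw [hV1, hV2]
  set PH := ∑ C ∈ C1, (G C ^ 2 / ((A2.card : ℝ) + A0.card) - m C * G C) with hPHdef
  set PV := ∑ A ∈ A1, (G' A ^ 2 / ((C2.card : ℝ) + C0.card) - m' A * G' A) with hPVdef
  set n : ℝ := (A1.card : ℝ) with hn
  set l : ℝ := (C1.card : ℝ) with hl
  set N : ℝ := (A2.card : ℝ) + A0.card with hNdef
  set L : ℝ := (C2.card : ℝ) + C0.card with hLdef
  have hN0le : 0 ≤ N := by positivity
  have hL0le : 0 ≤ L := by positivity
  -- the D part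
  set Db : α → γ → ℝ := fun A C => (D1 A C + D2 A C) / 2 with hDb
  set K : γ → ℝ := fun C => ∑ A ∈ A1, Db A C with hK
  set R : α → ℝ := fun A => ∑ C ∈ C1, Db A C with hR
  set W : ℝ := ∑ A ∈ A1, ∑ C ∈ C1, Db A C with hW
  have hWK : ∑ C ∈ C1, K C = W := by
    simp only [hK, hW]
    rw [Finset.sum_comm]
  have hWR : ∑ A ∈ A1, R A = W := rfl
  have hS : ∀ C, ∑ A ∈ A1, (D1 A C + D2 A C) = 2 * K C := by
    intro C
    simp only [hK, hDb]
    rw [Finset.mul_sum]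
    exact Finset.sum_congr rfl fun A _ => by ring
  have hS' : ∀ A, ∑ C ∈ C1, (D1 A C + D2 A C) = 2 * R A := by
    intro A
    simp only [hR, hDb]
    rw [Finset.mul_sum]
    exact Finset.sum_congr rfl fun C _ => by ring
  set DD := ∑ A ∈ A1, ∑ C ∈ C1, (D1 A C - D2 A C) ^ 2 with hDD
  set Sq := ∑ A ∈ A1, ∑ C ∈ C1, Db A C ^ 2 with hSq
  set Ms := ∑ C ∈ C1, m C with hMs
  set Ms' := ∑ A ∈ A1, m' A with hMs'
  set XmK := ∑ C ∈ C1, m C * K C with hXmK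
  set XmR := ∑ A ∈ A1, m' A * R A with hXmR
  have hDterm : ∑ A ∈ A1, ∑ C ∈ C1,
      ((D1 A C - m C) * (D1 A C - m' A) + (D2 A C - m C) * (D2 A C - m' A)) =
      DD / 2 + 2 * (Sq - XmR - XmK + Ms * Ms') := by
    have hpt : ∀ A ∈ A1, ∀ C ∈ C1,
        (D1 A C - m C) * (D1 A C - m' A) + (D2 A C - m C) * (D2 A C - m' A) =
        (D1 A C - D2 A C) ^ 2 / 2 + 2 * (Db A C ^ 2 - m' A * Db A C - m C * Db A C + m C * m' A) := by
      intro A _ C _
      simp only [hDb]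
      ring
    have h1 : ∑ A ∈ A1, ∑ C ∈ C1,
        ((D1 A C - m C) * (D1 A C - m' A) + (D2 A C - m C) * (D2 A C - m' A)) =
        ∑ A ∈ A1, ∑ C ∈ C1, ((D1 A C - D2 A C) ^ 2 / 2 +
          2 * (Db A C ^ 2 - m' A * Db A C - m C * Db A C + m C * m' A)) :=
      Finset.sum_congr rfl fun A hA => Finset.sum_congr rfl fun C hC => hpt A hA C hC
    rw [h1]
    have e1 : ∑ A ∈ A1, ∑ C ∈ C1, (D1 A C - D2 A C) ^ 2 / 2 = DD / 2 := by
      rw [hDD, Finset.sum_div]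
      exact Finset.sum_congr rfl fun A _ => by rw [Finset.sum_div]
    have e2 : ∑ A ∈ A1, ∑ C ∈ C1, (m' A * Db A C) = XmR := by
      simp only [hXmR, hR]
      exact Finset.sum_congr rfl fun A _ => by rw [Finset.mul_sum]
    have e3 : ∑ A ∈ A1, ∑ C ∈ C1, (m C * Db A C) = XmK := by
      rw [Finset.sum_comm]
      simp only [hXmK, hK]
      exact Finset.sum_congr rfl fun C _ => by rw [Finset.mul_sum]
    have e4 : ∑ A ∈ A1, ∑ C ∈ C1, (m C * m' A) = Ms * Ms' := by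
      rw [Finset.sum_comm, hMs, hMs', Finset.sum_mul]
      exact Finset.sum_congr rfl fun C _ => by rw [Finset.mul_sum]
    have hsplit := sum2_split A1 C1 (fun A C => (D1 A C - D2 A C) ^ 2 / 2) (fun A C => Db A C ^ 2)
      (fun A C => m' A * Db A C) (fun A C => m C * Db A C) (fun A C => m C * m' A)
    beta_reduce at hsplit
    rw [hsplit, e1, e2, e3, e4]
  rw [hDterm]
  have htw := twoWay A1 C1 Db
  -- Now split cases on degeneracy
  have hT : ∑ C ∈ C1, (∑ A ∈ A1, (D1 A C + D2 A C) - 2 * n * m C) ^ 2 / (2 * n) =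
      ∑ C ∈ C1, (2 * K C ^ 2 / n - 4 * m C * K C + 2 * n * m C ^ 2) := by
    refine Finset.sum_congr rfl fun C _ => ?_
    rw [hS]
    by_cases h0 : n = 0
    · have h00 : ((A1.card : ℕ) : ℝ) = 0 := by rw [← hn]; exact h0
      have hA : A1 = ∅ := Finset.card_eq_zero.1 (by exact_mod_cast h00)
      have hKC : K C = 0 := by simp [hK, hA]
      rw [hKC, h0]
      simp
    · field_simp
      ring
  have hT' : ∑ A ∈ A1, (∑ C ∈ C1, (D1 A C + D2 A C) - 2 * l * m' A) ^ 2 / (2 * l) =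
      ∑ A ∈ A1, (2 * R A ^ 2 / l - 4 * m' A * R A + 2 * l * m' A ^ 2) := by
    refine Finset.sum_congr rfl fun A _ => ?_
    rw [hS']
    by_cases h0 : l = 0
    · have h00 : ((C1.card : ℕ) : ℝ) = 0 := by rw [← hl]; exact h0
      have hA : C1 = ∅ := Finset.card_eq_zero.1 (by exact_mod_cast h00)
      have hKC : R A = 0 := by simp [hR, hA]
      rw [hKC, h0]
      simp
    · field_simp
      ring
  rw [hT, hT']
  rcases A1.eq_empty_or_nonempty with hA1 | hA1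
  · -- degenerate: `A1` empty
    have hn0 : n = 0 := by simp [hn, hA1]
    have hrel : ∀ C ∈ C1, N * m C = G C + abar := by
      intro C hC
      have hS0 : ∑ A ∈ A1, (D1 A C + D2 A C) = 0 := by simp [hA1]
      rw [hm C hC, hGdef C, hS0, hn0]
      simp only [add_zero, mul_zero]
      by_cases h0 : N = 0
      · have hcA := card_add_zero (A2) (A0) h0
        rw [h0, hcA.1, hcA.2]
        simp only [zero_mul, Finset.sum_empty, add_zero]
        ring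
      · field_simp
        ring
    have hP := product_P C1 N abar m G hrel hGsum (fun h y _ => hG0 h y)
    have hKz : ∀ C, K C = 0 := by
      intro C
      simp [hK, hA1]
    have e1 : DD = 0 := by simp [hDD, hA1]
    have e2 : ∑ C ∈ C1, (2 * K C ^ 2 / n - 4 * m C * K C + 2 * n * m C ^ 2) = 0 :=
      Finset.sum_eq_zero fun C _ => by rw [hKz C, hn0]; simp
    have e3 : ∑ A ∈ A1, (2 * R A ^ 2 / l - 4 * m' A * R A + 2 * l * m' A ^ 2) = 0 := by
      simp [hA1]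
    have e4 : ∑ C ∈ C2, ∑ A ∈ A1, (V1 A C - m' A) * (V1 A C - v1 C) = 0 := by simp [hA1]
    have e5 : ∑ C ∈ C0, ∑ A ∈ A1, (V2 A C - m' A) * (V2 A C - v2 C) = 0 := by simp [hA1]
    have e6 : Sq = 0 := by simp [hSq, hA1]
    have e7 : XmR = 0 := by simp [hXmR, hA1]
    have e8 : XmK = 0 := by
      rw [hXmK]
      exact Finset.sum_eq_zero fun C _ => by rw [hKz C, mul_zero]
    have e9 : Ms' = 0 := by simp [hMs', hA1]
    rw [e1, e2, e3, e4, e5, e6, e7, e8, e9]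
    linarith
  rcases C1.eq_empty_or_nonempty with hC1 | hC1
  · -- degenerate: `C1` empty
    have hl0 : l = 0 := by simp [hl, hC1]
    have hrel : ∀ A ∈ A1, L * m' A = G' A + abar' := by
      intro A hA
      have hS0 : ∑ C ∈ C1, (D1 A C + D2 A C) = 0 := by simp [hC1]
      rw [hm' A hA, hGdef' A, hS0, hl0]
      simp only [add_zero, mul_zero]
      by_cases h0 : L = 0
      · have hcA := card_add_zero (C2) (C0) h0
        rw [h0, hcA.1, hcA.2]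
        simp only [zero_mul, Finset.sum_empty, add_zero]
        ring
      · field_simp
        ring
    have hP := product_P A1 L abar' m' G' hrel hGsum' (fun h y _ => hG0' h y)
    have hRz : ∀ A, R A = 0 := by
      intro A
      simp [hR, hC1]
    have e1 : DD = 0 := by
      rw [hDD]
      exact Finset.sum_eq_zero fun A _ => by simp [hC1]
    have e2 : ∑ A ∈ A1, (2 * R A ^ 2 / l - 4 * m' A * R A + 2 * l * m' A ^ 2) = 0 :=
      Finset.sum_eq_zero fun A _ => by rw [hRz A, hl0]; simp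
    have e3 : ∑ C ∈ C1, (2 * K C ^ 2 / n - 4 * m C * K C + 2 * n * m C ^ 2) = 0 := by
      simp [hC1]
    have e4 : ∑ A ∈ A2, ∑ C ∈ C1, (H1 A C - m C) * (H1 A C - h1 A) = 0 :=
      Finset.sum_eq_zero fun A _ => by simp [hC1]
    have e5 : ∑ A ∈ A0, ∑ C ∈ C1, (H2 A C - m C) * (H2 A C - h2 A) = 0 :=
      Finset.sum_eq_zero fun A _ => by simp [hC1]
    have e6 : Sq = 0 := by
      rw [hSq]
      exact Finset.sum_eq_zero fun A _ => by simp [hC1]
    have e7 : XmK = 0 := by simp [hXmK, hC1]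
    have e8 : XmR = 0 := by
      rw [hXmR]
      exact Finset.sum_eq_zero fun A _ => by rw [hRz A, mul_zero]
    have e9 : Ms = 0 := by simp [hMs, hC1]
    rw [e1, e2, e3, e4, e5, e6, e7, e8, e9]
    linarith
  -- the main case
  have hnpos : 0 < n := by
    rw [hn]; exact_mod_cast Finset.card_pos.2 hA1
  have hlpos : 0 < l := by
    rw [hl]; exact_mod_cast Finset.card_pos.2 hC1
  have hrelC : ∀ C ∈ C1, G C = (N + 2 * n) * m C - 2 * K C - abar := by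
    intro C hC
    rw [hm C hC, hS, hGdef C]
    have hpos : N + 2 * n ≠ 0 := by positivity
    field_simp
    ring
  have hrelA : ∀ A ∈ A1, G' A = (L + 2 * l) * m' A - 2 * R A - abar' := by
    intro A hA
    rw [hm' A hA, hS', hGdef' A]
    have hpos : L + 2 * l ≠ 0 := by positivity
    field_simp
    ring
  have sC := side C1 n N abar hnpos hN0le hC1 m K G hrelC hGsum (fun h y _ => hG0 h y)
  have sA := side A1 l L abar' hlpos hL0le hA1 m' R G' hrelA hGsum' (fun h y _ => hG0' h y)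
  rw [hWK, ← hl] at sC
  rw [hWR, ← hn] at sA
  -- expand the two sums
  have eC : ∑ y ∈ C1, (6 * K y ^ 2 / n - 8 * m y * K y + 2 * n * m y ^ 2 + 2 * G y ^ 2 / N
      - 2 * m y * G y) = 2 * PH + 4 * (∑ C ∈ C1, K C ^ 2 / n) - 4 * XmK +
        ∑ C ∈ C1, (2 * K C ^ 2 / n - 4 * m C * K C + 2 * n * m C ^ 2) := by
    rw [hPHdef, hXmK, Finset.mul_sum, Finset.mul_sum, Finset.mul_sum, ← Finset.sum_add_distrib,
      ← Finset.sum_sub_distrib, ← Finset.sum_add_distrib]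
    refine Finset.sum_congr rfl fun C _ => ?_
    ring
  have eA : ∑ y ∈ A1, (6 * R y ^ 2 / l - 8 * m' y * R y + 2 * l * m' y ^ 2 + 2 * G' y ^ 2 / L
      - 2 * m' y * G' y) = 2 * PV + 4 * (∑ A ∈ A1, R A ^ 2 / l) - 4 * XmR +
        ∑ A ∈ A1, (2 * R A ^ 2 / l - 4 * m' A * R A + 2 * l * m' A ^ 2) := by
    rw [hPVdef, hXmR, Finset.mul_sum, Finset.mul_sum, Finset.mul_sum, ← Finset.sum_add_distrib,
      ← Finset.sum_sub_distrib, ← Finset.sum_add_distrib]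
    refine Finset.sum_congr rfl fun C _ => ?_
    ring
  rw [eC] at sC
  rw [eA] at sA
  have hscalar : 0 ≤ (6 * W ^ 2 / (n * l) - 8 * Ms * W / l + 2 * n * Ms ^ 2 / l) +
      (6 * W ^ 2 / (l * n) - 8 * Ms' * W / n + 2 * l * Ms' ^ 2 / n) - 4 * W ^ 2 / (n * l)
      + 4 * Ms * Ms' := by
    have : (6 * W ^ 2 / (n * l) - 8 * Ms * W / l + 2 * n * Ms ^ 2 / l) +
      (6 * W ^ 2 / (l * n) - 8 * Ms' * W / n + 2 * l * Ms' ^ 2 / n) - 4 * W ^ 2 / (n * l)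
      + 4 * Ms * Ms' = 2 / (n * l) * (2 * W - n * Ms - l * Ms') ^ 2 := by
      field_simp
      ring
    rw [this]
    positivity
  have htw' : ∑ A ∈ A1, R A ^ 2 / l + ∑ C ∈ C1, K C ^ 2 / n - W ^ 2 / (n * l) ≤ Sq := htw
  have hW4 : 4 * W ^ 2 / (n * l) = 4 * (W ^ 2 / (n * l)) := by ring
  rw [hW4] at hscalar
  linarith

/-- The product case: `∑(F - avg_L F)(F - avg_R F) ≥ 0`. -/
theorem product_sos {α γ : Type*} (X : Finset α) (Y : Finset γ) (F : α → γ → ℝ) (a : α → ℝ) (b : γ → ℝ)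
    (ha : ∀ x ∈ X, a x = (∑ y ∈ Y, F x y) / Y.card)
    (hb : ∀ y ∈ Y, b y = (∑ x ∈ X, F x y) / X.card) :
    0 ≤ ∑ x ∈ X, ∑ y ∈ Y, (F x y - b y) * (F x y - a x) := by
  rw [anova_eq X Y F b a ha]
  have h1 := anova_ge X Y (fun x y => F x y - a x)
  rcases X.eq_empty_or_nonempty with rfl | hX
  · simp
  have hn : (0 : ℝ) < (X.card : ℝ) := by exact_mod_cast Finset.card_pos.2 hX
  -- with `G y = ∑_x (F - a) = n b - A`, where `A = ∑ a`, we get `∑ G²/n - ∑ b G = -(A/n) ∑ G = 0`.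
  set A := ∑ x ∈ X, a x with hA
  have hG : ∀ y ∈ Y, ∑ x ∈ X, (F x y - a x) = (X.card : ℝ) * b y - A := by
    intro y hy
    rw [Finset.sum_sub_distrib, hb y hy, hA]
    field_simp
  have hsum0 : ∑ y ∈ Y, ∑ x ∈ X, (F x y - a x) = 0 := by
    rw [Finset.sum_comm]
    exact Finset.sum_eq_zero fun x hx => sum_sub_rowMean Y (F x) (a x) (ha x hx)
  have h2 : ∑ y ∈ Y, (∑ x ∈ X, (F x y - a x)) ^ 2 / (X.card : ℝ) -
      ∑ y ∈ Y, b y * ∑ x ∈ X, (F x y - a x) = 0 := by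
    rw [← Finset.sum_sub_distrib]
    have : ∀ y ∈ Y, (∑ x ∈ X, (F x y - a x)) ^ 2 / (X.card : ℝ) - b y * ∑ x ∈ X, (F x y - a x) =
        -(A / (X.card : ℝ)) * ∑ x ∈ X, (F x y - a x) := by
      intro y hy
      rw [hG y hy]
      field_simp
      ring
    rw [Finset.sum_congr rfl this, ← Finset.mul_sum, hsum0, mul_zero]
  linarith

end Crest.Agent.SW.BlockSOS

namespace Crest.Agent.SW

open Finset

variable {α γ : Type*}

/-- Mean over the class fixing the right datum `C`. -/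
noncomputable def bm (A0 A1 A2 : Finset α) (H1 H2 D1 D2 : α → γ → ℝ) (C : γ) : ℝ :=
  (∑ A ∈ A2, H1 A C + ∑ A ∈ A0, H2 A C + ∑ A ∈ A1, (D1 A C + D2 A C)) /
    ((A2.card : ℝ) + A0.card + 2 * A1.card)

/-- Mean over the class fixing the left datum `A`. -/
noncomputable def bm' (C0 C1 C2 : Finset γ) (V1 V2 D1 D2 : α → γ → ℝ) (A : α) : ℝ :=
  (∑ C ∈ C2, V1 A C + ∑ C ∈ C0, V2 A C + ∑ C ∈ C1, (D1 A C + D2 A C)) /
    ((C2.card : ℝ) + C0.card + 2 * C1.card)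

/-- The block inequality in the interface form requested by package F. -/
theorem block_sos (A0 A1 A2 : Finset α) (C0 C1 C2 : Finset γ) (H1 H2 V1 V2 D1 D2 : α → γ → ℝ) :
    ∑ A ∈ A1, ∑ C ∈ C1, (D1 A C - D2 A C) ^ 2
     - ∑ C ∈ C1, (∑ A ∈ A1, (D1 A C + D2 A C) - 2 * (A1.card : ℝ) * bm A0 A1 A2 H1 H2 D1 D2 C) ^ 2 / (2 * (A1.card : ℝ))
     - ∑ A ∈ A1, (∑ C ∈ C1, (D1 A C + D2 A C) - 2 * (C1.card : ℝ) * bm' C0 C1 C2 V1 V2 D1 D2 A) ^ 2 / (2 * (C1.card : ℝ))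
    ≤ 2 * ( ∑ A ∈ A2, ∑ C ∈ C1, (H1 A C - bm A0 A1 A2 H1 H2 D1 D2 C) * (H1 A C - (∑ C' ∈ C1, H1 A C') / (C1.card : ℝ))
          + ∑ A ∈ A0, ∑ C ∈ C1, (H2 A C - bm A0 A1 A2 H1 H2 D1 D2 C) * (H2 A C - (∑ C' ∈ C1, H2 A C') / (C1.card : ℝ))
          + ∑ A ∈ A1, ∑ C ∈ C2, (V1 A C - (∑ A' ∈ A1, V1 A' C) / (A1.card : ℝ)) * (V1 A C - bm' C0 C1 C2 V1 V2 D1 D2 A)
          + ∑ A ∈ A1, ∑ C ∈ C0, (V2 A C - (∑ A' ∈ A1, V2 A' C) / (A1.card : ℝ)) * (V2 A C - bm' C0 C1 C2 V1 V2 D1 D2 A)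
          + ∑ A ∈ A1, ∑ C ∈ C1, ((D1 A C - bm A0 A1 A2 H1 H2 D1 D2 C) * (D1 A C - bm' C0 C1 C2 V1 V2 D1 D2 A)
                               + (D2 A C - bm A0 A1 A2 H1 H2 D1 D2 C) * (D2 A C - bm' C0 C1 C2 V1 V2 D1 D2 A))) :=
  BlockSOS.block_sos A0 A1 A2 C0 C1 C2 H1 H2 V1 V2 D1 D2 _ _
    (fun A => (∑ C' ∈ C1, H1 A C') / (C1.card : ℝ)) (fun A => (∑ C' ∈ C1, H2 A C') / (C1.card : ℝ))
    (fun C => (∑ A' ∈ A1, V1 A' C) / (A1.card : ℝ)) (fun C => (∑ A' ∈ A1, V2 A' C) / (A1.card : ℝ))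
    (fun _ _ => rfl) (fun _ _ => rfl) (fun _ _ => rfl) (fun _ _ => rfl) (fun _ _ => rfl) (fun _ _ => rfl)

end Crest.Agent.SW
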