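/- S0453 package F: the block inequality (helper5). -/
import Crest.Agent.Lib.SW.BlockAbs
import Crest.Agent.Lib.SW.BlockG
import Crest.Agent.Lib.SW.BlockSOS

set_option autoImplicit false
set_option linter.unusedVariables false
set_option linter.unusedSimpArgs false
namespace Crest.Agent.SW
open Finset Crest.SwitchChain

variable {n : ℕ} {d : Fin n → ℕ} {a b c e : Fin n}

open Classical

/-- The six patterns of a `2 × 2` block with two ones. -/
def th : Fin 6 → ℕ × ℕ × ℕ × ℕ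
  | 0 => (1, 1, 0, 0)
  | 1 => (0, 0, 1, 1)
  | 2 => (1, 0, 1, 0)
  | 3 => (0, 1, 0, 1)
  | 4 => (1, 0, 0, 1)
  | 5 => (0, 1, 1, 0)

theorem th_inj : ∀ k k' : Fin 6, th k = th k' → k = k' := by decide

/-- The block entries. -/
noncomputable def theta (a b c e : Fin n) (G : Om d) : ℕ × ℕ × ℕ × ℕ :=
  (ent G.1 a c, ent G.1 a e, ent G.1 b c, ent G.1 b e)

/-- The block pattern. -/
noncomputable def typOf (a b c e : Fin n) (G : Om d) : Fin 6 :=
  if theta a b c e G = th 0 then 0 else if theta a b c e G = th 1 then 1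
  else if theta a b c e G = th 2 then 2 else if theta a b c e G = th 3 then 3
  else if theta a b c e G = th 4 then 4 else 5

theorem theta_typOf {G : Om d} (hs : sig a b c e G = 2) :
    theta a b c e G = th (typOf a b c e G) := by
  unfold typOf
  split_ifs with h0 h1 h2 h3 h4
  · exact h0
  · exact h1
  · exact h2
  · exact h3
  · exact h4
  · have e1 := ent_le_one G.1 a c
    have e2 := ent_le_one G.1 a e
    have e3 := ent_le_one G.1 b c
    have e4 := ent_le_one G.1 b e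
    unfold sig at hs
    simp only [theta, th, Prod.mk.injEq] at h0 h1 h2 h3 h4 ⊢
    omega

theorem typOf_iff {G : Om d} (hs : sig a b c e G = 2) (k : Fin 6) :
    typOf a b c e G = k ↔ theta a b c e G = th k := by
  constructor
  · rintro rfl
    exact theta_typOf hs
  · intro h
    rw [theta_typOf hs] at h
    exact th_inj _ _ h

theorem th_prop : ∀ k : Fin 6, (th k).1 ≤ 1 ∧ (th k).2.1 ≤ 1 ∧ (th k).2.2.1 ≤ 1 ∧ (th k).2.2.2 ≤ 1 ∧
    (th k).1 + (th k).2.1 + (th k).2.2.1 + (th k).2.2.2 = 2 := by decide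

/-- Left data with a given row total on the block. -/
noncomputable def AA (a b c e : Fin n) (G0 : Om d) (t : ℕ) : Finset (Finset (Fin n)) :=
  ((cls (bJ a b c e) G0).filter (fun G => ent G.1 a c + ent G.1 a e = t)).image
    (rowSet a (W4 a b c e))

/-- Right data with a given column total on the block. -/
noncomputable def CC (a b c e : Fin n) (G0 : Om d) (s : ℕ) : Finset (Finset (Fin n)) :=
  ((cls (bJ a b c e) G0).filter (fun G => ent G.1 a c + ent G.1 b c = s)).image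
    (rowSet c (W4 a b c e))

theorem mem_AA {G0 : Om d} {t : ℕ} {A : Finset (Fin n)} :
    A ∈ AA a b c e G0 t ↔ ∃ G : Om d, (bJ a b c e).r G G0 ∧ ent G.1 a c + ent G.1 a e = t ∧
      rowSet a (W4 a b c e) G = A := by
  simp only [AA, mem_image, mem_filter, mem_cls]
  constructor
  · rintro ⟨G, ⟨h1, h2⟩, h3⟩
    exact ⟨G, h1, h2, h3⟩
  · rintro ⟨G, h1, h2, h3⟩
    exact ⟨G, ⟨h1, h2⟩, h3⟩

theorem mem_CC {G0 : Om d} {s : ℕ} {C : Finset (Fin n)} :
    C ∈ CC a b c e G0 s ↔ ∃ G : Om d, (bJ a b c e).r G G0 ∧ ent G.1 a c + ent G.1 b c = s ∧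
      rowSet c (W4 a b c e) G = C := by
  simp only [CC, mem_image, mem_filter, mem_cls]
  constructor
  · rintro ⟨G, ⟨h1, h2⟩, h3⟩
    exact ⟨G, h1, h2, h3⟩
  · rintro ⟨G, h1, h2, h3⟩
    exact ⟨G, ⟨h1, h2⟩, h3⟩

/-- The graph with prescribed pattern and coordinates. -/
noncomputable def PP (a b c e : Fin n) (G0 : Om d) (k : Fin 6) (A C : Finset (Fin n)) : Om d :=
  if h : ∃ G : Om d, (bJ a b c e).r G G0 ∧ theta a b c e G = th k ∧
      rowSet a (W4 a b c e) G = A ∧ rowSet c (W4 a b c e) G = C then h.choose else G0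

section WithClass
variable (h : Dis4 a b c e) {G0 : Om d} (hs : sig a b c e G0 = 2)
include h hs

theorem sig_of_class {G : Om d} (hG : (bJ a b c e).r G G0) : sig a b c e G = 2 :=
  (sig_of_bJ h hG).trans hs

theorem PP_spec (k : Fin 6) {A C : Finset (Fin n)}
    (hA : A ∈ AA a b c e G0 ((th k).1 + (th k).2.1))
    (hC : C ∈ CC a b c e G0 ((th k).1 + (th k).2.2.1)) :
    (bJ a b c e).r (PP a b c e G0 k A C) G0 ∧ theta a b c e (PP a b c e G0 k A C) = th k ∧
      rowSet a (W4 a b c e) (PP a b c e G0 k A C) = A ∧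
      rowSet c (W4 a b c e) (PP a b c e G0 k A C) = C := by
  obtain ⟨G1, a1, a2, a3⟩ := mem_AA.1 hA
  obtain ⟨G2, b1, b2, b3⟩ := mem_CC.1 hC
  obtain ⟨p1, p2, p3, p4, p5⟩ := th_prop k
  have s1 := sig_of_class h hs a1
  have s2 := sig_of_class h hs b1
  unfold sig at s1 s2
  obtain ⟨G, c1, c2, c3, c4, c5, c6, c7⟩ := exists_mix h a1 b1 (th k).1 (th k).2.1 (th k).2.2.1
    (th k).2.2.2 p1 p2 p3 p4 (by omega) (by omega) (by omega) (by omega)
  have hex : ∃ G : Om d, (bJ a b c e).r G G0 ∧ theta a b c e G = th k ∧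
      rowSet a (W4 a b c e) G = A ∧ rowSet c (W4 a b c e) G = C := by
    refine ⟨G, c1, ?_, by rw [c6, a3], by rw [c7, b3]⟩
    unfold theta
    rw [c2, c3, c4, c5]
  unfold PP
  rw [dif_pos hex]
  exact hex.choose_spec

theorem PP_eq {G : Om d} (hG : (bJ a b c e).r G G0) :
    PP a b c e G0 (typOf a b c e G) (rowSet a (W4 a b c e) G) (rowSet c (W4 a b c e) G) = G := by
  have hsG := sig_of_class h hs hG
  have hex : ∃ G' : Om d, (bJ a b c e).r G' G0 ∧ theta a b c e G' = th (typOf a b c e G) ∧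
      rowSet a (W4 a b c e) G' = rowSet a (W4 a b c e) G ∧
      rowSet c (W4 a b c e) G' = rowSet c (W4 a b c e) G :=
    ⟨G, hG, theta_typOf hsG, rfl, rfl⟩
  unfold PP
  rw [dif_pos hex]
  obtain ⟨c1, c2', c3, c4⟩ := hex.choose_spec
  have c2 : theta a b c e hex.choose = theta a b c e G := c2'.trans (theta_typOf hsG).symm
  simp only [theta, Prod.mk.injEq] at c2
  exact eq_of_coords h ((bJ a b c e).trans' c1 ((bJ a b c e).symm' hG)) c3 c4 c2.1 c2.2.1 c2.2.2.1
    c2.2.2.2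

end WithClass

theorem disj_AA (h : Dis4 a b c e) (G0 : Om d) {t t' : ℕ} (htt : t ≠ t') :
    Disjoint (AA a b c e G0 t) (AA a b c e G0 t') := by
  rw [disjoint_left]
  intro A hA hA'
  obtain ⟨G1, a1, a2, a3⟩ := mem_AA.1 hA
  obtain ⟨G2, b1, b2, b3⟩ := mem_AA.1 hA'
  have := tau_of_rowSet h ((bJ a b c e).trans' a1 ((bJ a b c e).symm' b1)) (a3.trans b3.symm)
  omega

theorem disj_CC (h : Dis4 a b c e) (G0 : Om d) {t t' : ℕ} (htt : t ≠ t') :
    Disjoint (CC a b c e G0 t) (CC a b c e G0 t') := by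
  rw [disjoint_left]
  intro A hA hA'
  obtain ⟨G1, a1, a2, a3⟩ := mem_CC.1 hA
  obtain ⟨G2, b1, b2, b3⟩ := mem_CC.1 hA'
  have := sig_of_rowSet h ((bJ a b c e).trans' a1 ((bJ a b c e).symm' b1)) (a3.trans b3.symm)
  omega

/-- Relation 1 on the class. -/
theorem hr1_class (h : Dis4 a b c e) {G0 G : Om d} (hG : G ∈ cls (bJ a b c e) G0) (G' : Om d) :
    (rowRel a b).r G' G ↔ G' ∈ cls (bJ a b c e) G0 ∧
      rowSet c (W4 a b c e) G' = rowSet c (W4 a b c e) G := by
  rw [mem_cls] at hG ⊢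
  constructor
  · intro hr
    exact ⟨(bJ a b c e).trans' (rowRel_le_bJ h hr) hG, rowSet_of_rel h hr⟩
  · rintro ⟨h1, h2⟩
    exact rel_of_bJ h ((bJ a b c e).trans' h1 ((bJ a b c e).symm' hG)) h2

/-- Relation 2 on the class. -/
theorem hr2_class (h : Dis4 a b c e) {G0 G : Om d} (hG : G ∈ cls (bJ a b c e) G0) (G' : Om d) :
    (rowRel c e).r G' G ↔ G' ∈ cls (bJ a b c e) G0 ∧
      rowSet a (W4 a b c e) G' = rowSet a (W4 a b c e) G := by
  rw [mem_cls] at hG ⊢
  constructor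
  · intro hr
    refine ⟨(bJ a b c e).trans' (bJ_swap.2 (rowRel_le_bJ h.swap hr)) hG, ?_⟩
    have := rowSet_of_rel h.swap hr
    rwa [← W4_swap] at this
  · rintro ⟨h1, h2⟩
    refine rel_of_bJ h.swap (bJ_swap.1 ((bJ a b c e).trans' h1 ((bJ a b c e).symm' hG))) ?_
    rwa [← W4_swap]

/-- The block structure of a class with total two. -/
noncomputable def mkBS (h : Dis4 a b c e) (G0 : Om d) (hs : sig a b c e G0 = 2) :
    BS (Om d) (Finset (Fin n)) (Finset (Fin n)) where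
  Y := cls (bJ a b c e) G0
  pA := rowSet a (W4 a b c e)
  pC := rowSet c (W4 a b c e)
  A0 := AA a b c e G0 0
  A1 := AA a b c e G0 1
  A2 := AA a b c e G0 2
  C0 := CC a b c e G0 0
  C1 := CC a b c e G0 1
  C2 := CC a b c e G0 2
  H1 := PP a b c e G0 0
  H2 := PP a b c e G0 1
  V1 := PP a b c e G0 2
  V2 := PP a b c e G0 3
  D1 := PP a b c e G0 4
  D2 := PP a b c e G0 5
  typ := typOf a b c e
  r1 := rowRel a b
  r2 := rowRel c e
  m0 := fun A hA C hC => by
    obtain ⟨x1, x2, x3, x4⟩ := PP_spec h hs 0 (A := A) (C := C) hA hC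
    exact ⟨(mem_cls _ _ _).2 x1, x3, x4, (typOf_iff (sig_of_class h hs x1) 0).2 x2⟩
  m1 := fun A hA C hC => by
    obtain ⟨x1, x2, x3, x4⟩ := PP_spec h hs 1 (A := A) (C := C) hA hC
    exact ⟨(mem_cls _ _ _).2 x1, x3, x4, (typOf_iff (sig_of_class h hs x1) 1).2 x2⟩
  m2 := fun A hA C hC => by
    obtain ⟨x1, x2, x3, x4⟩ := PP_spec h hs 2 (A := A) (C := C) hA hC
    exact ⟨(mem_cls _ _ _).2 x1, x3, x4, (typOf_iff (sig_of_class h hs x1) 2).2 x2⟩
  m3 := fun A hA C hC => by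
    obtain ⟨x1, x2, x3, x4⟩ := PP_spec h hs 3 (A := A) (C := C) hA hC
    exact ⟨(mem_cls _ _ _).2 x1, x3, x4, (typOf_iff (sig_of_class h hs x1) 3).2 x2⟩
  m4 := fun A hA C hC => by
    obtain ⟨x1, x2, x3, x4⟩ := PP_spec h hs 4 (A := A) (C := C) hA hC
    exact ⟨(mem_cls _ _ _).2 x1, x3, x4, (typOf_iff (sig_of_class h hs x1) 4).2 x2⟩
  m5 := fun A hA C hC => by
    obtain ⟨x1, x2, x3, x4⟩ := PP_spec h hs 5 (A := A) (C := C) hA hC
    exact ⟨(mem_cls _ _ _).2 x1, x3, x4, (typOf_iff (sig_of_class h hs x1) 5).2 x2⟩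
  g0 := fun G hG hk => by
    have hJ := (mem_cls _ _ _).1 hG
    have hθ := (typOf_iff (sig_of_class h hs hJ) 0).1 hk
    simp only [theta, th, Prod.mk.injEq] at hθ
    refine ⟨mem_AA.2 ⟨G, hJ, by omega, rfl⟩, mem_CC.2 ⟨G, hJ, by omega, rfl⟩, ?_⟩
    have := PP_eq h hs hJ
    rwa [hk] at this
  g1 := fun G hG hk => by
    have hJ := (mem_cls _ _ _).1 hG
    have hθ := (typOf_iff (sig_of_class h hs hJ) 1).1 hk
    simp only [theta, th, Prod.mk.injEq] at hθ
    refine ⟨mem_AA.2 ⟨G, hJ, by omega, rfl⟩, mem_CC.2 ⟨G, hJ, by omega, rfl⟩, ?_⟩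
    have := PP_eq h hs hJ
    rwa [hk] at this
  g2 := fun G hG hk => by
    have hJ := (mem_cls _ _ _).1 hG
    have hθ := (typOf_iff (sig_of_class h hs hJ) 2).1 hk
    simp only [theta, th, Prod.mk.injEq] at hθ
    refine ⟨mem_AA.2 ⟨G, hJ, by omega, rfl⟩, mem_CC.2 ⟨G, hJ, by omega, rfl⟩, ?_⟩
    have := PP_eq h hs hJ
    rwa [hk] at this
  g3 := fun G hG hk => by
    have hJ := (mem_cls _ _ _).1 hG
    have hθ := (typOf_iff (sig_of_class h hs hJ) 3).1 hk
    simp only [theta, th, Prod.mk.injEq] at hθ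
    refine ⟨mem_AA.2 ⟨G, hJ, by omega, rfl⟩, mem_CC.2 ⟨G, hJ, by omega, rfl⟩, ?_⟩
    have := PP_eq h hs hJ
    rwa [hk] at this
  g4 := fun G hG hk => by
    have hJ := (mem_cls _ _ _).1 hG
    have hθ := (typOf_iff (sig_of_class h hs hJ) 4).1 hk
    simp only [theta, th, Prod.mk.injEq] at hθ
    refine ⟨mem_AA.2 ⟨G, hJ, by omega, rfl⟩, mem_CC.2 ⟨G, hJ, by omega, rfl⟩, ?_⟩
    have := PP_eq h hs hJ
    rwa [hk] at this
  g5 := fun G hG hk => by
    have hJ := (mem_cls _ _ _).1 hG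
    have hθ := (typOf_iff (sig_of_class h hs hJ) 5).1 hk
    simp only [theta, th, Prod.mk.injEq] at hθ
    refine ⟨mem_AA.2 ⟨G, hJ, by omega, rfl⟩, mem_CC.2 ⟨G, hJ, by omega, rfl⟩, ?_⟩
    have := PP_eq h hs hJ
    rwa [hk] at this
  dA01 := disj_AA h G0 (by norm_num)
  dA02 := disj_AA h G0 (by norm_num)
  dA12 := disj_AA h G0 (by norm_num)
  dC01 := disj_CC h G0 (by norm_num)
  dC02 := disj_CC h G0 (by norm_num)
  dC12 := disj_CC h G0 (by norm_num)
  hr1 := fun G hG G' => hr1_class h hG G'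
  hr2 := fun G hG G' => hr2_class h hG G'

/-- What a switch does to the coordinates. -/
theorem isSw_coords (h : Dis4 a b c e) {G G' : Om d} (hsw : IsSw a b c e G.1 G'.1) :
    (bJ a b c e).r G G' ∧ rowSet a (W4 a b c e) G = rowSet a (W4 a b c e) G' ∧
      rowSet c (W4 a b c e) G = rowSet c (W4 a b c e) G' := by
  obtain ⟨_, _, k⟩ := hsw
  have hW : ∀ v, InW a b c e v → ent G.1 a v = ent G'.1 a v ∧ ent G.1 b v = ent G'.1 b v ∧
      ent G.1 c v = ent G'.1 c v ∧ ent G.1 e v = ent G'.1 e v := by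
    rintro v ⟨v1, v2, v3, v4⟩
    refine ⟨k _ _ ?_, k _ _ ?_, k _ _ ?_, k _ _ ?_⟩ <;>
      simp [v1, v2, v3, v4, h.ab, h.ac, h.ae, h.bc, h.be, h.ce, h.ab.symm, h.ac.symm, h.ae.symm,
        h.bc.symm, h.be.symm, h.ce.symm]
  refine ⟨⟨?_, ?_, ?_, ?_, ?_⟩, ?_, ?_⟩
  · rintro u v ⟨u1, u2, u3, u4⟩ _
    apply k
    simp [u1, u2, u3, u4]
  · apply k
    simp [h.ab, h.ac, h.ae, h.bc, h.be, h.ce, h.ab.symm, h.ac.symm, h.ae.symm,
        h.bc.symm, h.be.symm, h.ce.symm]
  · apply k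
    simp [h.ab, h.ac, h.ae, h.bc, h.be, h.ce, h.ab.symm, h.ac.symm, h.ae.symm,
        h.bc.symm, h.be.symm, h.ce.symm]
  · intro v hv
    rw [(hW v hv).1, (hW v hv).2.1]
  · intro v hv
    rw [(hW v hv).2.2.1, (hW v hv).2.2.2]
  · exact rowSet_eq_of_ent (fun v hv => (hW v (mem_W4.1 hv)).1)
  · exact rowSet_eq_of_ent (fun v hv => (hW v (mem_W4.1 hv)).2.2.1)

/-- Switch existence inside a class. -/
theorem isSw_of_coords (h : Dis4 a b c e) {G G' : Om d} (hJ : (bJ a b c e).r G G')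
    (hA : rowSet a (W4 a b c e) G = rowSet a (W4 a b c e) G')
    (hC : rowSet c (W4 a b c e) G = rowSet c (W4 a b c e) G')
    (h4 : theta a b c e G = th 4) (h5 : theta a b c e G' = th 5) : IsSw a b c e G.1 G'.1 := by
  simp only [theta, th, Prod.mk.injEq] at h4 h5
  refine ⟨⟨h4.1, h4.2.2.2, h4.2.1, h4.2.2.1⟩, ⟨h5.2.1, h5.2.2.1, h5.1, h5.2.2.2⟩, ?_⟩
  exact fun u v huv => same_outside h hJ hA hC u v huv

/-- The algebraic inequality for a block structure. -/
theorem BS_hE {X α γ : Type*} [Fintype X] (B : BS X α γ) (f : X → ℝ) :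
    ∑ A ∈ B.A1, ∑ C ∈ B.C1, (f (B.D1 A C) - f (B.D2 A C)) ^ 2
        - ∑ C ∈ B.C1, (B.tv f C) ^ 2 / (2 * (B.A1.card : ℝ))
        - ∑ A ∈ B.A1, (B.swap.tv f A) ^ 2 / (2 * (B.C1.card : ℝ)) ≤
      2 * (∑ A ∈ B.A2, ∑ C ∈ B.C1, (f (B.H1 A C) - B.cm f C) *
              (f (B.H1 A C) - (∑ C' ∈ B.C1, f (B.H1 A C')) / (B.C1.card : ℝ))
          + ∑ A ∈ B.A0, ∑ C ∈ B.C1, (f (B.H2 A C) - B.cm f C) *
              (f (B.H2 A C) - (∑ C' ∈ B.C1, f (B.H2 A C')) / (B.C1.card : ℝ))
          + ∑ A ∈ B.A1, ∑ C ∈ B.C2, (f (B.V1 A C) - (∑ A' ∈ B.A1, f (B.V1 A' C)) / (B.A1.card : ℝ)) *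
              (f (B.V1 A C) - B.swap.cm f A)
          + ∑ A ∈ B.A1, ∑ C ∈ B.C0, (f (B.V2 A C) - (∑ A' ∈ B.A1, f (B.V2 A' C)) / (B.A1.card : ℝ)) *
              (f (B.V2 A C) - B.swap.cm f A)
          + ∑ A ∈ B.A1, ∑ C ∈ B.C1, ((f (B.D1 A C) - B.cm f C) * (f (B.D1 A C) - B.swap.cm f A)
              + (f (B.D2 A C) - B.cm f C) * (f (B.D2 A C) - B.swap.cm f A))) :=
  block_sos B.A0 B.A1 B.A2 B.C0 B.C1 B.C2 (fun A C => f (B.H1 A C)) (fun A C => f (B.H2 A C))
        (fun A C => f (B.V1 A C)) (fun A C => f (B.V2 A C)) (fun A C => f (B.D1 A C))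
        (fun A C => f (B.D2 A C))

/-- The inequality on one class. -/
theorem block_class (h : Dis4 a b c e) (G0 : Om d) (f : Om d → ℝ) :
    ∑ G ∈ cls (bJ a b c e) G0, (∑ G' : Om d, (if IsSw a b c e G.1 G'.1 then (f G - f G') ^ 2 else 0))
      - ∑ G ∈ cls (bJ a b c e) G0, (Tsum a b c e f G) ^ 2 / (2 * (nOne a b c e G : ℝ)) /
          ((cls (rowRel a b) G).card : ℝ)
      - ∑ G ∈ cls (bJ a b c e) G0, (Tsum c e a b f G) ^ 2 / (2 * (nOne c e a b G : ℝ)) /
          ((cls (rowRel c e) G).card : ℝ)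
      ≤ ∑ G ∈ cls (bJ a b c e) G0, 2 * (Qop (rowRel a b) f G * Qop (rowRel c e) f G) := by
  by_cases hs : sig a b c e G0 = 2
  · -- six arrays
    set B := mkBS h G0 hs with hB
    have hmain := BS.main B f (fun G => ∑ G' : Om d, (if IsSw a b c e G.1 G'.1 then (f G - f G') ^ 2 else 0))
      ?_ ?_ (fun G => D1 a b c e G.1) (fun G => Dst a b c e G.1) (fun G => D1 c e a b G.1)
      (fun G => Dst c e a b G.1) ?_ ?_ ?_ ?_ ?_
    · exact hmain
    · -- hsw4
      intro A hA C hC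
      obtain ⟨x1, x2, x3, x4⟩ := PP_spec h hs 4 (A := A) (C := C) hA hC
      obtain ⟨y1, y2, y3, y4⟩ := PP_spec h hs 5 (A := A) (C := C) hA hC
      show ∑ G' : Om d, (if IsSw a b c e (PP a b c e G0 4 A C).1 G'.1 then
        (f (PP a b c e G0 4 A C) - f G') ^ 2 else 0) =
          (f (PP a b c e G0 4 A C) - f (PP a b c e G0 5 A C)) ^ 2
      rw [sum_eq_single (PP a b c e G0 5 A C)]
      · rw [if_pos]
        exact isSw_of_coords h ((bJ a b c e).trans' x1 ((bJ a b c e).symm' y1)) (x3.trans y3.symm)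
          (x4.trans y4.symm) x2 y2
      · intro G'' _ hne
        rw [if_neg]
        intro hsw
        apply hne
        obtain ⟨j1, j2, j3⟩ := isSw_coords h hsw
        obtain ⟨_, ⟨d1, d2, d3, d4⟩, _⟩ := hsw
        simp only [theta, th, Prod.mk.injEq] at y2
        refine eq_of_coords h ((bJ a b c e).trans' ((bJ a b c e).symm' j1)
          ((bJ a b c e).trans' x1 ((bJ a b c e).symm' y1))) ?_ ?_ ?_ ?_ ?_ ?_
        · rw [← j2, x3, y3]
        · rw [← j3, x4, y4]
        · rw [d3, y2.1]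
        · rw [d1, y2.2.1]
        · rw [d2, y2.2.2.1]
        · rw [d4, y2.2.2.2]
      · intro hnot
        exact absurd (mem_univ _) hnot
    · -- hsw0
      intro G hG hk
      have hJ := (mem_cls _ _ _).1 hG
      apply sum_eq_zero
      intro G' _
      rw [if_neg]
      intro hsw
      apply hk
      obtain ⟨⟨d1, d2, d3, d4⟩, _⟩ := hsw
      refine (typOf_iff (sig_of_class h hs hJ) 4).2 ?_
      simp only [theta, th, Prod.mk.injEq]
      exact ⟨d1, d3, d4, d2⟩
    · -- hP1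
      intro G hG
      have hJ := (mem_cls _ _ _).1 hG
      show D1 a b c e G.1 ↔ typOf a b c e G = 4
      rw [typOf_iff (sig_of_class h hs hJ) 4]
      simp only [theta, th, Prod.mk.injEq, D1]
      tauto
    · -- hP2
      intro G hG
      have hJ := (mem_cls _ _ _).1 hG
      show Dst a b c e G.1 ↔ (typOf a b c e G = 4 ∨ typOf a b c e G = 5)
      rw [typOf_iff (sig_of_class h hs hJ) 4, typOf_iff (sig_of_class h hs hJ) 5]
      simp only [theta, th, Prod.mk.injEq, Dst]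
      have e1 := ent_le_one G.1 a c
      have e2 := ent_le_one G.1 a e
      have e3 := ent_le_one G.1 b c
      have e4 := ent_le_one G.1 b e
      have hsG := sig_of_class h hs hJ
      unfold sig at hsG
      omega
    · -- hP1'
      intro G hG
      have hJ := (mem_cls _ _ _).1 hG
      show D1 c e a b G.1 ↔ typOf a b c e G = 4
      rw [typOf_iff (sig_of_class h hs hJ) 4]
      simp only [theta, th, Prod.mk.injEq, D1]
      rw [ent_symm G.1 c a, ent_symm G.1 e b, ent_symm G.1 c b, ent_symm G.1 e a]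
      tauto
    · -- hP2'
      intro G hG
      have hJ := (mem_cls _ _ _).1 hG
      show Dst c e a b G.1 ↔ (typOf a b c e G = 4 ∨ typOf a b c e G = 5)
      rw [typOf_iff (sig_of_class h hs hJ) 4, typOf_iff (sig_of_class h hs hJ) 5]
      simp only [theta, th, Prod.mk.injEq, Dst]
      rw [ent_symm G.1 c a, ent_symm G.1 e b, ent_symm G.1 c b, ent_symm G.1 e a]
      have e1 := ent_le_one G.1 a c
      have e2 := ent_le_one G.1 a e
      have e3 := ent_le_one G.1 b c
      have e4 := ent_le_one G.1 b e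
      have hsG := sig_of_class h hs hJ
      unfold sig at hsG
      omega
    · -- the algebra
      exact BS_hE B f
  · -- product case
    have hnoDst : ∀ G', (bJ a b c e).r G' G0 → ¬ Dst a b c e G'.1 := by
      intro G' hG' hD
      apply hs
      rw [← sig_of_bJ h hG']
      obtain ⟨d1, d2, d3⟩ := hD
      have e1 := ent_le_one G'.1 a c
      have e2 := ent_le_one G'.1 a e
      have e3 := ent_le_one G'.1 b c
      have e4 := ent_le_one G'.1 b e
      unfold sig
      omega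
    have hnoDst' : ∀ G', (bJ a b c e).r G' G0 → ¬ Dst c e a b G'.1 := by
      intro G' hG' hD
      apply hs
      rw [← sig_of_bJ h hG']
      obtain ⟨d1, d2, d3⟩ := hD
      rw [ent_symm G'.1 c a, ent_symm G'.1 e b, ent_symm G'.1 c b, ent_symm G'.1 e a] at *
      have e1 := ent_le_one G'.1 a c
      have e2 := ent_le_one G'.1 a e
      have e3 := ent_le_one G'.1 b c
      have e4 := ent_le_one G'.1 b e
      unfold sig
      omega
    have h1 : ∑ G ∈ cls (bJ a b c e) G0, (∑ G' : Om d, (if IsSw a b c e G.1 G'.1 then (f G - f G') ^ 2 else 0)) = 0 := by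
      refine sum_eq_zero (fun G hG => sum_eq_zero (fun G' _ => ?_))
      rw [if_neg]
      intro hsw
      have hJ := (mem_cls _ _ _).1 hG
      apply hnoDst G hJ
      obtain ⟨⟨d1, d2, d3, d4⟩, _⟩ := hsw
      refine ⟨?_, ?_, ?_⟩ <;> omega
    have h2 : ∑ G ∈ cls (bJ a b c e) G0, (Tsum a b c e f G) ^ 2 / (2 * (nOne a b c e G : ℝ)) /
          ((cls (rowRel a b) G).card : ℝ) = 0 := by
      refine sum_eq_zero (fun G hG => ?_)
      have hJ := (mem_cls _ _ _).1 hG
      have : Tsum a b c e f G = 0 := by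
        unfold Tsum
        apply sum_eq_zero
        intro G' hG'
        obtain ⟨g1, g2⟩ := mem_filter.1 hG'
        exact absurd g2 (hnoDst G' ((bJ a b c e).trans' (rowRel_le_bJ h ((mem_cls _ _ _).1 g1)) hJ))
      rw [this]
      simp
    have h3 : ∑ G ∈ cls (bJ a b c e) G0, (Tsum c e a b f G) ^ 2 / (2 * (nOne c e a b G : ℝ)) /
          ((cls (rowRel c e) G).card : ℝ) = 0 := by
      refine sum_eq_zero (fun G hG => ?_)
      have hJ := (mem_cls _ _ _).1 hG
      have : Tsum c e a b f G = 0 := by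
        unfold Tsum
        apply sum_eq_zero
        intro G' hG'
        obtain ⟨g1, g2⟩ := mem_filter.1 hG'
        exact absurd g2 (hnoDst' G' ((bJ a b c e).trans'
          (bJ_swap.2 (rowRel_le_bJ h.swap ((mem_cls _ _ _).1 g1))) hJ))
      rw [this]
      simp
    rw [h1, h2, h3, ← mul_sum]
    have := prod_abs (cls (bJ a b c e) G0) (rowSet a (W4 a b c e)) (rowSet c (W4 a b c e))
      (rowRel a b) (rowRel c e) (fun G hG G' => hr1_class h hG G') (fun G hG G' => hr2_class h hG G')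
      ?_ ?_ f
    · simp only [sub_zero]
      linarith
    · -- injectivity
      intro G hG G' hG' hA hC
      have hJ := (mem_cls _ _ _).1 hG
      have hJ' := (mem_cls _ _ _).1 hG'
      have hJJ := (bJ a b c e).trans' hJ ((bJ a b c e).symm' hJ')
      have s1 := tau_of_rowSet h hJJ hA
      have s2 := sig_of_rowSet h hJJ hC
      have s3 := sig_of_bJ h hJJ
      have s4 := sig_of_bJ h hJ
      have e1 := ent_le_one G.1 a c
      have e2 := ent_le_one G.1 a e
      have e3 := ent_le_one G.1 b c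
      have e4 := ent_le_one G.1 b e
      have e5 := ent_le_one G'.1 a c
      have e6 := ent_le_one G'.1 a e
      have e7 := ent_le_one G'.1 b c
      have e8 := ent_le_one G'.1 b e
      unfold sig at s3 s4 hs
      exact eq_of_coords h hJJ hA hC (by omega) (by omega) (by omega) (by omega)
    · -- mixing
      intro G1 hG1 G2 hG2
      have hJ1 := (mem_cls _ _ _).1 hG1
      have hJ2 := (mem_cls _ _ _).1 hG2
      have s1 := sig_of_bJ h hJ1
      have s2 := sig_of_bJ h hJ2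
      have e1 := ent_le_one G1.1 a c
      have e2 := ent_le_one G1.1 a e
      have e3 := ent_le_one G1.1 b c
      have e4 := ent_le_one G1.1 b e
      have e5 := ent_le_one G2.1 a c
      have e6 := ent_le_one G2.1 a e
      have e7 := ent_le_one G2.1 b c
      have e8 := ent_le_one G2.1 b e
      unfold sig at s1 s2 hs
      obtain ⟨t1, t2, t3, t4, p1, p2, p3, p4, q1, q2, q3, q4⟩ :
          ∃ t1 t2 t3 t4 : ℕ, t1 ≤ 1 ∧ t2 ≤ 1 ∧ t3 ≤ 1 ∧ t4 ≤ 1 ∧
            t1 + t2 = ent G1.1 a c + ent G1.1 a e ∧ t3 + t4 = ent G1.1 b c + ent G1.1 b e ∧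
            t1 + t3 = ent G2.1 a c + ent G2.1 b c ∧ t2 + t4 = ent G2.1 a e + ent G2.1 b e := by
        generalize ent G1.1 a c = x1 at *
        generalize ent G1.1 a e = x2 at *
        generalize ent G1.1 b c = x3 at *
        generalize ent G1.1 b e = x4 at *
        generalize ent G2.1 a c = y1 at *
        generalize ent G2.1 a e = y2 at *
        generalize ent G2.1 b c = y3 at *
        generalize ent G2.1 b e = y4 at *
        by_cases c1 : x1 + x2 + x3 + x4 ≤ 1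
        · -- total at most one
          by_cases c2 : x1 + x2 = 1 <;> by_cases c3 : y1 + y3 = 1
          · exact ⟨1, 0, 0, 0, by omega⟩
          · exact ⟨0, 1, 0, 0, by omega⟩
          · exact ⟨0, 0, 1, 0, by omega⟩
          · by_cases c4 : x1 + x2 + x3 + x4 = 0
            · exact ⟨0, 0, 0, 0, by omega⟩
            · exact ⟨0, 0, 0, 1, by omega⟩
        · -- total at least three
          by_cases c2 : x1 + x2 = 2 <;> by_cases c3 : y1 + y3 = 2
          · by_cases c4 : x1 + x2 + x3 + x4 = 4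
            · exact ⟨1, 1, 1, 1, by omega⟩
            · exact ⟨1, 1, 1, 0, by omega⟩
          · exact ⟨1, 1, 0, 1, by omega⟩
          · exact ⟨1, 0, 1, 1, by omega⟩
          · exact ⟨0, 1, 1, 1, by omega⟩
      obtain ⟨G, c1, _, _, _, _, c6, c7⟩ := exists_mix h hJ1 hJ2 t1 t2 t3 t4 p1 p2 p3 p4 q1 q2 q3 q4
      exact ⟨G, (mem_cls _ _ _).2 c1, c6, c7⟩

/-- **The block inequality.** -/
theorem block_ineq (a b c e : Fin n)
    (hab : a ≠ b) (hac : a ≠ c) (hae : a ≠ e) (hbc : b ≠ c) (hbe : b ≠ e) (hce : c ≠ e)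
    (f : Om d → ℝ) :
    SwT a b c e f - Neg a b c e f - Neg c e a b f ≤ 2 * dot (Qab a b f) (Qab c e f) := by
  have h : Dis4 a b c e := ⟨hab, hac, hae, hbc, hbe, hce⟩
  unfold SwT Neg dot Qab
  rw [mul_sum, ← sum_sub_distrib, ← sum_sub_distrib]
  refine sum_le_sum_of_cls (bJ a b c e) _ _ (fun G0 => ?_)
  rw [sum_sub_distrib, sum_sub_distrib]
  exact block_class h G0 f

end Crest.Agent.SW
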