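/-
S0453: combinatorial facts about the switch kernel (lead).
`card_pmSet`, `proposalCount_symm`, `switchResult_mem_realizations`, `sum_proposalCount`, `kernel_symm`,
`kernel_rowSum`.
-/
import Mathlib
import Crest.Prelude.Def_SwitchChain

set_option autoImplicit false

namespace Crest.Agent.SW

open Finset Crest.SwitchChain

variable {n : ℕ}

lemma switchResult_of {E F F' : Finset (Edge n)} (h : F ⊆ E ∧ Disjoint F' E) :
    switchResult E F F' = E \ F ∪ F' := if_pos h

lemma switchResult_of_not {E F F' : Finset (Edge n)} (h : ¬ (F ⊆ E ∧ Disjoint F' E)) :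
    switchResult E F F' = E := if_neg h

/-- A switch can be undone. -/
lemma switchResult_invert {E E' F F' : Finset (Edge n)} (hne : E ≠ E')
    (h : switchResult E F F' = E') : switchResult E' F' F = E := by
  by_cases hc : F ⊆ E ∧ Disjoint F' E
  · rw [switchResult_of hc] at h
    subst h
    obtain ⟨hF, hF'⟩ := hc
    have hdisj : Disjoint F F' := by
      rw [Finset.disjoint_left]
      intro x hx hx'
      exact (Finset.disjoint_left.1 hF') hx' (hF hx)
    have h1 : F' ⊆ E \ F ∪ F' := Finset.subset_union_right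
    have h2 : Disjoint F (E \ F ∪ F') := by
      rw [Finset.disjoint_union_right]
      exact ⟨Finset.disjoint_sdiff, hdisj⟩
    rw [switchResult_of ⟨h1, h2⟩]
    ext x
    simp only [Finset.mem_union, Finset.mem_sdiff]
    constructor
    · rintro (⟨(⟨hx, _⟩ | hx), hx2⟩ | hx)
      · exact hx
      · exact absurd hx hx2
      · exact hF hx
    · intro hx
      by_cases hxF : x ∈ F
      · exact Or.inr hxF
      · refine Or.inl ⟨Or.inl ⟨hx, hxF⟩, ?_⟩
        intro hx'
        exact (Finset.disjoint_left.1 hF') hx' hx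
  · rw [switchResult_of_not hc] at h
    exact absurd h hne

lemma switchResult_iff {E E' F F' : Finset (Edge n)} (hne : E ≠ E') :
    switchResult E F F' = E' ↔ switchResult E' F' F = E :=
  ⟨switchResult_invert hne, switchResult_invert hne.symm⟩

/-- Symmetry of the proposal count. -/
theorem proposalCount_symm (E E' : Finset (Edge n)) : proposalCount E E' = proposalCount E' E := by
  by_cases hne : E = E'
  · rw [hne]
  unfold proposalCount
  refine Finset.sum_congr rfl fun S _ => ?_
  rw [Finset.sum_comm' (t' := pmSet S) (s' := fun F' => (pmSet S).erase F')]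
  · refine Finset.sum_congr rfl fun F _ => Finset.sum_congr rfl fun F' _ => ?_
    simp only [switchResult_iff (F := F') (F' := F) hne]
  · intro F F'
    simp only [Finset.mem_erase]
    constructor
    · rintro ⟨h1, h2, h3⟩
      exact ⟨⟨fun h => h2 h.symm, h1⟩, h3⟩
    · rintro ⟨⟨h1, h2⟩, h3⟩
      exact ⟨h2, fun h => h1 h.symm, h3⟩

/-- Symmetry of the kernel. -/
theorem kernel_symm (E E' : Finset (Edge n)) : kernel n E E' = kernel n E' E := by
  unfold kernel
  rw [proposalCount_symm E E']
  by_cases h : E = E'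
  · simp [h]
  · have h' : ¬ E' = E := fun h2 => h h2.symm
    simp [h, h']

/-! ### proposals preserve degrees -/

lemma filter_card_eq_of_mem_pmSet {S : Finset (Fin n)} {F F' : Finset (Edge n)}
    (hF : F ∈ pmSet S) (hF' : F' ∈ pmSet S) (v : Fin n) :
    (F.filter fun e => v ∈ e.1).card = (F'.filter fun e => v ∈ e.1).card := by
  have hF1 := (Finset.mem_filter.1 hF).2
  have hF2 := (Finset.mem_filter.1 hF').2
  by_cases hv : v ∈ S
  · rw [hF1.2 v hv, hF2.2 v hv]
  · have h1 : (F.filter fun e => v ∈ e.1) = ∅ := by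
      apply Finset.filter_eq_empty_iff.2
      intro e he hve
      exact hv (hF1.1 e he v hve)
    have h2 : (F'.filter fun e => v ∈ e.1) = ∅ := by
      apply Finset.filter_eq_empty_iff.2
      intro e he hve
      exact hv (hF2.1 e he v hve)
    rw [h1, h2]

lemma deg_switch {E F F' : Finset (Edge n)} (hc : F ⊆ E ∧ Disjoint F' E) (v : Fin n)
    (hcard : (F.filter fun e => v ∈ e.1).card = (F'.filter fun e => v ∈ e.1).card) :
    deg (E \ F ∪ F') v = deg E v := by
  unfold deg
  set A := E.filter fun e => v ∈ e.1 with hA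
  set B := F.filter fun e => v ∈ e.1 with hB
  set C := F'.filter fun e => v ∈ e.1 with hC
  have hBA : B ⊆ A := Finset.filter_subset_filter _ hc.1
  have hfil : ((E \ F ∪ F').filter fun e => v ∈ e.1) = (A \ B) ∪ C := by
    ext x
    simp only [hA, hB, hC, Finset.mem_filter, Finset.mem_union, Finset.mem_sdiff]
    tauto
  have hdis : Disjoint (A \ B) C := by
    rw [Finset.disjoint_left]
    intro x hx hx'
    have h1 := (Finset.mem_filter.1 (Finset.mem_sdiff.1 hx).1).1
    have h2 := (Finset.mem_filter.1 hx').1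
    exact (Finset.disjoint_left.1 hc.2) h2 h1
  rw [hfil, Finset.card_union_of_disjoint hdis, Finset.card_sdiff_of_subset hBA]
  have := Finset.card_le_card hBA
  omega

/-- Proposals from a realization stay among the realizations. -/
theorem switchResult_mem_realizations {d : Fin n → ℕ} {E : Finset (Edge n)}
    (hE : E ∈ realizations d) {S : Finset (Fin n)} {F F' : Finset (Edge n)}
    (hF : F ∈ pmSet S) (hF' : F' ∈ pmSet S) : switchResult E F F' ∈ realizations d := by
  by_cases hc : F ⊆ E ∧ Disjoint F' E
  · rw [switchResult_of hc]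
    unfold realizations at hE ⊢
    rw [Finset.mem_filter] at hE ⊢
    refine ⟨Finset.mem_univ _, fun v => ?_⟩
    rw [deg_switch hc v (filter_card_eq_of_mem_pmSet hF hF' v)]
    exact hE.2 v
  · rw [switchResult_of_not hc]
    exact hE

/-- If a positive number of proposals lead from a realization to `E'`, then `E'` is a realization. -/
theorem mem_realizations_of_proposalCount {d : Fin n → ℕ} {E E' : Finset (Edge n)}
    (hE : E ∈ realizations d) (h : proposalCount E E' ≠ 0) : E' ∈ realizations d := by
  unfold proposalCount at h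
  obtain ⟨S, _, hS⟩ := Finset.exists_ne_zero_of_sum_ne_zero h
  obtain ⟨F, hF, hF1⟩ := Finset.exists_ne_zero_of_sum_ne_zero hS
  obtain ⟨F', hF', hF2⟩ := Finset.exists_ne_zero_of_sum_ne_zero hF1
  have hr : switchResult E F F' = E' := by
    by_contra hne
    simp [hne] at hF2
  rw [← hr]
  exact switchResult_mem_realizations hE hF (Finset.mem_of_mem_erase hF')

/-- `proposalCount` vanishes from a realization to a non-realization. -/
theorem proposalCount_eq_zero_of_not_mem {d : Fin n → ℕ} {E E' : Finset (Edge n)}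
    (hE : E ∈ realizations d) (h : E' ∉ realizations d) : proposalCount E E' = 0 := by
  by_contra hne
  exact h (mem_realizations_of_proposalCount hE hne)

/-- Kernel entries between a realization and a non-realization vanish. -/
theorem kernel_eq_zero_of_not_mem {d : Fin n → ℕ} {E E' : Finset (Edge n)}
    (hE : E ∈ realizations d) (h : E' ∉ realizations d) : kernel n E E' = 0 := by
  have hne : E ≠ E' := fun he => h (he ▸ hE)
  unfold kernel
  simp [hne, proposalCount_eq_zero_of_not_mem hE h]

/-! ### the perfect matchings of a 4-set -/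

/-- The edge between two distinct vertices. -/
def mkE (u v : Fin n) (h : u ≠ v) : Edge n := ⟨s(u, v), by simpa using h⟩

lemma mem_mkE {u v w : Fin n} {h : u ≠ v} : w ∈ (mkE u v h).1 ↔ w = u ∨ w = v := by
  simp [mkE]

lemma mkE_comm {u v : Fin n} (h : u ≠ v) : mkE u v h = mkE v u h.symm := by
  apply Subtype.ext
  simp [mkE, Sym2.eq_swap]

lemma mkE_ne {a b c d : Fin n} (h1 : a ≠ b) (h2 : c ≠ d) (h3 : a ≠ c) (h4 : a ≠ d) :
    mkE a b h1 ≠ mkE c d h2 := by
  intro h
  have := congrArg Subtype.val h
  simp only [mkE, Sym2.eq_iff] at this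
  rcases this with ⟨h5, _⟩ | ⟨h5, _⟩
  · exact h3 h5
  · exact h4 h5

lemma pair_mem_pmSet {a b c d : Fin n} (hab : a ≠ b) (hac : a ≠ c) (had : a ≠ d)
    (hbc : b ≠ c) (hbd : b ≠ d) (hcd : c ≠ d) {S : Finset (Fin n)}
    (hS : ∀ v, v ∈ S ↔ v = a ∨ v = b ∨ v = c ∨ v = d) :
    ({mkE a b hab, mkE c d hcd} : Finset (Edge n)) ∈ pmSet S := by
  have hne : mkE a b hab ≠ mkE c d hcd := mkE_ne hab hcd hac had
  unfold pmSet
  rw [Finset.mem_filter]
  refine ⟨?_, ?_, ?_⟩
  · rw [Finset.mem_powersetCard]
    exact ⟨Finset.subset_univ _, Finset.card_pair hne⟩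
  · intro e he v hv
    rw [hS]
    simp only [Finset.mem_insert, Finset.mem_singleton] at he
    rcases he with rfl | rfl
    · rcases mem_mkE.1 hv with h | h <;> simp [h]
    · rcases mem_mkE.1 hv with h | h <;> simp [h]
  · intro v hv
    rw [hS] at hv
    rw [Finset.card_eq_one]
    rcases hv with rfl | rfl | rfl | rfl
    · refine ⟨mkE v b hab, ?_⟩
      ext e
      simp only [Finset.mem_filter, Finset.mem_insert, Finset.mem_singleton]
      constructor
      · rintro ⟨rfl | rfl, h⟩
        · rfl
        · rcases mem_mkE.1 h with h | h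
          · exact absurd h hac
          · exact absurd h had
      · rintro rfl
        exact ⟨Or.inl rfl, mem_mkE.2 (Or.inl rfl)⟩
    · refine ⟨mkE a v hab, ?_⟩
      ext e
      simp only [Finset.mem_filter, Finset.mem_insert, Finset.mem_singleton]
      constructor
      · rintro ⟨rfl | rfl, h⟩
        · rfl
        · rcases mem_mkE.1 h with h | h
          · exact absurd h hbc
          · exact absurd h hbd
      · rintro rfl
        exact ⟨Or.inl rfl, mem_mkE.2 (Or.inr rfl)⟩
    · refine ⟨mkE v d hcd, ?_⟩
      ext e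
      simp only [Finset.mem_filter, Finset.mem_insert, Finset.mem_singleton]
      constructor
      · rintro ⟨rfl | rfl, h⟩
        · rcases mem_mkE.1 h with h | h
          · exact absurd h.symm hac
          · exact absurd h.symm hbc
        · rfl
      · rintro rfl
        exact ⟨Or.inr rfl, mem_mkE.2 (Or.inl rfl)⟩
    · refine ⟨mkE c v hcd, ?_⟩
      ext e
      simp only [Finset.mem_filter, Finset.mem_insert, Finset.mem_singleton]
      constructor
      · rintro ⟨rfl | rfl, h⟩
        · rcases mem_mkE.1 h with h | h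
          · exact absurd h.symm had
          · exact absurd h.symm hbd
        · rfl
      · rintro rfl
        exact ⟨Or.inr rfl, mem_mkE.2 (Or.inr rfl)⟩

/-- Any matching in `pmSet S` of a 4-set is one of the three explicit matchings. -/
lemma pmSet_subset_aux {a b c d : Fin n} (hab : a ≠ b) (hac : a ≠ c) (had : a ≠ d)
    (hbc : b ≠ c) (hbd : b ≠ d) (hcd : c ≠ d) {S : Finset (Fin n)}
    (hS : ∀ v, v ∈ S ↔ v = a ∨ v = b ∨ v = c ∨ v = d) {F : Finset (Edge n)}
    (hF : F ∈ pmSet S) :
    F = {mkE a b hab, mkE c d hcd} ∨ F = {mkE a c hac, mkE b d hbd} ∨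
      F = {mkE a d had, mkE b c hbc} := by
  classical
  unfold pmSet at hF
  rw [Finset.mem_filter, Finset.mem_powersetCard] at hF
  obtain ⟨⟨_, hcard⟩, hend, hcov⟩ := hF
  -- the edge through `a`
  have hcoverOne : ∀ v ∈ S, ∃ e ∈ F, v ∈ e.1 ∧ ∀ e' ∈ F, v ∈ e'.1 → e' = e := by
    intro v hv
    have := hcov v hv
    obtain ⟨e, he⟩ := Finset.card_eq_one.1 this
    have hmem : e ∈ F.filter fun e => v ∈ e.1 := by rw [he]; simp
    rw [Finset.mem_filter] at hmem
    refine ⟨e, hmem.1, hmem.2, fun e' he' hv' => ?_⟩
    have : e' ∈ F.filter fun e => v ∈ e.1 := Finset.mem_filter.2 ⟨he', hv'⟩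
    rw [he] at this
    simpa using this
  have haS : a ∈ S := (hS a).2 (by simp)
  have hbS : b ∈ S := (hS b).2 (by simp)
  have hcS : c ∈ S := (hS c).2 (by simp)
  have hdS : d ∈ S := (hS d).2 (by simp)
  obtain ⟨ea, hea, haea, huniq⟩ := hcoverOne a haS
  -- write `ea` as `s(a, y)`
  obtain ⟨y, hy⟩ := Sym2.mem_iff_exists.1 haea
  have hya : y ≠ a := by
    intro h
    have := ea.2
    rw [hy, h] at this
    simp at this
  have hyS : y ∈ S := hend ea hea y (by rw [hy]; simp)
  have heay : ea = mkE a y hya.symm := by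
    apply Subtype.ext
    simp [mkE, hy]
  -- helper: given two vertices w₁ w₂ off `ea`, the other edge is `s(w₁,w₂)`
  have key : ∀ (w₁ w₂ : Fin n) (h : w₁ ≠ w₂), w₁ ∈ S → w₂ ∈ S → w₁ ≠ a → w₁ ≠ y → w₂ ≠ a → w₂ ≠ y →
      F = {mkE a y hya.symm, mkE w₁ w₂ h} := by
    intro w₁ w₂ h hw₁ hw₂ h1a h1y h2a h2y
    obtain ⟨e₁, he₁, hwe₁, huniq₁⟩ := hcoverOne w₁ hw₁
    obtain ⟨e₂, he₂, hwe₂, huniq₂⟩ := hcoverOne w₂ hw₂
    have hne1 : e₁ ≠ ea := by
      intro h'
      rw [h', hy] at hwe₁
      simp at hwe₁
      tauto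
    have hne2 : e₂ ≠ ea := by
      intro h'
      rw [h', hy] at hwe₂
      simp at hwe₂
      tauto
    -- F has exactly two elements: ea and another one
    have he₁₂ : e₁ = e₂ := by
      have hc : (F.erase ea).card = 1 := by rw [Finset.card_erase_of_mem hea, hcard]
      obtain ⟨z, hz⟩ := Finset.card_eq_one.1 hc
      have h1 : e₁ ∈ F.erase ea := Finset.mem_erase.2 ⟨hne1, he₁⟩
      have h2 : e₂ ∈ F.erase ea := Finset.mem_erase.2 ⟨hne2, he₂⟩
      rw [hz, Finset.mem_singleton] at h1 h2
      rw [h1, h2]
    have hval : e₁.1 = s(w₁, w₂) :=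
      (Sym2.mem_and_mem_iff h).1 ⟨hwe₁, he₁₂ ▸ hwe₂⟩
    have he₁mk : e₁ = mkE w₁ w₂ h := by
      apply Subtype.ext
      simp [mkE, hval]
    have hsub : ({mkE a y hya.symm, mkE w₁ w₂ h} : Finset (Edge n)) ⊆ F := by
      intro x hx
      simp only [Finset.mem_insert, Finset.mem_singleton] at hx
      rcases hx with rfl | rfl
      · rw [← heay]; exact hea
      · rw [← he₁mk]; exact he₁
    have hne' : mkE a y hya.symm ≠ mkE w₁ w₂ h := by
      rw [← heay, ← he₁mk]
      exact hne1.symm
    refine (Finset.eq_of_subset_of_card_le hsub ?_).symm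
    rw [hcard, Finset.card_pair hne']
  -- case split on `y`
  rcases (hS y).1 hyS with h | rfl | rfl | rfl
  · exact absurd h hya
  · left
    exact key c d hcd hcS hdS hac.symm hbc.symm had.symm hbd.symm
  · right; left
    exact key b d hbd hbS hdS hab.symm hbc had.symm hcd.symm
  · right; right
    exact key b c hbc hbS hcS hab.symm hbd hac.symm hcd

/-- A 4-set has exactly three perfect matchings. -/
theorem card_pmSet {S : Finset (Fin n)} (hS : S.card = 4) : (pmSet S).card = 3 := by
  classical
  obtain ⟨a, t, hat, hins, ht⟩ := Finset.card_eq_succ.1 hS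
  obtain ⟨b, c, d, hbc, hbd, hcd, rfl⟩ := Finset.card_eq_three.1 ht
  simp only [Finset.mem_insert, Finset.mem_singleton, not_or] at hat
  obtain ⟨hab, hac, had⟩ := hat
  have hmem : ∀ v, v ∈ S ↔ v = a ∨ v = b ∨ v = c ∨ v = d := by
    intro v
    rw [← hins]
    simp
  have hmem2 : ∀ v, v ∈ S ↔ v = a ∨ v = c ∨ v = b ∨ v = d := by
    intro v; rw [hmem]; tauto
  have hmem3 : ∀ v, v ∈ S ↔ v = a ∨ v = d ∨ v = b ∨ v = c := by
    intro v; rw [hmem]; tauto
  have hset : pmSet S = {({mkE a b hab, mkE c d hcd} : Finset (Edge n)),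
      ({mkE a c hac, mkE b d hbd} : Finset (Edge n)),
      ({mkE a d had, mkE b c hbc} : Finset (Edge n))} := by
    ext F
    simp only [Finset.mem_insert, Finset.mem_singleton]
    constructor
    · exact pmSet_subset_aux hab hac had hbc hbd hcd hmem
    · rintro (rfl | rfl | rfl)
      · exact pair_mem_pmSet hab hac had hbc hbd hcd hmem
      · exact pair_mem_pmSet hac hab had hbc.symm hcd hbd hmem2
      · exact pair_mem_pmSet had hab hac hbd.symm hcd.symm hbc hmem3
  rw [hset]
  have h12 : ({mkE a b hab, mkE c d hcd} : Finset (Edge n)) ≠ {mkE a c hac, mkE b d hbd} := by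
    intro h
    have : mkE a b hab ∈ ({mkE a c hac, mkE b d hbd} : Finset (Edge n)) := by
      rw [← h]; simp
    simp only [Finset.mem_insert, Finset.mem_singleton] at this
    rcases this with h1 | h1
    · have := congrArg Subtype.val h1
      simp only [mkE, Sym2.eq_iff] at this
      rcases this with ⟨_, h2⟩ | ⟨h2, _⟩
      · exact hbc h2
      · exact hac h2
    · have := congrArg Subtype.val h1
      simp only [mkE, Sym2.eq_iff] at this
      rcases this with ⟨h2, _⟩ | ⟨h2, _⟩
      · exact hab h2
      · exact had h2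
  have h13 : ({mkE a b hab, mkE c d hcd} : Finset (Edge n)) ≠ {mkE a d had, mkE b c hbc} := by
    intro h
    have : mkE a b hab ∈ ({mkE a d had, mkE b c hbc} : Finset (Edge n)) := by
      rw [← h]; simp
    simp only [Finset.mem_insert, Finset.mem_singleton] at this
    rcases this with h1 | h1
    · have := congrArg Subtype.val h1
      simp only [mkE, Sym2.eq_iff] at this
      rcases this with ⟨_, h2⟩ | ⟨h2, _⟩
      · exact hbd h2
      · exact had h2
    · have := congrArg Subtype.val h1
      simp only [mkE, Sym2.eq_iff] at this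
      rcases this with ⟨h2, _⟩ | ⟨h2, _⟩
      · exact hab h2
      · exact hac h2
  have h23 : ({mkE a c hac, mkE b d hbd} : Finset (Edge n)) ≠ {mkE a d had, mkE b c hbc} := by
    intro h
    have : mkE a c hac ∈ ({mkE a d had, mkE b c hbc} : Finset (Edge n)) := by
      rw [← h]; simp
    simp only [Finset.mem_insert, Finset.mem_singleton] at this
    rcases this with h1 | h1
    · have := congrArg Subtype.val h1
      simp only [mkE, Sym2.eq_iff] at this
      rcases this with ⟨_, h2⟩ | ⟨h2, _⟩
      · exact hcd h2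
      · exact had h2
    · have := congrArg Subtype.val h1
      simp only [mkE, Sym2.eq_iff] at this
      rcases this with ⟨h2, _⟩ | ⟨h2, _⟩
      · exact hab h2
      · exact hac h2
  rw [Finset.card_insert_of_notMem, Finset.card_pair h23]
  simp only [Finset.mem_insert, Finset.mem_singleton, not_or]
  exact ⟨h12, h13⟩

/-- Row sum of the proposal count. -/
theorem sum_proposalCount (E : Finset (Edge n)) :
    ∑ E', proposalCount E E' = 6 * n.choose 4 := by
  unfold proposalCount
  rw [Finset.sum_comm]
  have hS : ∀ S ∈ (univ : Finset (Fin n)).powersetCard 4,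
      ∑ E', ∑ F ∈ pmSet S, ∑ F' ∈ (pmSet S).erase F, (if switchResult E F F' = E' then 1 else 0) = 6 := by
    intro S hS
    have hcard : S.card = 4 := (Finset.mem_powersetCard.1 hS).2
    rw [Finset.sum_comm]
    have : ∀ F ∈ pmSet S, ∑ E', ∑ F' ∈ (pmSet S).erase F,
        (if switchResult E F F' = E' then 1 else 0) = 2 := by
      intro F hF
      rw [Finset.sum_comm]
      have h1 : ∀ F' ∈ (pmSet S).erase F,
          ∑ E', (if switchResult E F F' = E' then 1 else 0) = 1 := by
        intro F' _
        simp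
      rw [Finset.sum_congr rfl h1, Finset.sum_const, Finset.card_erase_of_mem hF, card_pmSet hcard]
      simp
    rw [Finset.sum_congr rfl this, Finset.sum_const, card_pmSet hcard]
    simp
  rw [Finset.sum_congr rfl hS, Finset.sum_const, Finset.card_powersetCard, Finset.card_univ,
    Fintype.card_fin]
  simp [mul_comm]

/-- Row sum of the proposal count over the realizations. -/
theorem sum_proposalCount_realizations {d : Fin n → ℕ} {E : Finset (Edge n)}
    (hE : E ∈ realizations d) :
    ∑ E' ∈ realizations d, proposalCount E E' = 6 * n.choose 4 := by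
  rw [← sum_proposalCount E]
  apply Finset.sum_subset (Finset.subset_univ _)
  intro x _ hx
  exact proposalCount_eq_zero_of_not_mem hE hx

/-- Row sum of the kernel over the realizations (`n ≥ 4`). -/
theorem kernel_rowSum (hn : 4 ≤ n) {d : Fin n → ℕ} {E : Finset (Edge n)}
    (hE : E ∈ realizations d) :
    ∑ E' ∈ realizations d, kernel n E E' = 1 := by
  have hC : (0 : ℝ) < (n.choose 4 : ℝ) := by
    exact_mod_cast Nat.choose_pos hn
  unfold kernel
  rw [Finset.sum_add_distrib, ← Finset.sum_div, ← Nat.cast_sum,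
    sum_proposalCount_realizations hE, Finset.sum_ite_eq]
  simp only [hE, if_true]
  push_cast
  field_simp
  norm_num

end Crest.Agent.SW
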