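/- Package I1 (helper9): the Dirichlet form of the chain dominates the switch sum. -/
import Crest.Agent.Lib.SW.Api
import Crest.Agent.Lib.SW.KernelFacts

set_option autoImplicit false

namespace Crest.Agent.SW

open Finset Crest.SwitchChain

variable {n : ℕ}

/-! ### A switch is a proposal -/

section Prop1

variable {a b c e : Fin n}

/-- The vertex set of the 4-cycle. -/
def I1_swS (a b c e : Fin n) : Finset (Fin n) := {a, b, c, e}

/-- The matching `ac, be`. -/
def I1_swF (a b c e : Fin n) (hac : a ≠ c) (hbe : b ≠ e) : Finset (Edge n) :=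
  {mkEdge a c hac, mkEdge b e hbe}

lemma I1_mem_mkEdge {u v w : Fin n} (h : u ≠ v) : w ∈ (mkEdge u v h).1 ↔ w = u ∨ w = v := by
  simp [mkEdge]

lemma I1_mkEdge_eq_iff {u v x y : Fin n} (h : u ≠ v) (h' : x ≠ y) :
    mkEdge u v h = mkEdge x y h' ↔ (u = x ∧ v = y) ∨ (u = y ∧ v = x) := by
  constructor
  · intro hh
    have : s(u, v) = s(x, y) := congrArg Subtype.val hh
    simpa [Sym2.eq_iff] using this
  · rintro (⟨rfl, rfl⟩ | ⟨rfl, rfl⟩)
    · rfl
    · exact mkEdge_comm _ _ _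

lemma I1_swS_card (hab : a ≠ b) (hac : a ≠ c) (hae : a ≠ e) (hbc : b ≠ c) (hbe : b ≠ e)
    (hce : c ≠ e) : (I1_swS a b c e).card = 4 := by
  unfold I1_swS
  rw [card_insert_of_notMem, card_insert_of_notMem, card_insert_of_notMem, card_singleton]
  · simpa using hce
  · simp [hbc, hbe]
  · simp [hab, hac, hae]

lemma I1_swF_mem_pmSet (hab : a ≠ b) (hac : a ≠ c) (hae : a ≠ e) (hbc : b ≠ c) (hbe : b ≠ e)
    (hce : c ≠ e) : I1_swF a b c e hac hbe ∈ pmSet (I1_swS a b c e) := by
  classical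
  unfold pmSet
  simp only [mem_filter, mem_powersetCard, subset_univ, true_and]
  have hne : mkEdge a c hac ≠ mkEdge b e hbe := by
    intro h
    rcases (I1_mkEdge_eq_iff hac hbe).1 h with ⟨h1, _⟩ | ⟨h1, _⟩
    · exact hab h1
    · exact hae h1
  refine ⟨?_, ?_, ?_⟩
  · unfold I1_swF
    exact card_pair hne
  · intro x hx v hv
    unfold I1_swF at hx
    simp only [mem_insert, mem_singleton] at hx
    rcases hx with rfl | rfl
    · rw [I1_mem_mkEdge] at hv
      unfold I1_swS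
      simp only [mem_insert, mem_singleton]
      tauto
    · rw [I1_mem_mkEdge] at hv
      unfold I1_swS
      simp only [mem_insert, mem_singleton]
      tauto
  · intro v hv
    unfold I1_swS at hv
    simp only [mem_insert, mem_singleton] at hv
    unfold I1_swF
    rw [filter_insert, filter_singleton]
    rcases hv with rfl | rfl | rfl | rfl
    · simp [I1_mem_mkEdge, hab, hae, hac]
    · simp [I1_mem_mkEdge, hab.symm, hbc]
    · simp [I1_mem_mkEdge, hac.symm, hbc.symm, hce]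
    · simp [I1_mem_mkEdge, hae.symm, hce.symm, hbe.symm]

lemma I1_swS_comm (a b c e : Fin n) : I1_swS a b e c = I1_swS a b c e := by
  unfold I1_swS
  ext x
  simp only [mem_insert, mem_singleton]
  tauto

/-- A switch is a proposal with outcome `G'`. -/
lemma I1_proposalCount_pos_of_isSw {G G' : Finset (Edge n)}
    (hab : a ≠ b) (hac : a ≠ c) (hae : a ≠ e) (hbc : b ≠ c) (hbe : b ≠ e) (hce : c ≠ e)
    (h : IsSw a b c e G G') : 1 ≤ proposalCount G G' := by
  classical
  obtain ⟨⟨h1, h2, h3, h4⟩, ⟨h5, h6, h7, h8⟩, h9⟩ := h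
  set S := I1_swS a b c e with hS
  set F := I1_swF a b c e hac hbe with hF
  set F' := I1_swF a b e c hae hbc with hF'
  have hS4 : S ∈ (univ : Finset (Fin n)).powersetCard 4 := by
    rw [mem_powersetCard]
    exact ⟨subset_univ _, I1_swS_card hab hac hae hbc hbe hce⟩
  have hFm : F ∈ pmSet S := I1_swF_mem_pmSet hab hac hae hbc hbe hce
  have hFm' : F' ∈ pmSet S := by
    have := I1_swF_mem_pmSet (a := a) (b := b) (c := e) (e := c) hab hae hac hbe hbc hce.symm
    rwa [I1_swS_comm] at this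
  have hne : F' ≠ F := by
    intro hEq
    have : mkEdge a e hae ∈ F := by
      rw [← hEq, hF']
      simp [I1_swF]
    rw [hF] at this
    simp only [I1_swF, mem_insert, mem_singleton] at this
    rcases this with hh | hh
    · rcases (I1_mkEdge_eq_iff hae hac).1 hh with ⟨_, h0⟩ | ⟨h0, _⟩
      · exact hce h0.symm
      · exact hac h0
    · rcases (I1_mkEdge_eq_iff hae hbe).1 hh with ⟨h0, _⟩ | ⟨h0, _⟩
      · exact hab h0
      · exact hae h0
  have hmemac : mkEdge a c hac ∈ G := (ent_eq_one_iff G a c hac).1 h1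
  have hmembe : mkEdge b e hbe ∈ G := (ent_eq_one_iff G b e hbe).1 h2
  have hnotae : mkEdge a e hae ∉ G := by
    intro hm
    have := (ent_eq_one_iff G a e hae).2 hm
    omega
  have hnotbc : mkEdge b c hbc ∉ G := by
    intro hm
    have := (ent_eq_one_iff G b c hbc).2 hm
    omega
  have hmemae' : mkEdge a e hae ∈ G' := (ent_eq_one_iff G' a e hae).1 h5
  have hmembc' : mkEdge b c hbc ∈ G' := (ent_eq_one_iff G' b c hbc).1 h6
  have hnotac' : mkEdge a c hac ∉ G' := by
    intro hm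
    have := (ent_eq_one_iff G' a c hac).2 hm
    omega
  have hnotbe' : mkEdge b e hbe ∉ G' := by
    intro hm
    have := (ent_eq_one_iff G' b e hbe).2 hm
    omega
  have hsub : F ⊆ G := by
    intro x hx
    rw [hF] at hx
    simp only [I1_swF, mem_insert, mem_singleton] at hx
    rcases hx with rfl | rfl <;> assumption
  have hdis : Disjoint F' G := by
    rw [disjoint_left]
    intro x hx
    rw [hF'] at hx
    simp only [I1_swF, mem_insert, mem_singleton] at hx
    rcases hx with rfl | rfl <;> assumption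
  have hres : switchResult G F F' = G' := by
    unfold switchResult
    rw [if_pos ⟨hsub, hdis⟩]
    ext x
    obtain ⟨u, v, huv, rfl⟩ := edge_exists x
    simp only [mem_union, mem_sdiff]
    by_cases hp : (u = a ∧ v = c) ∨ (u = c ∧ v = a) ∨ (u = b ∧ v = e) ∨ (u = e ∧ v = b) ∨
            (u = a ∧ v = e) ∨ (u = e ∧ v = a) ∨ (u = b ∧ v = c) ∨ (u = c ∧ v = b)
    · have hFx : mkEdge u v huv ∈ F ∨ mkEdge u v huv ∈ F' := by
        rw [hF, hF']
        simp only [I1_swF, mem_insert, mem_singleton]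
        rcases hp with ⟨rfl, rfl⟩ | ⟨rfl, rfl⟩ | ⟨rfl, rfl⟩ | ⟨rfl, rfl⟩ | ⟨rfl, rfl⟩ | ⟨rfl, rfl⟩ |
            ⟨rfl, rfl⟩ | ⟨rfl, rfl⟩
        · exact Or.inl (Or.inl rfl)
        · exact Or.inl (Or.inl (mkEdge_comm _ _ _))
        · exact Or.inl (Or.inr rfl)
        · exact Or.inl (Or.inr (mkEdge_comm _ _ _))
        · exact Or.inr (Or.inl rfl)
        · exact Or.inr (Or.inl (mkEdge_comm _ _ _))
        · exact Or.inr (Or.inr rfl)
        · exact Or.inr (Or.inr (mkEdge_comm _ _ _))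
      rcases hFx with hx | hx
      · have hxG' : mkEdge u v huv ∉ G' := by
          rw [hF] at hx
          simp only [I1_swF, mem_insert, mem_singleton] at hx
          rcases hx with hx | hx <;> rw [hx] <;> assumption
        have hxF' : mkEdge u v huv ∉ F' := fun hm => disjoint_left.1 hdis hm (hsub hx)
        simp [hx, hxG', hxF']
      · have hxG' : mkEdge u v huv ∈ G' := by
          rw [hF'] at hx
          simp only [I1_swF, mem_insert, mem_singleton] at hx
          rcases hx with hx | hx <;> rw [hx] <;> assumption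
        simp [hx, hxG']
    · have hent := h9 u v hp
      have hiff : mkEdge u v huv ∈ G ↔ mkEdge u v huv ∈ G' := by
        rw [← ent_eq_one_iff G u v huv, ← ent_eq_one_iff G' u v huv, hent]
      have hxF : mkEdge u v huv ∉ F := by
        intro hm
        apply hp
        rw [hF] at hm
        simp only [I1_swF, mem_insert, mem_singleton] at hm
        rcases hm with hm | hm
        · rcases (I1_mkEdge_eq_iff huv hac).1 hm with ⟨h0, h00⟩ | ⟨h0, h00⟩
          · exact Or.inl ⟨h0, h00⟩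
          · exact Or.inr (Or.inl ⟨h0, h00⟩)
        · rcases (I1_mkEdge_eq_iff huv hbe).1 hm with ⟨h0, h00⟩ | ⟨h0, h00⟩
          · exact Or.inr (Or.inr (Or.inl ⟨h0, h00⟩))
          · exact Or.inr (Or.inr (Or.inr (Or.inl ⟨h0, h00⟩)))
      have hxF' : mkEdge u v huv ∉ F' := by
        intro hm
        apply hp
        rw [hF'] at hm
        simp only [I1_swF, mem_insert, mem_singleton] at hm
        rcases hm with hm | hm
        · rcases (I1_mkEdge_eq_iff huv hae).1 hm with ⟨h0, h00⟩ | ⟨h0, h00⟩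
          · exact Or.inr (Or.inr (Or.inr (Or.inr (Or.inl ⟨h0, h00⟩))))
          · exact Or.inr (Or.inr (Or.inr (Or.inr (Or.inr (Or.inl ⟨h0, h00⟩)))))
        · rcases (I1_mkEdge_eq_iff huv hbc).1 hm with ⟨h0, h00⟩ | ⟨h0, h00⟩
          · exact Or.inr (Or.inr (Or.inr (Or.inr (Or.inr (Or.inr (Or.inl ⟨h0, h00⟩))))))
          · exact Or.inr (Or.inr (Or.inr (Or.inr (Or.inr (Or.inr (Or.inr ⟨h0, h00⟩))))))
      simp only [hxF, hxF', not_false_eq_true, and_true, or_false]
      exact hiff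
  unfold proposalCount
  have hinner : 1 ≤ ∑ F₁ ∈ pmSet S, ∑ F₂ ∈ (pmSet S).erase F₁,
      if switchResult G F₁ F₂ = G' then 1 else 0 := by
    refine le_trans ?_ (single_le_sum (f := fun F₁ => ∑ F₂ ∈ (pmSet S).erase F₁,
      if switchResult G F₁ F₂ = G' then 1 else 0) (fun _ _ => Nat.zero_le _) hFm)
    refine le_trans ?_ (single_le_sum (f := fun F₂ => if switchResult G F F₂ = G' then 1 else 0)
      (fun _ _ => Nat.zero_le _) (mem_erase.2 ⟨hne, hFm'⟩))
    simp [hres]
  exact le_trans hinner (single_le_sum (f := fun S => ∑ F₁ ∈ pmSet S, ∑ F₂ ∈ (pmSet S).erase F₁,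
      if switchResult G F₁ F₂ = G' then 1 else 0) (fun _ _ => Nat.zero_le _) hS4)

/-- For fixed `a,b`, a switch determines `c,e`. -/
lemma I1_isSw_unique {G G' : Finset (Edge n)} {c' e' : Fin n}
    (hab : a ≠ b) (hac : a ≠ c) (hae : a ≠ e) (hac' : a ≠ c') (hae' : a ≠ e')
    (h : IsSw a b c e G G') (h' : IsSw a b c' e' G G') : c = c' ∧ e = e' := by
  obtain ⟨⟨h1, _, h3, _⟩, ⟨h5, _, h7, _⟩, _⟩ := h
  obtain ⟨⟨k1, _, k3, _⟩, ⟨k5, _, k7, _⟩, k9⟩ := h'
  constructor
  · by_contra hc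
    by_cases hce' : c = e'
    · subst hce'
      omega
    · have := k9 a c (by
        rintro (⟨_, h0⟩ | ⟨h0, _⟩ | ⟨h0, _⟩ | ⟨h0, _⟩ | ⟨_, h0⟩ | ⟨h0, _⟩ | ⟨h0, _⟩ | ⟨h0, _⟩)
        · exact hc h0
        · exact hac' h0
        · exact hab h0
        · exact hae' h0
        · exact hce' h0
        · exact hae' h0
        · exact hab h0
        · exact hac' h0)
      omega
  · by_contra he
    by_cases hec' : e = c'
    · subst hec'
      omega
    · have := k9 a e (by
        rintro (⟨_, h0⟩ | ⟨h0, _⟩ | ⟨h0, _⟩ | ⟨h0, _⟩ | ⟨_, h0⟩ | ⟨h0, _⟩ | ⟨h0, _⟩ | ⟨h0, _⟩)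
        · exact hec' h0
        · exact hac' h0
        · exact hab h0
        · exact hae' h0
        · exact he h0
        · exact hae' h0
        · exact hab h0
        · exact hac' h0)
      omega

end Prop1

/-! ### Counting switches between two graphs -/

open Classical in
/-- The tuples realising a switch from `G` to `G'`. -/
noncomputable def I1_swTuples (G G' : Finset (Edge n)) : Finset (Fin n × Fin n × Fin n × Fin n) :=
  univ.filter fun t => (t.1 ≠ t.2.1 ∧ t.1 ≠ t.2.2.1 ∧ t.1 ≠ t.2.2.2 ∧ t.2.1 ≠ t.2.2.1 ∧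
    t.2.1 ≠ t.2.2.2 ∧ t.2.2.1 ≠ t.2.2.2) ∧ IsSw t.1 t.2.1 t.2.2.1 t.2.2.2 G G'

lemma I1_swTuples_card_le (G G' : Finset (Edge n)) : (I1_swTuples G G').card ≤ n ^ 2 := by
  classical
  have : (I1_swTuples G G').card ≤ ((univ : Finset (Fin n × Fin n))).card := by
    apply card_le_card_of_injOn (fun t => (t.1, t.2.1)) (fun _ _ => mem_coe.2 (mem_univ _))
    rintro ⟨a, b, c, e⟩ ht ⟨a', b', c', e'⟩ ht' hEq
    simp only [I1_swTuples, coe_filter, mem_univ, true_and, Set.mem_ofPred_eq] at ht ht'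
    simp only [Prod.mk.injEq] at hEq
    obtain ⟨rfl, rfl⟩ := hEq
    obtain ⟨⟨hab, hac, hae, _, _, _⟩, hsw⟩ := ht
    obtain ⟨⟨_, hac', hae', _, _, _⟩, hsw'⟩ := ht'
    obtain ⟨rfl, rfl⟩ := I1_isSw_unique hab hac hae hac' hae' hsw hsw'
    rfl
  simpa [Fintype.card_prod, sq] using this

lemma I1_swTuples_card_le_pc (G G' : Finset (Edge n)) :
    (I1_swTuples G G').card ≤ n ^ 2 * proposalCount G G' := by
  classical
  by_cases h : (I1_swTuples G G').Nonempty
  · obtain ⟨⟨a, b, c, e⟩, ht⟩ := h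
    simp only [I1_swTuples, mem_filter, mem_univ, true_and] at ht
    obtain ⟨⟨hab, hac, hae, hbc, hbe, hce⟩, hsw⟩ := ht
    have := I1_proposalCount_pos_of_isSw hab hac hae hbc hbe hce hsw
    calc (I1_swTuples G G').card ≤ n ^ 2 := I1_swTuples_card_le G G'
      _ ≤ n ^ 2 * proposalCount G G' := Nat.le_mul_of_pos_right _ this
  · rw [not_nonempty_iff_eq_empty] at h
    rw [h]
    simp

/-- Rewriting the four-fold sum of `SwT` as a double sum over graphs. -/
lemma I1_sum_SwT_eq {d : Fin n → ℕ} (f : Finset (Edge n) → ℝ) :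
    ∑ a, ∑ b, ∑ c, ∑ e, (if a ≠ b ∧ a ≠ c ∧ a ≠ e ∧ b ≠ c ∧ b ≠ e ∧ c ≠ e then
        SwT (d := d) a b c e (fun G => f G.1) else 0) =
      ∑ G ∈ realizations d, ∑ G' ∈ realizations d,
        ((I1_swTuples G G').card : ℝ) * (f G - f G') ^ 2 := by
  classical
  have h1 : ∀ a b c e : Fin n, (if a ≠ b ∧ a ≠ c ∧ a ≠ e ∧ b ≠ c ∧ b ≠ e ∧ c ≠ e then
        SwT (d := d) a b c e (fun G => f G.1) else 0) =
      ∑ G ∈ realizations d, ∑ G' ∈ realizations d,
        (if (a ≠ b ∧ a ≠ c ∧ a ≠ e ∧ b ≠ c ∧ b ≠ e ∧ c ≠ e) ∧ IsSw a b c e G G' then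
          (f G - f G') ^ 2 else 0) := by
    intro a b c e
    by_cases hd : a ≠ b ∧ a ≠ c ∧ a ≠ e ∧ b ≠ c ∧ b ≠ e ∧ c ≠ e
    · rw [if_pos hd]
      unfold SwT
      have e1 : ∀ g : Finset (Edge n) → ℝ, ∑ G : Om d, g G.1 = ∑ G ∈ realizations d, g G :=
        fun g => sum_coe_sort (realizations d) g
      rw [e1 (fun G => ∑ G' : Om d, if IsSw a b c e G G'.1 then (f G - f G'.1) ^ 2 else 0)]
      apply sum_congr rfl
      intro G _
      rw [e1 (fun G' => if IsSw a b c e G G' then (f G - f G') ^ 2 else 0)]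
      apply sum_congr rfl
      intro G' _
      simp only [hd, true_and, ne_eq, not_false_eq_true]
    · rw [if_neg hd]
      symm
      apply sum_eq_zero
      intro G _
      apply sum_eq_zero
      intro G' _
      rw [if_neg (fun h => hd h.1)]
  simp_rw [h1]
  have h2 : ∀ G G' : Finset (Edge n), ((I1_swTuples G G').card : ℝ) * (f G - f G') ^ 2 =
      ∑ t : Fin n × Fin n × Fin n × Fin n, (if (t.1 ≠ t.2.1 ∧ t.1 ≠ t.2.2.1 ∧ t.1 ≠ t.2.2.2 ∧
          t.2.1 ≠ t.2.2.1 ∧ t.2.1 ≠ t.2.2.2 ∧ t.2.2.1 ≠ t.2.2.2) ∧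
          IsSw t.1 t.2.1 t.2.2.1 t.2.2.2 G G' then (f G - f G') ^ 2 else 0) := by
    intro G G'
    rw [sum_ite, sum_const_zero, add_zero, sum_const, nsmul_eq_mul]
    rfl
  simp_rw [h2]
  calc _ = ∑ t : Fin n × Fin n × Fin n × Fin n, ∑ G ∈ realizations d, ∑ G' ∈ realizations d,
        (if (t.1 ≠ t.2.1 ∧ t.1 ≠ t.2.2.1 ∧ t.1 ≠ t.2.2.2 ∧
          t.2.1 ≠ t.2.2.1 ∧ t.2.1 ≠ t.2.2.2 ∧ t.2.2.1 ≠ t.2.2.2) ∧
          IsSw t.1 t.2.1 t.2.2.1 t.2.2.2 G G' then (f G - f G') ^ 2 else 0) := by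
        simp_rw [Fintype.sum_prod_type]
    _ = ∑ G ∈ realizations d, ∑ t : Fin n × Fin n × Fin n × Fin n, ∑ G' ∈ realizations d,
        (if (t.1 ≠ t.2.1 ∧ t.1 ≠ t.2.2.1 ∧ t.1 ≠ t.2.2.2 ∧
          t.2.1 ≠ t.2.2.1 ∧ t.2.1 ≠ t.2.2.2 ∧ t.2.2.1 ≠ t.2.2.2) ∧
          IsSw t.1 t.2.1 t.2.2.1 t.2.2.2 G G' then (f G - f G') ^ 2 else 0) := sum_comm
    _ = _ := by
        apply sum_congr rfl
        intro G _
        exact sum_comm

/-! ### The Dirichlet form of the chain -/

section Dirichlet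

variable {d : Fin n → ℕ}

/-- The algebraic identity: `24 C ⟨f,(I-P)f⟩ = ∑∑ pc (Δf)^2`, from the three kernel facts. -/
lemma I1_dirichlet_identity (C : ℝ) (hC : C ≠ 0)
    (hsymm : ∀ E E' : Finset (Edge n), proposalCount E E' = proposalCount E' E)
    (hstay : ∀ E ∈ realizations d, ∀ E', E' ∉ realizations d → proposalCount E E' = 0)
    (hsum : ∀ E : Finset (Edge n), (∑ E', (proposalCount E E' : ℝ)) = 6 * C)
    (hker : ∀ E E', kernel n E E' = (if E = E' then 1 / 2 else 0) + (proposalCount E E' : ℝ) / (12 * C))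
    (f : Finset (Edge n) → ℝ) :
    ∑ G ∈ realizations d, ∑ G' ∈ realizations d, (proposalCount G G' : ℝ) * (f G - f G') ^ 2 =
      24 * C * ∑ G ∈ realizations d,
        f G * (f G - ∑ G' ∈ realizations d, kernel n G G' * f G') := by
  classical
  set Ω := realizations d with hΩ
  -- row sums over Ω
  have hrow : ∀ G ∈ Ω, ∑ G' ∈ Ω, (proposalCount G G' : ℝ) = 6 * C := by
    intro G hG
    rw [← hsum G]
    apply sum_subset (subset_univ _)
    intro E' _ hE'
    rw [hstay G hG E' hE']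
    simp
  have hcol : ∀ G' ∈ Ω, ∑ G ∈ Ω, (proposalCount G G' : ℝ) = 6 * C := by
    intro G' hG'
    rw [← hrow G' hG']
    apply sum_congr rfl
    intro G _
    rw [hsymm]
  set A := ∑ G ∈ Ω, ∑ G' ∈ Ω, (proposalCount G G' : ℝ) * (f G * f G') with hA
  set Q := ∑ G ∈ Ω, f G ^ 2 with hQ
  have hleft : ∑ G ∈ Ω, ∑ G' ∈ Ω, (proposalCount G G' : ℝ) * (f G - f G') ^ 2 =
      12 * C * Q - 2 * A := by
    have e1 : ∀ G G', (proposalCount G G' : ℝ) * (f G - f G') ^ 2 =
        (proposalCount G G' : ℝ) * f G ^ 2 + (proposalCount G G' : ℝ) * f G' ^ 2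
          - 2 * ((proposalCount G G' : ℝ) * (f G * f G')) := by
      intro G G'; ring
    simp_rw [e1, sum_sub_distrib, sum_add_distrib, ← mul_sum]
    have e2 : ∑ G ∈ Ω, ∑ G' ∈ Ω, (proposalCount G G' : ℝ) * f G ^ 2 = 6 * C * Q := by
      rw [hQ, mul_sum]
      apply sum_congr rfl
      intro G hG
      rw [← sum_mul, hrow G hG]
    have e3 : ∑ G ∈ Ω, ∑ G' ∈ Ω, (proposalCount G G' : ℝ) * f G' ^ 2 = 6 * C * Q := by
      rw [sum_comm, hQ, mul_sum]
      apply sum_congr rfl
      intro G' hG'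
      rw [← sum_mul, hcol G' hG']
    rw [e2, e3]
    ring
  have hright : ∑ G ∈ Ω, f G * (f G - ∑ G' ∈ Ω, kernel n G G' * f G') =
      Q / 2 - A / (12 * C) := by
    have e1 : ∀ G ∈ Ω, f G * (f G - ∑ G' ∈ Ω, kernel n G G' * f G') =
        f G ^ 2 / 2 - (∑ G' ∈ Ω, (proposalCount G G' : ℝ) * (f G * f G')) / (12 * C) := by
      intro G hG
      have e2 : ∑ G' ∈ Ω, kernel n G G' * f G' =
          f G / 2 + (∑ G' ∈ Ω, (proposalCount G G' : ℝ) * f G') / (12 * C) := by
        simp_rw [hker, add_mul, sum_add_distrib]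
        congr 1
        · rw [sum_eq_single G]
          · simp; ring
          · intro b _ hb
            simp [Ne.symm hb]
          · intro hG'
            exact absurd hG hG'
        · rw [sum_div]
          apply sum_congr rfl
          intro x _
          ring
      rw [e2]
      have e3 : ∑ G' ∈ Ω, (proposalCount G G' : ℝ) * (f G * f G') =
          f G * ∑ G' ∈ Ω, (proposalCount G G' : ℝ) * f G' := by
        rw [mul_sum]
        apply sum_congr rfl
        intro x _
        ring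
      rw [e3]
      ring
    rw [sum_congr rfl e1, sum_sub_distrib, ← sum_div, ← sum_div]
  rw [hleft, hright]
  field_simp
  ring

/-- `dirichlet_lower` from the three kernel facts. -/
theorem I1_dirichlet_lower_of_facts (hn : 4 ≤ n)
    (hsymm : ∀ E E' : Finset (Edge n), proposalCount E E' = proposalCount E' E)
    (hstay : ∀ E ∈ realizations d, ∀ E', E' ∉ realizations d → proposalCount E E' = 0)
    (hsum : ∀ E : Finset (Edge n), (∑ E', (proposalCount E E' : ℝ)) = 6 * (n.choose 4 : ℝ))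
    (f : Finset (Edge n) → ℝ) :
    ∑ a, ∑ b, ∑ c, ∑ e, (if a ≠ b ∧ a ≠ c ∧ a ≠ e ∧ b ≠ c ∧ b ≠ e ∧ c ≠ e then
        SwT (d := d) a b c e (fun G => f G.1) else 0) ≤
      24 * (n : ℝ) ^ 2 * (n.choose 4 : ℝ) *
        ∑ G ∈ realizations d, f G * (f G - ∑ G' ∈ realizations d, kernel n G G' * f G') := by
  have hC : ((n.choose 4 : ℕ) : ℝ) ≠ 0 := by
    have := Nat.choose_pos hn
    positivity
  have hid := I1_dirichlet_identity (d := d) ((n.choose 4 : ℕ) : ℝ) hC hsymm hstay hsum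
    (fun _ _ => rfl) f
  rw [I1_sum_SwT_eq]
  calc ∑ G ∈ realizations d, ∑ G' ∈ realizations d,
        ((I1_swTuples G G').card : ℝ) * (f G - f G') ^ 2
      ≤ ∑ G ∈ realizations d, ∑ G' ∈ realizations d,
        ((n : ℝ) ^ 2 * (proposalCount G G' : ℝ)) * (f G - f G') ^ 2 := by
        apply sum_le_sum
        intro G _
        apply sum_le_sum
        intro G' _
        apply mul_le_mul_of_nonneg_right _ (sq_nonneg _)
        have := I1_swTuples_card_le_pc G G'
        exact_mod_cast this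
    _ = (n : ℝ) ^ 2 * ∑ G ∈ realizations d, ∑ G' ∈ realizations d,
        (proposalCount G G' : ℝ) * (f G - f G') ^ 2 := by
        rw [mul_sum]
        apply sum_congr rfl
        intro G _
        rw [mul_sum]
        apply sum_congr rfl
        intro G' _
        ring
    _ = _ := by
        rw [hid]
        ring

/-- **Package I1.** The Dirichlet form of the chain dominates the switch sum. -/
theorem dirichlet_lower (hn : 4 ≤ n) {d : Fin n → ℕ} (f : Finset (Edge n) → ℝ) :
    ∑ a, ∑ b, ∑ c, ∑ e, (if a ≠ b ∧ a ≠ c ∧ a ≠ e ∧ b ≠ c ∧ b ≠ e ∧ c ≠ e then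
        SwT (d := d) a b c e (fun G => f G.1) else 0) ≤
      24 * (n : ℝ) ^ 2 * (n.choose 4 : ℝ) *
        ∑ G ∈ realizations d, f G * (f G - ∑ G' ∈ realizations d, kernel n G G' * f G') := by
  refine I1_dirichlet_lower_of_facts hn proposalCount_symm
    (fun E hE E' hE' => proposalCount_eq_zero_of_not_mem hE hE') ?_ f
  intro E
  have := sum_proposalCount E
  exact_mod_cast this

end Dirichlet

end Crest.Agent.SW
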