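/- Package H (helper9): connectivity of the realizations under the fibre relations. -/
import Crest.Agent.Lib.SW.Avg
import Crest.Agent.Lib.SW.Chain

set_option autoImplicit false

namespace Crest.Agent.SW

open Finset Crest.SwitchChain

variable {n : ℕ}

lemma H_ent_eq_of_iff {E E' : Finset (Edge n)} {u v : Fin n} (huv : u ≠ v)
    (h : mkEdge u v huv ∈ E ↔ mkEdge u v huv ∈ E') : ent E u v = ent E' u v := by
  have h1 := ent_eq_one_iff E u v huv
  have h2 := ent_eq_one_iff E' u v huv
  have h3 := ent_zero_or_one E u v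
  have h4 := ent_zero_or_one E' u v
  rcases h3 with h3 | h3 <;> rcases h4 with h4 | h4
  · omega
  · exact absurd (h1.2 (h.2 (h2.1 h4))) (by omega)
  · exact absurd (h2.2 (h.1 (h1.1 h3))) (by omega)
  · omega

lemma H_ent_zero_of_not_mem {E : Finset (Edge n)} {u v : Fin n} (huv : u ≠ v)
    (h : mkEdge u v huv ∉ E) : ent E u v = 0 := by
  rcases ent_zero_or_one E u v with h3 | h3
  · exact h3
  · exact absurd ((ent_eq_one_iff E u v huv).1 h3) h

lemma H_not_mem_of_ent_zero {E : Finset (Edge n)} {u v : Fin n} (huv : u ≠ v)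
    (h : ent E u v = 0) : mkEdge u v huv ∉ E := by
  intro hm
  have := (ent_eq_one_iff E u v huv).2 hm
  omega

/-- Performing the proposal is a switch. -/
lemma H_isSw_switch {a b c e : Fin n} {G : Finset (Edge n)}
    (hab : a ≠ b) (hac : a ≠ c) (hae : a ≠ e) (hbc : b ≠ c) (hbe : b ≠ e) (hce : c ≠ e)
    (h : D1 a b c e G) :
    IsSw a b c e G (switchResult G (I1_swF a b c e hac hbe) (I1_swF a b e c hae hbc)) := by
  classical
  obtain ⟨h1, h2, h3, h4⟩ := id h
  set F := I1_swF a b c e hac hbe with hF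
  set F' := I1_swF a b e c hae hbc with hF'
  have hsub : F ⊆ G := by
    intro x hx
    rw [hF] at hx
    simp only [I1_swF, mem_insert, mem_singleton] at hx
    rcases hx with rfl | rfl
    · exact (ent_eq_one_iff G a c hac).1 h1
    · exact (ent_eq_one_iff G b e hbe).1 h2
  have hdis : Disjoint F' G := by
    rw [disjoint_left]
    intro x hx
    rw [hF'] at hx
    simp only [I1_swF, mem_insert, mem_singleton] at hx
    rcases hx with rfl | rfl
    · exact H_not_mem_of_ent_zero hae h3
    · exact H_not_mem_of_ent_zero hbc h4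
  have hres : switchResult G F F' = G \ F ∪ F' := by
    unfold switchResult
    rw [if_pos ⟨hsub, hdis⟩]
  have hFF' : ∀ x, x ∈ F → x ∉ F' := fun x hx hx' => disjoint_left.1 hdis hx' (hsub hx)
  rw [hres]
  have macF : mkEdge a c hac ∈ F := by rw [hF]; simp [I1_swF]
  have mbeF : mkEdge b e hbe ∈ F := by rw [hF]; simp [I1_swF]
  have maeF' : mkEdge a e hae ∈ F' := by rw [hF']; simp [I1_swF]
  have mbcF' : mkEdge b c hbc ∈ F' := by rw [hF']; simp [I1_swF]
  refine ⟨h, ⟨?_, ?_, ?_, ?_⟩, ?_⟩
  · exact (ent_eq_one_iff _ a e hae).2 (mem_union_right _ maeF')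
  · exact (ent_eq_one_iff _ b c hbc).2 (mem_union_right _ mbcF')
  · apply H_ent_zero_of_not_mem hac
    simp only [mem_union, mem_sdiff, not_or, not_and, not_not]
    exact ⟨fun _ => macF, hFF' _ macF⟩
  · apply H_ent_zero_of_not_mem hbe
    simp only [mem_union, mem_sdiff, not_or, not_and, not_not]
    exact ⟨fun _ => mbeF, hFF' _ mbeF⟩
  · intro u v hp
    by_cases huv : u = v
    · subst huv; simp
    · apply H_ent_eq_of_iff huv
      have hxF : mkEdge u v huv ∉ F := by
        intro hm
        apply hp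
        rw [hF] at hm
        simp only [I1_swF, mem_insert, mem_singleton] at hm
        rcases hm with hm | hm
        · rcases (I1_mkEdge_eq_iff huv hac).1 hm with ⟨h0, h00⟩ | ⟨h0, h00⟩
          · exact Or.inl ⟨h0, h00⟩
          · exact Or.inr (Or.inl ⟨h0, h00⟩)
        · rcases (I1_mkEdge_eq_iff huv hbe).1 hm with ⟨h0, h00⟩ | ⟨h0, h00⟩
          · exact Or.inr (Or.inr (Or.inl ⟨h0, h00⟩))
          · exact Or.inr (Or.inr (Or.inr (Or.inl ⟨h0, h00⟩)))
      have hxF' : mkEdge u v huv ∉ F' := by
        intro hm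
        apply hp
        rw [hF'] at hm
        simp only [I1_swF, mem_insert, mem_singleton] at hm
        rcases hm with hm | hm
        · rcases (I1_mkEdge_eq_iff huv hae).1 hm with ⟨h0, h00⟩ | ⟨h0, h00⟩
          · exact Or.inr (Or.inr (Or.inr (Or.inr (Or.inl ⟨h0, h00⟩))))
          · exact Or.inr (Or.inr (Or.inr (Or.inr (Or.inr (Or.inl ⟨h0, h00⟩)))))
        · rcases (I1_mkEdge_eq_iff huv hbc).1 hm with ⟨h0, h00⟩ | ⟨h0, h00⟩
          · exact Or.inr (Or.inr (Or.inr (Or.inr (Or.inr (Or.inr (Or.inl ⟨h0, h00⟩))))))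
          · exact Or.inr (Or.inr (Or.inr (Or.inr (Or.inr (Or.inr (Or.inr ⟨h0, h00⟩))))))
      simp [hxF, hxF']

/-- A switch is a `rowRel` step. -/
lemma H_rowRel_of_isSw {d : Fin n → ℕ} {a b c e : Fin n} {G G' : Om d}
    (hac : a ≠ c) (hae : a ≠ e) (hbc : b ≠ c) (hbe : b ≠ e) (hce : c ≠ e) (hab : a ≠ b)
    (h : IsSw a b c e G.1 G'.1) : (rowRel a b).r G G' := by
  obtain ⟨⟨h1, h2, h3, h4⟩, ⟨h5, h6, h7, h8⟩, h9⟩ := h
  constructor
  · intro u v hua hub hva hvb
    apply h9
    rintro (⟨h0, _⟩ | ⟨_, h0⟩ | ⟨h0, _⟩ | ⟨_, h0⟩ | ⟨h0, _⟩ | ⟨_, h0⟩ | ⟨h0, _⟩ | ⟨_, h0⟩)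
    · exact hua h0
    · exact hva h0
    · exact hub h0
    · exact hvb h0
    · exact hua h0
    · exact hva h0
    · exact hub h0
    · exact hvb h0
  · intro v hva hvb
    by_cases hvc : v = c
    · subst hvc
      omega
    by_cases hve : v = e
    · subst hve
      omega
    have e1 := h9 a v (by
      rintro (⟨_, h0⟩ | ⟨h0, _⟩ | ⟨h0, _⟩ | ⟨h0, _⟩ | ⟨_, h0⟩ | ⟨h0, _⟩ | ⟨h0, _⟩ | ⟨h0, _⟩)
      · exact hvc h0
      · exact hac h0
      · exact hab h0
      · exact hae h0
      · exact hve h0
      · exact hae h0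
      · exact hab h0
      · exact hac h0)
    have e2 := h9 b v (by
      rintro (⟨h0, _⟩ | ⟨h0, _⟩ | ⟨_, h0⟩ | ⟨h0, _⟩ | ⟨h0, _⟩ | ⟨h0, _⟩ | ⟨_, h0⟩ | ⟨h0, _⟩)
      · exact hab h0.symm
      · exact hbc h0
      · exact hve h0
      · exact hbe h0
      · exact hab h0.symm
      · exact hbe h0
      · exact hvc h0
      · exact hbc h0)
    omega

/-- Number of entries of the row of `v` where two graphs differ. -/
noncomputable def H_mm (G H : Finset (Edge n)) (v : Fin n) : ℕ :=
  (univ.filter fun x => ent G v x ≠ ent H v x).card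

lemma H_mm_comm (G H : Finset (Edge n)) (v : Fin n) : H_mm G H v = H_mm H G v := by
  unfold H_mm
  congr 1
  ext x
  simp [ne_comm]

/-- The exchange vertex. -/
lemma H_exists_e {G : Finset (Edge n)} {W : Finset (Fin n)} {v a c : Fin n}
    (hv : v ∉ W) (haW : a ∉ W) (hcW : c ∉ W) (hva : v ≠ a) (hvc : v ≠ c) (hac : a ≠ c)
    (ha1 : ent G v a = 1) (hc0 : ent G v c = 0)
    (hdelta : ∑ y ∈ univ \ W, ent G a y ≤ ∑ y ∈ univ \ W, ent G c y) :
    ∃ e, e ∉ W ∧ e ≠ a ∧ ent G c e = 1 ∧ ent G a e = 0 := by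
  classical
  by_contra hno
  push Not at hno
  set U := univ \ W with hU
  -- compare sums outside a, c
  have hsplit : ∀ x, ∑ y ∈ U, ent G x y = ∑ y ∈ U.filter (fun y => y ≠ a ∧ y ≠ c), ent G x y +
      ∑ y ∈ U.filter (fun y => ¬ (y ≠ a ∧ y ≠ c)), ent G x y :=
    fun x => (sum_filter_add_sum_filter_not U _ _).symm
  have hrest : ∑ y ∈ U.filter (fun y => ¬ (y ≠ a ∧ y ≠ c)), ent G c y =
      ∑ y ∈ U.filter (fun y => ¬ (y ≠ a ∧ y ≠ c)), ent G a y := by
    have hsub : U.filter (fun y => ¬ (y ≠ a ∧ y ≠ c)) ⊆ {a, c} := by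
      intro y hy
      simp only [mem_filter, not_and, not_not] at hy
      simp only [mem_insert, mem_singleton]
      by_cases hya : y = a
      · exact Or.inl hya
      · exact Or.inr (hy.2 hya)
    have h1 : ∀ x, x = a ∨ x = c → ∑ y ∈ U.filter (fun y => ¬ (y ≠ a ∧ y ≠ c)), ent G x y =
        ∑ y ∈ ({a, c} : Finset (Fin n)), (if y ∈ U then ent G x y else 0) := by
      intro x _
      rw [← sum_subset hsub]
      · apply sum_congr rfl
        intro y hy
        rw [if_pos (mem_filter.1 hy).1]
      · intro y hy hy'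
        rw [if_neg]
        intro hyU
        apply hy'
        simp only [mem_insert, mem_singleton] at hy
        simp only [mem_filter, not_and, not_not]
        refine ⟨hyU, ?_⟩
        intro hya
        rcases hy with h0 | h0
        · exact absurd h0 hya
        · exact h0
    rw [h1 c (Or.inr rfl), h1 a (Or.inl rfl), sum_pair hac, sum_pair hac]
    have haU : a ∈ U := by rw [hU]; simp [haW]
    have hcU : c ∈ U := by rw [hU]; simp [hcW]
    simp only [ent_self, if_pos haU, if_pos hcU]
    rw [ent_symm G a c]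
    simp
  have hlt : ∑ y ∈ U.filter (fun y => y ≠ a ∧ y ≠ c), ent G c y <
      ∑ y ∈ U.filter (fun y => y ≠ a ∧ y ≠ c), ent G a y := by
    apply sum_lt_sum
    · intro y hy
      simp only [mem_filter] at hy
      by_contra hlt
      have h1 := ent_zero_or_one G c y
      have h2 := ent_zero_or_one G a y
      have h3 := hno y (mem_sdiff.1 hy.1).2 hy.2.1
      omega
    · refine ⟨v, ?_, ?_⟩
      · simp only [mem_filter]
        exact ⟨by rw [hU]; simp [hv], hva, hvc⟩
      · rw [ent_symm G c v, ent_symm G a v, hc0, ha1]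
        omega
  rw [hsplit c, hsplit a, hrest] at hdelta
  omega

/-- The main step. -/
lemma H_step {d : Fin n → ℕ} {W : Finset (Fin n)} {v a c : Fin n} {G H : Om d}
    (hv : v ∉ W) (hagree : ∀ u ∈ W, ∀ x, ent G.1 u x = ent H.1 u x)
    (ha1 : ent G.1 v a = 1) (ha0 : ent H.1 v a = 0) (hc0 : ent G.1 v c = 0) (hc1 : ent H.1 v c = 1)
    (hdelta : ∑ y ∈ univ \ W, ent G.1 a y ≤ ∑ y ∈ univ \ W, ent G.1 c y) :
    ∃ (e : Fin n) (G' : Om d), v ≠ e ∧ (rowRel v e).r G G' ∧
      (∀ u ∈ W, ∀ x, ent G'.1 u x = ent H.1 u x) ∧ H_mm G'.1 H.1 v < H_mm G.1 H.1 v := by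
  classical
  have hva : v ≠ a := ne_of_ent_eq_one ha1
  have hvc : v ≠ c := ne_of_ent_eq_one hc1
  have hac : a ≠ c := by
    rintro rfl
    omega
  have haW : a ∉ W := by
    intro hm
    have := hagree a hm v
    rw [ent_symm G.1 a v, ent_symm H.1 a v] at this
    omega
  have hcW : c ∉ W := by
    intro hm
    have := hagree c hm v
    rw [ent_symm G.1 c v, ent_symm H.1 c v] at this
    omega
  obtain ⟨e, heW, hea, hce1, hae0⟩ := H_exists_e hv haW hcW hva hvc hac ha1 hc0 hdelta
  have hec : e ≠ c := by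
    rintro rfl
    simp at hce1
  have hev : e ≠ v := by
    rintro rfl
    rw [ent_symm] at hce1
    omega
  have hD : D1 v e a c G.1 := ⟨ha1, by rw [ent_symm]; exact hce1, hc0, by rw [ent_symm]; exact hae0⟩
  have hSw := H_isSw_switch (a := v) (b := e) (c := a) (e := c) hev.symm hva hvc hea hec hac hD
  set F := I1_swF v e a c hva hec with hF
  set F' := I1_swF v e c a hvc hea with hF'
  have hFm : F ∈ pmSet (I1_swS v e a c) := I1_swF_mem_pmSet hev.symm hva hvc hea hec hac
  have hFm' : F' ∈ pmSet (I1_swS v e a c) := by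
    have := I1_swF_mem_pmSet (a := v) (b := e) (c := c) (e := a) hev.symm hvc hva hec hea hac.symm
    rwa [I1_swS_comm] at this
  have hmem : switchResult G.1 F F' ∈ realizations d := switchResult_mem_realizations G.2 hFm hFm'
  refine ⟨e, ⟨_, hmem⟩, hev.symm, ?_, ?_, ?_⟩
  · exact H_rowRel_of_isSw hva hvc hea hec hac hev.symm hSw
  · intro u hu x
    obtain ⟨_, _, h9⟩ := hSw
    show ent (switchResult G.1 F F') u x = _
    rw [← h9 u x, hagree u hu x]
    have hne : ∀ y, y ∉ W → u ≠ y := fun y hy h0 => hy (h0 ▸ hu)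
    rintro (⟨h0, _⟩ | ⟨h0, _⟩ | ⟨h0, _⟩ | ⟨h0, _⟩ | ⟨h0, _⟩ | ⟨h0, _⟩ | ⟨h0, _⟩ | ⟨h0, _⟩)
    · exact hne v hv h0
    · exact hne a haW h0
    · exact hne e heW h0
    · exact hne c hcW h0
    · exact hne v hv h0
    · exact hne c hcW h0
    · exact hne e heW h0
    · exact hne a haW h0
  · obtain ⟨⟨h1, h2, h3, h4⟩, ⟨h5, h6, h7, h8⟩, h9⟩ := hSw
    unfold H_mm
    apply card_lt_card
    rw [ssubset_iff_of_subset]
    · refine ⟨a, ?_, ?_⟩
      · simp only [mem_filter, mem_univ, true_and]
        omega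
      · simp only [mem_filter, mem_univ, true_and, not_not]
        show ent (switchResult G.1 F F') v a = _
        omega
    · intro x hx
      simp only [mem_filter, mem_univ, true_and] at hx ⊢
      by_cases hxa : x = a
      · subst hxa; omega
      by_cases hxc : x = c
      · subst hxc; omega
      intro h0
      apply hx
      show ent (switchResult G.1 F F') v x = _
      rw [← h9 v x, h0]
      rintro (⟨_, h0⟩ | ⟨h0, _⟩ | ⟨h0, _⟩ | ⟨h0, _⟩ | ⟨_, h0⟩ | ⟨h0, _⟩ | ⟨h0, _⟩ | ⟨h0, _⟩)
      · exact hxa h0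
      · exact hva h0
      · exact hev h0.symm
      · exact hvc h0
      · exact hxc h0
      · exact hvc h0
      · exact hev h0.symm
      · exact hva h0

/-- Degrees outside `W` agree. -/
lemma H_delta_eq {d : Fin n → ℕ} {W : Finset (Fin n)} {G H : Om d}
    (hagree : ∀ u ∈ W, ∀ x, ent G.1 u x = ent H.1 u x) (x : Fin n) :
    ∑ y ∈ univ \ W, ent G.1 x y = ∑ y ∈ univ \ W, ent H.1 x y := by
  classical
  have hG := (mem_realizations_iff d G.1).1 G.2 x
  have hH := (mem_realizations_iff d H.1).1 H.2 x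
  have h1 : ∀ E : Finset (Edge n), ∑ y, ent E x y =
      ∑ y ∈ univ \ W, ent E x y + ∑ y ∈ W, ent E x y := by
    intro E
    exact (sum_sdiff (subset_univ W)).symm
  rw [h1] at hG hH
  have h2 : ∑ y ∈ W, ent G.1 x y = ∑ y ∈ W, ent H.1 x y := by
    apply sum_congr rfl
    intro y hy
    rw [ent_symm G.1 x y, ent_symm H.1 x y]
    exact hagree y hy x
  omega

/-- Connectivity by induction on the processed vertex set. -/
lemma H_conn_aux {d : Fin n → ℕ} (f : Om d → ℝ)
    (hstep : ∀ v e : Fin n, v ≠ e → ∀ G G' : Om d, (rowRel v e).r G G' → f G = f G') :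
    ∀ (k : ℕ) (W : Finset (Fin n)), (univ \ W).card = k → ∀ G H : Om d,
      (∀ u ∈ W, ∀ x, ent G.1 u x = ent H.1 u x) → f G = f H := by
  classical
  intro k
  induction k with
  | zero =>
    intro W hW G H hagree
    have hWu : ∀ u, u ∈ W := by
      intro u
      by_contra hu
      have : u ∈ univ \ W := by simp [hu]
      rw [card_eq_zero.1 hW] at this
      simp at this
    have : G = H := Subtype.ext (graph_ext (fun u v => hagree u (hWu u) v))
    rw [this]
  | succ k ih =>
    intro W hW
    have hne : (univ \ W).Nonempty := by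
      rw [← card_pos]; omega
    obtain ⟨v, hv⟩ := hne
    have hvW : v ∉ W := (mem_sdiff.1 hv).2
    have hW' : (univ \ insert v W).card = k := by
      have : univ \ insert v W = (univ \ W).erase v := by
        ext x
        simp only [mem_sdiff, mem_univ, true_and, mem_insert, not_or, mem_erase]
      rw [this, card_erase_of_mem hv, hW]
      rfl
    have key : ∀ m : ℕ, ∀ G H : Om d, (∀ u ∈ W, ∀ x, ent G.1 u x = ent H.1 u x) →
        H_mm G.1 H.1 v ≤ m → f G = f H := by
      intro m
      induction m with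
      | zero =>
        intro G H hagree hm
        apply ih (insert v W) hW'
        intro u hu x
        rcases mem_insert.1 hu with rfl | hu
        · have h0 : H_mm G.1 H.1 u = 0 := by omega
          unfold H_mm at h0
          rw [card_eq_zero, filter_eq_empty_iff] at h0
          have := h0 (mem_univ x)
          simpa using this
        · exact hagree u hu x
      | succ m ihm =>
        intro G H hagree hm
        by_cases h0 : H_mm G.1 H.1 v = 0
        · exact ihm G H hagree (by omega)
        -- find a and c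
        have hsumG := (mem_realizations_iff d G.1).1 G.2 v
        have hsumH := (mem_realizations_iff d H.1).1 H.2 v
        have hexdiff : ∃ x, ent G.1 v x ≠ ent H.1 v x := by
          by_contra hno
          push Not at hno
          apply h0
          unfold H_mm
          rw [card_eq_zero, filter_eq_empty_iff]
          intro x _
          simpa using hno x
        obtain ⟨x0, hx0⟩ := hexdiff
        have hexa : ∃ a, ent G.1 v a = 1 ∧ ent H.1 v a = 0 := by
          by_contra hno
          push Not at hno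
          have hle : ∀ x ∈ (univ : Finset (Fin n)), ent G.1 v x ≤ ent H.1 v x := by
            intro x _
            have h1 := ent_zero_or_one G.1 v x
            have h2 := ent_zero_or_one H.1 v x
            by_contra hlt
            have : ent G.1 v x = 1 := by omega
            have h3 := hno x this
            omega
          have hlt : ∑ x, ent G.1 v x < ∑ x, ent H.1 v x :=
            sum_lt_sum hle ⟨x0, mem_univ _, lt_of_le_of_ne (hle x0 (mem_univ _)) hx0⟩
          omega
        have hexc : ∃ c, ent G.1 v c = 0 ∧ ent H.1 v c = 1 := by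
          by_contra hno
          push Not at hno
          have hle : ∀ x ∈ (univ : Finset (Fin n)), ent H.1 v x ≤ ent G.1 v x := by
            intro x _
            have h1 := ent_zero_or_one G.1 v x
            have h2 := ent_zero_or_one H.1 v x
            by_contra hlt
            have : ent G.1 v x = 0 := by omega
            have h3 := hno x this
            omega
          have hlt : ∑ x, ent H.1 v x < ∑ x, ent G.1 v x :=
            sum_lt_sum hle ⟨x0, mem_univ _, lt_of_le_of_ne (hle x0 (mem_univ _)) hx0.symm⟩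
          omega
        obtain ⟨a, ha1, ha0⟩ := hexa
        obtain ⟨c, hc0, hc1⟩ := hexc
        by_cases hd : ∑ y ∈ univ \ W, ent G.1 a y ≤ ∑ y ∈ univ \ W, ent G.1 c y
        · obtain ⟨e, G', hve, hrel, hag', hlt⟩ := H_step hvW hagree ha1 ha0 hc0 hc1 hd
          rw [hstep v e hve G G' hrel]
          exact ihm G' H hag' (by omega)
        · have hd' : ∑ y ∈ univ \ W, ent H.1 c y ≤ ∑ y ∈ univ \ W, ent H.1 a y := by
            rw [← H_delta_eq hagree a, ← H_delta_eq hagree c]
            omega
          obtain ⟨e, H', hve, hrel, hag', hlt⟩ :=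
            H_step hvW (fun u hu x => (hagree u hu x).symm) hc1 hc0 ha0 ha1 hd'
          rw [hstep v e hve H H' hrel]
          apply ihm G H' (fun u hu x => (hag' u hu x).symm)
          rw [H_mm_comm] at hlt ⊢
          rw [H_mm_comm] at hlt
          rw [H_mm_comm] at hm
          omega
    intro G H hagree
    exact key _ G H hagree le_rfl

/-- **Package H.** -/
theorem connected {d : Fin n → ℕ} (f : Om d → ℝ)
    (h : ∀ a b, a ≠ b → ∀ G, Qab a b f G = 0) (G H : Om d) : f G = f H := by
  classical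
  have hstep : ∀ v e : Fin n, v ≠ e → ∀ G G' : Om d, (rowRel v e).r G G' → f G = f G' := by
    intro v e hve G G' hrel
    have h1 := h v e hve G
    have h2 := h v e hve G'
    unfold Qab Qop at h1 h2
    have h3 := avg_eq_of_rel (rowRel v e) f hrel
    linarith
  exact H_conn_aux f hstep _ ∅ rfl G H (by simp)

end Crest.Agent.SW
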