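/- S0453 package B: Johnson fibre lemma (helper8).
   `johnson_gap`: 2 m Var ≤ jDir on `powersetCard k M`,
   `johnson_frame`: ∑_{c≠e} T_ce² ≤ 2 (m-2) n₁ Var.
   Both by elementary counting; the gap by induction on `m`. -/
import Mathlib

set_option autoImplicit false
namespace Crest.Agent.SW
open Finset

section Johnson
variable {ι : Type*} [DecidableEq ι]

/-- Ordered Dirichlet sum on the Johnson graph. -/
noncomputable def jDir (M : Finset ι) (k : ℕ) (g : Finset ι → ℝ) : ℝ :=
  ∑ c ∈ M, ∑ e ∈ M.erase c, ∑ X ∈ (powersetCard k M).filter (fun X => c ∈ X ∧ e ∉ X),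
    (g X - g (insert e (X.erase c))) ^ 2

/-- Mean on the Johnson fibre. -/
noncomputable def jMean (M : Finset ι) (k : ℕ) (g : Finset ι → ℝ) : ℝ :=
  (∑ X ∈ powersetCard k M, g X) / ((powersetCard k M).card : ℝ)

/-- Centered sum of squares on the Johnson fibre. -/
noncomputable def jVar (M : Finset ι) (k : ℕ) (g : Finset ι → ℝ) : ℝ :=
  ∑ X ∈ powersetCard k M, (g X - jMean M k g) ^ 2

/-- `T_ce`. -/
noncomputable def jT (M : Finset ι) (k : ℕ) (g : Finset ι → ℝ) (c e : ι) : ℝ :=
  ∑ X ∈ (powersetCard k M).filter (fun X => ¬ (c ∈ X ↔ e ∈ X)), (g X - jMean M k g)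

/-! ### basic facts -/

lemma jDir_nonneg (M : Finset ι) (k : ℕ) (g : Finset ι → ℝ) : 0 ≤ jDir M k g := by
  unfold jDir
  exact sum_nonneg fun _ _ => sum_nonneg fun _ _ => sum_nonneg fun _ _ => sq_nonneg _

lemma jVar_nonneg (M : Finset ι) (k : ℕ) (g : Finset ι → ℝ) : 0 ≤ jVar M k g := by
  unfold jVar
  exact sum_nonneg fun _ _ => sq_nonneg _

/-- Sum of `g` is zero: then the mean is zero and `jVar` is the plain sum of squares. -/
lemma jVar_of_sum_zero (M : Finset ι) (k : ℕ) (g : Finset ι → ℝ)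
    (h : ∑ X ∈ powersetCard k M, g X = 0) :
    jVar M k g = ∑ X ∈ powersetCard k M, g X ^ 2 := by
  unfold jVar jMean
  rw [h]; simp

/-- Explicit variance formula. -/
lemma jVar_eq (M : Finset ι) (k : ℕ) (g : Finset ι → ℝ) :
    jVar M k g = ∑ X ∈ powersetCard k M, g X ^ 2
      - (∑ X ∈ powersetCard k M, g X) ^ 2 / ((powersetCard k M).card : ℝ) := by
  unfold jVar jMean
  set N : ℝ := ((powersetCard k M).card : ℝ) with hN
  set S := ∑ X ∈ powersetCard k M, g X with hS
  have : ∀ X ∈ powersetCard k M, (g X - S / N) ^ 2 = g X ^ 2 - 2 * (S / N) * g X + (S / N) ^ 2 := by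
    intro X _; ring
  rw [sum_congr rfl this, sum_add_distrib, sum_sub_distrib, ← mul_sum, sum_const, nsmul_eq_mul]
  rw [← hN, ← hS]
  by_cases h0 : N = 0
  · simp only [h0]
    have hemp : powersetCard k M = ∅ := by
      have : (powersetCard k M).card = 0 := by
        have h1 : ((powersetCard k M).card : ℝ) = 0 := by rw [← hN]; exact h0
        exact_mod_cast h1
      exact card_eq_zero.mp this
    simp [hemp, hS]
  · field_simp
    ring

/-- Recentering. -/
lemma jMean_sum_zero (M : Finset ι) (k : ℕ) (g : Finset ι → ℝ) :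
    ∑ X ∈ powersetCard k M, (g X - jMean M k g) = 0 := by
  unfold jMean
  rw [sum_sub_distrib, sum_const, nsmul_eq_mul]
  by_cases h0 : ((powersetCard k M).card : ℝ) = 0
  · have hemp : powersetCard k M = ∅ := by
      have : (powersetCard k M).card = 0 := by exact_mod_cast h0
      exact card_eq_zero.mp this
    simp [hemp]
  · field_simp
    ring

lemma jDir_shift (M : Finset ι) (k : ℕ) (g : Finset ι → ℝ) (a : ℝ) :
    jDir M k (fun X => g X - a) = jDir M k g := by
  unfold jDir
  refine sum_congr rfl fun _ _ => sum_congr rfl fun _ _ => sum_congr rfl fun _ _ => ?_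
  ring

lemma jVar_center (M : Finset ι) (k : ℕ) (g : Finset ι → ℝ) :
    jVar M k g = ∑ X ∈ powersetCard k M, (g X - jMean M k g) ^ 2 := rfl

/-! ### splitting `powersetCard (k+1) M` along `z ∈ M` -/

lemma sum_pc_split (M : Finset ι) (z : ι) (hz : z ∈ M) (k : ℕ) (h : Finset ι → ℝ) :
    ∑ X ∈ powersetCard (k + 1) M, h X =
      ∑ X ∈ powersetCard (k + 1) (M.erase z), h X
        + ∑ Y ∈ powersetCard k (M.erase z), h (insert z Y) := by
  have hz' : z ∉ M.erase z := by simp
  conv_lhs => rw [← insert_erase hz]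
  rw [powersetCard_succ_insert hz', sum_union, sum_image]
  · intro X hX Y hY hXY
    have hX' := (mem_powersetCard.mp hX).1
    have hY' := (mem_powersetCard.mp hY).1
    have h1 : z ∉ X := fun hh => hz' (hX' hh)
    have h2 : z ∉ Y := fun hh => hz' (hY' hh)
    have := congrArg (fun S => S.erase z) hXY
    simpa [erase_insert h1, erase_insert h2] using this
  · rw [disjoint_left]
    intro X hX hX2
    rw [mem_image] at hX2
    obtain ⟨Y, _, rfl⟩ := hX2
    have hX' := (mem_powersetCard.mp hX).1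
    exact hz' (hX' (mem_insert_self _ _))

/-! ### counting -/

lemma card_pc_filter (M A B : Finset ι) (k : ℕ) (hA : A ⊆ M) (hB : B ⊆ M) (hAB : Disjoint A B)
    (hk : A.card ≤ k) :
    ((powersetCard k M).filter (fun X => A ⊆ X ∧ Disjoint B X)).card
      = (M.card - A.card - B.card).choose (k - A.card) := by
  have hcard : (M \ (A ∪ B)).card = M.card - A.card - B.card := by
    rw [card_sdiff_of_subset (union_subset hA hB), card_union_of_disjoint hAB]
    omega
  rw [← hcard, ← card_powersetCard]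
  refine card_bij' (fun X _ => X \ A) (fun Y _ => Y ∪ A) ?_ ?_ ?_ ?_
  · intro X hX
    rw [mem_filter, mem_powersetCard] at hX
    obtain ⟨⟨hXM, hXk⟩, hAX, hBX⟩ := hX
    rw [mem_powersetCard]
    constructor
    · intro x hx
      rw [mem_sdiff] at hx ⊢
      obtain ⟨hxX, hxA⟩ := hx
      refine ⟨hXM hxX, ?_⟩
      rw [mem_union]
      rintro (h | h)
      · exact hxA h
      · exact (disjoint_left.mp hBX h) hxX
    · rw [card_sdiff_of_subset hAX, hXk]
  · intro Y hY
    rw [mem_powersetCard] at hY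
    obtain ⟨hYM, hYk⟩ := hY
    have hY2 : ∀ y ∈ Y, y ∈ M ∧ y ∉ A ∧ y ∉ B := by
      intro y hy
      have := hYM hy
      rw [mem_sdiff, mem_union, not_or] at this
      exact ⟨this.1, this.2.1, this.2.2⟩
    have hdisj : Disjoint Y A := disjoint_left.mpr fun y hy => (hY2 y hy).2.1
    rw [mem_filter, mem_powersetCard]
    refine ⟨⟨union_subset (fun y hy => (hY2 y hy).1) hA, ?_⟩, subset_union_right, ?_⟩
    · rw [card_union_of_disjoint hdisj, hYk]; omega
    · rw [disjoint_union_right]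
      exact ⟨disjoint_left.mpr fun y hyB hyY => (hY2 y hyY).2.2 hyB, hAB.symm⟩
  · intro X hX
    rw [mem_filter] at hX
    exact sdiff_union_of_subset hX.2.1
  · intro Y hY
    rw [mem_powersetCard] at hY
    have hdisj : Disjoint Y A := disjoint_left.mpr fun y hy => by
      have := hY.1 hy
      rw [mem_sdiff, mem_union, not_or] at this
      exact this.2.1
    exact union_sdiff_cancel_right hdisj

/-! ### indicators -/

/-- Real indicator of `c ∈ X`. -/
noncomputable def ind (c : ι) (X : Finset ι) : ℝ := if c ∈ X then 1 else 0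

lemma ind_mul_self (c : ι) (X : Finset ι) : ind c X * (1 - ind c X) = 0 := by
  unfold ind; split_ifs <;> simp

lemma ind_of_mem {c : ι} {X : Finset ι} (h : c ∈ X) : ind c X = 1 := by
  unfold ind; simp [h]

lemma ind_of_not_mem {c : ι} {X : Finset ι} (h : c ∉ X) : ind c X = 0 := by
  unfold ind; simp [h]

lemma ind_insert_self (c : ι) (X : Finset ι) : ind c (insert c X) = 1 :=
  ind_of_mem (mem_insert_self _ _)

lemma ind_insert_of_ne {c z : ι} (h : c ≠ z) (X : Finset ι) : ind c (insert z X) = ind c X := by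
  unfold ind; simp [mem_insert, h]

lemma sum_ind_eq_card (M X : Finset ι) (hX : X ⊆ M) : ∑ z ∈ M, ind z X = (X.card : ℝ) := by
  unfold ind
  rw [sum_boole, filter_mem_eq_inter, inter_eq_right.mpr hX]

/-- part of the sum over `X` avoiding `z`. -/
lemma pc_out (M : Finset ι) (z : ι) (hz : z ∈ M) (k : ℕ) (h : Finset ι → ℝ) :
    ∑ X ∈ powersetCard (k + 1) M, h X * (1 - ind z X) = ∑ X ∈ powersetCard (k + 1) (M.erase z), h X := by
  rw [sum_pc_split M z hz k]
  have h1 : ∑ Y ∈ powersetCard k (M.erase z), h (insert z Y) * (1 - ind z (insert z Y)) = 0 := by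
    apply sum_eq_zero; intro Y _; rw [ind_insert_self]; ring
  rw [h1, add_zero]
  apply sum_congr rfl
  intro X hX
  have hX' := (mem_powersetCard.mp hX).1
  have : z ∉ X := fun hh => (notMem_erase z M) (hX' hh)
  rw [ind_of_not_mem this]; ring

/-- part of the sum over `X` containing `z`. -/
lemma pc_in (M : Finset ι) (z : ι) (hz : z ∈ M) (k : ℕ) (h : Finset ι → ℝ) :
    ∑ X ∈ powersetCard (k + 1) M, h X * ind z X = ∑ Y ∈ powersetCard k (M.erase z), h (insert z Y) := by
  rw [sum_pc_split M z hz k]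
  have h1 : ∑ X ∈ powersetCard (k + 1) (M.erase z), h X * ind z X = 0 := by
    apply sum_eq_zero; intro X hX
    have hX' := (mem_powersetCard.mp hX).1
    have : z ∉ X := fun hh => (notMem_erase z M) (hX' hh)
    rw [ind_of_not_mem this]; ring
  rw [h1, zero_add]
  apply sum_congr rfl
  intro Y _
  rw [ind_insert_self]; ring

/-- the count behind the level-one bound. -/
lemma sum_ind_in_out (M : Finset ι) (y z : ι) (hy : y ∈ M) (hz : z ∈ M) (hyz : y ≠ z) (k : ℕ) :
    ∑ X ∈ powersetCard (k + 1) M, ind y X * (1 - ind z X) = ((M.card - 2).choose k : ℝ) := by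
  have h1 : ∀ X ∈ powersetCard (k + 1) M, ind y X * (1 - ind z X)
      = if ({y} : Finset ι) ⊆ X ∧ Disjoint ({z} : Finset ι) X then 1 else 0 := by
    intro X _
    unfold ind
    simp only [singleton_subset_iff, disjoint_singleton_left]
    split_ifs <;> simp_all
  rw [sum_congr rfl h1, sum_boole]
  have := card_pc_filter M {y} {z} (k + 1) (by simpa using hy) (by simpa using hz)
    (by simpa using hyz) (by simp)
  rw [this]
  simp only [card_singleton, Nat.add_sub_cancel]
  rw [show M.card - 1 - 1 = M.card - 2 by omega]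

/-- **Level-one bound.** -/
lemma level_one (M : Finset ι) (k : ℕ) (g : Finset ι → ℝ)
    (hg : ∑ X ∈ powersetCard (k + 1) M, g X = 0) :
    ∑ z ∈ M, (∑ X ∈ powersetCard (k + 1) M, g X * ind z X) ^ 2
      ≤ ((M.card - 2).choose k : ℝ) * ∑ X ∈ powersetCard (k + 1) M, g X ^ 2 := by
  set PC := powersetCard (k + 1) M with hPC
  set θ : ι → ℝ := fun z => ∑ X ∈ PC, g X * ind z X with hθ
  set Y : Finset ι → ℝ := fun X => ∑ z ∈ M, θ z * ind z X with hY
  set n₁ : ℝ := ((M.card - 2).choose k : ℝ) with hn₁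
  set A := ∑ z ∈ M, θ z ^ 2 with hA
  -- `A = ∑ g Y`
  have hA1 : A = ∑ X ∈ PC, g X * Y X := by
    simp only [hA, hY, mul_sum]
    rw [sum_comm]
    apply sum_congr rfl
    intro z _
    rw [sq]
    conv_lhs => rw [show θ z * θ z = θ z * ∑ X ∈ PC, g X * ind z X from rfl, mul_sum]
    apply sum_congr rfl
    intro X _
    ring
  -- total of `θ`
  have hθ0 : ∑ z ∈ M, θ z = 0 := by
    simp only [hθ]
    rw [sum_comm]
    have : ∀ X ∈ PC, ∑ z ∈ M, g X * ind z X = (k + 1 : ℝ) * g X := by
      intro X hX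
      have hX' := mem_powersetCard.mp hX
      rw [← mul_sum, sum_ind_eq_card M X hX'.1, hX'.2]
      push_cast; ring
    rw [sum_congr rfl this, ← mul_sum, hg, mul_zero]
  -- the other expression of `Y`
  have hY2 : ∀ X, Y X = - ∑ z ∈ M, θ z * (1 - ind z X) := by
    intro X
    have : ∑ z ∈ M, θ z * (1 - ind z X) = ∑ z ∈ M, θ z - Y X := by
      simp only [hY, ← sum_sub_distrib]
      apply sum_congr rfl; intro z _; ring
    rw [this, hθ0]; ring
  -- squares
  have hYY : ∑ X ∈ PC, Y X ^ 2 = n₁ * A := by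
    have h1 : ∀ X ∈ PC, Y X ^ 2 = - ∑ y ∈ M, ∑ z ∈ M, θ y * θ z * (ind y X * (1 - ind z X)) := by
      intro X _
      rw [sq]
      nth_rewrite 2 [hY2 X]
      simp only [hY]
      rw [mul_neg, sum_mul_sum]
      congr 1
      apply sum_congr rfl; intro y _
      apply sum_congr rfl; intro z _
      ring
    rw [sum_congr rfl h1, sum_neg_distrib]
    rw [sum_comm]
    have h2 : ∀ y ∈ M, ∑ X ∈ PC, ∑ z ∈ M, θ y * θ z * (ind y X * (1 - ind z X)) = - n₁ * θ y ^ 2 := by
      intro y hy
      rw [sum_comm]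
      have h3 : ∀ z ∈ M, ∑ X ∈ PC, θ y * θ z * (ind y X * (1 - ind z X))
          = n₁ * (θ y * θ z) - (if z = y then n₁ * (θ y * θ z) else 0) := by
        intro z hz
        rw [← mul_sum]
        by_cases hzy : z = y
        · subst hzy
          simp [ind_mul_self]
        · rw [sum_ind_in_out M y z hy hz (Ne.symm hzy) k, if_neg hzy]
          ring
      rw [sum_congr rfl h3, sum_sub_distrib, sum_ite_eq' M y, if_pos hy, ← mul_sum, ← mul_sum, hθ0]
      ring
    rw [sum_congr rfl h2, ← mul_sum]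
    simp only [hA]
    ring
  -- Cauchy
  have hC : A ^ 2 ≤ (∑ X ∈ PC, g X ^ 2) * (n₁ * A) := by
    rw [hA1]
    conv_rhs => rw [← hA1, ← hYY]
    exact sum_mul_sq_le_sq_mul_sq _ _ _
  have hA0 : 0 ≤ A := sum_nonneg fun _ _ => sq_nonneg _
  have hn0 : 0 ≤ n₁ := by simp only [hn₁]; positivity
  have hG0 : 0 ≤ ∑ X ∈ PC, g X ^ 2 := sum_nonneg fun _ _ => sq_nonneg _
  rcases hA0.lt_or_eq with hpos | h0
  · have : A * A ≤ (n₁ * ∑ X ∈ PC, g X ^ 2) * A := by nlinarith
    exact le_of_mul_le_mul_right this hpos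
  · rw [← h0]; positivity

/-! ### the Dirichlet sum in indicator form -/

/-- The elementary square. -/
noncomputable def jF (g : Finset ι → ℝ) (c e : ι) (X : Finset ι) : ℝ :=
  (g X - g (insert e (X.erase c))) ^ 2

/-- Summand in indicator form. -/
noncomputable def jH (g : Finset ι → ℝ) (c e : ι) (X : Finset ι) : ℝ :=
  ind c X * (1 - ind e X) * jF g c e X

lemma jH_nonneg (g : Finset ι → ℝ) (c e : ι) (X : Finset ι) : 0 ≤ jH g c e X := by
  unfold jH jF ind
  split_ifs <;> simp <;> positivity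

lemma jDir_eq (M : Finset ι) (k : ℕ) (g : Finset ι → ℝ) :
    jDir M k g = ∑ c ∈ M, ∑ e ∈ M, ∑ X ∈ powersetCard k M, jH g c e X := by
  unfold jDir
  apply sum_congr rfl
  intro c hc
  rw [← add_sum_erase M _ hc]
  have h0 : ∑ X ∈ powersetCard k M, jH g c c X = 0 := by
    apply sum_eq_zero; intro X _; unfold jH; rw [ind_mul_self]; ring
  rw [h0, zero_add]
  apply sum_congr rfl
  intro e _
  rw [sum_filter]
  apply sum_congr rfl
  intro X _
  unfold jH jF ind
  by_cases h1 : c ∈ X <;> by_cases h2 : e ∈ X <;> simp [h1, h2]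

/-- The part of `jDir` avoiding `z`. -/
lemma jDir_out (M : Finset ι) (z : ι) (hz : z ∈ M) (k : ℕ) (g : Finset ι → ℝ) :
    jDir (M.erase z) (k + 1) g = ∑ c ∈ M, ∑ e ∈ M, ∑ X ∈ powersetCard (k + 1) M,
      (if e = z then 0 else (1 - ind z X)) * jH g c e X := by
  rw [jDir_eq, ← add_sum_erase M _ hz]
  have h0 : ∑ e ∈ M, ∑ X ∈ powersetCard (k + 1) M,
      (if e = z then 0 else (1 - ind z X)) * jH g z e X = 0 := by
    apply sum_eq_zero; intro e _; apply sum_eq_zero; intro X _
    split_ifs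
    · ring
    · unfold jH
      have := ind_mul_self z X
      linear_combination (1 - ind e X) * jF g z e X * this
  rw [h0, zero_add]
  apply sum_congr rfl
  intro c _
  rw [← add_sum_erase M _ hz]
  have h1 : ∑ X ∈ powersetCard (k + 1) M,
      (if z = z then 0 else (1 - ind z X)) * jH g c z X = 0 := by
    apply sum_eq_zero; intro X _; simp
  rw [h1, zero_add]
  apply sum_congr rfl
  intro e he
  have hez : e ≠ z := (mem_erase.mp he).1
  rw [← pc_out M z hz k]
  apply sum_congr rfl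
  intro X _
  rw [if_neg hez]; ring

/-- The part of `jDir` containing `z`. -/
lemma jDir_in (M : Finset ι) (z : ι) (hz : z ∈ M) (k : ℕ) (g : Finset ι → ℝ) :
    jDir (M.erase z) k (fun Y => g (insert z Y)) = ∑ c ∈ M, ∑ e ∈ M, ∑ X ∈ powersetCard (k + 1) M,
      (if c = z then 0 else ind z X) * jH g c e X := by
  rw [jDir_eq, ← add_sum_erase M _ hz]
  have h0 : ∑ e ∈ M, ∑ X ∈ powersetCard (k + 1) M,
      (if z = z then 0 else ind z X) * jH g z e X = 0 := by
    apply sum_eq_zero; intro e _; apply sum_eq_zero; intro X _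
    simp
  rw [h0, zero_add]
  apply sum_congr rfl
  intro c hc
  have hcz : c ≠ z := (mem_erase.mp hc).1
  rw [← add_sum_erase M _ hz]
  have h1 : ∑ X ∈ powersetCard (k + 1) M,
      (if c = z then 0 else ind z X) * jH g c z X = 0 := by
    apply sum_eq_zero; intro X _
    rw [if_neg hcz]
    unfold jH
    have := ind_mul_self z X
    linear_combination ind c X * jF g c z X * this
  rw [h1, zero_add]
  apply sum_congr rfl
  intro e he
  have hez : e ≠ z := (mem_erase.mp he).1
  have h2 : ∀ X ∈ powersetCard (k + 1) M, (if c = z then 0 else ind z X) * jH g c e X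
      = jH g c e X * ind z X := by
    intro X _; rw [if_neg hcz]; ring
  rw [sum_congr rfl h2, pc_in M z hz k]
  apply sum_congr rfl
  intro Y _
  unfold jH jF
  rw [ind_insert_of_ne hcz, ind_insert_of_ne hez, erase_insert_of_ne (Ne.symm hcz), Finset.insert_comm e z]

/-- Double counting of the Dirichlet sum. -/
lemma sum_jDir_split (M : Finset ι) (k : ℕ) (g : Finset ι → ℝ) :
    ∑ z ∈ M, (jDir (M.erase z) k (fun Y => g (insert z Y)) + jDir (M.erase z) (k + 1) g)
      = ((M.card : ℝ) - 2) * jDir M (k + 1) g := by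
  have h1 : ∀ z ∈ M, (jDir (M.erase z) k (fun Y => g (insert z Y)) + jDir (M.erase z) (k + 1) g)
      = ∑ c ∈ M, ∑ e ∈ M, ∑ X ∈ powersetCard (k + 1) M,
        ((if c = z then 0 else ind z X) + (if e = z then 0 else (1 - ind z X))) * jH g c e X := by
    intro z hz
    rw [jDir_in M z hz, jDir_out M z hz, ← sum_add_distrib]
    apply sum_congr rfl; intro c _
    rw [← sum_add_distrib]
    apply sum_congr rfl; intro e _
    rw [← sum_add_distrib]
    apply sum_congr rfl; intro X _
    ring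
  rw [sum_congr rfl h1, jDir_eq, sum_comm, mul_sum]
  apply sum_congr rfl; intro c hc
  rw [sum_comm, mul_sum]
  apply sum_congr rfl; intro e he
  rw [sum_comm, mul_sum]
  apply sum_congr rfl; intro X hX
  rw [← sum_mul]
  by_cases h : c ∈ X ∧ e ∉ X
  · obtain ⟨h1, h2⟩ := h
    congr 1
    have hX' := mem_powersetCard.mp hX
    have h3 : ∀ z ∈ M, ((if c = z then 0 else ind z X) + (if e = z then 0 else (1 - ind z X)))
        = 1 - (if z = c then ind z X else 0) - (if z = e then (1 - ind z X) else 0) := by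
      intro z _
      by_cases hzc : z = c <;> by_cases hze : z = e
      · subst hzc; subst hze; exact absurd h1 h2
      · subst hzc
        rw [if_pos rfl, if_pos rfl, if_neg (Ne.symm hze), if_neg hze]; ring
      · subst hze
        rw [if_neg (Ne.symm hzc), if_neg hzc, if_pos rfl, if_pos rfl]; ring
      · rw [if_neg (Ne.symm hzc), if_neg hzc, if_neg (Ne.symm hze), if_neg hze]; ring
    rw [sum_congr rfl h3, sum_sub_distrib, sum_sub_distrib, sum_ite_eq' M c, if_pos hc,
      sum_ite_eq' M e, if_pos he, ind_of_mem h1, ind_of_not_mem h2]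
    simp
    ring
  · have : jH g c e X = 0 := by
      unfold jH ind
      by_cases h1 : c ∈ X <;> by_cases h2 : e ∈ X <;> simp_all
    rw [this]; ring

/-! ### the gap -/

lemma jVar_of_card_le_one (M : Finset ι) (k : ℕ) (g : Finset ι → ℝ)
    (h : (powersetCard k M).card ≤ 1) : jVar M k g = 0 := by
  rw [jVar_eq]
  rcases Nat.le_one_iff_eq_zero_or_eq_one.mp h with h0 | h1
  · rw [card_eq_zero.mp h0]; simp
  · obtain ⟨X, hX⟩ := card_eq_one.mp h1
    rw [hX]; simp

/-- Splitting the sum of squares along `z`. -/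
lemma var_split (M : Finset ι) (z : ι) (hz : z ∈ M) (k : ℕ) (g : Finset ι → ℝ)
    (hg : ∑ X ∈ powersetCard (k + 1) M, g X = 0)
    (h₁ : 0 < ((M.card - 1).choose k : ℝ)) (h₀ : 0 < ((M.card - 1).choose (k + 1) : ℝ)) :
    ∑ X ∈ powersetCard (k + 1) M, g X ^ 2 =
      jVar (M.erase z) k (fun Y => g (insert z Y)) + jVar (M.erase z) (k + 1) g
      + (∑ X ∈ powersetCard (k + 1) M, g X * ind z X) ^ 2
        * (1 / ((M.card - 1).choose k : ℝ) + 1 / ((M.card - 1).choose (k + 1) : ℝ)) := by
  rw [jVar_eq, jVar_eq, card_powersetCard, card_powersetCard, card_erase_of_mem hz, pc_in M z hz k g]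
  have h2 := sum_pc_split M z hz k g
  rw [hg] at h2
  have h3 := sum_pc_split M z hz k (fun X => g X ^ 2)
  rw [h3]
  set a : ℝ := ((M.card - 1).choose k : ℝ)
  set b : ℝ := ((M.card - 1).choose (k + 1) : ℝ)
  set S := ∑ Y ∈ powersetCard k (M.erase z), g (insert z Y)
  have h4 : ∑ X ∈ powersetCard (k + 1) (M.erase z), g X = -S := by linarith
  rw [h4]
  field_simp
  ring

/-- base case. -/
lemma gap_two (M : Finset ι) (hM : M.card = 2) (g : Finset ι → ℝ) :
    2 * (2 : ℝ) * jVar M 1 g ≤ jDir M 1 g := by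
  obtain ⟨a, b, hab, rfl⟩ := card_eq_two.mp hM
  rw [jVar_eq, jDir_eq, powersetCard_one, sum_map, card_map, hM, sum_pair hab, sum_pair hab]
  simp only [Function.Embedding.coeFn_mk, sum_map, sum_pair hab]
  have hba : b ≠ a := Ne.symm hab
  simp [jH, jF, ind, hab, hba, erase_singleton, mem_singleton]
  apply le_of_eq
  ring

theorem johnson_gap_aux : ∀ (n : ℕ) (M : Finset ι), M.card = n → ∀ (k : ℕ) (g : Finset ι → ℝ),
    2 * (n : ℝ) * jVar M k g ≤ jDir M k g := by
  intro n
  induction n with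
  | zero =>
    intro M _ k g
    simpa using jDir_nonneg M k g
  | succ n ih =>
    intro M hM k g
    -- trivial range
    by_cases htriv : (powersetCard k M).card ≤ 1
    · rw [jVar_of_card_le_one M k g htriv, mul_zero]
      exact jDir_nonneg M k g
    have hkm : 1 ≤ k ∧ k ≤ n := by
      rw [card_powersetCard, hM] at htriv
      constructor
      · rcases Nat.eq_zero_or_pos k with h | h
        · subst h; simp at htriv
        · exact h
      · by_contra hcon
        apply htriv
        rcases Nat.lt_or_ge (n + 1) k with h | h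
        · rw [Nat.choose_eq_zero_of_lt h]; omega
        · have : k = n + 1 := by omega
          rw [this, Nat.choose_self]
    obtain ⟨k, rfl⟩ : ∃ k', k = k' + 1 := ⟨k - 1, by omega⟩
    have hkn : k + 1 ≤ n := hkm.2
    by_cases hn1 : n = 1
    · subst hn1
      have hk0 : k = 0 := by omega
      subst hk0
      have := gap_two M hM g
      norm_num
      norm_num at this
      exact this
    have hn2 : 2 ≤ n := by omega
    -- centering
    set μ := jMean M (k + 1) g with hμ
    set f : Finset ι → ℝ := fun X => g X - μ with hf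
    have hf0 : ∑ X ∈ powersetCard (k + 1) M, f X = 0 := jMean_sum_zero M (k + 1) g
    have hV : jVar M (k + 1) g = ∑ X ∈ powersetCard (k + 1) M, f X ^ 2 := rfl
    have hD : jDir M (k + 1) g = jDir M (k + 1) f := (jDir_shift M (k + 1) g μ).symm
    rw [hV, hD]
    clear_value f
    clear hV hD
    set V := ∑ X ∈ powersetCard (k + 1) M, f X ^ 2 with hVdef
    set D := jDir M (k + 1) f with hDdef
    have hcard1 : M.card - 1 = n := by omega
    have hcard2 : M.card - 2 = n - 1 := by omega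
    -- positivity of binomials
    have ha : 0 < ((n.choose k : ℕ) : ℝ) := by
      exact_mod_cast Nat.choose_pos (by omega)
    have hb : 0 < ((n.choose (k + 1) : ℕ) : ℝ) := by
      exact_mod_cast Nat.choose_pos (by omega)
    have hc : 0 < (((n - 1).choose k : ℕ) : ℝ) := by
      exact_mod_cast Nat.choose_pos (by omega)
    -- sum over `z`
    have hsplit : ∀ z ∈ M, V = jVar (M.erase z) k (fun Y => f (insert z Y))
        + jVar (M.erase z) (k + 1) f
        + (∑ X ∈ powersetCard (k + 1) M, f X * ind z X) ^ 2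
          * (1 / ((n.choose k : ℕ) : ℝ) + 1 / ((n.choose (k + 1) : ℕ) : ℝ)) := by
      intro z hz
      have := var_split M z hz k f hf0 (by rw [hcard1]; exact ha) (by rw [hcard1]; exact hb)
      rw [hcard1] at this
      exact this
    have hA := level_one M k f hf0
    rw [hcard2] at hA
    set A := ∑ z ∈ M, (∑ X ∈ powersetCard (k + 1) M, f X * ind z X) ^ 2 with hAdef
    set a : ℝ := ((n.choose k : ℕ) : ℝ) with hadef
    set b : ℝ := ((n.choose (k + 1) : ℕ) : ℝ) with hbdef
    set c : ℝ := (((n - 1).choose k : ℕ) : ℝ) with hcdef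
    have hIH : ∀ z ∈ M, 2 * (n : ℝ) * (jVar (M.erase z) k (fun Y => f (insert z Y))
        + jVar (M.erase z) (k + 1) f) ≤
        jDir (M.erase z) k (fun Y => f (insert z Y)) + jDir (M.erase z) (k + 1) f := by
      intro z hz
      have hcz : (M.erase z).card = n := by rw [card_erase_of_mem hz]; omega
      have h1 := ih (M.erase z) hcz k (fun Y => f (insert z Y))
      have h2 := ih (M.erase z) hcz (k + 1) f
      linarith
    have hsum := sum_le_sum hIH
    rw [sum_jDir_split M k f, hM, ← mul_sum] at hsum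
    -- evaluate the variance total
    have htot : ∑ z ∈ M, (jVar (M.erase z) k (fun Y => f (insert z Y)) + jVar (M.erase z) (k + 1) f)
        = ((n : ℝ) + 1) * V - A * (1 / a + 1 / b) := by
      have : ∀ z ∈ M, (jVar (M.erase z) k (fun Y => f (insert z Y)) + jVar (M.erase z) (k + 1) f)
          = V - (∑ X ∈ powersetCard (k + 1) M, f X * ind z X) ^ 2 * (1 / a + 1 / b) := by
        intro z hz
        have := hsplit z hz
        linarith
      rw [sum_congr rfl this, sum_sub_distrib, sum_const, nsmul_eq_mul, hM, ← sum_mul]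
      push_cast
      ring
    rw [htot] at hsum
    -- binomial identities
    have hb1 : c * (n : ℝ) = a * ((n : ℝ) - k) := by
      have := Nat.choose_mul_succ_eq (n - 1) k
      rw [show n - 1 + 1 = n by omega] at this
      have h2 : (((n - 1).choose k * n : ℕ) : ℝ) = ((n.choose k * (n - k) : ℕ) : ℝ) := by
        rw [this]
      rw [Nat.cast_mul, Nat.cast_mul, Nat.cast_sub (by omega)] at h2
      exact h2
    have hb2 : c * (n : ℝ) = b * ((k : ℝ) + 1) := by
      have := Nat.add_one_mul_choose_eq (n - 1) k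
      rw [show n - 1 + 1 = n by omega] at this
      have h2 : ((n * (n - 1).choose k : ℕ) : ℝ) = ((n.choose (k + 1) * (k + 1) : ℕ) : ℝ) := by
        rw [this]
      rw [Nat.cast_mul, Nat.cast_mul] at h2
      push_cast at h2
      linarith
    have hν : c * (n : ℝ) * (1 / a + 1 / b) = (n : ℝ) + 1 := by
      have e1 : c * (n : ℝ) * (1 / a) = (n : ℝ) - k := by rw [hb1]; field_simp
      have e2 : c * (n : ℝ) * (1 / b) = (k : ℝ) + 1 := by rw [hb2]; field_simp
      rw [mul_add, e1, e2]; ring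
    set ν := 1 / a + 1 / b with hνdef
    have hνpos : 0 < ν := by positivity
    have hnpos : (2 : ℝ) ≤ n := by exact_mod_cast hn2
    have hAν : A * ν ≤ c * V * ν := mul_le_mul_of_nonneg_right hA hνpos.le
    have h5 : 2 * (n : ℝ) * (A * ν) ≤ 2 * ((n : ℝ) + 1) * V := by
      have : 2 * (n : ℝ) * (c * V * ν) = 2 * ((n : ℝ) + 1) * V := by
        rw [← hν]; ring
      rw [← this]
      exact mul_le_mul_of_nonneg_left hAν (by positivity)
    have h6 : ((n : ℝ) - 1) * (2 * ((n : ℝ) + 1) * V) ≤ ((n : ℝ) - 1) * D := by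
      push_cast at hsum
      nlinarith
    have hn1' : 0 < (n : ℝ) - 1 := by linarith
    have h7 := le_of_mul_le_mul_left h6 hn1'
    push_cast
    linarith

/-- **Johnson gap.** -/
theorem johnson_gap (M : Finset ι) (k : ℕ) (g : Finset ι → ℝ) :
    2 * (M.card : ℝ) * jVar M k g ≤ jDir M k g :=
  johnson_gap_aux M.card M rfl k g

/-! ### the frame bound -/

/-- `[c ∈ X, e ∉ X]`. -/
noncomputable def uu (c e : ι) (X : Finset ι) : ℝ := ind c X * (1 - ind e X)

lemma jT_eq (M : Finset ι) (k : ℕ) (g : Finset ι → ℝ) (c e : ι) :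
    jT M k g c e = ∑ X ∈ powersetCard k M, (g X - jMean M k g) * (uu c e X + uu e c X) := by
  unfold jT
  rw [sum_filter]
  apply sum_congr rfl
  intro X _
  unfold uu ind
  by_cases h1 : c ∈ X <;> by_cases h2 : e ∈ X <;> simp [h1, h2]

/-- Count in real form. -/
lemma sum_count (M A B : Finset ι) (hA : A ⊆ M) (hB : B ⊆ M) (hAB : Disjoint A B) (k : ℕ) :
    ∑ X ∈ powersetCard k M, (if A ⊆ X ∧ Disjoint B X then (1 : ℝ) else 0)
      = if A.card ≤ k then ((M.card - A.card - B.card).choose (k - A.card) : ℝ) else 0 := by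
  rw [sum_boole]
  split_ifs with h
  · rw [card_pc_filter M A B k hA hB hAB h]
  · rw [filter_eq_empty_iff.mpr]
    · simp
    · intro X hX hh
      have := card_le_card hh.1
      rw [(mem_powersetCard.mp hX).2] at this
      exact h this

lemma uu_mul_eq (c e f h : ι) (X : Finset ι) :
    uu c e X * uu f h X
      = if ({c, f} : Finset ι) ⊆ X ∧ Disjoint ({e, h} : Finset ι) X then (1 : ℝ) else 0 := by
  unfold uu ind
  simp only [insert_subset_iff, singleton_subset_iff, disjoint_insert_left, disjoint_singleton_left]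
  by_cases h1 : c ∈ X <;> by_cases h2 : e ∈ X <;> by_cases h3 : f ∈ X <;> by_cases h4 : h ∈ X <;>
    simp [h1, h2, h3, h4]

/-- Indicator of equality. -/
noncomputable def ii (a b : ι) : ℝ := if a = b then 1 else 0

/-- `a`. -/
noncomputable def cA (m k : ℕ) : ℝ := ((m - 3).choose k : ℝ)
/-- `b`. -/
noncomputable def cB (m k : ℕ) : ℝ := if k = 0 then 0 else ((m - 3).choose (k - 1) : ℝ)
/-- `n₂`. -/
noncomputable def cD (m k : ℕ) : ℝ :=
  if 4 ≤ m ∧ 1 ≤ k then ((m - 4).choose (k - 1) : ℝ) else 0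

lemma cA_add_cB (m k : ℕ) (hm : 3 ≤ m) : cA m k + cB m k = ((m - 2).choose k : ℝ) := by
  unfold cA cB
  obtain ⟨N, rfl⟩ : ∃ N, m = N + 3 := ⟨m - 3, by omega⟩
  rw [show N + 3 - 3 = N by omega, show N + 3 - 2 = N + 1 by omega]
  cases k with
  | zero => simp
  | succ j =>
    rw [Nat.choose_succ_succ]
    simp
    ring

lemma cD_nonneg (m k : ℕ) : 0 ≤ cD m k := by
  unfold cD; split_ifs <;> positivity

lemma cA_nonneg (m k : ℕ) : 0 ≤ cA m k := by
  unfold cA; positivity

lemma cB_nonneg (m k : ℕ) : 0 ≤ cB m k := by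
  unfold cB; split_ifs <;> positivity

lemma cD_le_cA (m k : ℕ) : cD m k ≤ cA m k := by
  unfold cD cA
  split_ifs with h
  · obtain ⟨N, rfl⟩ : ∃ N, m = N + 4 := ⟨m - 4, by omega⟩
    obtain ⟨j, rfl⟩ : ∃ j, k = j + 1 := ⟨k - 1, by omega⟩
    rw [show N + 4 - 3 = N + 1 by omega, show N + 4 - 4 = N by omega, Nat.add_sub_cancel,
      Nat.choose_succ_succ]
    push_cast
    have : (0 : ℝ) ≤ (N.choose (j + 1) : ℝ) := by positivity
    linarith
  · positivity

lemma cD_le_cB (m k : ℕ) : cD m k ≤ cB m k := by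
  unfold cD cB
  split_ifs with h h2 h2
  · omega
  · obtain ⟨N, rfl⟩ : ∃ N, m = N + 4 := ⟨m - 4, by omega⟩
    rw [show N + 4 - 3 = N + 1 by omega, show N + 4 - 4 = N by omega]
    exact_mod_cast Nat.choose_le_choose _ (Nat.le_succ N)
  · exact le_refl _
  · positivity

/-- The fourfold count. -/
lemma K_formula (M : Finset ι) (k : ℕ) (hm : 3 ≤ M.card) (c e f h : ι) (hc : c ∈ M) (he : e ∈ M)
    (hf : f ∈ M) (hh : h ∈ M) (hce : c ≠ e) (hfh : f ≠ h) :
    ∑ X ∈ powersetCard (k + 1) M, uu c e X * uu f h X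
      = cD M.card k * (1 - ii f e - ii h c + ii f c * ii h e + ii f e * ii h c)
        + (cA M.card k - cD M.card k) * ii f c + (cB M.card k - cD M.card k) * ii h e := by
  by_cases hfe : f = e
  · subst hfe
    have h0 : ∑ X ∈ powersetCard (k + 1) M, uu c f X * uu f h X = 0 := by
      apply sum_eq_zero; intro X _
      unfold uu
      have := ind_mul_self f X
      linear_combination ind c X * (1 - ind h X) * this
    rw [h0]
    simp [ii, Ne.symm hce, Ne.symm hfh]
  by_cases hhc : h = c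
  · subst hhc
    have h0 : ∑ X ∈ powersetCard (k + 1) M, uu h e X * uu f h X = 0 := by
      apply sum_eq_zero; intro X _
      unfold uu
      have := ind_mul_self h X
      linear_combination (1 - ind e X) * ind f X * this
    rw [h0]
    simp [ii, hfe, hce, hfh]
  have hAB : Disjoint ({c, f} : Finset ι) ({e, h} : Finset ι) := by
    simp only [disjoint_insert_left, disjoint_singleton_left, mem_insert, mem_singleton, not_or]
    exact ⟨⟨hce, Ne.symm hhc⟩, hfe, hfh⟩
  have hA : ({c, f} : Finset ι) ⊆ M := by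
    simp only [insert_subset_iff, singleton_subset_iff]; exact ⟨hc, hf⟩
  have hB : ({e, h} : Finset ι) ⊆ M := by
    simp only [insert_subset_iff, singleton_subset_iff]; exact ⟨he, hh⟩
  simp only [uu_mul_eq]
  rw [sum_count M _ _ hA hB hAB]
  by_cases hfc : f = c <;> by_cases hhe : h = e
  · subst hfc; subst hhe
    simp only [pair_eq_singleton, card_singleton, ii, if_true, if_neg hfe, if_neg hhc]
    have := cA_add_cB M.card k hm
    rw [if_pos (by omega), show M.card - 1 - 1 = M.card - 2 by omega, Nat.add_sub_cancel, ← this]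
    ring
  · subst hfc
    rw [pair_eq_singleton, card_singleton, card_pair (Ne.symm hhe), if_pos (by omega),
      show M.card - 1 - 2 = M.card - 3 by omega, Nat.add_sub_cancel]
    simp only [ii, if_true, if_neg hfe, if_neg hhc, if_neg hhe]
    unfold cA
    ring
  · subst hhe
    rw [pair_eq_singleton, card_singleton, card_pair (Ne.symm hfc)]
    simp only [ii, if_true, if_neg hfe, if_neg hhc, if_neg hfc]
    unfold cB
    by_cases hk : k = 0
    · subst hk
      simp
    · rw [if_pos (by omega), if_neg hk, show M.card - 2 - 1 = M.card - 3 by omega,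
        show k + 1 - 2 = k - 1 by omega]
      ring
  · have hsub : ({c, f, e, h} : Finset ι) ⊆ M := by
      simp only [insert_subset_iff, singleton_subset_iff]; exact ⟨hc, hf, he, hh⟩
    have h4 : 4 ≤ M.card := by
      have hcard : ({c, f, e, h} : Finset ι).card = 4 := by
        rw [card_insert_of_notMem, card_insert_of_notMem, card_pair (Ne.symm hhe)]
        · simp only [mem_insert, mem_singleton, not_or]; exact ⟨hfe, hfh⟩
        · simp only [mem_insert, mem_singleton, not_or]
          exact ⟨Ne.symm hfc, hce, Ne.symm hhc⟩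
      rw [← hcard]
      exact card_le_card hsub
    rw [card_pair (Ne.symm hfc), card_pair (Ne.symm hhe)]
    simp only [ii, if_neg hfe, if_neg hhc, if_neg hfc, if_neg hhe]
    unfold cD
    by_cases hk : k = 0
    · subst hk
      simp
    · rw [if_pos (by omega), if_pos ⟨h4, by omega⟩, show M.card - 2 - 2 = M.card - 4 by omega,
        show k + 1 - 2 = k - 1 by omega]
      ring

/-! ### algebra of symmetric arrays -/

lemma sum_ii_left (M : Finset ι) (φ : ι → ℝ) (e : ι) (he : e ∈ M) :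
    ∑ f ∈ M, φ f * ii f e = φ e := by
  unfold ii
  simp [mul_ite, sum_ite_eq', he]

lemma sum_sum_ii_left (M : Finset ι) (T : ι → ι → ℝ) (e : ι) (he : e ∈ M) :
    ∑ f ∈ M, ∑ h ∈ M, T f h * ii f e = ∑ h ∈ M, T e h := by
  have : ∀ f ∈ M, ∑ h ∈ M, T f h * ii f e = (∑ h ∈ M, T f h) * ii f e := by
    intro f _; rw [sum_mul]
  rw [sum_congr rfl this, sum_ii_left M (fun f => ∑ h ∈ M, T f h) e he]

lemma sum_sum_ii_right (M : Finset ι) (T : ι → ι → ℝ) (c : ι) (hc : c ∈ M) :
    ∑ f ∈ M, ∑ h ∈ M, T f h * ii h c = ∑ f ∈ M, T f c := by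
  apply sum_congr rfl
  intro f _
  exact sum_ii_left M (T f) c hc

lemma sum_sum_ii_both (M : Finset ι) (T : ι → ι → ℝ) (a b : ι) (ha : a ∈ M) (hb : b ∈ M) :
    ∑ f ∈ M, ∑ h ∈ M, T f h * (ii f a * ii h b) = T a b := by
  have : ∀ f ∈ M, ∑ h ∈ M, T f h * (ii f a * ii h b) = T f b * ii f a := by
    intro f _
    rw [← sum_ii_left M (T f) b hb, sum_mul]
    apply sum_congr rfl
    intro h _
    ring
  rw [sum_congr rfl this]
  exact sum_ii_left M (fun f => T f b) a ha

/-- Row sums. -/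
noncomputable def rowS (M : Finset ι) (T : ι → ι → ℝ) (c : ι) : ℝ := ∑ e ∈ M, T c e

lemma R_eval (M : Finset ι) (T : ι → ι → ℝ) (hsym : ∀ a b, T a b = T b a) (hdiag : ∀ a, T a a = 0)
    (K : ι → ι → ℝ) (a b d : ℝ) (c e : ι) (hc : c ∈ M) (he : e ∈ M)
    (hK : ∀ f ∈ M, ∀ h ∈ M, f ≠ h → K f h = d * (1 - ii f e - ii h c + ii f c * ii h e + ii f e * ii h c)
      + (a - d) * ii f c + (b - d) * ii h e) :
    ∑ f ∈ M, ∑ h ∈ M, T f h * K f h
      = d * (∑ f ∈ M, rowS M T f) + 2 * d * T c e + (a - 2 * d) * rowS M T c + (b - 2 * d) * rowS M T e := by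
  have h1 : ∀ f ∈ M, ∀ h ∈ M, T f h * K f h = d * T f h - d * (T f h * ii f e) - d * (T f h * ii h c)
      + d * (T f h * (ii f c * ii h e)) + d * (T f h * (ii f e * ii h c))
      + (a - d) * (T f h * ii f c) + (b - d) * (T f h * ii h e) := by
    intro f hf h hh
    by_cases hfh : f = h
    · subst hfh; rw [hdiag]; ring
    · rw [hK f hf h hh hfh]; ring
  rw [sum_congr rfl fun f hf => sum_congr rfl fun h hh => h1 f hf h hh]
  simp only [sum_add_distrib, sum_sub_distrib, ← mul_sum]
  rw [sum_sum_ii_left M T e he, sum_sum_ii_right M T c hc, sum_sum_ii_both M T c e hc he,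
    sum_sum_ii_both M T e c he hc, sum_sum_ii_left M T c hc, sum_sum_ii_right M T e he,
    hsym e c]
  have h2 : ∀ x, ∑ f ∈ M, T f x = rowS M T x := by
    intro x; unfold rowS; exact sum_congr rfl fun f _ => hsym f x
  rw [h2, h2]
  unfold rowS
  ring

lemma F_eval (M : Finset ι) (T : ι → ι → ℝ) (hsym : ∀ a b, T a b = T b a) (a b d : ℝ) :
    ∑ c ∈ M, ∑ e ∈ M, T c e * (d * (∑ f ∈ M, rowS M T f) + 2 * d * T c e + (a - 2 * d) * rowS M T c
        + (b - 2 * d) * rowS M T e)
      = d * (∑ f ∈ M, rowS M T f) ^ 2 + 2 * d * (∑ c ∈ M, ∑ e ∈ M, T c e ^ 2)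
        + (a + b - 4 * d) * ∑ c ∈ M, rowS M T c ^ 2 := by
  set S := ∑ f ∈ M, rowS M T f with hS
  clear_value S
  have h1 : ∀ c ∈ M, ∑ e ∈ M, T c e * (d * S + 2 * d * T c e + (a - 2 * d) * rowS M T c
        + (b - 2 * d) * rowS M T e)
      = d * S * rowS M T c + 2 * d * (∑ e ∈ M, T c e ^ 2) + (a - 2 * d) * rowS M T c ^ 2
        + (b - 2 * d) * ∑ e ∈ M, T c e * rowS M T e := by
    intro c _
    have e2 : rowS M T c = ∑ e ∈ M, T c e := rfl
    have e3 : ∑ e ∈ M, T c e * (d * S + 2 * d * T c e + (a - 2 * d) * rowS M T c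
          + (b - 2 * d) * rowS M T e)
        = (d * S + (a - 2 * d) * rowS M T c) * (∑ e ∈ M, T c e)
          + 2 * d * (∑ e ∈ M, T c e ^ 2) + (b - 2 * d) * ∑ e ∈ M, T c e * rowS M T e := by
      rw [mul_sum, mul_sum, mul_sum, ← sum_add_distrib, ← sum_add_distrib]
      apply sum_congr rfl; intro e _; ring
    rw [e3, ← e2]; ring
  rw [sum_congr rfl h1]
  simp only [sum_add_distrib, ← mul_sum]
  have h2 : ∑ c ∈ M, ∑ e ∈ M, T c e * rowS M T e = ∑ c ∈ M, rowS M T c ^ 2 := by
    rw [sum_comm]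
    apply sum_congr rfl
    intro c _
    have : ∑ x ∈ M, T x c * rowS M T c = (∑ x ∈ M, T c x) * rowS M T c := by
      rw [sum_mul]; apply sum_congr rfl; intro x _; rw [hsym]
    rw [this, sq]; rfl
  rw [h2, ← hS]
  ring

/-- The row bound. -/
lemma row_bound (M : Finset ι) (T : ι → ι → ℝ) (hsym : ∀ a b, T a b = T b a)
    (hdiag : ∀ a, T a a = 0) (hS : ∑ f ∈ M, rowS M T f = 0) (hm : 3 ≤ M.card) :
    2 * ∑ c ∈ M, rowS M T c ^ 2 ≤ ((M.card : ℝ) - 2) * ∑ c ∈ M, ∑ e ∈ M, T c e ^ 2 := by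
  set P : ℝ := (M.card : ℝ) - 2 with hP
  have hm' : (3 : ℝ) ≤ M.card := by exact_mod_cast hm
  have hPpos : 0 < P := by rw [hP]; linarith
  set A := ∑ c ∈ M, rowS M T c ^ 2 with hA
  set Q := ∑ c ∈ M, ∑ e ∈ M, T c e ^ 2 with hQ
  have h0 : 0 ≤ ∑ c ∈ M, ∑ e ∈ M.erase c, (P * T c e - rowS M T c - rowS M T e) ^ 2 :=
    sum_nonneg fun _ _ => sum_nonneg fun _ _ => sq_nonneg _
  have h1 : ∀ c ∈ M, ∑ e ∈ M.erase c, (P * T c e - rowS M T c - rowS M T e) ^ 2
      = P ^ 2 * (∑ e ∈ M, T c e ^ 2) + (M.card : ℝ) * rowS M T c ^ 2 + A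
        - 2 * P * rowS M T c ^ 2 - 2 * P * (∑ e ∈ M, T c e * rowS M T e)
        - 4 * rowS M T c ^ 2 := by
    intro c hc
    have e0 := add_sum_erase M (fun e => (P * T c e - rowS M T c - rowS M T e) ^ 2) hc
    have e1 : ∑ e ∈ M, (P * T c e - rowS M T c - rowS M T e) ^ 2
        = P ^ 2 * (∑ e ∈ M, T c e ^ 2) + (M.card : ℝ) * rowS M T c ^ 2 + A
        - 2 * P * rowS M T c ^ 2 - 2 * P * (∑ e ∈ M, T c e * rowS M T e)
        + 2 * rowS M T c * (∑ e ∈ M, rowS M T e) := by
      have e2 : rowS M T c ^ 2 = rowS M T c * ∑ e ∈ M, T c e := by rw [sq]; rfl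
      have e3 : ∀ x, (M.card : ℝ) * x = ∑ _e ∈ M, x := by
        intro x; rw [sum_const, nsmul_eq_mul]
      rw [e3, hA]
      rw [show 2 * P * rowS M T c ^ 2 = ∑ e ∈ M, 2 * P * rowS M T c * T c e by
        rw [e2, ← mul_sum]; ring]
      simp only [mul_sum, ← sum_add_distrib, ← sum_sub_distrib]
      apply sum_congr rfl
      intro e _
      ring
    rw [hS] at e1
    simp only [hdiag] at e0
    have e4 : (P * 0 - rowS M T c - rowS M T c) ^ 2 = 4 * rowS M T c ^ 2 := by ring
    rw [e4] at e0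
    linarith
  rw [sum_congr rfl h1] at h0
  have h2 : ∑ c ∈ M, ∑ e ∈ M, T c e * rowS M T e = A := by
    rw [hA, sum_comm]
    apply sum_congr rfl
    intro c _
    have : ∑ x ∈ M, T x c * rowS M T c = (∑ x ∈ M, T c x) * rowS M T c := by
      rw [sum_mul]; apply sum_congr rfl; intro x _; rw [hsym]
    rw [this, sq]; rfl
  simp only [sum_add_distrib, sum_sub_distrib, ← mul_sum, sum_const, nsmul_eq_mul] at h0
  rw [h2, ← hA, ← hQ] at h0
  have h4 : 2 * P * A ≤ P ^ 2 * Q := by
    have hcard : (M.card : ℝ) = P + 2 := by rw [hP]; ring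
    rw [hcard] at h0
    nlinarith
  have h5 : P * (2 * A) ≤ P * (P * Q) := by nlinarith
  exact le_of_mul_le_mul_left h5 hPpos

/-! ### the frame bound: assembly -/

lemma sum_uu (M X : Finset ι) (hX : X ⊆ M) :
    ∑ c ∈ M, ∑ e ∈ M, uu c e X = (X.card : ℝ) * ((M.card : ℝ) - X.card) := by
  unfold uu
  rw [← sum_mul_sum, sum_ind_eq_card M X hX, sum_sub_distrib, sum_const, nsmul_eq_mul, mul_one,
    sum_ind_eq_card M X hX]

/-- The array `T`. -/
noncomputable def TT (M : Finset ι) (k : ℕ) (f : Finset ι → ℝ) (c e : ι) : ℝ :=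
  ∑ X ∈ powersetCard k M, f X * (uu c e X + uu e c X)

lemma TT_symm (M : Finset ι) (k : ℕ) (f : Finset ι → ℝ) (c e : ι) : TT M k f c e = TT M k f e c := by
  unfold TT
  exact sum_congr rfl fun X _ => by ring

lemma TT_diag (M : Finset ι) (k : ℕ) (f : Finset ι → ℝ) (c : ι) : TT M k f c c = 0 := by
  unfold TT
  apply sum_eq_zero
  intro X _
  unfold uu
  rw [ind_mul_self]; ring

lemma TT_total (M : Finset ι) (k : ℕ) (f : Finset ι → ℝ)
    (hf : ∑ X ∈ powersetCard k M, f X = 0) : ∑ c ∈ M, rowS M (TT M k f) c = 0 := by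
  have h1 : ∑ c ∈ M, rowS M (TT M k f) c
      = ∑ X ∈ powersetCard k M, f X * (2 * ((k : ℝ) * ((M.card : ℝ) - k))) := by
    unfold rowS TT
    have : ∀ c ∈ M, ∑ e ∈ M, ∑ X ∈ powersetCard k M, f X * (uu c e X + uu e c X)
        = ∑ X ∈ powersetCard k M, ∑ e ∈ M, f X * (uu c e X + uu e c X) := fun c _ => sum_comm
    rw [sum_congr rfl this, sum_comm]
    apply sum_congr rfl
    intro X hX
    have hX' := mem_powersetCard.mp hX
    simp only [← mul_sum, sum_add_distrib]
    have h2 : ∑ c ∈ M, ∑ e ∈ M, uu e c X = ∑ c ∈ M, ∑ e ∈ M, uu c e X := sum_comm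
    rw [h2, sum_uu M X hX'.1, hX'.2]
    ring
  rw [h1, ← sum_mul, hf, zero_mul]

/-- The dual vector. -/
noncomputable def WW (M : Finset ι) (T : ι → ι → ℝ) (X : Finset ι) : ℝ :=
  ∑ c ∈ M, ∑ e ∈ M, T c e * uu c e X

lemma Q_eq (M : Finset ι) (k : ℕ) (f : Finset ι → ℝ) :
    ∑ c ∈ M, ∑ e ∈ M, TT M k f c e ^ 2
      = 2 * ∑ X ∈ powersetCard k M, f X * WW M (TT M k f) X := by
  set T := TT M k f with hT
  have h1 : ∀ c ∈ M, ∀ e ∈ M, T c e ^ 2 = ∑ X ∈ powersetCard k M, T c e * (f X * uu c e X)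
      + ∑ X ∈ powersetCard k M, T c e * (f X * uu e c X) := by
    intro c _ e _
    rw [← sum_add_distrib, sq]
    nth_rewrite 2 [show T c e = ∑ X ∈ powersetCard k M, f X * (uu c e X + uu e c X) from rfl]
    rw [mul_sum]
    apply sum_congr rfl
    intro X _
    ring
  rw [sum_congr rfl fun c hc => sum_congr rfl fun e he => h1 c hc e he]
  simp only [sum_add_distrib]
  have h2 : ∑ c ∈ M, ∑ e ∈ M, ∑ X ∈ powersetCard k M, T c e * (f X * uu e c X)
      = ∑ c ∈ M, ∑ e ∈ M, ∑ X ∈ powersetCard k M, T c e * (f X * uu c e X) := by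
    rw [sum_comm]
    apply sum_congr rfl; intro c _
    apply sum_congr rfl; intro e _
    apply sum_congr rfl; intro X _
    rw [hT, TT_symm]
  rw [h2]
  have h3 : ∑ c ∈ M, ∑ e ∈ M, ∑ X ∈ powersetCard k M, T c e * (f X * uu c e X)
      = ∑ X ∈ powersetCard k M, f X * WW M T X := by
    unfold WW
    have : ∀ c ∈ M, ∑ e ∈ M, ∑ X ∈ powersetCard k M, T c e * (f X * uu c e X)
        = ∑ X ∈ powersetCard k M, ∑ e ∈ M, T c e * (f X * uu c e X) := fun c _ => sum_comm
    rw [sum_congr rfl this, sum_comm]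
    apply sum_congr rfl; intro X _
    simp only [mul_sum]
    apply sum_congr rfl; intro c _
    apply sum_congr rfl; intro e _
    ring
  rw [h3]; ring

lemma WW_sq (M : Finset ι) (k : ℕ) (T : ι → ι → ℝ) :
    ∑ X ∈ powersetCard k M, WW M T X ^ 2
      = ∑ c ∈ M, ∑ e ∈ M, T c e * ∑ f ∈ M, ∑ h ∈ M,
          T f h * ∑ X ∈ powersetCard k M, uu c e X * uu f h X := by
  have h1 : ∀ X ∈ powersetCard k M, WW M T X ^ 2
      = ∑ c ∈ M, ∑ e ∈ M, ∑ f ∈ M, ∑ h ∈ M, T c e * (T f h * (uu c e X * uu f h X)) := by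
    intro X _
    rw [sq]
    nth_rewrite 1 [WW]
    rw [sum_mul]
    apply sum_congr rfl; intro c _
    rw [sum_mul]
    apply sum_congr rfl; intro e _
    unfold WW
    rw [mul_sum]
    apply sum_congr rfl; intro f _
    rw [mul_sum]
    apply sum_congr rfl; intro h _
    ring
  rw [sum_congr rfl h1, sum_comm]
  apply sum_congr rfl; intro c _
  rw [sum_comm]
  apply sum_congr rfl; intro e _
  rw [mul_sum, sum_comm]
  apply sum_congr rfl; intro f _
  rw [mul_sum, sum_comm]
  apply sum_congr rfl; intro h _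
  rw [mul_sum, mul_sum]

/-- Core of the frame bound. -/
theorem frame_core (M : Finset ι) (k : ℕ) (hm : 3 ≤ M.card) (f : Finset ι → ℝ)
    (hf : ∑ X ∈ powersetCard (k + 1) M, f X = 0) :
    ∑ c ∈ M, ∑ e ∈ M, TT M (k + 1) f c e ^ 2
      ≤ 2 * ((M.card : ℝ) - 2) * ((M.card - 2).choose k : ℝ)
        * ∑ X ∈ powersetCard (k + 1) M, f X ^ 2 := by
  set T := TT M (k + 1) f with hT
  have hsym : ∀ a b, T a b = T b a := TT_symm M (k + 1) f
  have hdiag : ∀ a, T a a = 0 := TT_diag M (k + 1) f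
  have hS : ∑ c ∈ M, rowS M T c = 0 := TT_total M (k + 1) f hf
  set a := cA M.card k with ha
  set b := cB M.card k with hb
  set d := cD M.card k with hd
  set n₁ : ℝ := ((M.card - 2).choose k : ℝ) with hn₁
  have hn : a + b = n₁ := cA_add_cB M.card k hm
  set Q := ∑ c ∈ M, ∑ e ∈ M, T c e ^ 2 with hQ
  set A := ∑ c ∈ M, rowS M T c ^ 2 with hA
  set V := ∑ X ∈ powersetCard (k + 1) M, f X ^ 2 with hV
  have hQeq : Q = 2 * ∑ X ∈ powersetCard (k + 1) M, f X * WW M T X := Q_eq M (k + 1) f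
  have hWW : ∑ X ∈ powersetCard (k + 1) M, WW M T X ^ 2 = 2 * d * Q + (n₁ - 4 * d) * A := by
    rw [WW_sq]
    have h1 : ∀ c ∈ M, ∀ e ∈ M, T c e * ∑ f ∈ M, ∑ h ∈ M,
          T f h * ∑ X ∈ powersetCard (k + 1) M, uu c e X * uu f h X
        = T c e * (d * (∑ f ∈ M, rowS M T f) + 2 * d * T c e + (a - 2 * d) * rowS M T c
          + (b - 2 * d) * rowS M T e) := by
      intro c hc e he
      by_cases hce : c = e
      · subst hce; rw [hdiag]; ring
      · congr 1
        exact R_eval M T hsym hdiag _ a b d c e hc he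
          (fun f' hf' h hh hfh => K_formula M k hm c e f' h hc he hf' hh hce hfh)
    rw [sum_congr rfl fun c hc => sum_congr rfl fun e he => h1 c hc e he, F_eval M T hsym, hS, hn]
    ring
  have hC : (∑ X ∈ powersetCard (k + 1) M, f X * WW M T X) ^ 2
      ≤ V * ∑ X ∈ powersetCard (k + 1) M, WW M T X ^ 2 := sum_mul_sq_le_sq_mul_sq _ _ _
  rw [hWW] at hC
  have hQ0 : 0 ≤ Q := sum_nonneg fun _ _ => sum_nonneg fun _ _ => sq_nonneg _
  have hA0 : 0 ≤ A := sum_nonneg fun _ _ => sq_nonneg _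
  have hV0 : 0 ≤ V := sum_nonneg fun _ _ => sq_nonneg _
  have hrow := row_bound M T hsym hdiag hS hm
  set P : ℝ := (M.card : ℝ) - 2 with hP
  have hm' : (3 : ℝ) ≤ M.card := by exact_mod_cast hm
  have hP1 : 1 ≤ P := by rw [hP]; linarith
  have hn0 : 0 ≤ n₁ := by rw [hn₁]; positivity
  have hd0 : 0 ≤ d := cD_nonneg _ _
  have hda : d ≤ a := cD_le_cA _ _
  have hdb : d ≤ b := cD_le_cB _ _
  have hkey : 2 * (2 * d * Q + (n₁ - 4 * d) * A) ≤ P * n₁ * Q := by
    by_cases h4 : 4 * d ≤ n₁
    · have h1 : (n₁ - 4 * d) * (2 * A) ≤ (n₁ - 4 * d) * (P * Q) :=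
        mul_le_mul_of_nonneg_left hrow (by linarith)
      have h2 : 0 ≤ d * (P - 1) * Q := by
        apply mul_nonneg (mul_nonneg hd0 (by linarith)) hQ0
      nlinarith
    · rw [not_le] at h4
      have hdpos : 0 < d := by linarith
      have hm4 : 4 ≤ M.card := by
        by_contra hcon
        have : d = 0 := by
          rw [hd]; unfold cD; rw [if_neg]; intro hh; exact hcon hh.1
        linarith
      have hm4' : (4 : ℝ) ≤ M.card := by exact_mod_cast hm4
      have hP2 : 2 ≤ P := by rw [hP]; linarith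
      have h1 : (n₁ - 4 * d) * A ≤ 0 := mul_nonpos_of_nonpos_of_nonneg (by linarith) hA0
      have h2 : 2 * d ≤ n₁ := by linarith
      have h3 : (P - 2) * n₁ * Q ≥ 0 := mul_nonneg (mul_nonneg (by linarith) hn0) hQ0
      have h5 : (n₁ - 2 * d) * Q ≥ 0 := mul_nonneg (by linarith) hQ0
      nlinarith
  have hfin : Q ^ 2 ≤ V * (2 * (P * n₁ * Q)) := by
    have h1 : Q ^ 2 = 4 * (∑ X ∈ powersetCard (k + 1) M, f X * WW M T X) ^ 2 := by
      rw [hQeq]; ring
    rw [h1]
    have h2 : V * (2 * (2 * d * Q + (n₁ - 4 * d) * A)) ≤ V * (P * n₁ * Q) :=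
      mul_le_mul_of_nonneg_left hkey hV0
    nlinarith
  rcases hQ0.lt_or_eq with hpos | h0
  · have h1 : Q * Q ≤ (2 * P * n₁ * V) * Q := by nlinarith
    exact le_of_mul_le_mul_right h1 hpos
  · rw [← h0]
    have : 0 ≤ P := by linarith
    positivity

/-- **Frame bound.** -/
theorem johnson_frame (M : Finset ι) (k : ℕ) (hM : 2 ≤ M.card) (g : Finset ι → ℝ) :
    ∑ c ∈ M, ∑ e ∈ M.erase c, (jT M k g c e) ^ 2 ≤
      2 * ((M.card : ℝ) - 2) * ((M.card - 2).choose (k - 1) : ℝ) * jVar M k g := by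
  have hm2 : (2 : ℝ) ≤ M.card := by exact_mod_cast hM
  have hRHS : 0 ≤ 2 * ((M.card : ℝ) - 2) * ((M.card - 2).choose (k - 1) : ℝ) * jVar M k g := by
    have h1 := jVar_nonneg M k g
    have h2 : 0 ≤ (M.card : ℝ) - 2 := by linarith
    positivity
  cases k with
  | zero =>
    have h0 : ∀ c e, jT M 0 g c e = 0 := by
      intro c e
      unfold jT
      apply sum_eq_zero
      intro X hX
      rw [mem_filter, mem_powersetCard] at hX
      have hX2 : X = ∅ := card_eq_zero.mp hX.1.2
      subst hX2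
      simp at hX
    simp only [h0]
    simpa using hRHS
  | succ k =>
    set μ := jMean M (k + 1) g with hμ
    set f : Finset ι → ℝ := fun X => g X - μ with hf
    have hf0 : ∑ X ∈ powersetCard (k + 1) M, f X = 0 := jMean_sum_zero M (k + 1) g
    have hT : ∀ c e, jT M (k + 1) g c e = TT M (k + 1) f c e := by
      intro c e
      rw [jT_eq]; rfl
    have hV : jVar M (k + 1) g = ∑ X ∈ powersetCard (k + 1) M, f X ^ 2 := rfl
    simp only [hT]
    -- remove the erase
    have hLHS : ∑ c ∈ M, ∑ e ∈ M.erase c, TT M (k + 1) f c e ^ 2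
        = ∑ c ∈ M, ∑ e ∈ M, TT M (k + 1) f c e ^ 2 := by
      apply sum_congr rfl
      intro c hc
      rw [← add_sum_erase M _ hc, TT_diag]
      simp
    rw [hLHS]
    by_cases hm : 3 ≤ M.card
    · rw [hV, Nat.add_sub_cancel]
      exact frame_core M k hm f hf0
    · have hm2' : M.card = 2 := by omega
      obtain ⟨a, b, hab, hMab⟩ := card_eq_two.mp hm2'
      subst hMab
      have hS := TT_total _ (k + 1) f hf0
      unfold rowS at hS
      rw [sum_pair hab, sum_pair hab, sum_pair hab, TT_diag, TT_diag, TT_symm _ (k + 1) f b a] at hS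
      have h1 : TT {a, b} (k + 1) f a b = 0 := by linarith
      rw [sum_pair hab, sum_pair hab, sum_pair hab, TT_diag, TT_diag, TT_symm _ (k + 1) f b a, h1]
      simpa [hm2'] using hRHS

end Johnson
end Crest.Agent.SW
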