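/- Package G (helper9): summation over the Johnson fibre of the pair `(a,b)`. -/
import Crest.Agent.Lib.SW.Johnson
import Crest.Agent.Lib.SW.Connect

set_option autoImplicit false

namespace Crest.Agent.SW

open Finset Crest.SwitchChain

variable {n : ℕ} {d : Fin n → ℕ}

section Fib

variable (a b : Fin n)

open Classical in
/-- Third vertices adjacent to exactly one of `a, b`. -/
noncomputable def Gf_M (G : Finset (Edge n)) : Finset (Fin n) :=
  univ.filter fun v => v ≠ a ∧ v ≠ b ∧ ent G a v + ent G b v = 1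

open Classical in
/-- The split of `M` given by a graph. -/
noncomputable def Gf_X (M : Finset (Fin n)) (G : Finset (Edge n)) : Finset (Fin n) :=
  M.filter fun v => ent G a v = 1

variable {a b}

lemma Gf_mem_M {G : Finset (Edge n)} {v : Fin n} :
    v ∈ Gf_M a b G ↔ v ≠ a ∧ v ≠ b ∧ ent G a v + ent G b v = 1 := by
  simp [Gf_M]

variable (a b)

open Classical in
/-- The entries of the graph with split `X` in the fibre of `G₀`. -/
noncomputable def Gf_m (G₀ : Finset (Edge n)) (X : Finset (Fin n)) (u v : Fin n) : ℕ :=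
  if u = a ∧ v ∈ Gf_M a b G₀ then (if v ∈ X then 1 else 0)
  else if u = b ∧ v ∈ Gf_M a b G₀ then (if v ∈ X then 0 else 1)
  else if v = a ∧ u ∈ Gf_M a b G₀ then (if u ∈ X then 1 else 0)
  else if v = b ∧ u ∈ Gf_M a b G₀ then (if u ∈ X then 0 else 1)
  else ent G₀ u v

variable {a b}

lemma Gf_m_ab {G₀ : Finset (Edge n)} {X : Finset (Fin n)} {v : Fin n} (hab : a ≠ b)
    (hv : v ∈ Gf_M a b G₀) : Gf_m a b G₀ X a v = if v ∈ X then 1 else 0 := by
  unfold Gf_m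
  rw [if_pos ⟨rfl, hv⟩]

lemma Gf_m_bb {G₀ : Finset (Edge n)} {X : Finset (Fin n)} {v : Fin n} (hab : a ≠ b)
    (hv : v ∈ Gf_M a b G₀) : Gf_m a b G₀ X b v = if v ∈ X then 0 else 1 := by
  unfold Gf_m
  rw [if_neg (fun h => hab h.1.symm), if_pos ⟨rfl, hv⟩]

lemma Gf_m_of_not {G₀ : Finset (Edge n)} {X : Finset (Fin n)} {u v : Fin n}
    (h1 : ¬ (u = a ∧ v ∈ Gf_M a b G₀)) (h2 : ¬ (u = b ∧ v ∈ Gf_M a b G₀))
    (h3 : ¬ (v = a ∧ u ∈ Gf_M a b G₀)) (h4 : ¬ (v = b ∧ u ∈ Gf_M a b G₀)) :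
    Gf_m a b G₀ X u v = ent G₀ u v := by
  unfold Gf_m
  rw [if_neg h1, if_neg h2, if_neg h3, if_neg h4]

lemma Gf_not_mem_a {G₀ : Finset (Edge n)} : a ∉ Gf_M a b G₀ := by
  rw [Gf_mem_M]; exact fun h => h.1 rfl

lemma Gf_not_mem_b {G₀ : Finset (Edge n)} : b ∉ Gf_M a b G₀ := by
  rw [Gf_mem_M]; exact fun h => h.2.1 rfl

lemma Gf_m_ab' {G₀ : Finset (Edge n)} {X : Finset (Fin n)} {v : Fin n}
    (hv : v ∈ Gf_M a b G₀) : Gf_m a b G₀ X v a = if v ∈ X then 1 else 0 := by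
  have ha : a ∉ Gf_M a b G₀ := Gf_not_mem_a
  have h1 : ¬ (v = a ∧ a ∈ Gf_M a b G₀) := fun h => ha h.2
  have h2 : ¬ (v = b ∧ a ∈ Gf_M a b G₀) := fun h => ha h.2
  have h3 : a = a ∧ v ∈ Gf_M a b G₀ := ⟨rfl, hv⟩
  unfold Gf_m
  rw [if_neg h1, if_neg h2, if_pos h3]

lemma Gf_m_bb' {G₀ : Finset (Edge n)} {X : Finset (Fin n)} {v : Fin n} (hab : a ≠ b)
    (hv : v ∈ Gf_M a b G₀) : Gf_m a b G₀ X v b = if v ∈ X then 0 else 1 := by
  have hb : b ∉ Gf_M a b G₀ := Gf_not_mem_b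
  have h1 : ¬ (v = a ∧ b ∈ Gf_M a b G₀) := fun h => hb h.2
  have h2 : ¬ (v = b ∧ b ∈ Gf_M a b G₀) := fun h => hb h.2
  have h3 : ¬ (b = a ∧ v ∈ Gf_M a b G₀) := fun h => hab h.1.symm
  have h4 : b = b ∧ v ∈ Gf_M a b G₀ := ⟨rfl, hv⟩
  unfold Gf_m
  rw [if_neg h1, if_neg h2, if_neg h3, if_pos h4]

lemma Gf_m_symm (hab : a ≠ b) (G₀ : Finset (Edge n)) (X : Finset (Fin n)) (u v : Fin n) :
    Gf_m a b G₀ X u v = Gf_m a b G₀ X v u := by
  classical
  by_cases h1 : u = a ∧ v ∈ Gf_M a b G₀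
  · obtain ⟨rfl, hv⟩ := h1
    rw [Gf_m_ab hab hv, Gf_m_ab' hv]
  by_cases h2 : u = b ∧ v ∈ Gf_M a b G₀
  · obtain ⟨rfl, hv⟩ := h2
    rw [Gf_m_bb hab hv, Gf_m_bb' hab hv]
  by_cases h3 : v = a ∧ u ∈ Gf_M a b G₀
  · obtain ⟨rfl, hu⟩ := h3
    rw [Gf_m_ab hab hu, Gf_m_ab' hu]
  by_cases h4 : v = b ∧ u ∈ Gf_M a b G₀
  · obtain ⟨rfl, hu⟩ := h4
    rw [Gf_m_bb hab hu, Gf_m_bb' hab hu]
  rw [Gf_m_of_not h1 h2 h3 h4,
    Gf_m_of_not (fun h => h3 ⟨h.1, h.2⟩) (fun h => h4 ⟨h.1, h.2⟩) (fun h => h1 ⟨h.1, h.2⟩)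
      (fun h => h2 ⟨h.1, h.2⟩), ent_symm]

lemma Gf_m_diag (G₀ : Finset (Edge n)) (X : Finset (Fin n)) (u : Fin n) :
    Gf_m a b G₀ X u u = 0 := by
  have ha : a ∉ Gf_M a b G₀ := Gf_not_mem_a
  have hb : b ∉ Gf_M a b G₀ := Gf_not_mem_b
  rw [Gf_m_of_not] <;> first
    | exact ent_self _ _
    | (rintro ⟨rfl, h⟩; first | exact ha h | exact hb h)

lemma Gf_m_le (G₀ : Finset (Edge n)) (X : Finset (Fin n)) (u v : Fin n) :
    Gf_m a b G₀ X u v ≤ 1 := by
  unfold Gf_m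
  have := ent_le_one G₀ u v
  split_ifs <;> omega

/-- The graph with split `X`. -/
noncomputable def Gf_gr (a b : Fin n) (G₀ : Finset (Edge n)) (X : Finset (Fin n)) : Finset (Edge n) :=
  ofEnt (Gf_m a b G₀ X)

lemma ent_Gf_gr (hab : a ≠ b) (G₀ : Finset (Edge n)) (X : Finset (Fin n)) (u v : Fin n) :
    ent (Gf_gr a b G₀ X) u v = Gf_m a b G₀ X u v :=
  ent_ofEnt _ (Gf_m_symm hab G₀ X) (Gf_m_diag G₀ X) (Gf_m_le G₀ X) u v

/-- Splitting a sum over `M`. -/
lemma Gf_sum_split (M : Finset (Fin n)) (h : Fin n → ℕ) :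
    ∑ u, h u = ∑ u ∈ M, h u + ∑ u ∈ univ \ M, h u := by
  rw [add_comm]
  exact (sum_sdiff (subset_univ M)).symm

/-- Sum over all vertices, extracting two. -/
lemma Gf_sum_two (hab : a ≠ b) (h : Fin n → ℕ) :
    ∑ u, h u = h a + (h b + ∑ u ∈ (univ.erase a).erase b, h u) := by
  classical
  rw [← add_sum_erase univ h (mem_univ a),
    ← add_sum_erase (univ.erase a) h (mem_erase.mpr ⟨hab.symm, mem_univ b⟩)]

lemma Gf_X_sub (M : Finset (Fin n)) (G : Finset (Edge n)) : Gf_X a M G ⊆ M := filter_subset _ _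

lemma Gf_sum_ent_a (M : Finset (Fin n)) (G : Finset (Edge n)) :
    ∑ u ∈ M, ent G a u = (Gf_X a M G).card := by
  classical
  unfold Gf_X
  rw [card_filter]
  apply sum_congr rfl
  intro u _
  rcases ent_zero_or_one G a u with h | h <;> simp [h]

/-- Entries of the row of `a` inside `M` for a split `X ⊆ M`. -/
lemma Gf_sum_mem (M X : Finset (Fin n)) (hX : X ⊆ M) :
    ∑ u ∈ M, (if u ∈ X then 1 else 0) = X.card := by
  classical
  rw [← card_filter]
  congr 1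
  ext u
  simp only [mem_filter]
  exact ⟨fun h => h.2, fun h => ⟨hX h, h⟩⟩

lemma Gf_sum_nmem (M X : Finset (Fin n)) (hX : X ⊆ M) :
    ∑ u ∈ M, (if u ∈ X then 0 else 1) = M.card - X.card := by
  classical
  have h1 : ∀ u, (if u ∈ X then 0 else 1) = if u ∉ X then 1 else 0 := by
    intro u; by_cases h : u ∈ X <;> simp [h]
  simp_rw [h1]
  rw [← card_filter]
  have : M.filter (fun u => u ∉ X) = M \ X := by
    ext u; simp
  rw [this, card_sdiff_of_subset hX]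

variable (G₀ : Om d)

/-- The graph with split `X` is a realization. -/
lemma Gf_gr_mem (hab : a ≠ b) {X : Finset (Fin n)} (hX : X ⊆ Gf_M a b G₀.1)
    (hk : X.card = (Gf_X a (Gf_M a b G₀.1) G₀.1).card) : Gf_gr a b G₀.1 X ∈ realizations d := by
  classical
  set M := Gf_M a b G₀.1 with hM
  set G := G₀.1 with hG
  have hG0 := (mem_realizations_iff d G).1 G₀.2
  have ha : a ∉ M := Gf_not_mem_a
  have hb : b ∉ M := Gf_not_mem_b
  rw [mem_realizations_iff]
  intro w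
  rw [← hG0 w]
  simp_rw [ent_Gf_gr hab]
  by_cases hwa : w = a
  · subst hwa
    rw [Gf_sum_split M, Gf_sum_split M (fun u => ent G w u)]
    have e1 : ∑ u ∈ M, Gf_m w b G X w u = X.card := by
      rw [← Gf_sum_mem M X hX]
      exact sum_congr rfl (fun u hu => Gf_m_ab hab hu)
    have e2 : ∑ u ∈ univ \ M, Gf_m w b G X w u = ∑ u ∈ univ \ M, ent G w u := by
      apply sum_congr rfl
      intro u hu
      have huM : u ∉ M := (mem_sdiff.1 hu).2
      apply Gf_m_of_not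
      · exact fun h => huM h.2
      · exact fun h => hab h.1
      · exact fun h => ha h.2
      · exact fun h => ha h.2
    rw [e1, e2, Gf_sum_ent_a M G, hk]
  by_cases hwb : w = b
  · subst hwb
    rw [Gf_sum_split M, Gf_sum_split M (fun u => ent G w u)]
    have e1 : ∑ u ∈ M, Gf_m a w G X w u = M.card - X.card := by
      rw [← Gf_sum_nmem M X hX]
      exact sum_congr rfl (fun u hu => Gf_m_bb hab hu)
    have e2 : ∑ u ∈ univ \ M, Gf_m a w G X w u = ∑ u ∈ univ \ M, ent G w u := by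
      apply sum_congr rfl
      intro u hu
      have huM : u ∉ M := (mem_sdiff.1 hu).2
      apply Gf_m_of_not
      · exact fun h => hab h.1.symm
      · exact fun h => huM h.2
      · exact fun h => hb h.2
      · exact fun h => hb h.2
    have e3 : ∑ u ∈ M, ent G w u = M.card - (Gf_X a M G).card := by
      have h1 : ∑ u ∈ M, (ent G a u + ent G w u) = M.card := by
        rw [card_eq_sum_ones]
        exact sum_congr rfl (fun u hu => (Gf_mem_M.1 hu).2.2)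
      rw [sum_add_distrib, Gf_sum_ent_a] at h1
      omega
    rw [e1, e2, e3, hk]
  by_cases hwM : w ∈ M
  · -- row of `w ∈ M`
    rw [Gf_sum_two hab, Gf_sum_two hab (fun u => ent G w u)]
    have e1 : Gf_m a b G X w a = if w ∈ X then 1 else 0 := by
      rw [Gf_m_symm hab]; exact Gf_m_ab hab hwM
    have e2 : Gf_m a b G X w b = if w ∈ X then 0 else 1 := by
      rw [Gf_m_symm hab]; exact Gf_m_bb hab hwM
    have e3 : ∑ u ∈ (univ.erase a).erase b, Gf_m a b G X w u =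
        ∑ u ∈ (univ.erase a).erase b, ent G w u := by
      apply sum_congr rfl
      intro u hu
      have hub : u ≠ b := (mem_erase.1 hu).1
      have hua : u ≠ a := (mem_erase.1 (mem_erase.1 hu).2).1
      apply Gf_m_of_not
      · exact fun h => hwa h.1
      · exact fun h => hwb h.1
      · exact fun h => hua h.1
      · exact fun h => hub h.1
    have e4 : ent G w a + ent G w b = 1 := by
      rw [ent_symm G w a, ent_symm G w b]
      exact (Gf_mem_M.1 hwM).2.2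
    rw [e1, e2, e3]
    by_cases hwX : w ∈ X <;> simp [hwX] <;> omega
  · apply sum_congr rfl
    intro u _
    apply Gf_m_of_not
    · exact fun h => hwa h.1
    · exact fun h => hwb h.1
    · exact fun h => hwM h.2
    · exact fun h => hwM h.2

/-! ### The fibre as a Johnson fibre -/

/-- Outside `M` the rows of `a, b` are constant on a class. -/
lemma Gf_row_of_not_mem (hab : a ≠ b) {G H : Om d} (h : (rowRel a b).r G H) {v : Fin n}
    (hv : v ∉ Gf_M a b H.1) :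
    ent G.1 a v = ent H.1 a v ∧ ent G.1 b v = ent H.1 b v := by
  by_cases hva : v = a
  · subst hva
    refine ⟨by simp, ?_⟩
    rw [ent_symm G.1 b v, ent_symm H.1 b v]
    exact rowRel_ent_ab hab h
  by_cases hvb : v = b
  · subst hvb
    exact ⟨rowRel_ent_ab hab h, by simp⟩
  have h1 := h.2 v hva hvb
  have hs : ent H.1 a v + ent H.1 b v ≠ 1 := fun hs => hv (Gf_mem_M.2 ⟨hva, hvb, hs⟩)
  have h2 := ent_zero_or_one G.1 a v
  have h3 := ent_zero_or_one G.1 b v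
  have h4 := ent_zero_or_one H.1 a v
  have h5 := ent_zero_or_one H.1 b v
  omega

lemma Gf_M_eq (hab : a ≠ b) {G H : Om d} (h : (rowRel a b).r G H) :
    Gf_M a b G.1 = Gf_M a b H.1 := by
  ext v
  rw [Gf_mem_M, Gf_mem_M]
  constructor
  · rintro ⟨h1, h2, h3⟩
    refine ⟨h1, h2, ?_⟩
    rw [← h.2 v h1 h2]; exact h3
  · rintro ⟨h1, h2, h3⟩
    refine ⟨h1, h2, ?_⟩
    rw [h.2 v h1 h2]; exact h3

/-- The split size on a class. -/
lemma Gf_card_eq (hab : a ≠ b) {G H : Om d} (h : (rowRel a b).r G H) :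
    (Gf_X a (Gf_M a b H.1) G.1).card = (Gf_X a (Gf_M a b H.1) H.1).card := by
  classical
  have hG := (mem_realizations_iff d G.1).1 G.2 a
  have hH := (mem_realizations_iff d H.1).1 H.2 a
  rw [Gf_sum_split (Gf_M a b H.1)] at hG hH
  have e : ∑ u ∈ univ \ Gf_M a b H.1, ent G.1 a u = ∑ u ∈ univ \ Gf_M a b H.1, ent H.1 a u := by
    apply sum_congr rfl
    intro u hu
    exact (Gf_row_of_not_mem hab h (mem_sdiff.1 hu).2).1
  rw [← Gf_sum_ent_a, ← Gf_sum_ent_a]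
  omega

/-- A graph of the class is the graph of its split. -/
lemma Gf_gr_of_class (hab : a ≠ b) {G H : Om d} (h : (rowRel a b).r G H) :
    Gf_gr a b H.1 (Gf_X a (Gf_M a b H.1) G.1) = G.1 := by
  classical
  apply graph_ext
  intro u v
  rw [ent_Gf_gr hab]
  set M := Gf_M a b H.1 with hM
  set X := Gf_X a M G.1 with hX
  have hMG : Gf_M a b G.1 = M := Gf_M_eq hab h
  have haone : ∀ w ∈ M, (if w ∈ X then 1 else 0) = ent G.1 a w := by
    intro w hw
    rcases ent_zero_or_one G.1 a w with h0 | h0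
    · rw [h0, if_neg]
      intro hm
      have := (mem_filter.1 hm).2
      omega
    · rw [h0, if_pos]
      exact mem_filter.2 ⟨hw, h0⟩
  have hbone : ∀ w ∈ M, (if w ∈ X then 0 else 1) = ent G.1 b w := by
    intro w hw
    have hs : ent G.1 a w + ent G.1 b w = 1 := by
      have hw' := hw
      rw [← hMG] at hw'
      exact (Gf_mem_M.1 hw').2.2
    have := haone w hw
    by_cases hm : w ∈ X
    · rw [if_pos hm] at this ⊢
      omega
    · rw [if_neg hm] at this ⊢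
      omega
  by_cases h1 : u = a ∧ v ∈ M
  · obtain ⟨rfl, hv⟩ := h1
    rw [Gf_m_ab hab hv]
    exact haone v hv
  by_cases h2 : u = b ∧ v ∈ M
  · obtain ⟨rfl, hv⟩ := h2
    rw [Gf_m_bb hab hv]
    exact hbone v hv
  by_cases h3 : v = a ∧ u ∈ M
  · obtain ⟨rfl, hu⟩ := h3
    rw [Gf_m_ab' hu, ent_symm]
    exact haone u hu
  by_cases h4 : v = b ∧ u ∈ M
  · obtain ⟨rfl, hu⟩ := h4
    rw [Gf_m_bb' hab hu, ent_symm]
    exact hbone u hu
  rw [Gf_m_of_not h1 h2 h3 h4]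
  by_cases hua : u = a
  · subst hua
    exact (Gf_row_of_not_mem hab h (fun hv => h1 ⟨rfl, hv⟩)).1.symm
  by_cases hub : u = b
  · subst hub
    exact (Gf_row_of_not_mem hab h (fun hv => h2 ⟨rfl, hv⟩)).2.symm
  by_cases hva : v = a
  · subst hva
    rw [ent_symm H.1, ent_symm G.1]
    exact (Gf_row_of_not_mem hab h (fun hu => h3 ⟨rfl, hu⟩)).1.symm
  by_cases hvb : v = b
  · subst hvb
    rw [ent_symm H.1, ent_symm G.1]
    exact (Gf_row_of_not_mem hab h (fun hu => h4 ⟨rfl, hu⟩)).2.symm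
  exact (h.1 u v hua hub hva hvb).symm

/-- The graph of a split lies in the class. -/
lemma Gf_gr_rel (hab : a ≠ b) {X : Finset (Fin n)} (hX : X ⊆ Gf_M a b G₀.1)
    (hk : X.card = (Gf_X a (Gf_M a b G₀.1) G₀.1).card) :
    (rowRel a b).r (⟨Gf_gr a b G₀.1 X, Gf_gr_mem G₀ hab hX hk⟩ : Om d) G₀ := by
  classical
  set M := Gf_M a b G₀.1 with hM
  constructor
  · intro u v hua hub hva hvb
    show ent (Gf_gr a b G₀.1 X) u v = _
    rw [ent_Gf_gr hab]
    apply Gf_m_of_not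
    · exact fun h => hua h.1
    · exact fun h => hub h.1
    · exact fun h => hva h.1
    · exact fun h => hvb h.1
  · intro v hva hvb
    show ent (Gf_gr a b G₀.1 X) a v + ent (Gf_gr a b G₀.1 X) b v = _
    rw [ent_Gf_gr hab, ent_Gf_gr hab]
    by_cases hv : v ∈ M
    · rw [Gf_m_ab hab hv, Gf_m_bb hab hv, (Gf_mem_M.1 hv).2.2]
      by_cases hm : v ∈ X <;> simp [hm]
    · rw [Gf_m_of_not (X := X) (u := a) (v := v) (fun h => hv h.2) (fun h => hab h.1)
        (fun h => hva h.1) (fun h => hvb h.1),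
        Gf_m_of_not (X := X) (u := b) (v := v) (fun h => hab h.1.symm) (fun h => hv h.2)
        (fun h => hva h.1) (fun h => hvb h.1)]

lemma Gf_X_of_gr (hab : a ≠ b) {X : Finset (Fin n)} (hX : X ⊆ Gf_M a b G₀.1) :
    Gf_X a (Gf_M a b G₀.1) (Gf_gr a b G₀.1 X) = X := by
  classical
  ext v
  unfold Gf_X
  rw [mem_filter]
  constructor
  · rintro ⟨hv, h1⟩
    rw [ent_Gf_gr hab, Gf_m_ab hab hv] at h1
    by_contra hm
    rw [if_neg hm] at h1
    omega
  · intro hm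
    refine ⟨hX hm, ?_⟩
    rw [ent_Gf_gr hab, Gf_m_ab hab (hX hm), if_pos hm]

/-- The Johnson parameters of the class of `G₀`. -/
noncomputable def Gf_k (a b : Fin n) (G₀ : Om d) : ℕ :=
  (Gf_X a (Gf_M a b G₀.1) G₀.1).card

open Classical in
/-- The element of `Om d` with split `X` (junk outside the Johnson fibre). -/
noncomputable def Gf_of (hab : a ≠ b) (X : Finset (Fin n)) : Om d :=
  if h : X ∈ powersetCard (Gf_k a b G₀) (Gf_M a b G₀.1) then
    ⟨Gf_gr a b G₀.1 X, Gf_gr_mem G₀ hab (mem_powersetCard.1 h).1 (mem_powersetCard.1 h).2⟩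
  else G₀

lemma Gf_of_val (hab : a ≠ b) {X : Finset (Fin n)}
    (h : X ∈ powersetCard (Gf_k a b G₀) (Gf_M a b G₀.1)) :
    (Gf_of G₀ hab X).1 = Gf_gr a b G₀.1 X := by
  unfold Gf_of
  rw [dif_pos h]

lemma Gf_of_rel (hab : a ≠ b) {X : Finset (Fin n)}
    (h : X ∈ powersetCard (Gf_k a b G₀) (Gf_M a b G₀.1)) :
    (rowRel a b).r (Gf_of G₀ hab X) G₀ := by
  unfold Gf_of
  rw [dif_pos h]
  exact Gf_gr_rel G₀ hab (mem_powersetCard.1 h).1 (mem_powersetCard.1 h).2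

lemma Gf_X_mem_pc (hab : a ≠ b) {G : Om d} (h : (rowRel a b).r G G₀) :
    Gf_X a (Gf_M a b G₀.1) G.1 ∈ powersetCard (Gf_k a b G₀) (Gf_M a b G₀.1) :=
  mem_powersetCard.2 ⟨Gf_X_sub _ _, Gf_card_eq hab h⟩

lemma Gf_of_X (hab : a ≠ b) {G : Om d} (h : (rowRel a b).r G G₀) :
    Gf_of G₀ hab (Gf_X a (Gf_M a b G₀.1) G.1) = G := by
  apply Subtype.ext
  rw [Gf_of_val G₀ hab (Gf_X_mem_pc G₀ hab h)]
  exact Gf_gr_of_class hab h

lemma Gf_X_of (hab : a ≠ b) {X : Finset (Fin n)}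
    (h : X ∈ powersetCard (Gf_k a b G₀) (Gf_M a b G₀.1)) :
    Gf_X a (Gf_M a b G₀.1) (Gf_of G₀ hab X).1 = X := by
  rw [Gf_of_val G₀ hab h]
  exact Gf_X_of_gr G₀ hab (mem_powersetCard.1 h).1

/-- Sums over the class are sums over the Johnson fibre. -/
lemma Gf_sum_cls {β : Type*} [AddCommMonoid β] (hab : a ≠ b) (φ : Om d → β) :
    ∑ G ∈ cls (rowRel a b) G₀, φ G =
      ∑ X ∈ powersetCard (Gf_k a b G₀) (Gf_M a b G₀.1), φ (Gf_of G₀ hab X) := by
  classical
  apply sum_nbij' (fun G => Gf_X a (Gf_M a b G₀.1) G.1) (fun X => Gf_of G₀ hab X)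
  · intro G hG
    exact Gf_X_mem_pc G₀ hab ((mem_cls _ _ _).1 hG)
  · intro X hX
    exact (mem_cls _ _ _).2 (Gf_of_rel G₀ hab hX)
  · intro G hG
    exact Gf_of_X G₀ hab ((mem_cls _ _ _).1 hG)
  · intro X hX
    exact Gf_X_of G₀ hab hX
  · intro G hG
    rw [Gf_of_X G₀ hab ((mem_cls _ _ _).1 hG)]

lemma Gf_card_cls (hab : a ≠ b) :
    (cls (rowRel a b) G₀).card = (powersetCard (Gf_k a b G₀) (Gf_M a b G₀.1)).card := by
  have := Gf_sum_cls (β := ℕ) G₀ hab (fun _ => 1)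
  simpa using this

/-- The function on the Johnson fibre. -/
noncomputable def Gf_g (hab : a ≠ b) (f : Om d → ℝ) (X : Finset (Fin n)) : ℝ := f (Gf_of G₀ hab X)

lemma Gf_avg_eq (hab : a ≠ b) (f : Om d → ℝ) :
    avg (rowRel a b) f G₀ = jMean (Gf_M a b G₀.1) (Gf_k a b G₀) (Gf_g G₀ hab f) := by
  unfold avg jMean
  rw [Gf_sum_cls G₀ hab, Gf_card_cls G₀ hab]
  rfl

/-- Variance on the class. -/
lemma Gf_var_eq (hab : a ≠ b) (f : Om d → ℝ) :
    ∑ G ∈ cls (rowRel a b) G₀, (Qab a b f G) ^ 2 =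
      jVar (Gf_M a b G₀.1) (Gf_k a b G₀) (Gf_g G₀ hab f) := by
  unfold jVar
  rw [Gf_sum_cls G₀ hab]
  apply sum_congr rfl
  intro X hX
  unfold Qab Qop
  rw [avg_eq_of_rel _ f (Gf_of_rel G₀ hab hX), Gf_avg_eq G₀ hab f]
  rfl

/-! ### Switches on the Johnson fibre -/

lemma Gf_ent_of (hab : a ≠ b) {X : Finset (Fin n)}
    (h : X ∈ powersetCard (Gf_k a b G₀) (Gf_M a b G₀.1)) (u v : Fin n) :
    ent (Gf_of G₀ hab X).1 u v = Gf_m a b G₀.1 X u v := by
  rw [Gf_of_val G₀ hab h, ent_Gf_gr hab]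

/-- The exchanged split. -/
def Gf_ex (c e : Fin n) (X : Finset (Fin n)) : Finset (Fin n) := insert e (X.erase c)

lemma Gf_ex_mem_pc {c e : Fin n} {X : Finset (Fin n)}
    (h : X ∈ powersetCard (Gf_k a b G₀) (Gf_M a b G₀.1))
    (hc : c ∈ X) (heM : e ∈ Gf_M a b G₀.1) (he : e ∉ X) :
    Gf_ex c e X ∈ powersetCard (Gf_k a b G₀) (Gf_M a b G₀.1) := by
  rw [mem_powersetCard] at h ⊢
  constructor
  · intro x hx
    unfold Gf_ex at hx
    rcases mem_insert.1 hx with rfl | hx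
    · exact heM
    · exact h.1 (mem_of_mem_erase hx)
  · unfold Gf_ex
    rw [card_insert_of_notMem (fun hm => he (mem_of_mem_erase hm)), card_erase_of_mem hc, ← h.2]
    have : 0 < X.card := card_pos.2 ⟨c, hc⟩
    omega

lemma Gf_ex_mem {c e w : Fin n} {X : Finset (Fin n)} (hwc : w ≠ c) (hwe : w ≠ e) :
    w ∈ Gf_ex c e X ↔ w ∈ X := by
  unfold Gf_ex
  simp [mem_insert, mem_erase, hwc, hwe]

lemma Gf_ex_e {c e : Fin n} {X : Finset (Fin n)} : e ∈ Gf_ex c e X := by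
  unfold Gf_ex; exact mem_insert_self _ _

lemma Gf_ex_c {c e : Fin n} {X : Finset (Fin n)} (hce : c ≠ e) : c ∉ Gf_ex c e X := by
  unfold Gf_ex
  simp [mem_insert, mem_erase, hce]

/-- The entries of a split on `a`. -/
lemma Gf_ent_a_of (hab : a ≠ b) {X : Finset (Fin n)}
    (h : X ∈ powersetCard (Gf_k a b G₀) (Gf_M a b G₀.1)) {v : Fin n}
    (hv : v ∈ Gf_M a b G₀.1) : ent (Gf_of G₀ hab X).1 a v = if v ∈ X then 1 else 0 := by
  rw [Gf_ent_of G₀ hab h, Gf_m_ab hab hv]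

lemma Gf_ent_b_of (hab : a ≠ b) {X : Finset (Fin n)}
    (h : X ∈ powersetCard (Gf_k a b G₀) (Gf_M a b G₀.1)) {v : Fin n}
    (hv : v ∈ Gf_M a b G₀.1) : ent (Gf_of G₀ hab X).1 b v = if v ∈ X then 0 else 1 := by
  rw [Gf_ent_of G₀ hab h, Gf_m_bb hab hv]

/-- Characterisation of `M` along the class. -/
lemma Gf_mem_M_of (hab : a ≠ b) {X : Finset (Fin n)}
    (h : X ∈ powersetCard (Gf_k a b G₀) (Gf_M a b G₀.1)) {v : Fin n} (hva : v ≠ a) (hvb : v ≠ b) :
    v ∈ Gf_M a b G₀.1 ↔ ent (Gf_of G₀ hab X).1 a v ≠ ent (Gf_of G₀ hab X).1 b v := by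
  have hrel := Gf_of_rel G₀ hab h
  have hM := Gf_M_eq hab hrel
  rw [← hM, Gf_mem_M]
  have h1 := ent_zero_or_one (Gf_of G₀ hab X).1 a v
  have h2 := ent_zero_or_one (Gf_of G₀ hab X).1 b v
  constructor
  · rintro ⟨_, _, hs⟩
    omega
  · intro hne
    exact ⟨hva, hvb, by omega⟩

lemma Gf_ex_mem_iff_helper {c e w : Fin n} {X : Finset (Fin n)} {α : Type*} {x y : α}
    (hwc : w ≠ c) (hwe : w ≠ e) [Decidable (w ∈ X)] [Decidable (w ∈ Gf_ex c e X)] :
    (if w ∈ X then x else y) = (if w ∈ Gf_ex c e X then x else y) := by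
  by_cases hm : w ∈ X
  · rw [if_pos hm, if_pos ((Gf_ex_mem hwc hwe).2 hm)]
  · rw [if_neg hm, if_neg (fun h => hm ((Gf_ex_mem hwc hwe).1 h))]

lemma Gf_isSw_iff (hab : a ≠ b) {c e : Fin n} (hac : a ≠ c) (hae : a ≠ e) (hbc : b ≠ c)
    (hbe : b ≠ e) (hce : c ≠ e) {X : Finset (Fin n)}
    (h : X ∈ powersetCard (Gf_k a b G₀) (Gf_M a b G₀.1)) (G' : Om d) :
    IsSw a b c e (Gf_of G₀ hab X).1 G'.1 ↔
      (c ∈ X ∧ e ∈ Gf_M a b G₀.1 ∧ e ∉ X) ∧ G' = Gf_of G₀ hab (Gf_ex c e X) := by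
  classical
  have hXM := (mem_powersetCard.1 h).1
  constructor
  · intro hsw
    have hsw' := hsw
    obtain ⟨⟨h1, h2, h3, h4⟩, ⟨h5, h6, h7, h8⟩, h9⟩ := hsw
    have hcM : c ∈ Gf_M a b G₀.1 := by
      rw [Gf_mem_M_of G₀ hab h hac.symm hbc.symm]
      omega
    have heM : e ∈ Gf_M a b G₀.1 := by
      rw [Gf_mem_M_of G₀ hab h hae.symm hbe.symm]
      omega
    have hcX : c ∈ X := by
      rw [Gf_ent_a_of G₀ hab h hcM] at h1
      by_contra hm
      rw [if_neg hm] at h1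
      omega
    have heX : e ∉ X := by
      rw [Gf_ent_a_of G₀ hab h heM] at h3
      intro hm
      rw [if_pos hm] at h3
      omega
    refine ⟨⟨hcX, heM, heX⟩, ?_⟩
    have hrel : (rowRel a b).r (Gf_of G₀ hab X) G' :=
      H_rowRel_of_isSw hac hae hbc hbe hce hab hsw'
    have hrel2 : (rowRel a b).r G' G₀ := (rowRel a b).trans ((rowRel a b).symm hrel)
      (Gf_of_rel G₀ hab h)
    rw [← Gf_of_X G₀ hab hrel2]
    congr 1
    ext v
    unfold Gf_X
    rw [mem_filter]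
    by_cases hvc : v = c
    · subst hvc
      simp only [Gf_ex_c hce, iff_false, not_and]
      intro _
      omega
    by_cases hve : v = e
    · subst hve
      simp only [Gf_ex_e, iff_true]
      exact ⟨heM, h5⟩
    rw [Gf_ex_mem hvc hve]
    have e1 : ent (Gf_of G₀ hab X).1 a v = ent G'.1 a v := by
      apply h9
      rintro (⟨_, h0⟩ | ⟨h0, _⟩ | ⟨h0, _⟩ | ⟨h0, _⟩ | ⟨_, h0⟩ | ⟨h0, _⟩ | ⟨h0, _⟩ | ⟨h0, _⟩)
      · exact hvc h0
      · exact hac h0
      · exact hab h0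
      · exact hae h0
      · exact hve h0
      · exact hae h0
      · exact hab h0
      · exact hac h0
    rw [← e1]
    constructor
    · rintro ⟨hv, hv1⟩
      rw [Gf_ent_a_of G₀ hab h hv] at hv1
      by_contra hm
      rw [if_neg hm] at hv1
      omega
    · intro hm
      refine ⟨hXM hm, ?_⟩
      rw [Gf_ent_a_of G₀ hab h (hXM hm), if_pos hm]
  · rintro ⟨⟨hcX, heM, heX⟩, rfl⟩
    have hcM := hXM hcX
    have hex := Gf_ex_mem_pc G₀ h hcX heM heX
    refine ⟨⟨?_, ?_, ?_, ?_⟩, ⟨?_, ?_, ?_, ?_⟩, ?_⟩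
    · rw [Gf_ent_a_of G₀ hab h hcM, if_pos hcX]
    · rw [Gf_ent_b_of G₀ hab h heM, if_neg heX]
    · rw [Gf_ent_a_of G₀ hab h heM, if_neg heX]
    · rw [Gf_ent_b_of G₀ hab h hcM, if_pos hcX]
    · rw [Gf_ent_a_of G₀ hab hex heM, if_pos Gf_ex_e]
    · rw [Gf_ent_b_of G₀ hab hex hcM, if_neg (Gf_ex_c hce)]
    · rw [Gf_ent_a_of G₀ hab hex hcM, if_neg (Gf_ex_c hce)]
    · rw [Gf_ent_b_of G₀ hab hex heM, if_pos Gf_ex_e]
    · intro u v hp
      rw [Gf_ent_of G₀ hab h, Gf_ent_of G₀ hab hex]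
      push Not at hp
      obtain ⟨p1, p2, p3, p4, p5, p6, p7, p8⟩ := hp
      unfold Gf_m
      by_cases h1 : u = a ∧ v ∈ Gf_M a b G₀.1
      · rw [if_pos h1, if_pos h1, Gf_ex_mem_iff_helper (p1 h1.1) (p5 h1.1)]
      by_cases h2 : u = b ∧ v ∈ Gf_M a b G₀.1
      · rw [if_neg h1, if_neg h1, if_pos h2, if_pos h2,
          Gf_ex_mem_iff_helper (p7 h2.1) (p3 h2.1)]
      by_cases h3 : v = a ∧ u ∈ Gf_M a b G₀.1
      · have hu1 : u ≠ c := fun h0 => p2 h0 h3.1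
        have hu2 : u ≠ e := fun h0 => p6 h0 h3.1
        rw [if_neg h1, if_neg h1, if_neg h2, if_neg h2, if_pos h3, if_pos h3,
          Gf_ex_mem_iff_helper hu1 hu2]
      by_cases h4 : v = b ∧ u ∈ Gf_M a b G₀.1
      · have hu1 : u ≠ c := fun h0 => p8 h0 h4.1
        have hu2 : u ≠ e := fun h0 => p4 h0 h4.1
        rw [if_neg h1, if_neg h1, if_neg h2, if_neg h2, if_neg h3, if_neg h3, if_pos h4, if_pos h4,
          Gf_ex_mem_iff_helper hu1 hu2]
      rw [if_neg h1, if_neg h1, if_neg h2, if_neg h2, if_neg h3, if_neg h3, if_neg h4, if_neg h4]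

open Classical in
/-- The inner switch sum at a split. -/
lemma Gf_sw_sum (hab : a ≠ b) {c e : Fin n} (hac : a ≠ c) (hae : a ≠ e) (hbc : b ≠ c)
    (hbe : b ≠ e) (hce : c ≠ e) (f : Om d → ℝ) {X : Finset (Fin n)}
    (h : X ∈ powersetCard (Gf_k a b G₀) (Gf_M a b G₀.1)) :
    (∑ G' : Om d, if IsSw a b c e (Gf_of G₀ hab X).1 G'.1 then
        (f (Gf_of G₀ hab X) - f G') ^ 2 else 0) =
      if c ∈ X ∧ e ∈ Gf_M a b G₀.1 ∧ e ∉ X then
        (Gf_g G₀ hab f X - Gf_g G₀ hab f (insert e (X.erase c))) ^ 2 else 0 := by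
  classical
  by_cases hc : c ∈ X ∧ e ∈ Gf_M a b G₀.1 ∧ e ∉ X
  · rw [if_pos hc, sum_eq_single (Gf_of G₀ hab (Gf_ex c e X))]
    · rw [if_pos ((Gf_isSw_iff G₀ hab hac hae hbc hbe hce h _).2 ⟨hc, rfl⟩)]
      rfl
    · intro G' _ hG'
      rw [if_neg]
      intro hsw
      exact hG' ((Gf_isSw_iff G₀ hab hac hae hbc hbe hce h _).1 hsw).2
    · intro hno
      exact absurd (mem_univ _) hno
  · rw [if_neg hc]
    apply sum_eq_zero
    intro G' _
    rw [if_neg]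
    intro hsw
    exact hc ((Gf_isSw_iff G₀ hab hac hae hbc hbe hce h _).1 hsw).1

open Classical in
/-- The switch sum of the class. -/
lemma Gf_sw_cls (hab : a ≠ b) {c e : Fin n} (hac : a ≠ c) (hae : a ≠ e) (hbc : b ≠ c)
    (hbe : b ≠ e) (hce : c ≠ e) (f : Om d → ℝ) :
    (∑ G ∈ cls (rowRel a b) G₀, ∑ G' : Om d,
        if IsSw a b c e G.1 G'.1 then (f G - f G') ^ 2 else 0) =
      if c ∈ Gf_M a b G₀.1 ∧ e ∈ Gf_M a b G₀.1 then
        ∑ X ∈ (powersetCard (Gf_k a b G₀) (Gf_M a b G₀.1)).filter (fun X => c ∈ X ∧ e ∉ X),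
          (Gf_g G₀ hab f X - Gf_g G₀ hab f (insert e (X.erase c))) ^ 2
      else 0 := by
  classical
  rw [Gf_sum_cls G₀ hab]
  rw [sum_congr rfl (fun X hX => Gf_sw_sum G₀ hab hac hae hbc hbe hce f hX)]
  by_cases hm : c ∈ Gf_M a b G₀.1 ∧ e ∈ Gf_M a b G₀.1
  · rw [if_pos hm, sum_filter]
    apply sum_congr rfl
    intro X _
    by_cases h1 : c ∈ X ∧ e ∉ X
    · rw [if_pos h1, if_pos ⟨h1.1, hm.2, h1.2⟩]
    · rw [if_neg h1, if_neg (fun h2 => h1 ⟨h2.1, h2.2.2⟩)]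
  · rw [if_neg hm]
    apply sum_eq_zero
    intro X hX
    rw [if_neg]
    rintro ⟨h1, h2, _⟩
    exact hm ⟨(mem_powersetCard.1 hX).1 h1, h2⟩

lemma Gf_Dst_iff (hab : a ≠ b) {c e : Fin n} (hac : a ≠ c) (hae : a ≠ e) (hbc : b ≠ c)
    (hbe : b ≠ e) {X : Finset (Fin n)}
    (h : X ∈ powersetCard (Gf_k a b G₀) (Gf_M a b G₀.1)) :
    Dst a b c e (Gf_of G₀ hab X).1 ↔
      c ∈ Gf_M a b G₀.1 ∧ e ∈ Gf_M a b G₀.1 ∧ ¬ (c ∈ X ↔ e ∈ X) := by
  classical
  unfold Dst
  have hc := Gf_mem_M_of G₀ hab h (v := c) hac.symm hbc.symm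
  have he := Gf_mem_M_of G₀ hab h (v := e) hae.symm hbe.symm
  constructor
  · rintro ⟨h1, h2, h3⟩
    have hcM := hc.2 h2
    have heM := he.2 h3
    refine ⟨hcM, heM, ?_⟩
    rw [Gf_ent_a_of G₀ hab h hcM, Gf_ent_a_of G₀ hab h heM] at h1
    intro hiff
    by_cases hm : c ∈ X
    · rw [if_pos hm, if_pos (hiff.1 hm)] at h1
      exact h1 rfl
    · rw [if_neg hm, if_neg (fun h0 => hm (hiff.2 h0))] at h1
      exact h1 rfl
  · rintro ⟨hcM, heM, hne⟩
    refine ⟨?_, hc.1 hcM, he.1 heM⟩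
    rw [Gf_ent_a_of G₀ hab h hcM, Gf_ent_a_of G₀ hab h heM]
    by_cases hm : c ∈ X
    · have hm2 : e ∉ X := fun h0 => hne ⟨fun _ => h0, fun _ => hm⟩
      rw [if_pos hm, if_neg hm2]
      omega
    · have hm2 : e ∈ X := by
        by_contra h0
        exact hne ⟨fun h1 => absurd h1 hm, fun h1 => absurd h1 h0⟩
      rw [if_neg hm, if_pos hm2]
      omega

lemma Gf_Tsum_eq (hab : a ≠ b) {c e : Fin n} (hac : a ≠ c) (hae : a ≠ e) (hbc : b ≠ c)
    (hbe : b ≠ e) (f : Om d → ℝ) :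
    Tsum a b c e f G₀ = if c ∈ Gf_M a b G₀.1 ∧ e ∈ Gf_M a b G₀.1 then
        jT (Gf_M a b G₀.1) (Gf_k a b G₀) (Gf_g G₀ hab f) c e else 0 := by
  classical
  unfold Tsum
  rw [sum_filter, Gf_sum_cls G₀ hab, Gf_avg_eq G₀ hab]
  by_cases hm : c ∈ Gf_M a b G₀.1 ∧ e ∈ Gf_M a b G₀.1
  · rw [if_pos hm]
    unfold jT
    rw [sum_filter]
    apply sum_congr rfl
    intro X hX
    have := Gf_Dst_iff G₀ hab hac hae hbc hbe hX
    by_cases h1 : ¬ (c ∈ X ↔ e ∈ X)
    · rw [if_pos h1, if_pos (this.2 ⟨hm.1, hm.2, h1⟩)]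
      rfl
    · rw [if_neg h1, if_neg (fun h2 => h1 (this.1 h2).2.2)]
  · rw [if_neg hm]
    apply sum_eq_zero
    intro X hX
    have := Gf_Dst_iff G₀ hab hac hae hbc hbe hX
    rw [if_neg]
    intro h2
    exact hm ⟨(this.1 h2).1, (this.1 h2).2.1⟩

lemma Gf_nOne_eq (hab : a ≠ b) {c e : Fin n} (hc : c ∈ Gf_M a b G₀.1) (he : e ∈ Gf_M a b G₀.1) :
    nOne a b c e G₀ =
      ((powersetCard (Gf_k a b G₀) (Gf_M a b G₀.1)).filter (fun X => c ∈ X ∧ e ∉ X)).card := by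
  classical
  unfold nOne
  rw [card_filter, Gf_sum_cls G₀ hab, card_filter]
  apply sum_congr rfl
  intro X hX
  have hD1 : D1 a b c e (Gf_of G₀ hab X).1 ↔ c ∈ X ∧ e ∉ X := by
    unfold D1
    rw [Gf_ent_a_of G₀ hab hX hc, Gf_ent_b_of G₀ hab hX he, Gf_ent_a_of G₀ hab hX he,
      Gf_ent_b_of G₀ hab hX hc]
    constructor
    · rintro ⟨h1, _, h3, _⟩
      constructor
      · by_contra hm
        rw [if_neg hm] at h1
        omega
      · intro hm
        rw [if_pos hm] at h3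
        omega
    · rintro ⟨h1, h2⟩
      simp [h1, h2]
  by_cases h1 : c ∈ X ∧ e ∉ X
  · rw [if_pos h1, if_pos (hD1.2 h1)]
  · rw [if_neg h1, if_neg (fun h2 => h1 (hD1.1 h2))]

lemma Gf_nOne_choose (hab : a ≠ b) {c e : Fin n} (hc : c ∈ Gf_M a b G₀.1) (he : e ∈ Gf_M a b G₀.1)
    (hce : c ≠ e) (hk : 1 ≤ Gf_k a b G₀) :
    nOne a b c e G₀ = ((Gf_M a b G₀.1).card - 2).choose (Gf_k a b G₀ - 1) := by
  classical
  rw [Gf_nOne_eq G₀ hab hc he]
  have h := card_pc_filter (Gf_M a b G₀.1) {c} {e} (Gf_k a b G₀) (singleton_subset_iff.2 hc)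
    (singleton_subset_iff.2 he) (by simpa using hce) (by simpa using hk)
  simp only [card_singleton] at h
  have e1 : (Gf_M a b G₀.1).card - 1 - 1 = (Gf_M a b G₀.1).card - 2 := by omega
  rw [e1] at h
  rw [← h]
  congr 1
  ext X
  simp [singleton_subset_iff]

/-- The numerical heart of the class inequality. -/
lemma Gf_class_num {M : Finset (Fin n)} {k : ℕ} {g : Finset (Fin n) → ℝ} {N : Fin n → Fin n → ℕ}
    (hframe : 2 ≤ M.card → ∑ c ∈ M, ∑ e ∈ M.erase c, (jT M k g c e) ^ 2 ≤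
      2 * ((M.card : ℝ) - 2) * ((M.card - 2).choose (k - 1) : ℝ) * jVar M k g)
    (hN : 1 ≤ k → ∀ c ∈ M, ∀ e ∈ M.erase c, N c e = (M.card - 2).choose (k - 1)) :
    4 * jVar M k g ≤ ∑ c ∈ M, ∑ e ∈ M.erase c,
      ((∑ X ∈ (powersetCard k M).filter (fun X => c ∈ X ∧ e ∉ X),
          (g X - g (insert e (X.erase c))) ^ 2) -
        2 * ((jT M k g c e) ^ 2 / (2 * (N c e : ℝ)))) := by
  classical
  have hsplit : ∑ c ∈ M, ∑ e ∈ M.erase c,
      ((∑ X ∈ (powersetCard k M).filter (fun X => c ∈ X ∧ e ∉ X),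
          (g X - g (insert e (X.erase c))) ^ 2) -
        2 * ((jT M k g c e) ^ 2 / (2 * (N c e : ℝ)))) =
      jDir M k g - ∑ c ∈ M, ∑ e ∈ M.erase c, 2 * ((jT M k g c e) ^ 2 / (2 * (N c e : ℝ))) := by
    unfold jDir
    simp_rw [sum_sub_distrib]
  rw [hsplit]
  by_cases hk : 1 ≤ k ∧ k < M.card
  · have hm2 : 2 ≤ M.card := by omega
    have hpos : 0 < ((M.card - 2).choose (k - 1) : ℝ) := by
      have : 0 < (M.card - 2).choose (k - 1) := Nat.choose_pos (by omega)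
      exact_mod_cast this
    have hgap := johnson_gap M k g
    have hfr := hframe hm2
    have hT : ∑ c ∈ M, ∑ e ∈ M.erase c, 2 * ((jT M k g c e) ^ 2 / (2 * (N c e : ℝ))) =
        (∑ c ∈ M, ∑ e ∈ M.erase c, (jT M k g c e) ^ 2) / ((M.card - 2).choose (k - 1) : ℝ) := by
      rw [sum_div]
      apply sum_congr rfl
      intro c hc
      rw [sum_div]
      apply sum_congr rfl
      intro e he
      rw [hN hk.1 c hc e he]
      field_simp
    rw [hT]
    have hdiv : (∑ c ∈ M, ∑ e ∈ M.erase c, (jT M k g c e) ^ 2) / ((M.card - 2).choose (k - 1) : ℝ)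
        ≤ 2 * ((M.card : ℝ) - 2) * jVar M k g := by
      rw [div_le_iff₀ hpos]
      calc _ ≤ _ := hfr
        _ = _ := by ring
    nlinarith
  · -- degenerate fibre: at most one split
    have hcard : (powersetCard k M).card ≤ 1 := by
      rw [card_powersetCard]
      by_cases h0 : k = 0
      · subst h0; simp
      · have hk' : M.card ≤ k := by
          by_contra hlt
          exact hk ⟨by omega, by omega⟩
        rcases eq_or_lt_of_le hk' with h1 | h1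
        · rw [h1]; simp
        · rw [Nat.choose_eq_zero_of_lt h1]; omega
    have hvar := jVar_of_card_le_one M k g hcard
    have hT0 : ∀ c ∈ M, ∀ e ∈ M.erase c, jT M k g c e = 0 := by
      intro c _ e _
      unfold jT
      apply sum_eq_zero
      intro X hX
      exfalso
      obtain ⟨hX1, hne⟩ := mem_filter.1 hX
      obtain ⟨hsub, hc⟩ := mem_powersetCard.1 hX1
      by_cases h0 : k = 0
      · subst h0
        have := card_eq_zero.1 hc
        subst this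
        simp at hne
      · have hk' : M.card ≤ k := by
          by_contra hlt
          exact hk ⟨by omega, by omega⟩
        have hXM : X = M := eq_of_subset_of_card_le hsub (by omega)
        subst hXM
        rename_i hc' he'
        simp [hc', (mem_erase.1 he').2] at hne
    have hz : ∑ c ∈ M, ∑ e ∈ M.erase c, 2 * ((jT M k g c e) ^ 2 / (2 * (N c e : ℝ))) = 0 := by
      apply sum_eq_zero
      intro c hc
      apply sum_eq_zero
      intro e he
      rw [hT0 c hc e he]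
      simp
    rw [hz, hvar]
    have := jDir_nonneg M k g
    linarith

end Fib

/-! ### Assembly -/

section Assembly

variable {a b : Fin n}

lemma Gf_Tsum_rel (f : Om d → ℝ) (c e : Fin n) {G G₀ : Om d} (h : (rowRel a b).r G G₀) :
    Tsum a b c e f G = Tsum a b c e f G₀ := by
  unfold Tsum
  rw [cls_eq_of_rel _ h, avg_eq_of_rel _ f h]

lemma Gf_nOne_rel (c e : Fin n) {G G₀ : Om d} (h : (rowRel a b).r G G₀) :
    nOne a b c e G = nOne a b c e G₀ := by
  unfold nOne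
  rw [cls_eq_of_rel _ h]

open Classical in
/-- The inequality on one class. -/
lemma Gf_class_ineq
    (hframe : ∀ (M : Finset (Fin n)) (k : ℕ) (g : Finset (Fin n) → ℝ), 2 ≤ M.card →
      ∑ c ∈ M, ∑ e ∈ M.erase c, (jT M k g c e) ^ 2 ≤
        2 * ((M.card : ℝ) - 2) * ((M.card - 2).choose (k - 1) : ℝ) * jVar M k g)
    (hab : a ≠ b) (f : Om d → ℝ) (G₀ : Om d) :
    ∑ G ∈ cls (rowRel a b) G₀, 4 * (Qab a b f G) ^ 2 ≤
      ∑ G ∈ cls (rowRel a b) G₀, ∑ c ∈ (univ.erase a).erase b,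
        ∑ e ∈ ((univ.erase a).erase b).erase c,
          ((∑ G' : Om d, if IsSw a b c e G.1 G'.1 then (f G - f G') ^ 2 else 0) -
            2 * ((Tsum a b c e f G) ^ 2 / (2 * (nOne a b c e G : ℝ)) /
              ((cls (rowRel a b) G).card : ℝ))) := by
  set V := (univ.erase a).erase b with hV
  set M := Gf_M a b G₀.1 with hM
  set k := Gf_k a b G₀ with hk
  set g := Gf_g G₀ hab f with hg
  have hMV : M ⊆ V := by
    intro v hv
    have := Gf_mem_M.1 hv
    simp [hV, this.1, this.2.1]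
  -- the left side
  have hL : ∑ G ∈ cls (rowRel a b) G₀, 4 * (Qab a b f G) ^ 2 = 4 * jVar M k g := by
    rw [← mul_sum, Gf_var_eq G₀ hab f]
  rw [hL]
  -- the right side
  have hclsB : ∀ c e, ∑ G ∈ cls (rowRel a b) G₀, ((Tsum a b c e f G) ^ 2 / (2 * (nOne a b c e G : ℝ)) /
      ((cls (rowRel a b) G).card : ℝ)) =
      (Tsum a b c e f G₀) ^ 2 / (2 * (nOne a b c e G₀ : ℝ)) := by
    intro c e
    have h1 : ∀ G ∈ cls (rowRel a b) G₀,
        ((Tsum a b c e f G) ^ 2 / (2 * (nOne a b c e G : ℝ)) / ((cls (rowRel a b) G).card : ℝ)) =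
        ((Tsum a b c e f G₀) ^ 2 / (2 * (nOne a b c e G₀ : ℝ)) /
          ((cls (rowRel a b) G₀).card : ℝ)) := by
      intro G hG
      have hr := (mem_cls _ _ _).1 hG
      rw [Gf_Tsum_rel f c e hr, Gf_nOne_rel c e hr, cls_eq_of_rel _ hr]
    rw [sum_congr rfl h1, sum_const, nsmul_eq_mul]
    have := cls_card_pos (rowRel a b) G₀
    field_simp
  have hR : ∑ G ∈ cls (rowRel a b) G₀, ∑ c ∈ V, ∑ e ∈ V.erase c,
          ((∑ G' : Om d, if IsSw a b c e G.1 G'.1 then (f G - f G') ^ 2 else 0) -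
            2 * ((Tsum a b c e f G) ^ 2 / (2 * (nOne a b c e G : ℝ)) /
              ((cls (rowRel a b) G).card : ℝ))) =
      ∑ c ∈ V, ∑ e ∈ V.erase c,
        ((∑ G ∈ cls (rowRel a b) G₀, ∑ G' : Om d,
            if IsSw a b c e G.1 G'.1 then (f G - f G') ^ 2 else 0) -
          2 * ((Tsum a b c e f G₀) ^ 2 / (2 * (nOne a b c e G₀ : ℝ)))) := by
    rw [sum_comm]
    apply sum_congr rfl
    intro c _
    rw [sum_comm]
    apply sum_congr rfl
    intro e _
    rw [sum_sub_distrib, ← mul_sum, hclsB]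
  rw [hR]
  -- restrict to `M`
  have hterm : ∀ c ∈ V, ∀ e ∈ V.erase c,
      ((∑ G ∈ cls (rowRel a b) G₀, ∑ G' : Om d,
            if IsSw a b c e G.1 G'.1 then (f G - f G') ^ 2 else 0) -
          2 * ((Tsum a b c e f G₀) ^ 2 / (2 * (nOne a b c e G₀ : ℝ)))) =
      if c ∈ M ∧ e ∈ M then
        ((∑ X ∈ (powersetCard k M).filter (fun X => c ∈ X ∧ e ∉ X),
          (g X - g (insert e (X.erase c))) ^ 2) -
        2 * ((jT M k g c e) ^ 2 / (2 * (nOne a b c e G₀ : ℝ)))) else 0 := by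
    intro c hc e he
    have hcb : c ≠ b := (mem_erase.1 hc).1
    have hca : c ≠ a := (mem_erase.1 (mem_erase.1 hc).2).1
    have hec : e ≠ c := (mem_erase.1 he).1
    have heV := (mem_erase.1 he).2
    have heb : e ≠ b := (mem_erase.1 heV).1
    have hea : e ≠ a := (mem_erase.1 (mem_erase.1 heV).2).1
    rw [Gf_sw_cls G₀ hab hca.symm hea.symm hcb.symm heb.symm hec.symm f,
      Gf_Tsum_eq G₀ hab hca.symm hea.symm hcb.symm heb.symm f]
    by_cases hm : c ∈ M ∧ e ∈ M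
    · rw [if_pos hm, if_pos hm, if_pos hm]
    · rw [if_neg hm, if_neg hm, if_neg hm]
      simp
  rw [sum_congr rfl (fun c hc => sum_congr rfl (hterm c hc))]
  have hrestrict : ∑ c ∈ V, ∑ e ∈ V.erase c, (if c ∈ M ∧ e ∈ M then
        ((∑ X ∈ (powersetCard k M).filter (fun X => c ∈ X ∧ e ∉ X),
          (g X - g (insert e (X.erase c))) ^ 2) -
        2 * ((jT M k g c e) ^ 2 / (2 * (nOne a b c e G₀ : ℝ)))) else 0) =
      ∑ c ∈ M, ∑ e ∈ M.erase c,
        ((∑ X ∈ (powersetCard k M).filter (fun X => c ∈ X ∧ e ∉ X),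
          (g X - g (insert e (X.erase c))) ^ 2) -
        2 * ((jT M k g c e) ^ 2 / (2 * (nOne a b c e G₀ : ℝ)))) := by
    symm
    apply sum_subset_zero_on_sdiff hMV
    · intro c hc
      apply sum_eq_zero
      intro e _
      rw [if_neg]
      exact fun h => (mem_sdiff.1 hc).2 h.1
    · intro c hc
      apply sum_subset_zero_on_sdiff
      · intro e he
        exact mem_erase.2 ⟨(mem_erase.1 he).1, hMV (mem_erase.1 he).2⟩
      · intro e he
        rw [if_neg]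
        intro h
        exact (mem_sdiff.1 he).2 (mem_erase.2 ⟨(mem_erase.1 (mem_sdiff.1 he).1).1, h.2⟩)
      · intro e he
        rw [if_pos ⟨hc, (mem_erase.1 he).2⟩]
  rw [hrestrict]
  refine Gf_class_num (N := fun c e => nOne a b c e G₀) (fun hm2 => hframe M k g hm2) ?_
  intro hk1 c hc e he
  exact Gf_nOne_choose G₀ hab hc (mem_erase.1 he).2 (mem_erase.1 he).1.symm hk1

open Classical in
/-- `fibre_sum` from the Johnson frame bound. -/
theorem Gf_fibre_sum_of_frame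
    (hframe : ∀ (M : Finset (Fin n)) (k : ℕ) (g : Finset (Fin n) → ℝ), 2 ≤ M.card →
      ∑ c ∈ M, ∑ e ∈ M.erase c, (jT M k g c e) ^ 2 ≤
        2 * ((M.card : ℝ) - 2) * ((M.card - 2).choose (k - 1) : ℝ) * jVar M k g)
    (hab : a ≠ b) (f : Om d → ℝ) :
    4 * dot (Qab a b f) (Qab a b f) ≤
      ∑ c ∈ (univ.erase a).erase b, ∑ e ∈ ((univ.erase a).erase b).erase c,
        (SwT a b c e f - 2 * Neg a b c e f) := by
  have hL : 4 * dot (Qab a b f) (Qab a b f) = ∑ G : Om d, 4 * (Qab a b f G) ^ 2 := by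
    unfold dot
    rw [mul_sum]
    apply sum_congr rfl
    intro G _
    ring
  have hR : ∑ c ∈ (univ.erase a).erase b, ∑ e ∈ ((univ.erase a).erase b).erase c,
        (SwT a b c e f - 2 * Neg a b c e f) =
      ∑ G : Om d, ∑ c ∈ (univ.erase a).erase b, ∑ e ∈ ((univ.erase a).erase b).erase c,
          ((∑ G' : Om d, if IsSw a b c e G.1 G'.1 then (f G - f G') ^ 2 else 0) -
            2 * ((Tsum a b c e f G) ^ 2 / (2 * (nOne a b c e G : ℝ)) /
              ((cls (rowRel a b) G).card : ℝ))) := by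
    rw [sum_comm]
    apply sum_congr rfl
    intro c _
    rw [sum_comm]
    apply sum_congr rfl
    intro e _
    rw [sum_sub_distrib, ← mul_sum]
    rfl
  rw [hL, hR]
  exact sum_le_sum_of_cls (rowRel a b) _ _ (fun G₀ => Gf_class_ineq hframe hab f G₀)

lemma Gf_Neg_nonneg (a b c e : Fin n) (f : Om d → ℝ) : 0 ≤ Neg a b c e f := by
  unfold Neg
  apply sum_nonneg
  intro G _
  positivity

/-- **Package G.** -/
theorem fibre_sum {n : ℕ} {d : Fin n → ℕ} (a b : Fin n) (hab : a ≠ b) (f : Om d → ℝ) :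
    4 * dot (Qab a b f) (Qab a b f) ≤
      ∑ c ∈ (univ.erase a).erase b, ∑ e ∈ ((univ.erase a).erase b).erase c,
        (SwT a b c e f - 2 * Neg a b c e f) :=
  Gf_fibre_sum_of_frame (fun M k g hM => johnson_frame M k hM g) hab f

/-- **Package G.** -/
theorem fibre_gap {n : ℕ} {d : Fin n → ℕ} (a b : Fin n) (hab : a ≠ b) (f : Om d → ℝ) :
    4 * dot (Qab a b f) (Qab a b f) ≤
      ∑ c ∈ (univ.erase a).erase b, ∑ e ∈ ((univ.erase a).erase b).erase c, SwT a b c e f := by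
  refine le_trans (fibre_sum a b hab f) ?_
  apply sum_le_sum
  intro c _
  apply sum_le_sum
  intro e _
  have := Gf_Neg_nonneg a b c e f
  linarith

end Assembly

end Crest.Agent.SW
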