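/- Spectral lemmas (S0453, package A). -/
import Crest.Agent.Lib.SW.Avg

set_option autoImplicit false

namespace Crest.Agent.SW

open Finset

variable {X : Type*} [Fintype X]

theorem dot_add_left' (f g h : X → ℝ) : dot (fun x => f x + g x) h = dot f h + dot g h := by
  unfold dot; rw [← sum_add_distrib]; exact sum_congr rfl (fun _ _ => by ring)

theorem dot_add_right' (f g h : X → ℝ) : dot f (fun x => g x + h x) = dot f g + dot f h := by
  unfold dot; rw [← sum_add_distrib]; exact sum_congr rfl (fun _ _ => by ring)

theorem dot_smul_left' (c : ℝ) (f g : X → ℝ) : dot (fun x => c * f x) g = c * dot f g := by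
  unfold dot; rw [mul_sum]; exact sum_congr rfl (fun _ _ => by ring)

theorem dot_smul_right' (c : ℝ) (f g : X → ℝ) : dot f (fun x => c * g x) = c * dot f g := by
  unfold dot; rw [mul_sum]; exact sum_congr rfl (fun _ _ => by ring)

/-- A linear-plus-quadratic function nonpositive for all `t` has zero linear coefficient. -/
theorem linear_coeff_zero (a b : ℝ) (h : ∀ t : ℝ, a * t + b * t ^ 2 ≤ 0) : a = 0 := by
  by_contra ha
  have hb : 0 ≤ |b| := abs_nonneg b
  set t : ℝ := a / (2 * (|b| + 1)) with ht
  have hpos : 0 < |b| + 1 := by linarith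
  have h1 := h t
  have h2 : -|b| * t ^ 2 ≤ b * t ^ 2 := by
    apply mul_le_mul_of_nonneg_right (neg_abs_le b) (sq_nonneg t)
  have h3 : a * t = 2 * (|b| + 1) * t ^ 2 := by
    rw [ht]; field_simp
  have h4 : 0 < t ^ 2 := by
    have : t ≠ 0 := by rw [ht]; exact div_ne_zero ha (by positivity)
    positivity
  nlinarith

/-- Top eigenvector on the mean-zero subspace. -/
theorem exists_top_eigen
    (T : (X → ℝ) →ₗ[ℝ] (X → ℝ))
    (hsymm : ∀ f g, dot (T f) g = dot f (T g))
    (hmean : ∀ f, ∑ x, f x = 0 → ∑ x, T f x = 0)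
    (h0 : ∃ h : X → ℝ, ∑ x, h x = 0 ∧ h ≠ 0) :
    ∃ (β : ℝ) (F : X → ℝ), ∑ x, F x = 0 ∧ F ≠ 0 ∧ T F = β • F ∧
      ∀ f, ∑ x, f x = 0 → dot f (T f) ≤ β * dot f f := by
  classical
  -- the compact sphere
  set K : Set (X → ℝ) := {f | ∑ x, f x = 0 ∧ dot f f = 1} with hK
  have hdotcont : Continuous (fun f : X → ℝ => dot f f) := by
    unfold dot; fun_prop
  have hsumcont : Continuous (fun f : X → ℝ => ∑ x, f x) := by fun_prop
  have hclosed : IsClosed K := by
    apply IsClosed.inter
    · exact isClosed_eq hsumcont continuous_const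
    · exact isClosed_eq hdotcont continuous_const
  have hbdd : Bornology.IsBounded K := by
    rw [isBounded_iff_forall_norm_le]
    refine ⟨1, ?_⟩
    intro f hf
    rw [pi_norm_le_iff_of_nonneg zero_le_one]
    intro x
    have h1 : f x ^ 2 ≤ dot f f := by
      unfold dot
      have := single_le_sum (f := fun y => f y * f y) (fun y _ => mul_self_nonneg (f y)) (mem_univ x)
      simpa [sq] using this
    rw [hf.2] at h1
    rw [Real.norm_eq_abs]
    exact (sq_le_one_iff_abs_le_one _).mp h1
  have hcomp : IsCompact K := Metric.isCompact_of_isClosed_isBounded hclosed hbdd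
  obtain ⟨h, hh0, hhne⟩ := h0
  have hdh : 0 < dot h h := by
    apply lt_of_le_of_ne (dot_self_nonneg h)
    intro hz
    apply hhne
    funext x
    exact dot_self_eq_zero hz.symm x
  -- normalisation
  have hnorm : ∀ g : X → ℝ, ∑ x, g x = 0 → g ≠ 0 → 
      (fun x => (Real.sqrt (dot g g))⁻¹ * g x) ∈ K := by
    intro g hg hgne
    have hdg : 0 < dot g g := by
      apply lt_of_le_of_ne (dot_self_nonneg g)
      intro hz
      apply hgne
      funext x
      exact dot_self_eq_zero hz.symm x
    constructor
    · show ∑ x, (Real.sqrt (dot g g))⁻¹ * g x = 0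
      rw [← mul_sum, hg, mul_zero]
    · show dot (fun x => (Real.sqrt (dot g g))⁻¹ * g x) (fun x => (Real.sqrt (dot g g))⁻¹ * g x) = 1
      rw [dot_smul_left', dot_smul_right', ← mul_assoc, ← sq, inv_pow, Real.sq_sqrt hdg.le]
      field_simp
  have hKne : K.Nonempty := ⟨_, hnorm h hh0 hhne⟩
  have hRcont : ContinuousOn (fun f : X → ℝ => dot f (T f)) K := by
    apply Continuous.continuousOn
    have : Continuous (fun f : X → ℝ => T f) := T.continuous_of_finiteDimensional
    unfold dot
    fun_prop
  obtain ⟨F, hFK, hFmax⟩ := hcomp.exists_isMaxOn hKne hRcont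
  set β := dot F (T F) with hβ
  -- bound on all mean-zero functions
  have hbound : ∀ g : X → ℝ, ∑ x, g x = 0 → dot g (T g) ≤ β * dot g g := by
    intro g hg
    by_cases hgne : g = 0
    · subst hgne
      have : T (0 : X → ℝ) = 0 := map_zero T
      simp [dot, this]
    · have hdg : 0 < dot g g := by
        apply lt_of_le_of_ne (dot_self_nonneg g)
        intro hz
        apply hgne
        funext x
        exact dot_self_eq_zero hz.symm x
      have hmem := hnorm g hg hgne
      have hle : dot (fun x => (Real.sqrt (dot g g))⁻¹ * g x)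
          (T (fun x => (Real.sqrt (dot g g))⁻¹ * g x)) ≤ dot F (T F) :=
        isMaxOn_iff.mp hFmax _ hmem
      set r := (Real.sqrt (dot g g))⁻¹ with hr
      have hT : T (fun x => r * g x) = fun x => r * T g x := by
        have : (fun x => r * g x) = r • g := rfl
        rw [this, map_smul]; rfl
      rw [hT, dot_smul_left', dot_smul_right'] at hle
      have hr2 : r * r = (dot g g)⁻¹ := by
        rw [hr, ← sq, inv_pow, Real.sq_sqrt hdg.le]
      have : r * (r * dot g (T g)) = (dot g g)⁻¹ * dot g (T g) := by
        rw [← mul_assoc, hr2]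
      rw [this] at hle
      rw [inv_mul_le_iff₀ hdg] at hle
      linarith
  have hF0 : ∑ x, F x = 0 := hFK.1
  have hF1 : dot F F = 1 := hFK.2
  have hFne : F ≠ 0 := by
    rintro rfl
    simp [dot] at hF1
  -- first variation
  have hvar : ∀ g : X → ℝ, ∑ x, g x = 0 → dot g (T F) - β * dot g F = 0 := by
    intro g hg
    suffices hh : 2 * (dot g (T F) - β * dot g F) = 0 by linarith
    apply linear_coeff_zero _ (dot g (T g) - β * dot g g)
    intro t
    have hsum : ∑ x, (F x + t * g x) = 0 := by
      rw [sum_add_distrib, ← mul_sum, hF0, hg]; ring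
    have hb := hbound (fun x => F x + t * g x) hsum
    have hT : T (fun x => F x + t * g x) = fun x => T F x + t * T g x := by
      have : (fun x => F x + t * g x) = F + t • g := rfl
      rw [this, map_add, map_smul]; rfl
    rw [hT] at hb
    rw [dot_add_left', dot_add_right', dot_add_right', dot_smul_left', dot_smul_left',
      dot_smul_right', dot_smul_right', dot_add_left', dot_add_right', dot_add_right',
      dot_smul_left', dot_smul_left', dot_smul_right', dot_smul_right'] at hb
    have hs : dot F (T g) = dot g (T F) := by rw [dot_comm, hsymm]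
    have hs2 : dot F g = dot g F := dot_comm _ _
    rw [hs, hs2, hF1, ← hβ] at hb
    nlinarith
  refine ⟨β, F, hF0, hFne, ?_, hbound⟩
  -- eigen-equation
  set g : X → ℝ := fun x => T F x - β * F x with hg
  have hg0 : ∑ x, g x = 0 := by
    rw [hg, sum_sub_distrib, ← mul_sum, hF0, hmean F hF0]; ring
  have hgg := hvar g hg0
  have : dot g g = dot g (T F) - β * dot g F := by
    rw [hg]
    unfold dot
    rw [mul_sum, ← sum_sub_distrib]
    exact sum_congr rfl (fun _ _ => by ring)
  rw [← this] at hgg
  funext x
  have := dot_self_eq_zero hgg x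
  simp only [hg] at this
  simp only [Pi.smul_apply, smul_eq_mul]
  linarith

theorem spectral_of_bochner [Nonempty X]
    (T : (X → ℝ) →ₗ[ℝ] (X → ℝ))
    (hsymm : ∀ f g, dot (T f) g = dot f (T g))
    (hconst : T (fun _ => 1) = 0)
    (c : ℝ) (hc : 0 < c)
    (hpos : ∀ f, 0 ≤ dot f (T f))
    (hboch : ∀ f, c * dot f (T f) ≤ dot (T f) (T f))
    (hker : ∀ f, dot f (T f) = 0 → ∀ x y, f x = f y) (f : X → ℝ) :
    c * (dot f f - (∑ x, f x) ^ 2 / (Fintype.card X : ℝ)) ≤ dot f (T f) := by
  classical
  have hNpos : (0 : ℝ) < Fintype.card X := by exact_mod_cast Fintype.card_pos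
  set N : ℝ := (Fintype.card X : ℝ) with hN
  set m : ℝ := (∑ x, f x) / N with hm
  set h : X → ℝ := fun x => f x - m with hh
  have hh0 : ∑ x, h x = 0 := by
    rw [hh, sum_sub_distrib, sum_const, card_univ, nsmul_eq_mul, hm, ← hN]
    field_simp; ring
  have hTm : ∀ g : X → ℝ, ∑ x, T g x = 0 := by
    intro g
    have := hsymm g (fun _ => 1)
    rw [hconst] at this
    unfold dot at this
    simpa using this
  have hTconst : T (fun _ => m) = 0 := by
    have : (fun _ : X => m) = m • (fun _ => 1) := by funext x; simp
    rw [this, map_smul, hconst, smul_zero]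
  have hTh : T h = T f := by
    have : h = f - (fun _ => m) := rfl
    rw [this, map_sub, hTconst, sub_zero]
  have hdot1 : dot f (T f) = dot h (T h) := by
    rw [hTh, hh, dot_sub_left]
    have : dot (fun _ => m) (T f) = 0 := by
      unfold dot
      rw [← mul_sum, hTm, mul_zero]
    rw [this]; ring
  have hdot2 : dot f f - (∑ x, f x) ^ 2 / N = dot h h := by
    rw [hh]
    unfold dot
    have : ∑ x, (f x - m) * (f x - m) = ∑ x, f x * f x - 2 * m * ∑ x, f x + N * m ^ 2 := by
      have h3 : ∀ x, (f x - m) * (f x - m) = f x * f x - 2 * m * f x + m ^ 2 := fun x => by ring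
      simp_rw [h3]
      rw [sum_add_distrib, sum_sub_distrib, ← mul_sum, sum_const, card_univ, nsmul_eq_mul]
    rw [this, hm]
    field_simp
    ring
  rw [hdot1, hdot2]
  by_cases hne : h = 0
  · rw [hne]
    have : T (0 : X → ℝ) = 0 := map_zero T
    simp [dot, this]
  -- bottom eigenvector = top eigenvector of -T
  obtain ⟨β, F, hF0, hFne, hFe, hFb⟩ := exists_top_eigen (-T)
    (fun f g => by
      simp only [LinearMap.neg_apply]
      have h1 := hsymm f g
      unfold dot at *
      simp only [Pi.neg_apply, neg_mul, mul_neg, sum_neg_distrib, h1])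
    (fun f _ => by simp [hTm f]) ⟨h, hh0, hne⟩
  set μ := -β with hμ
  have hTF : T F = μ • F := by
    have : (-T) F = β • F := hFe
    simp only [LinearMap.neg_apply] at this
    rw [hμ, neg_smul, ← this, neg_neg]
  have hdFF : 0 < dot F F := by
    apply lt_of_le_of_ne (dot_self_nonneg F)
    intro hz
    apply hFne
    funext x
    exact dot_self_eq_zero hz.symm x
  have hFT : dot F (T F) = μ * dot F F := by
    rw [hTF]
    exact dot_smul_right' μ F F
  have hμ0 : 0 < μ := by
    have h1 := hpos F
    rw [hFT] at h1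
    have h2 : 0 ≤ μ := by
      by_contra hneg
      push_neg at hneg
      nlinarith
    rcases eq_or_lt_of_le h2 with h3 | h3
    · exfalso
      have hz : dot F (T F) = 0 := by rw [hFT, ← h3, zero_mul]
      have hcst := hker F hz
      apply hFne
      obtain ⟨x₀⟩ := ‹Nonempty X›
      have hval : ∀ x, F x = F x₀ := fun x => hcst x x₀
      have : (Fintype.card X : ℝ) * F x₀ = 0 := by
        have h4 : ∑ x, F x = ∑ _x : X, F x₀ := sum_congr rfl (fun x _ => hval x)
        rw [hF0, sum_const, card_univ, nsmul_eq_mul] at h4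
        linarith
      have h5 : F x₀ = 0 := by
        rcases mul_eq_zero.mp this with h6 | h6
        · exfalso; exact hNpos.ne' h6
        · exact h6
      funext x
      rw [hval x, h5]; rfl
    · exact h3
  have hcμ : c ≤ μ := by
    have h1 := hboch F
    have h2 : dot (T F) (T F) = μ * (μ * dot F F) := by
      rw [hTF]
      show dot (fun x => μ * F x) (fun x => μ * F x) = _
      rw [dot_smul_left', dot_smul_right']
    rw [hFT, h2] at h1
    have h3 : 0 < μ * dot F F := mul_pos hμ0 hdFF
    exact le_of_mul_le_mul_right (by nlinarith) h3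
  have hb := hFb h hh0
  simp only [LinearMap.neg_apply] at hb
  have h6 : dot h (-T h) = -dot h (T h) := by
    unfold dot
    simp only [Pi.neg_apply, mul_neg, sum_neg_distrib]
  rw [h6] at hb
  have h7 := dot_self_nonneg h
  nlinarith

end Crest.Agent.SW
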