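/-
S0453 package I2 (lead): total variation bound from the Poincaré inequality.
-/
import Mathlib
import Crest.Prelude.Def_SwitchChain
import Crest.Agent.Lib.SW.KernelFacts

set_option autoImplicit false

namespace Crest.Agent.SW

open Finset Crest.SwitchChain

variable {n : ℕ}

/-- Action of the kernel restricted to the realizations. -/
noncomputable def PO (d : Fin n → ℕ) (u : Finset (Edge n) → ℝ) (E : Finset (Edge n)) : ℝ :=
  ∑ E' ∈ realizations d, kernel n E E' * u E'

/-- The non-lazy part of the chain. -/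
noncomputable def KK (E E' : Finset (Edge n)) : ℝ :=
  (proposalCount E E' : ℝ) / (6 * (n.choose 4 : ℝ))

lemma KK_nonneg (E E' : Finset (Edge n)) : 0 ≤ KK E E' := by
  unfold KK; positivity

lemma KK_symm (E E' : Finset (Edge n)) : KK E E' = KK E' E := by
  unfold KK; rw [proposalCount_symm]

lemma KK_rowSum (hn : 4 ≤ n) {d : Fin n → ℕ} {E : Finset (Edge n)} (hE : E ∈ realizations d) :
    ∑ E' ∈ realizations d, KK E E' = 1 := by
  have hC : (0 : ℝ) < (n.choose 4 : ℝ) := by exact_mod_cast Nat.choose_pos hn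
  unfold KK
  rw [← Finset.sum_div, ← Nat.cast_sum, sum_proposalCount_realizations hE]
  push_cast
  field_simp

lemma PO_eq {d : Fin n → ℕ} {E : Finset (Edge n)} (hE : E ∈ realizations d)
    (u : Finset (Edge n) → ℝ) :
    PO d u E = (u E + ∑ E' ∈ realizations d, KK E E' * u E') / 2 := by
  unfold PO
  have : ∀ E' ∈ realizations d, kernel n E E' * u E' =
      (if E = E' then u E' / 2 else 0) + KK E E' * u E' / 2 := by
    intro E' _
    unfold kernel KK
    by_cases h : E = E'
    · subst h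
      simp only [if_true]
      by_cases hC : (n.choose 4 : ℝ) = 0
      · simp [hC]; ring
      · field_simp; ring
    · simp only [h, if_false, zero_add]
      by_cases hC : (n.choose 4 : ℝ) = 0
      · simp [hC]
      · field_simp; ring
  rw [Finset.sum_congr rfl this, Finset.sum_add_distrib, Finset.sum_ite_eq, if_pos hE,
    ← Finset.sum_div]
  ring

lemma KK_sq_le (hn : 4 ≤ n) {d : Fin n → ℕ} (u : Finset (Edge n) → ℝ) :
    ∑ E ∈ realizations d, (∑ E' ∈ realizations d, KK E E' * u E') ^ 2 ≤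
      ∑ E ∈ realizations d, u E ^ 2 := by
  have h1 : ∀ E ∈ realizations d, (∑ E' ∈ realizations d, KK E E' * u E') ^ 2 ≤
      ∑ E' ∈ realizations d, KK E E' * u E' ^ 2 := by
    intro E hE
    have := Finset.sum_sq_le_sum_mul_sum_of_sq_le_mul (realizations d)
      (r := fun E' => KK E E' * u E') (f := fun E' => KK E E') (g := fun E' => KK E E' * u E' ^ 2)
      (fun i _ => KK_nonneg _ _) (fun i _ => mul_nonneg (KK_nonneg _ _) (sq_nonneg _))
      (fun i _ => le_of_eq (by ring))
    rwa [KK_rowSum hn hE, one_mul] at this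
  calc ∑ E ∈ realizations d, (∑ E' ∈ realizations d, KK E E' * u E') ^ 2
      ≤ ∑ E ∈ realizations d, ∑ E' ∈ realizations d, KK E E' * u E' ^ 2 :=
        Finset.sum_le_sum h1
    _ = ∑ E' ∈ realizations d, ∑ E ∈ realizations d, KK E E' * u E' ^ 2 := Finset.sum_comm
    _ = ∑ E' ∈ realizations d, u E' ^ 2 := by
        refine Finset.sum_congr rfl fun E' hE' => ?_
        rw [← Finset.sum_mul]
        have : ∑ E ∈ realizations d, KK E E' = 1 := by
          rw [← KK_rowSum hn hE']
          exact Finset.sum_congr rfl fun E _ => KK_symm E E'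
        rw [this, one_mul]

lemma PO_sq_le (hn : 4 ≤ n) {d : Fin n → ℕ} (u : Finset (Edge n) → ℝ) :
    ∑ E ∈ realizations d, PO d u E ^ 2 ≤ ∑ E ∈ realizations d, u E * PO d u E := by
  have h := KK_sq_le hn (d := d) u
  have key : ∀ E ∈ realizations d, u E * PO d u E - PO d u E ^ 2 =
      (u E ^ 2 - (∑ E' ∈ realizations d, KK E E' * u E') ^ 2) / 4 := by
    intro E hE
    rw [PO_eq hE]
    ring
  have : 0 ≤ ∑ E ∈ realizations d, (u E * PO d u E - PO d u E ^ 2) := by
    rw [Finset.sum_congr rfl key, ← Finset.sum_div, Finset.sum_sub_distrib]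
    apply div_nonneg _ (by norm_num)
    linarith
  rw [Finset.sum_sub_distrib] at this
  linarith

lemma PO_sum (hn : 4 ≤ n) {d : Fin n → ℕ} (u : Finset (Edge n) → ℝ) :
    ∑ E ∈ realizations d, PO d u E = ∑ E ∈ realizations d, u E := by
  unfold PO
  rw [Finset.sum_comm]
  refine Finset.sum_congr rfl fun E' hE' => ?_
  rw [← Finset.sum_mul]
  have : ∑ E ∈ realizations d, kernel n E E' = 1 := by
    rw [← kernel_rowSum hn hE']
    exact Finset.sum_congr rfl fun E _ => kernel_symm E E'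
  rw [this, one_mul]

/-- The kernel powers do not leave the realizations. -/
lemma pow_eq_zero_of_not_mem {d : Fin n → ℕ} {G E : Finset (Edge n)} (hG : G ∈ realizations d)
    (hE : E ∉ realizations d) (t : ℕ) : (kernel n ^ t) G E = 0 := by
  induction t generalizing E with
  | zero =>
    have hne : G ≠ E := fun h => hE (h ▸ hG)
    simp [Matrix.one_apply, hne]
  | succ t ih =>
    rw [pow_succ, Matrix.mul_apply]
    apply Finset.sum_eq_zero
    intro E'' _
    by_cases h : E'' ∈ realizations d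
    · rw [kernel_eq_zero_of_not_mem h hE, mul_zero]
    · rw [ih h, zero_mul]

/-- One step of the kernel powers. -/
lemma pow_succ_apply {d : Fin n → ℕ} {G E : Finset (Edge n)} (hG : G ∈ realizations d) (t : ℕ) :
    (kernel n ^ (t + 1)) G E = PO d (fun E' => (kernel n ^ t) G E') E := by
  rw [pow_succ, Matrix.mul_apply]
  unfold PO
  rw [← Finset.sum_subset (Finset.subset_univ (realizations d))]
  · refine Finset.sum_congr rfl fun E' _ => ?_
    rw [kernel_symm, mul_comm]
  · intro x _ hx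
    rw [pow_eq_zero_of_not_mem hG hx, zero_mul]

section Main

variable {d : Fin n → ℕ}

/-- `y t E = (kernel^t) G E - 1/N`. -/
noncomputable def yy (d : Fin n → ℕ) (G : Finset (Edge n)) (t : ℕ) (E : Finset (Edge n)) : ℝ :=
  (kernel n ^ t) G E - 1 / ((realizations d).card : ℝ)

lemma card_pos_of {G : Finset (Edge n)} (hG : G ∈ realizations d) :
    (0 : ℝ) < ((realizations d).card : ℝ) := by
  exact_mod_cast Finset.card_pos.2 ⟨G, hG⟩

lemma yy_succ (hn : 4 ≤ n) {G E : Finset (Edge n)} (hG : G ∈ realizations d)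
    (hE : E ∈ realizations d) (t : ℕ) : yy d G (t + 1) E = PO d (yy d G t) E := by
  unfold yy
  rw [pow_succ_apply hG]
  unfold PO
  simp only [mul_sub, Finset.sum_sub_distrib]
  rw [← Finset.sum_mul, kernel_rowSum hn hE, one_mul]

lemma yy_sum_zero (hn : 4 ≤ n) {G : Finset (Edge n)} (hG : G ∈ realizations d) (t : ℕ) :
    ∑ E ∈ realizations d, yy d G t E = 0 := by
  induction t with
  | zero =>
    unfold yy
    have hN := card_pos_of hG
    rw [Finset.sum_sub_distrib, Finset.sum_const, nsmul_eq_mul]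
    simp only [pow_zero, Matrix.one_apply]
    rw [Finset.sum_ite_eq, if_pos hG]
    field_simp
    simp
  | succ t ih =>
    rw [Finset.sum_congr rfl (fun E hE => yy_succ hn hG hE t), PO_sum hn, ih]

lemma yy_zero_sq_le {G : Finset (Edge n)} (hG : G ∈ realizations d) :
    ∑ E ∈ realizations d, yy d G 0 E ^ 2 ≤ 1 := by
  have hN := card_pos_of hG
  have hN1 : (1 : ℝ) ≤ ((realizations d).card : ℝ) := by
    exact_mod_cast Finset.card_pos.2 ⟨G, hG⟩
  unfold yy
  simp only [pow_zero, Matrix.one_apply]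
  have : ∀ E ∈ realizations d,
      ((if G = E then (1:ℝ) else 0) - 1 / ((realizations d).card : ℝ)) ^ 2 =
        (if G = E then (1 - 2 / ((realizations d).card : ℝ)) else 0) +
          1 / ((realizations d).card : ℝ) ^ 2 := by
    intro E _
    by_cases h : G = E
    · simp only [h, if_true]; field_simp; ring
    · simp only [h, if_false]; field_simp; ring
  rw [Finset.sum_congr rfl this, Finset.sum_add_distrib, Finset.sum_ite_eq, if_pos hG,
    Finset.sum_const, nsmul_eq_mul]
  have h2 : ((realizations d).card : ℝ) * (1 / ((realizations d).card : ℝ) ^ 2) =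
      1 / ((realizations d).card : ℝ) := by field_simp
  rw [h2]
  have h3 : 0 < 1 / ((realizations d).card : ℝ) := by positivity
  have h4 : 1 - 2 / ((realizations d).card : ℝ) + 1 / ((realizations d).card : ℝ) =
      1 - 1 / ((realizations d).card : ℝ) := by
    field_simp; ring
  rw [h4]
  linarith

/-- Spectral contraction from the Poincaré inequality. -/
lemma contraction (hn : 4 ≤ n) {G : Finset (Edge n)} (hG : G ∈ realizations d)
    (hP : ∀ f : Finset (Edge n) → ℝ,
        ((realizations d).card : ℝ) * (∑ G ∈ realizations d, f G ^ 2) -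
            (∑ G ∈ realizations d, f G) ^ 2 ≤
          24 * (n : ℝ) ^ 2 * (n.choose 4 : ℝ) * (realizations d).card *
            ∑ G ∈ realizations d,
              f G * (f G - ∑ G' ∈ realizations d, kernel n G G' * f G'))
    (u : Finset (Edge n) → ℝ) (hu : ∑ E ∈ realizations d, u E = 0) :
    ∑ E ∈ realizations d, PO d u E ^ 2 ≤
      (1 - 1 / (24 * (n : ℝ) ^ 2 * (n.choose 4 : ℝ))) * ∑ E ∈ realizations d, u E ^ 2 := by
  have hN := card_pos_of hG
  have hC : (0 : ℝ) < (n.choose 4 : ℝ) := by exact_mod_cast Nat.choose_pos hn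
  have hn0 : (0 : ℝ) < (n : ℝ) := by
    have : 0 < n := by omega
    exact_mod_cast this
  set Γ : ℝ := 24 * (n : ℝ) ^ 2 * (n.choose 4 : ℝ) with hΓ
  have hΓpos : 0 < Γ := by positivity
  have h := hP u
  rw [hu] at h
  set S := ∑ E ∈ realizations d, u E ^ 2 with hS
  set I := ∑ E ∈ realizations d, u E * PO d u E with hI
  have hexp : ∑ G ∈ realizations d, u G * (u G - ∑ G' ∈ realizations d, kernel n G G' * u G') =
      S - I := by
    rw [hS, hI, ← Finset.sum_sub_distrib]
    refine Finset.sum_congr rfl fun E _ => ?_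
    unfold PO
    ring
  rw [hexp] at h
  have h1 : ((realizations d).card : ℝ) * S ≤ ((realizations d).card : ℝ) * (Γ * (S - I)) := by
    have : ((realizations d).card : ℝ) * (Γ * (S - I)) = Γ * ((realizations d).card : ℝ) * (S - I) := by
      ring
    rw [this]
    nlinarith [h]
  have h2 : S ≤ Γ * (S - I) := le_of_mul_le_mul_left h1 hN
  have h3 : I ≤ (1 - 1 / Γ) * S := by
    have : (1 - 1 / Γ) * S = S - S / Γ := by ring
    rw [this]
    have : S / Γ ≤ S - I := by
      rw [div_le_iff₀ hΓpos]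
      linarith
    linarith
  exact (PO_sq_le hn u).trans h3

lemma yy_sq_le (hn : 4 ≤ n) {G : Finset (Edge n)} (hG : G ∈ realizations d)
    (hP : ∀ f : Finset (Edge n) → ℝ,
        ((realizations d).card : ℝ) * (∑ G ∈ realizations d, f G ^ 2) -
            (∑ G ∈ realizations d, f G) ^ 2 ≤
          24 * (n : ℝ) ^ 2 * (n.choose 4 : ℝ) * (realizations d).card *
            ∑ G ∈ realizations d,
              f G * (f G - ∑ G' ∈ realizations d, kernel n G G' * f G')) (t : ℕ)
    (hΓ1 : 0 ≤ 1 - 1 / (24 * (n : ℝ) ^ 2 * (n.choose 4 : ℝ))) :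
    ∑ E ∈ realizations d, yy d G t E ^ 2 ≤
      (1 - 1 / (24 * (n : ℝ) ^ 2 * (n.choose 4 : ℝ))) ^ t := by
  induction t with
  | zero => simpa using yy_zero_sq_le hG
  | succ t ih =>
    rw [Finset.sum_congr rfl (fun E hE => by rw [yy_succ hn hG hE t])]
    refine (contraction hn hG hP _ (yy_sum_zero hn hG t)).trans ?_
    rw [pow_succ, mul_comm]
    exact mul_le_mul_of_nonneg_right ih hΓ1

lemma card_edge_le : Fintype.card (Edge n) ≤ n ^ 2 := by
  have h1 : Fintype.card (Edge n) ≤ Fintype.card (Sym2 (Fin n)) := Fintype.card_subtype_le _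
  rw [Sym2.card, Fintype.card_fin] at h1
  refine h1.trans ?_
  rw [Nat.choose_two_right]
  simp only [Nat.add_sub_cancel]
  apply Nat.div_le_of_le_mul
  rcases Nat.eq_zero_or_pos n with rfl | hn
  · simp
  · nlinarith

lemma card_real_le : ((realizations d).card : ℝ) ≤ Real.exp ((n : ℝ) ^ 2) := by
  have h1 : (realizations d).card ≤ 2 ^ (n ^ 2) := by
    calc (realizations d).card ≤ (univ : Finset (Finset (Edge n))).card := Finset.card_le_univ _
      _ = 2 ^ Fintype.card (Edge n) := by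
          rw [Finset.card_univ, Fintype.card_finset]
      _ ≤ 2 ^ (n ^ 2) := Nat.pow_le_pow_right (by norm_num) card_edge_le
  have h2 : (2 : ℝ) ≤ Real.exp 1 := by
    have := Real.add_one_le_exp (1 : ℝ)
    linarith
  calc ((realizations d).card : ℝ) ≤ ((2 ^ (n ^ 2) : ℕ) : ℝ) := by exact_mod_cast h1
    _ = (2 : ℝ) ^ (n ^ 2) := by push_cast; rfl
    _ ≤ (Real.exp 1) ^ (n ^ 2) := pow_le_pow_left₀ (by norm_num) h2 _
    _ = Real.exp ((n : ℝ) ^ 2) := by
        rw [← Real.exp_nat_mul]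
        push_cast
        ring_nf

lemma final_numeric (hn : 4 ≤ n) :
    ((realizations d).card : ℝ) *
      (1 - 1 / (24 * (n : ℝ) ^ 2 * (n.choose 4 : ℝ))) ^ (2 * n ^ 8) ≤ 1 / 4 := by
  have hC : (1 : ℝ) ≤ (n.choose 4 : ℝ) := by exact_mod_cast Nat.choose_pos hn
  have hn1 : (4 : ℝ) ≤ (n : ℝ) := by exact_mod_cast hn
  set Γ : ℝ := 24 * (n : ℝ) ^ 2 * (n.choose 4 : ℝ) with hΓ
  have hΓ1 : 1 ≤ Γ := by
    rw [hΓ]
    nlinarith [sq_nonneg ((n : ℝ) - 4)]
  have hΓpos : 0 < Γ := by linarith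
  have hΓ2 : Γ ≤ (n : ℝ) ^ 6 := by
    have h1 : 24 * n.choose 4 ≤ n ^ 4 := by
      have h := Nat.descFactorial_eq_factorial_mul_choose n 4
      have h2 := Nat.descFactorial_le_pow n 4
      have h3 : Nat.factorial 4 = 24 := rfl
      rw [h3] at h
      omega
    have h2 : (24 : ℝ) * (n.choose 4 : ℝ) ≤ (n : ℝ) ^ 4 := by exact_mod_cast h1
    rw [hΓ]
    have : (24 : ℝ) * (n : ℝ) ^ 2 * (n.choose 4 : ℝ) = (n : ℝ) ^ 2 * (24 * (n.choose 4 : ℝ)) := by ring
    rw [this]
    calc (n : ℝ) ^ 2 * (24 * (n.choose 4 : ℝ)) ≤ (n : ℝ) ^ 2 * (n : ℝ) ^ 4 :=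
          mul_le_mul_of_nonneg_left h2 (by positivity)
      _ = (n : ℝ) ^ 6 := by ring
  have h1 : 1 - 1 / Γ ≤ Real.exp (-(1 / Γ)) := by
    have := Real.add_one_le_exp (-(1 / Γ))
    linarith
  have h0 : 0 ≤ 1 - 1 / Γ := by
    have : 1 / Γ ≤ 1 := by
      rw [div_le_one hΓpos]; exact hΓ1
    linarith
  have h2 : (1 - 1 / Γ) ^ (2 * n ^ 8) ≤ Real.exp (-(2 * (n : ℝ) ^ 2)) := by
    calc (1 - 1 / Γ) ^ (2 * n ^ 8) ≤ (Real.exp (-(1 / Γ))) ^ (2 * n ^ 8) :=
          pow_le_pow_left₀ h0 h1 _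
      _ = Real.exp (((2 * n ^ 8 : ℕ) : ℝ) * (-(1 / Γ))) := by rw [Real.exp_nat_mul]
      _ ≤ Real.exp (-(2 * (n : ℝ) ^ 2)) := by
          apply Real.exp_le_exp.2
          push_cast
          have h6 : (0 : ℝ) < (n : ℝ) ^ 6 := by positivity
          have : 2 * (n : ℝ) ^ 2 ≤ 2 * (n : ℝ) ^ 8 * (1 / Γ) := by
            rw [mul_one_div, le_div_iff₀ hΓpos]
            calc 2 * (n : ℝ) ^ 2 * Γ ≤ 2 * (n : ℝ) ^ 2 * (n : ℝ) ^ 6 :=
                  mul_le_mul_of_nonneg_left hΓ2 (by positivity)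
              _ = 2 * (n : ℝ) ^ 8 := by ring
          linarith
  have hNn : ((realizations d).card : ℝ) ≤ Real.exp ((n : ℝ) ^ 2) := card_real_le
  have hN0 : (0 : ℝ) ≤ ((realizations d).card : ℝ) := by positivity
  have h3 : Real.exp ((n : ℝ) ^ 2) * Real.exp (-(2 * (n : ℝ) ^ 2)) = Real.exp (-((n : ℝ) ^ 2)) := by
    rw [← Real.exp_add]; ring_nf
  have h4 : Real.exp (-((n : ℝ) ^ 2)) ≤ 1 / 4 := by
    have h5 : Real.exp (-((n : ℝ) ^ 2)) ≤ Real.exp (-2) := by
      apply Real.exp_le_exp.2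
      nlinarith
    have h6 : (4 : ℝ) ≤ Real.exp 2 := by
      have h7 : (2 : ℝ) ≤ Real.exp 1 := by
        have := Real.add_one_le_exp (1 : ℝ)
        linarith
      have h8 : Real.exp 2 = Real.exp 1 * Real.exp 1 := by
        rw [← Real.exp_add]; norm_num
      rw [h8]
      nlinarith
    have h9 : Real.exp (-2) = (Real.exp 2)⁻¹ := Real.exp_neg 2
    rw [h9] at h5
    have h10 : (Real.exp 2)⁻¹ ≤ 1 / 4 := by
      rw [one_div]
      exact inv_anti₀ (by norm_num) h6
    linarith
  calc ((realizations d).card : ℝ) * (1 - 1 / Γ) ^ (2 * n ^ 8)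
      ≤ Real.exp ((n : ℝ) ^ 2) * Real.exp (-(2 * (n : ℝ) ^ 2)) :=
        mul_le_mul hNn h2 (pow_nonneg h0 _) (Real.exp_pos _).le
    _ = Real.exp (-((n : ℝ) ^ 2)) := h3
    _ ≤ 1 / 4 := h4

end Main

/-- **Package I2**: TV from Poincaré. -/
theorem tv_of_poincare (n : ℕ) (hn : 4 ≤ n) (d : Fin n → ℕ) (hd : (realizations d).Nonempty)
    (hP : ∀ f : Finset (Edge n) → ℝ,
        ((realizations d).card : ℝ) * (∑ G ∈ realizations d, f G ^ 2) -
            (∑ G ∈ realizations d, f G) ^ 2 ≤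
          24 * (n : ℝ) ^ 2 * (n.choose 4 : ℝ) * (realizations d).card *
            ∑ G ∈ realizations d,
              f G * (f G - ∑ G' ∈ realizations d, kernel n G G' * f G')) :
    ∃ t : ℕ, t ≤ 2 * n ^ 8 ∧ ∀ G ∈ realizations d,
        tvDist (fun G' => (kernel n ^ t) G G') (unifOn (realizations d)) ≤ 1 / 4 := by
  refine ⟨2 * n ^ 8, le_rfl, fun G hG => ?_⟩
  have hC : (1 : ℝ) ≤ (n.choose 4 : ℝ) := by exact_mod_cast Nat.choose_pos hn
  have hn1 : (4 : ℝ) ≤ (n : ℝ) := by exact_mod_cast hn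
  have hΓ1 : (1 : ℝ) ≤ 24 * (n : ℝ) ^ 2 * (n.choose 4 : ℝ) := by
    nlinarith [sq_nonneg ((n : ℝ) - 4)]
  have hΓpos : (0 : ℝ) < 24 * (n : ℝ) ^ 2 * (n.choose 4 : ℝ) := by linarith
  have h0 : 0 ≤ 1 - 1 / (24 * (n : ℝ) ^ 2 * (n.choose 4 : ℝ)) := by
    have : 1 / (24 * (n : ℝ) ^ 2 * (n.choose 4 : ℝ)) ≤ 1 := by
      rw [div_le_one hΓpos]; exact hΓ1
    linarith
  have hS := yy_sq_le hn hG hP (2 * n ^ 8) h0
  have hnum := final_numeric (d := d) hn
  have hN := card_pos_of hG
  set t := 2 * n ^ 8 with ht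
  -- rewrite the total variation as a sum over the realizations
  have hsum : ∑ a, |(kernel n ^ t) G a - unifOn (realizations d) a| =
      ∑ a ∈ realizations d, |yy d G t a| := by
    symm
    rw [← Finset.sum_subset (Finset.subset_univ (realizations d))]
    · refine Finset.sum_congr rfl fun a ha => ?_
      unfold yy unifOn
      rw [if_pos ha]
    · intro a _ ha
      unfold unifOn
      rw [if_neg ha, pow_eq_zero_of_not_mem hG ha]
      simp
  unfold tvDist
  rw [hsum]
  have hCS : (∑ a ∈ realizations d, |yy d G t a|) ^ 2 ≤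
      ((realizations d).card : ℝ) * ∑ a ∈ realizations d, |yy d G t a| ^ 2 :=
    sq_sum_le_card_mul_sum_sq
  have hsq : ∑ a ∈ realizations d, |yy d G t a| ^ 2 = ∑ a ∈ realizations d, yy d G t a ^ 2 :=
    Finset.sum_congr rfl fun a _ => sq_abs _
  rw [hsq] at hCS
  have h1 : (∑ a ∈ realizations d, |yy d G t a|) ^ 2 ≤ 1 / 4 := by
    calc _ ≤ ((realizations d).card : ℝ) * ∑ a ∈ realizations d, yy d G t a ^ 2 := hCS
      _ ≤ ((realizations d).card : ℝ) *
            (1 - 1 / (24 * (n : ℝ) ^ 2 * (n.choose 4 : ℝ))) ^ t :=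
          mul_le_mul_of_nonneg_left hS hN.le
      _ ≤ 1 / 4 := hnum
  have h2 : 0 ≤ ∑ a ∈ realizations d, |yy d G t a| :=
    Finset.sum_nonneg fun a _ => abs_nonneg _
  have h3 : ∑ a ∈ realizations d, |yy d G t a| ≤ 1 / 2 := by
    nlinarith
  linarith

end Crest.Agent.SW
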