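/- Package C (S0453), abstract part: coupling of consecutive Johnson layers. -/
import Crest.Agent.Lib.SW.Avg

set_option autoImplicit false

namespace Crest.Agent.SW

open Finset

section Layer
variable {ι : Type*} [DecidableEq ι]

/-- Mean on a layer. -/
noncomputable def lMean (M : Finset ι) (k : ℕ) (φ : Finset ι → ℝ) : ℝ :=
  (∑ S ∈ powersetCard k M, φ S) / ((powersetCard k M).card : ℝ)

omit [DecidableEq ι] in
theorem layer_card_pos (M : Finset ι) (k : ℕ) (hk : k ≤ M.card) :
    0 < (powersetCard k M).card := by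
  rw [card_powersetCard]; exact Nat.choose_pos hk

/-- Double counting between consecutive layers. -/
theorem layer_double (M : Finset ι) (k : ℕ) (φ : Finset ι → ℝ) :
    ∑ S ∈ powersetCard (k + 1) M, ∑ z ∈ S, φ (S.erase z) =
      ∑ S' ∈ powersetCard k M, ∑ _z ∈ M \ S', φ S' := by
  rw [sum_sigma', sum_sigma']
  refine sum_bij' (fun x _ => ⟨x.1.erase x.2, x.2⟩) (fun x _ => ⟨insert x.2 x.1, x.2⟩) ?_ ?_ ?_ ?_ ?_
  · rintro ⟨S, z⟩ h
    simp only [mem_sigma, mem_powersetCard, mem_sdiff] at h ⊢
    obtain ⟨⟨h1, h2⟩, h3⟩ := h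
    refine ⟨⟨(erase_subset _ _).trans h1, ?_⟩, h1 h3, notMem_erase _ _⟩
    rw [card_erase_of_mem h3, h2]; rfl
  · rintro ⟨S, z⟩ h
    simp only [mem_sigma, mem_powersetCard, mem_sdiff] at h ⊢
    obtain ⟨⟨h1, h2⟩, h3, h4⟩ := h
    refine ⟨⟨insert_subset h3 h1, ?_⟩, mem_insert_self _ _⟩
    rw [card_insert_of_notMem h4, h2]
  · rintro ⟨S, z⟩ h
    simp only [mem_sigma, mem_powersetCard] at h
    simp only [insert_erase h.2]
  · rintro ⟨S, z⟩ h
    simp only [mem_sigma, mem_powersetCard, mem_sdiff] at h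
    simp only [erase_insert h.2.2]
  · rintro ⟨S, z⟩ _
    rfl

/-- Going down. -/
theorem layer_step (M : Finset ι) (k : ℕ) (hk : k + 1 ≤ M.card) (φ ψ : Finset ι → ℝ) (L : ℝ)
    (h : ∀ S ∈ powersetCard (k + 1) M, ∀ z ∈ S, |ψ S - φ (S.erase z)| ≤ L) :
    |∑ S ∈ powersetCard (k + 1) M, (ψ S - lMean M k φ)| ≤
      L * ((powersetCard (k + 1) M).card : ℝ) := by
  set m := M.card with hm
  have hc0 : (0 : ℝ) < ((powersetCard k M).card : ℝ) := by
    exact_mod_cast layer_card_pos M k (by omega)
  have hc : (((powersetCard (k + 1) M).card : ℝ)) * ((k : ℝ) + 1) =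
      ((powersetCard k M).card : ℝ) * ((m : ℝ) - k) := by
    rw [card_powersetCard, card_powersetCard]
    have := Nat.choose_succ_right_eq m k
    have h2 : ((m - k : ℕ) : ℝ) = (m : ℝ) - k := by
      rw [Nat.cast_sub (by omega)]
    rw [← h2]
    exact_mod_cast this
  have hdbl := layer_double M k φ
  have hin : ∀ S' ∈ powersetCard k M, ∑ _z ∈ M \ S', φ S' = ((m : ℝ) - k) * φ S' := by
    intro S' hS'
    rw [mem_powersetCard] at hS'
    rw [sum_const, nsmul_eq_mul, card_sdiff_of_subset hS'.1, hS'.2, Nat.cast_sub (by omega)]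
  rw [sum_congr rfl hin, ← mul_sum] at hdbl
  have hD : ∑ S ∈ powersetCard (k + 1) M, ∑ z ∈ S, (ψ S - φ (S.erase z)) =
      ((k : ℝ) + 1) * (∑ S ∈ powersetCard (k + 1) M, ψ S) -
        ((m : ℝ) - k) * ∑ S ∈ powersetCard k M, φ S := by
    rw [← hdbl, mul_sum, ← sum_sub_distrib]
    apply sum_congr rfl
    intro S hS
    rw [mem_powersetCard] at hS
    rw [sum_sub_distrib, sum_const, nsmul_eq_mul, hS.2]
    push_cast; ring
  have hbd : |∑ S ∈ powersetCard (k + 1) M, ∑ z ∈ S, (ψ S - φ (S.erase z))| ≤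
      ((powersetCard (k + 1) M).card : ℝ) * (((k : ℝ) + 1) * L) := by
    refine (abs_sum_le_sum_abs _ _).trans ?_
    rw [← nsmul_eq_mul]
    refine sum_le_card_nsmul _ _ _ ?_
    intro S hS
    refine (abs_sum_le_sum_abs _ _).trans ?_
    have hcard := (mem_powersetCard.1 hS).2
    have : ∑ z ∈ S, |ψ S - φ (S.erase z)| ≤ ∑ _z ∈ S, L := sum_le_sum (fun z hz => h S hS z hz)
    refine this.trans (le_of_eq ?_)
    rw [sum_const, nsmul_eq_mul, hcard]; push_cast; ring
  have hk1 : (0 : ℝ) < (k : ℝ) + 1 := by positivity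
  have hmain : ∑ S ∈ powersetCard (k + 1) M, (ψ S - lMean M k φ) =
      (∑ S ∈ powersetCard (k + 1) M, ∑ z ∈ S, (ψ S - φ (S.erase z))) / ((k : ℝ) + 1) := by
    rw [hD, sum_sub_distrib, sum_const, nsmul_eq_mul]
    unfold lMean
    field_simp
    have : ((powersetCard (k + 1) M).card : ℝ) * ((k : ℝ) + 1) *
        ∑ S ∈ powersetCard k M, φ S = ((m : ℝ) - k) * (∑ S ∈ powersetCard k M, φ S) *
          ((powersetCard k M).card : ℝ) := by
      rw [hc]; ring
    linear_combination (-1 : ℝ) * this
  rw [hmain, abs_div, abs_of_pos hk1, div_le_iff₀ hk1]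
  refine hbd.trans (le_of_eq ?_)
  ring

/-- Going up. -/
theorem layer_step' (M : Finset ι) (k : ℕ) (hk : k + 1 ≤ M.card) (φ ψ : Finset ι → ℝ) (L : ℝ)
    (h : ∀ S ∈ powersetCard k M, ∀ z ∈ M \ S, |φ S - ψ (insert z S)| ≤ L) :
    |∑ S ∈ powersetCard k M, (φ S - lMean M (k + 1) ψ)| ≤
      L * ((powersetCard k M).card : ℝ) := by
  set m := M.card with hm
  have hc1 : (0 : ℝ) < ((powersetCard (k + 1) M).card : ℝ) := by
    exact_mod_cast layer_card_pos M (k + 1) hk
  have hmk : (0 : ℝ) < (m : ℝ) - k := by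
    have : ((k : ℝ) + 1) ≤ m := by exact_mod_cast hk
    linarith
  have hc : (((powersetCard (k + 1) M).card : ℝ)) * ((k : ℝ) + 1) =
      ((powersetCard k M).card : ℝ) * ((m : ℝ) - k) := by
    rw [card_powersetCard, card_powersetCard]
    have := Nat.choose_succ_right_eq m k
    have h2 : ((m - k : ℕ) : ℝ) = (m : ℝ) - k := by
      rw [Nat.cast_sub (by omega)]
    rw [← h2]
    exact_mod_cast this
  -- double counting for `ψ`
  have hdbl : ∑ S ∈ powersetCard k M, ∑ z ∈ M \ S, ψ (insert z S) =
      ∑ S ∈ powersetCard (k + 1) M, ∑ _z ∈ S, ψ S := by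
    have := layer_double M k (fun _ => (0 : ℝ))
    rw [sum_sigma', sum_sigma']
    refine sum_bij' (fun x _ => ⟨insert x.2 x.1, x.2⟩) (fun x _ => ⟨x.1.erase x.2, x.2⟩)
      ?_ ?_ ?_ ?_ ?_
    · rintro ⟨S, z⟩ h
      simp only [mem_sigma, mem_powersetCard, mem_sdiff] at h ⊢
      obtain ⟨⟨h1, h2⟩, h3, h4⟩ := h
      refine ⟨⟨insert_subset h3 h1, ?_⟩, mem_insert_self _ _⟩
      rw [card_insert_of_notMem h4, h2]
    · rintro ⟨S, z⟩ h
      simp only [mem_sigma, mem_powersetCard, mem_sdiff] at h ⊢
      obtain ⟨⟨h1, h2⟩, h3⟩ := h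
      refine ⟨⟨(erase_subset _ _).trans h1, ?_⟩, h1 h3, notMem_erase _ _⟩
      rw [card_erase_of_mem h3, h2]; rfl
    · rintro ⟨S, z⟩ h
      simp only [mem_sigma, mem_powersetCard, mem_sdiff] at h
      simp only [erase_insert h.2.2]
    · rintro ⟨S, z⟩ h
      simp only [mem_sigma, mem_powersetCard] at h
      simp only [insert_erase h.2]
    · rintro ⟨S, z⟩ _
      rfl
  have hin : ∀ S ∈ powersetCard (k + 1) M, ∑ _z ∈ S, ψ S = ((k : ℝ) + 1) * ψ S := by
    intro S hS
    rw [mem_powersetCard] at hS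
    rw [sum_const, nsmul_eq_mul, hS.2]; push_cast; ring
  rw [sum_congr rfl hin, ← mul_sum] at hdbl
  have hD : ∑ S ∈ powersetCard k M, ∑ z ∈ M \ S, (φ S - ψ (insert z S)) =
      ((m : ℝ) - k) * (∑ S ∈ powersetCard k M, φ S) -
        ((k : ℝ) + 1) * ∑ S ∈ powersetCard (k + 1) M, ψ S := by
    rw [← hdbl, mul_sum, ← sum_sub_distrib]
    apply sum_congr rfl
    intro S hS
    rw [mem_powersetCard] at hS
    rw [sum_sub_distrib, sum_const, nsmul_eq_mul, card_sdiff_of_subset hS.1, hS.2,
      Nat.cast_sub (by omega)]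
  have hbd : |∑ S ∈ powersetCard k M, ∑ z ∈ M \ S, (φ S - ψ (insert z S))| ≤
      ((powersetCard k M).card : ℝ) * (((m : ℝ) - k) * L) := by
    refine (abs_sum_le_sum_abs _ _).trans ?_
    rw [← nsmul_eq_mul]
    refine sum_le_card_nsmul _ _ _ ?_
    intro S hS
    refine (abs_sum_le_sum_abs _ _).trans ?_
    have hS' := mem_powersetCard.1 hS
    have : ∑ z ∈ M \ S, |φ S - ψ (insert z S)| ≤ ∑ _z ∈ M \ S, L :=
      sum_le_sum (fun z hz => h S hS z hz)
    refine this.trans (le_of_eq ?_)
    rw [sum_const, nsmul_eq_mul, card_sdiff_of_subset hS'.1, hS'.2, Nat.cast_sub (by omega)]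
  have hmain : ∑ S ∈ powersetCard k M, (φ S - lMean M (k + 1) ψ) =
      (∑ S ∈ powersetCard k M, ∑ z ∈ M \ S, (φ S - ψ (insert z S))) / ((m : ℝ) - k) := by
    rw [hD, sum_sub_distrib, sum_const, nsmul_eq_mul]
    unfold lMean
    field_simp
    have : ((powersetCard k M).card : ℝ) * ((m : ℝ) - k) *
        ∑ S ∈ powersetCard (k + 1) M, ψ S = ((k : ℝ) + 1) * (∑ S ∈ powersetCard (k + 1) M, ψ S) *
          ((powersetCard (k + 1) M).card : ℝ) := by
      rw [← hc]; ring
    linear_combination (-1 : ℝ) * this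
  rw [hmain, abs_div, abs_of_pos hmk, div_le_iff₀ hmk]
  refine hbd.trans (le_of_eq ?_)
  ring

/-- Pascal splitting of a layer sum. -/
theorem sum_layer_insert (s : Finset ι) (x : ι) (hx : x ∉ s) (k : ℕ) (φ : Finset ι → ℝ) :
    ∑ S ∈ powersetCard (k + 1) (insert x s), φ S =
      ∑ S ∈ powersetCard (k + 1) s, φ S + ∑ S ∈ powersetCard k s, φ (insert x S) := by
  rw [powersetCard_succ_insert hx, sum_union, sum_image]
  · intro S hS T hT h
    have hS' := (mem_powersetCard.1 (mem_coe.1 hS)).1
    have hT' := (mem_powersetCard.1 (mem_coe.1 hT)).1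
    have hxS : x ∉ S := fun k => hx (hS' k)
    have hxT : x ∉ T := fun k => hx (hT' k)
    have := congrArg (fun W => W.erase x) h
    simpa [erase_insert hxS, erase_insert hxT] using this
  · rw [disjoint_left]
    intro S hS hS2
    rw [mem_image] at hS2
    obtain ⟨T, _, rfl⟩ := hS2
    exact hx ((mem_powersetCard.1 hS).1 (mem_insert_self _ _))

/-- Number of elements of a layer via Pascal. -/
theorem card_layer_insert (s : Finset ι) (x : ι) (hx : x ∉ s) (k : ℕ) :
    (powersetCard (k + 1) (insert x s)).card =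
      (powersetCard (k + 1) s).card + (powersetCard k s).card := by
  rw [card_powersetCard, card_powersetCard, card_powersetCard, card_insert_of_notMem hx,
    Nat.choose_succ_succ, add_comm]

/-- Number of positive elements. -/
def posCard (ε : ι → Bool) (S : Finset ι) : ℕ := (S.filter (fun j => ε j = true)).card

theorem posCard_insert (ε : ι → Bool) (S : Finset ι) (z : ι) (hz : z ∉ S) :
    posCard ε (insert z S) = posCard ε S + (if ε z = true then 1 else 0) := by
  unfold posCard
  rw [filter_insert]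
  split_ifs with h
  · rw [card_insert_of_notMem (by simp [hz])]
  · rfl

theorem sum_sub_lMean_eq_zero (M : Finset ι) (k : ℕ) (hk : k ≤ M.card) (φ : Finset ι → ℝ) :
    ∑ S ∈ powersetCard k M, (φ S - lMean M k φ) = 0 := by
  have hc : ((powersetCard k M).card : ℝ) ≠ 0 := by
    exact_mod_cast (layer_card_pos M k hk).ne'
  rw [sum_sub_distrib, sum_const, nsmul_eq_mul]
  unfold lMean
  field_simp
  ring

/-- Bound for a same-layer comparison. -/
theorem layer_same (M : Finset ι) (k : ℕ) (hk : k ≤ M.card) (φ ψ : Finset ι → ℝ) (L : ℝ)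
    (h : ∀ S ∈ powersetCard k M, |ψ S - φ S| ≤ L) :
    |∑ S ∈ powersetCard k M, (ψ S - lMean M k φ)| ≤ L * ((powersetCard k M).card : ℝ) := by
  have h0 := sum_sub_lMean_eq_zero M k hk φ
  have : ∑ S ∈ powersetCard k M, (ψ S - lMean M k φ) =
      ∑ S ∈ powersetCard k M, (ψ S - φ S) := by
    have h2 : ∑ S ∈ powersetCard k M, (ψ S - lMean M k φ) =
        ∑ S ∈ powersetCard k M, (ψ S - φ S) + ∑ S ∈ powersetCard k M, (φ S - lMean M k φ) := by
      rw [← sum_add_distrib]; exact sum_congr rfl (fun _ _ => by ring)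
    rw [h2, h0, add_zero]
  rw [this]
  refine (abs_sum_le_sum_abs _ _).trans ?_
  rw [mul_comm, ← nsmul_eq_mul]
  exact sum_le_card_nsmul _ _ _ h

/-- **Coupling of two Johnson layers.** -/
theorem layer_couple (ε : ι → Bool) (M' : Finset ι) (p n : ι) (hp : p ∉ M') (hn : n ∉ M')
    (hpn : p ≠ n) (hεp : ε p = true) (hεn : ε n = false) (k : ℕ) (hk : k ≤ M'.card)
    (G G' : Finset ι → ℝ) (L : ℝ)
    (H : ∀ S ∈ powersetCard (k + 1) (insert p (insert n M')), ∀ S' ∈ powersetCard k M',
      posCard ε S' ≤ posCard ε S → posCard ε S ≤ posCard ε S' + 1 → |G S - G' S'| ≤ L) :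
    |lMean (insert p (insert n M')) (k + 1) G - lMean M' k G'| ≤ L := by
  set M := insert p (insert n M') with hM
  set μ := lMean M' k G' with hμ
  have hpn' : p ∉ insert n M' := by
    simp [hpn, hp]
  have hsubM : M' ⊆ M := fun x hx => mem_insert_of_mem (mem_insert_of_mem hx)
  -- piece 1
  have p1 : |∑ S ∈ powersetCard (k + 1) M', (G S - μ)| ≤
      L * ((powersetCard (k + 1) M').card : ℝ) := by
    by_cases hk1 : k + 1 ≤ M'.card
    · apply layer_step M' k hk1
      intro S hS z hz
      have hS' := mem_powersetCard.1 hS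
      apply H S (mem_powersetCard.2 ⟨hS'.1.trans hsubM, hS'.2⟩)
      · refine mem_powersetCard.2 ⟨(erase_subset _ _).trans hS'.1, ?_⟩
        rw [card_erase_of_mem hz, hS'.2]; rfl
      · have := posCard_insert ε (S.erase z) z (notMem_erase _ _)
        rw [insert_erase hz] at this
        omega
      · have := posCard_insert ε (S.erase z) z (notMem_erase _ _)
        rw [insert_erase hz] at this
        split_ifs at this <;> omega
    · rw [powersetCard_eq_empty.2 (by omega)]
      simp
  -- piece 2 : insert p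
  have p2 : |∑ S ∈ powersetCard k M', (G (insert p S) - μ)| ≤
      L * ((powersetCard k M').card : ℝ) := by
    apply layer_same M' k hk
    intro S hS
    have hS' := mem_powersetCard.1 hS
    have hpS : p ∉ S := fun h => hp (hS'.1 h)
    apply H _ _ S hS
    · rw [posCard_insert ε S p hpS]; omega
    · rw [posCard_insert ε S p hpS, if_pos hεp]
    · refine mem_powersetCard.2 ⟨?_, ?_⟩
      · exact insert_subset_insert _ (hS'.1.trans (subset_insert _ _))
      · rw [card_insert_of_notMem hpS, hS'.2]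
  -- piece 3 : insert n
  have p3 : |∑ S ∈ powersetCard k M', (G (insert n S) - μ)| ≤
      L * ((powersetCard k M').card : ℝ) := by
    apply layer_same M' k hk
    intro S hS
    have hS' := mem_powersetCard.1 hS
    have hnS : n ∉ S := fun h => hn (hS'.1 h)
    apply H _ _ S hS
    · rw [posCard_insert ε S n hnS]; omega
    · rw [posCard_insert ε S n hnS, if_neg (by simp [hεn])]; omega
    · refine mem_powersetCard.2 ⟨?_, ?_⟩
      · exact (insert_subset_insert _ hS'.1).trans (subset_insert _ _)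
      · rw [card_insert_of_notMem hnS, hS'.2]
  -- pieces 2' and 4 : sets containing p, through `insert n M'`
  have p4 : |∑ S ∈ powersetCard k (insert n M'), (G (insert p S) - μ)| ≤
      L * ((powersetCard k (insert n M')).card : ℝ) := by
    cases k with
    | zero =>
      have hc : powersetCard 0 (insert n M') = {∅} := powersetCard_zero _
      have hc' : powersetCard 0 M' = {∅} := powersetCard_zero _
      have hμ0 : μ = G' ∅ := by
        rw [hμ]; unfold lMean; rw [hc']; simp
      rw [hc, hμ0]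
      simp only [sum_singleton, card_singleton, Nat.cast_one, mul_one]
      apply H
      · refine mem_powersetCard.2 ⟨?_, ?_⟩
        · simp [hM]
        · simp
      · simp [hc']
      · simp [posCard]
      · rw [posCard_insert ε ∅ p (by simp)]
        simp [posCard, hεp]
    | succ k0 =>
      rw [sum_layer_insert M' n hn k0 (fun S => G (insert p S) - μ),
        card_layer_insert M' n hn k0]
      push_cast
      rw [mul_add]
      refine (abs_add_le _ _).trans (add_le_add ?_ ?_)
      · exact p2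
      · apply layer_step' M' k0 hk
        intro S hS z hz
        have hS' := mem_powersetCard.1 hS
        have hz' := mem_sdiff.1 hz
        have hnS : n ∉ S := fun h => hn (hS'.1 h)
        have hpS : p ∉ S := fun h => hp (hS'.1 h)
        have hpnS : p ∉ insert n S := by simp [hpn, hpS]
        have hnfalse : ¬ ε n = true := by simp [hεn]
        have hzS : insert z S ∈ powersetCard (k0 + 1) M' :=
          mem_powersetCard.2 ⟨insert_subset hz'.1 hS'.1, by
            rw [card_insert_of_notMem hz'.2, hS'.2]⟩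
        apply H _ _ _ hzS
        · rw [posCard_insert ε _ p hpnS, posCard_insert ε S n hnS, posCard_insert ε S z hz'.2,
            if_pos hεp, if_neg hnfalse]
          split_ifs <;> omega
        · rw [posCard_insert ε _ p hpnS, posCard_insert ε S n hnS, posCard_insert ε S z hz'.2,
            if_pos hεp, if_neg hnfalse]
          omega
        · refine mem_powersetCard.2 ⟨?_, ?_⟩
          · exact insert_subset_insert _ (insert_subset_insert _ hS'.1)
          · rw [card_insert_of_notMem hpnS, card_insert_of_notMem hnS, hS'.2]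
  -- assemble
  have hsum : ∑ S ∈ powersetCard (k + 1) M, (G S - μ) =
      ∑ S ∈ powersetCard (k + 1) M', (G S - μ) + ∑ S ∈ powersetCard k M', (G (insert n S) - μ) +
        ∑ S ∈ powersetCard k (insert n M'), (G (insert p S) - μ) := by
    rw [hM, sum_layer_insert (insert n M') p hpn' k (fun S => G S - μ),
      sum_layer_insert M' n hn k (fun S => G S - μ)]
  have hcard : ((powersetCard (k + 1) M).card : ℝ) =
      ((powersetCard (k + 1) M').card : ℝ) + ((powersetCard k M').card : ℝ) +
        ((powersetCard k (insert n M')).card : ℝ) := by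
    rw [hM, card_layer_insert (insert n M') p hpn' k, card_layer_insert M' n hn k]
    push_cast; ring
  have hbound : |∑ S ∈ powersetCard (k + 1) M, (G S - μ)| ≤
      L * ((powersetCard (k + 1) M).card : ℝ) := by
    rw [hsum, hcard, mul_add, mul_add]
    refine (abs_add_le _ _).trans (add_le_add ((abs_add_le _ _).trans (add_le_add p1 p3)) p4)
  have hcpos : (0 : ℝ) < ((powersetCard (k + 1) M).card : ℝ) := by
    have hcardM : M.card = M'.card + 2 := by
      rw [hM, card_insert_of_notMem hpn', card_insert_of_notMem hn]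
    exact_mod_cast layer_card_pos M (k + 1) (by omega)
  have hdiff : lMean M (k + 1) G - μ =
      (∑ S ∈ powersetCard (k + 1) M, (G S - μ)) / ((powersetCard (k + 1) M).card : ℝ) := by
    rw [sum_sub_distrib, sum_const, nsmul_eq_mul]
    unfold lMean
    field_simp
  rw [hdiff, abs_div, abs_of_pos hcpos, div_le_iff₀ hcpos]
  exact hbound

end Layer

end Crest.Agent.SW
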