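/- Package C (S0453): the three-row table lemma. -/
import Crest.Agent.Lib.SW.Spectral
import Crest.Agent.Lib.SW.Table3Layer

set_option autoImplicit false

namespace Crest.Agent.SW

open Finset

/-- A finite family with a contraction property vanishes. -/
theorem contraction_zero {α : Type*} [Finite α] (P : α → Prop) (Δ : α → ℝ) (κ : ℝ) (hκ : 1 < κ)
    (hpos : ∀ a, 0 ≤ Δ a)
    (h : ∀ L, 0 ≤ L → (∀ a, P a → Δ a ≤ L) → ∀ a, P a → κ * Δ a ≤ L) :
    ∀ a, P a → Δ a = 0 := by
  classical
  intro a0 ha0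
  cases nonempty_fintype α
  obtain ⟨a1, ha1, hmax⟩ := (univ.filter P).exists_max_image Δ ⟨a0, by simp [ha0]⟩
  have ha1' : P a1 := by simpa using ha1
  have hL := h (Δ a1) (hpos a1) (fun a ha => hmax a (by simp [ha])) a1 ha1'
  have h1 : Δ a1 ≤ 0 := by nlinarith [hpos a1]
  have h2 : Δ a0 ≤ Δ a1 := hmax a0 (by simp [ha0])
  exact le_antisymm (h2.trans h1) (hpos a0)

section AvgGeneric
variable {X : Type*} [Fintype X]

theorem avg_equiv (r : Setoid X) (e : X ≃ X) (he : ∀ x y, r (e x) (e y) ↔ r x y) (f : X → ℝ)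
    (x : X) : avg r f (e x) = avg r (fun y => f (e y)) x := by
  classical
  unfold avg
  have hcls : cls r (e x) = (cls r x).map e.toEmbedding := by
    ext z
    simp only [mem_cls, mem_map, Equiv.coe_toEmbedding]
    constructor
    · intro h
      refine ⟨e.symm z, ?_, by simp⟩
      rw [← he]; simpa using h
    · rintro ⟨w, hw, rfl⟩
      exact (he _ _).2 hw
  rw [hcls, sum_map, card_map]
  simp

theorem avg_sub_le (r : Setoid X) (f f' : X → ℝ) (x : X) (L : ℝ)
    (h : ∀ y, r y x → |f y - f' y| ≤ L) : |avg r f x - avg r f' x| ≤ L := by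
  classical
  have hc := cls_card_pos r x
  have : avg r f x - avg r f' x = (∑ y ∈ cls r x, (f y - f' y)) / ((cls r x).card : ℝ) := by
    unfold avg
    rw [sum_sub_distrib, sub_div]
  rw [this, abs_div, abs_of_pos hc, div_le_iff₀ hc]
  refine (abs_sum_le_sum_abs _ _).trans ?_
  rw [mul_comm, ← nsmul_eq_mul]
  exact sum_le_card_nsmul _ _ _ (fun y hy => h y ((mem_cls r x y).1 hy))

theorem avg_add' (r : Setoid X) (f f' : X → ℝ) (x : X) :
    avg r (fun y => f y + f' y) x = avg r f x + avg r f' x := by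
  unfold avg
  rw [sum_add_distrib, add_div]

theorem avg_smul' (r : Setoid X) (c : ℝ) (f : X → ℝ) (x : X) :
    avg r (fun y => c * f y) x = c * avg r f x := by
  unfold avg
  rw [← mul_sum, mul_div_assoc]

theorem sum_avg (r : Setoid X) (f : X → ℝ) : ∑ x, avg r f x = ∑ x, f x := by
  have h := dot_avg_symm r f (fun _ => 1)
  have h1 : avg r (fun _ => (1 : ℝ)) = fun _ => 1 := by
    funext x
    exact avg_of_const r _ x 1 (fun _ _ => rfl)
  rw [h1] at h
  unfold dot at h
  simpa using h

end AvgGeneric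

/-- arithmetic in `Fin 3`. -/
theorem fin3_cases (a i : Fin 3) : i = a ∨ i = a + 1 ∨ i = a + 2 := by
  revert a i; decide
theorem fin3_ne1 (a : Fin 3) : a + 1 ≠ a := by revert a; decide
theorem fin3_ne2 (a : Fin 3) : a + 2 ≠ a := by revert a; decide
theorem fin3_ne12 (a : Fin 3) : a + 1 ≠ a + 2 := by revert a; decide
theorem fin3_avoid (a u v : Fin 3) (h : ¬(u = a ↔ v = a)) :
    (u ≠ a + 2 ∧ v ≠ a + 2) ∨ (u ≠ a + 1 ∧ v ≠ a + 1) := by
  revert a u v; decide

section Table
variable {U : Type*} [Fintype U] [DecidableEq U]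

/-- 3-row tables: `x j` is the special row of column `j`; `ε j = true` means +1, false means -1;
the signed count of columns with special row `i` is prescribed. -/
abbrev T3 (ε : U → Bool) (s : Fin 3 → ℤ) :=
  {x : U → Fin 3 // ∀ i, ∑ j, (if x j = i then (if ε j then (1 : ℤ) else -1) else 0) = s i}

/-- Same row `i`. -/
def t3Rel (ε : U → Bool) (s : Fin 3 → ℤ) (i : Fin 3) : Setoid (T3 ε s) where
  r x y := ∀ j, x.1 j = i ↔ y.1 j = i
  iseqv := ⟨fun _ _ => Iff.rfl, fun h j => (h j).symm, fun h k j => (h j).trans (k j)⟩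

/-- Signed count of a raw table. -/
def cnt (ε : U → Bool) (x : U → Fin 3) (i : Fin 3) : ℤ :=
  ∑ j, (if x j = i then (if ε j then (1 : ℤ) else -1) else 0)

/-- Count of columns of sign `b` in row `i`. -/
def pc (ε : U → Bool) (x : U → Fin 3) (i : Fin 3) (b : Bool) : ℕ :=
  (univ.filter (fun j => x j = i ∧ ε j = b)).card

/-- Row `i` of a raw table. -/
def rowOf (x : U → Fin 3) (i : Fin 3) : Finset U := univ.filter (fun j => x j = i)

omit [DecidableEq U] in
theorem cnt_eq_pc (ε : U → Bool) (x : U → Fin 3) (i : Fin 3) :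
    cnt ε x i = (pc ε x i true : ℤ) - (pc ε x i false : ℤ) := by
  unfold cnt pc
  rw [card_filter, card_filter]
  push_cast
  rw [← sum_sub_distrib]
  apply sum_congr rfl
  intro j _
  by_cases h1 : x j = i <;> cases h2 : ε j <;> simp [h1]

omit [DecidableEq U] in
theorem rowOf_card (ε : U → Bool) (x : U → Fin 3) (i : Fin 3) :
    (rowOf x i).card = pc ε x i true + pc ε x i false := by
  unfold rowOf pc
  rw [card_filter, card_filter, card_filter, ← sum_add_distrib]
  apply sum_congr rfl
  intro j _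
  by_cases h1 : x j = i <;> cases h2 : ε j <;> simp [h1]

/-- Swap of two columns of equal sign. -/
def swapT {ε : U → Bool} {s : Fin 3 → ℤ} (j j' : U) (h : ε j = ε j') (x : T3 ε s) : T3 ε s :=
  ⟨x.1 ∘ Equiv.swap j j', fun i => by
    rw [← x.2 i, ← Equiv.sum_comp (Equiv.swap j j')
      (fun k => if x.1 k = i then (if ε k then (1 : ℤ) else -1) else 0)]
    apply sum_congr rfl
    intro k _
    have : ε (Equiv.swap j j' k) = ε k := by
      rw [Equiv.swap_apply_def]
      split_ifs with h1 h2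
      · rw [h1, h]
      · rw [h2, h]
      · rfl
    simp only [Function.comp, this]⟩

theorem swapT_apply {ε : U → Bool} {s : Fin 3 → ℤ} (j j' : U) (h : ε j = ε j') (x : T3 ε s)
    (k : U) : (swapT j j' h x).1 k = x.1 (Equiv.swap j j' k) := rfl

theorem swapT_swapT {ε : U → Bool} {s : Fin 3 → ℤ} (j j' : U) (h : ε j = ε j') (x : T3 ε s) :
    swapT j j' h (swapT j j' h x) = x := by
  apply Subtype.ext
  funext k
  simp [swapT_apply]

/-- Swap as an equivalence. -/
def swapE {ε : U → Bool} {s : Fin 3 → ℤ} (j j' : U) (h : ε j = ε j') : T3 ε s ≃ T3 ε s where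
  toFun := swapT j j' h
  invFun := swapT j j' h
  left_inv := swapT_swapT j j' h
  right_inv := swapT_swapT j j' h

theorem swapE_rel {ε : U → Bool} {s : Fin 3 → ℤ} (j j' : U) (h : ε j = ε j') (a : Fin 3)
    (x y : T3 ε s) :
    t3Rel ε s a (swapE j j' h x) (swapE j j' h y) ↔ t3Rel ε s a x y := by
  constructor
  · intro H k
    have := H (Equiv.swap j j' k)
    simpa [swapE, swapT_apply] using this
  · intro H k
    exact H _

section System

variable {ε : U → Bool} {s : Fin 3 → ℤ} (g : Fin 3 → T3 ε s → ℝ) (κ : ℝ)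

/-- `g a` is invariant on the classes of row `a`. -/
theorem g_rowinv (hκ : 1 < κ)
    (hg : ∀ a x, κ * g a x = avg (t3Rel ε s a) (fun y => g (a + 1) y + g (a + 2) y) x)
    (a : Fin 3) {x y : T3 ε s} (h : t3Rel ε s a x y) : g a x = g a y := by
  have h1 := hg a x
  have h2 := hg a y
  rw [avg_eq_of_rel _ _ h] at h1
  have : κ * g a x = κ * g a y := h1.trans h2.symm
  exact mul_left_cancel₀ (by linarith) this

/-- If neither swapped column is in row `i`, the row is unchanged. -/
theorem swapT_rel_of_not {ε : U → Bool} {s : Fin 3 → ℤ} (j j' : U) (h : ε j = ε j') (i : Fin 3)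
    (x : T3 ε s) (h1 : x.1 j ≠ i) (h2 : x.1 j' ≠ i) : t3Rel ε s i (swapT j j' h x) x := by
  intro k
  rw [swapT_apply, Equiv.swap_apply_def]
  split_ifs with h3 h4
  · subst h3; simp [h1, h2]
  · subst h4; simp [h1, h2]
  · rfl

/-- Both columns in row `i` or both outside. -/
theorem swapT_rel_of_iff {ε : U → Bool} {s : Fin 3 → ℤ} (j j' : U) (h : ε j = ε j') (i : Fin 3)
    (x : T3 ε s) (h1 : x.1 j = i ↔ x.1 j' = i) : t3Rel ε s i (swapT j j' h x) x := by
  intro k
  rw [swapT_apply, Equiv.swap_apply_def]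
  split_ifs with h3 h4
  · subst h3; exact h1.symm
  · subst h4; exact h1
  · rfl

/-- **Step 1**: invariance under swaps of equal-sign columns. -/
theorem step1 (hκ : 1 < κ)
    (hg : ∀ a x, κ * g a x = avg (t3Rel ε s a) (fun y => g (a + 1) y + g (a + 2) y) x)
    (i : Fin 3) (x : T3 ε s) (j j' : U) (h : ε j = ε j') : g i (swapT j j' h x) = g i x := by
  classical
  have key := contraction_zero (α := Fin 3 × T3 ε s × U × U)
    (fun t => ε t.2.2.1 = ε t.2.2.2)
    (fun t => if h : ε t.2.2.1 = ε t.2.2.2 then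
      |g t.1 t.2.1 - g t.1 (swapT t.2.2.1 t.2.2.2 h t.2.1)| else 0) κ hκ
    (by
      intro t
      show 0 ≤ dite _ _ _
      split_ifs
      · exact abs_nonneg _
      · exact le_rfl)
    (by
      rintro L hL hbd ⟨a, x, j, j'⟩ (h : ε j = ε j')
      have hbd' : ∀ (i : Fin 3) (y : T3 ε s) (w w' : U) (hw : ε w = ε w'),
          |g i y - g i (swapT w w' hw y)| ≤ L := by
        intro i y w w' hw
        have := hbd (i, y, w, w') hw
        simpa only [dif_pos hw] using this
      show κ * dite _ _ _ ≤ L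
      rw [dif_pos h]
      by_cases hsame : x.1 j = a ↔ x.1 j' = a
      · have := g_rowinv g κ hκ hg a (swapT_rel_of_iff j j' h a x hsame)
        rw [this, sub_self, abs_zero, mul_zero]
        exact hL
      · have e1 : κ * g a x - κ * g a (swapT j j' h x) =
            avg (t3Rel ε s a) (fun y => g (a + 1) y + g (a + 2) y) x -
              avg (t3Rel ε s a) (fun y => g (a + 1) (swapE j j' h y) + g (a + 2) (swapE j j' h y)) x := by
          rw [hg a x, hg a (swapT j j' h x)]
          congr 1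
          exact avg_equiv (t3Rel ε s a) (swapE j j' h) (swapE_rel j j' h a)
            (fun y => g (a + 1) y + g (a + 2) y) x
        have e2 : κ * |g a x - g a (swapT j j' h x)| =
            |κ * g a x - κ * g a (swapT j j' h x)| := by
          rw [← mul_sub, abs_mul, abs_of_pos (by linarith : (0 : ℝ) < κ)]
        rw [e2, e1]
        apply avg_sub_le
        intro y hy
        -- in `y`, exactly one of `j, j'` is in row `a`
        have hnot : ¬ (y.1 j = a ↔ y.1 j' = a) := by
          intro h3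
          exact hsame ((hy j).symm.trans (h3.trans (hy j')))
        -- the two values avoid one of the rows `a+1`, `a+2`
        have hcases : (y.1 j ≠ a + 2 ∧ y.1 j' ≠ a + 2) ∨ (y.1 j ≠ a + 1 ∧ y.1 j' ≠ a + 1) :=
          fin3_avoid a _ _ hnot
        have hy2 : swapE j j' h y = swapT j j' h y := rfl
        rw [hy2]
        rcases hcases with ⟨h3, h4⟩ | ⟨h3, h4⟩
        · have e3 := g_rowinv g κ hκ hg (a + 2) (swapT_rel_of_not j j' h (a + 2) y h3 h4)
          rw [e3]
          have := hbd' (a + 1) y j j' h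
          rwa [show g (a + 1) y + g (a + 2) y - (g (a + 1) (swapT j j' h y) + g (a + 2) y) =
            g (a + 1) y - g (a + 1) (swapT j j' h y) by ring]
        · have e3 := g_rowinv g κ hκ hg (a + 1) (swapT_rel_of_not j j' h (a + 1) y h3 h4)
          rw [e3]
          have := hbd' (a + 2) y j j' h
          rwa [show g (a + 1) y + g (a + 2) y - (g (a + 1) y + g (a + 2) (swapT j j' h y)) =
            g (a + 2) y - g (a + 2) (swapT j j' h y) by ring])
    (i, x, j, j') h
  simp only [dif_pos h] at key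
  have := abs_eq_zero.1 key
  linarith

end System

omit [DecidableEq U] in
/-- Both sign counts of a row agree when the positive counts do. -/
theorem pc_false_eq {ε : U → Bool} {s : Fin 3 → ℤ} (x y : T3 ε s) (i : Fin 3) :
    (pc ε x.1 i false : ℤ) = (pc ε y.1 i false : ℤ) + (pc ε x.1 i true : ℤ) - (pc ε y.1 i true : ℤ) := by
  have h1 : cnt ε x.1 i = s i := x.2 i
  have h2 : cnt ε y.1 i = s i := y.2 i
  rw [cnt_eq_pc] at h1 h2
  linarith

theorem pc_swapT {ε : U → Bool} {s : Fin 3 → ℤ} (j j' : U) (h : ε j = ε j') (x : T3 ε s)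
    (i : Fin 3) (b : Bool) : pc ε (swapT j j' h x).1 i b = pc ε x.1 i b := by
  unfold pc
  rw [card_filter, card_filter, ← Equiv.sum_comp (Equiv.swap j j')
    (fun k => if x.1 k = i ∧ ε k = b then 1 else 0)]
  apply sum_congr rfl
  intro k _
  have : ε (Equiv.swap j j' k) = ε k := by
    rw [Equiv.swap_apply_def]
    split_ifs with h1 h2
    · rw [h1, h]
    · rw [h2, h]
    · rfl
  simp only [swapT_apply, this]
  congr

section System2

variable {ε : U → Bool} {s : Fin 3 → ℤ} (g : Fin 3 → T3 ε s → ℝ) (κ : ℝ)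

/-- **Step 3**: `g i` only depends on the positive count of row `i`. -/
theorem count_lemma (hκ : 1 < κ)
    (hg : ∀ a x, κ * g a x = avg (t3Rel ε s a) (fun y => g (a + 1) y + g (a + 2) y) x)
    (i : Fin 3) : ∀ (n : ℕ) (x y : T3 ε s), (rowOf x.1 i \ rowOf y.1 i).card = n →
      pc ε x.1 i true = pc ε y.1 i true → g i x = g i y := by
  intro n
  induction n with
  | zero =>
    intro x y hn hpc
    have hpc' : pc ε x.1 i false = pc ε y.1 i false := by
      have := pc_false_eq x y i
      omega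
    have hsub : rowOf x.1 i ⊆ rowOf y.1 i := by
      rw [← sdiff_eq_empty_iff_subset]
      exact card_eq_zero.1 hn
    have heq : rowOf x.1 i = rowOf y.1 i := by
      apply eq_of_subset_of_card_le hsub
      rw [rowOf_card ε, rowOf_card ε, hpc, hpc']
    apply g_rowinv g κ hκ hg i
    intro j
    have := congrArg (fun R => j ∈ R) heq
    simpa [rowOf] using this
  | succ n ih =>
    intro x y hn hpc
    have hpc' : pc ε x.1 i false = pc ε y.1 i false := by
      have := pc_false_eq x y i
      omega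
    have hb : ∀ b, pc ε x.1 i b = pc ε y.1 i b := by
      intro b; cases b
      · exact hpc'
      · exact hpc
    obtain ⟨j, hj⟩ : (rowOf x.1 i \ rowOf y.1 i).Nonempty := by
      rw [← card_pos, hn]; omega
    have hj' := mem_sdiff.1 hj
    have hjx : x.1 j = i := by simpa [rowOf] using hj'.1
    have hjy : y.1 j ≠ i := by simpa [rowOf] using hj'.2
    -- a partner of the same sign
    have hcomm := card_sdiff_comm (hb (ε j))
    have hne : ((univ.filter (fun k => y.1 k = i ∧ ε k = ε j)) \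
        (univ.filter (fun k => x.1 k = i ∧ ε k = ε j))).Nonempty := by
      rw [← card_pos]
      have h1 : 0 < ((univ.filter (fun k => x.1 k = i ∧ ε k = ε j)) \
          (univ.filter (fun k => y.1 k = i ∧ ε k = ε j))).card := by
        rw [card_pos]
        exact ⟨j, by simp [hjx, hjy]⟩
      rw [← hcomm]
      exact h1
    obtain ⟨j', hj2⟩ := hne
    have hj2' := mem_sdiff.1 hj2
    simp only [mem_filter, mem_univ, true_and, not_and] at hj2'
    obtain ⟨⟨hj'y, hsign⟩, hj'x⟩ := hj2'
    have hj'x' : x.1 j' ≠ i := fun h => hj'x h hsign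
    have hjj' : j ≠ j' := by
      rintro rfl
      exact hj'x' hjx
    set z := swapT j j' hsign.symm x with hz
    have h1 : g i z = g i x := step1 g κ hκ hg i x j j' hsign.symm
    have hcard : (rowOf z.1 i \ rowOf y.1 i).card = n := by
      have : rowOf z.1 i \ rowOf y.1 i = (rowOf x.1 i \ rowOf y.1 i).erase j := by
        ext k
        simp only [mem_sdiff, mem_erase, rowOf, mem_filter, mem_univ, true_and]
        rw [hz, swapT_apply, Equiv.swap_apply_def]
        split_ifs with h3 h4
        · subst h3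
          simp [hj'x']
        · subst h4
          simp [hj'y, hj'x']
        · simp [h3]
      rw [this, card_erase_of_mem hj, hn]; rfl
    have h2 := ih z y hcard (by rw [hz, pc_swapT]; exact hpc)
    rw [← h1, h2]

end System2

theorem cnt_update (ε : U → Bool) (x : U → Fin 3) (k : U) (v i : Fin 3) :
    cnt ε (Function.update x k v) i = cnt ε x i -
      (if x k = i then (if ε k then (1 : ℤ) else -1) else 0) +
      (if v = i then (if ε k then (1 : ℤ) else -1) else 0) := by
  unfold cnt
  rw [← add_sum_erase univ _ (mem_univ k),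
    ← add_sum_erase univ (fun j => if x j = i then (if ε j then (1 : ℤ) else -1) else 0) (mem_univ k)]
  have : ∑ j ∈ univ.erase k, (if Function.update x k v j = i then (if ε j then (1 : ℤ) else -1) else 0) =
      ∑ j ∈ univ.erase k, (if x j = i then (if ε j then (1 : ℤ) else -1) else 0) :=
    sum_congr rfl (fun j hj => by rw [Function.update_of_ne (ne_of_mem_erase hj)])
  rw [this]
  simp only [Function.update_self]
  ring

/-- Moving a positive and a negative column out of a row keeps the table property. -/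
def moveT {ε : U → Bool} {s : Fin 3 → ℤ} (x : T3 ε s) (p n : U) (b : Fin 3)
    (hpn : p ≠ n) (hε : ε p = true) (hε' : ε n = false) (hx : x.1 p = x.1 n) : T3 ε s :=
  ⟨Function.update (Function.update x.1 p b) n b, fun i => by
    have h := x.2 i
    change cnt ε x.1 i = s i at h
    change cnt ε _ i = s i
    rw [cnt_update, cnt_update, Function.update_of_ne hpn.symm, ← hx, hε, hε']
    simp only [if_true, Bool.false_eq_true, if_false]
    rw [h]
    split_ifs <;> ring⟩

theorem moveT_row {ε : U → Bool} {s : Fin 3 → ℤ} (x : T3 ε s) (p n : U) (a b : Fin 3)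
    (hpn : p ≠ n) (hε : ε p = true) (hε' : ε n = false) (hx : x.1 p = x.1 n) (hba : b ≠ a)
    (j : U) : (moveT x p n b hpn hε hε' hx).1 j = a ↔ (x.1 j = a ∧ j ≠ p ∧ j ≠ n) := by
  show Function.update (Function.update x.1 p b) n b j = a ↔ _
  by_cases h1 : j = n
  · subst h1; simp [hba]
  · by_cases h2 : j = p
    · subst h2
      rw [Function.update_of_ne h1, Function.update_self]
      simp [hba]
    · rw [Function.update_of_ne h1, Function.update_of_ne h2]
      simp [h1, h2]

/-- A move exists when the positive count is larger than that of another table. -/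
theorem exists_move {ε : U → Bool} {s : Fin 3 → ℤ} (a : Fin 3) (x x' : T3 ε s)
    (h : pc ε x.1 a true < pc ε x'.1 a true) :
    ∃ (x₁ : T3 ε s) (p n : U), x'.1 p = a ∧ ε p = true ∧ x'.1 n = a ∧ ε n = false ∧
      (∀ j, x₁.1 j = a ↔ (x'.1 j = a ∧ j ≠ p ∧ j ≠ n)) ∧
      pc ε x₁.1 a true + 1 = pc ε x'.1 a true := by
  have h1 : 0 < pc ε x'.1 a true := by omega
  have h2 : 0 < pc ε x'.1 a false := by
    have := pc_false_eq x' x a
    omega
  obtain ⟨p, hp⟩ := card_pos.1 h1
  obtain ⟨n, hn⟩ := card_pos.1 h2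
  simp only [mem_filter, mem_univ, true_and] at hp hn
  have hpn : p ≠ n := by
    rintro rfl
    rw [hp.2] at hn
    exact absurd hn.2 (by simp)
  have hx : x'.1 p = x'.1 n := by rw [hp.1, hn.1]
  refine ⟨moveT x' p n (a + 1) hpn hp.2 hn.2 hx, p, n, hp.1, hp.2, hn.1, hn.2,
    moveT_row x' p n a (a + 1) hpn hp.2 hn.2 hx (fin3_ne1 a), ?_⟩
  unfold pc
  have : univ.filter (fun j => x'.1 j = a ∧ ε j = true) =
      insert p (univ.filter (fun j => (moveT x' p n (a + 1) hpn hp.2 hn.2 hx).1 j = a ∧ ε j = true)) := by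
    ext j
    simp only [mem_filter, mem_univ, true_and, mem_insert, moveT_row x' p n a (a + 1) hpn hp.2 hn.2 hx (fin3_ne1 a)]
    constructor
    · rintro ⟨h3, h4⟩
      by_cases h5 : j = p
      · exact Or.inl h5
      · refine Or.inr ⟨⟨h3, h5, ?_⟩, h4⟩
        rintro rfl
        rw [hn.2] at h4
        exact absurd h4 (by simp)
    · rintro (rfl | ⟨⟨h3, _, _⟩, h4⟩)
      · exact hp
      · exact ⟨h3, h4⟩
  rw [this, card_insert_of_notMem]
  simp only [mem_filter, mem_univ, true_and, moveT_row x' p n a (a + 1) hpn hp.2 hn.2 hx (fin3_ne1 a)]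
  simp

/-! ### Encoding classes by subsets -/

/-- Decode a subset. -/
def dec (ε : U → Bool) (a : Fin 3) (A S : Finset U) (j : U) : Fin 3 :=
  if j ∈ A then a else if (j ∈ S ↔ ε j = true) then a + 1 else a + 2

/-- Encode a table. -/
def enc (ε : U → Bool) (a : Fin 3) (y : U → Fin 3) : Finset U :=
  univ.filter (fun j => (y j = a + 1 ∧ ε j = true) ∨ (y j = a + 2 ∧ ε j = false))

theorem dec_enc (ε : U → Bool) (a : Fin 3) (y : U → Fin 3) :
    dec ε a (rowOf y a) (enc ε a y) = y := by
  funext j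
  unfold dec rowOf enc
  rcases fin3_cases a (y j) with h | h | h
  · simp [h]
  · cases h2 : ε j <;> simp [h, h2, fin3_ne1 a, fin3_ne12 a, (fin3_ne12 a).symm]
  · cases h2 : ε j <;> simp [h, h2, fin3_ne2 a, fin3_ne12 a, (fin3_ne12 a).symm]

theorem enc_dec (ε : U → Bool) (a : Fin 3) (A S : Finset U) (hS : S ⊆ Aᶜ) :
    enc ε a (dec ε a A S) = S := by
  ext j
  unfold enc dec
  simp only [mem_filter, mem_univ, true_and]
  by_cases h : j ∈ A
  · have : j ∉ S := fun h2 => (mem_compl.1 (hS h2)) h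
    simp [h, this, (fin3_ne1 a).symm, (fin3_ne2 a).symm]
  · by_cases h2 : j ∈ S <;> cases h3 : ε j <;>
      simp [h, h2, h3, fin3_ne12 a, (fin3_ne12 a).symm]

omit [Fintype U] in
theorem dec_eq_a (ε : U → Bool) (a : Fin 3) (A S : Finset U) (j : U) :
    dec ε a A S j = a ↔ j ∈ A := by
  unfold dec
  by_cases h : j ∈ A
  · simp [h]
  · simp only [h, if_false, iff_false]
    split_ifs
    · exact fin3_ne1 a
    · exact fin3_ne2 a

theorem rowOf_dec (ε : U → Bool) (a : Fin 3) (A S : Finset U) :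
    rowOf (dec ε a A S) a = A := by
  ext j
  simp [rowOf, dec_eq_a]

omit [DecidableEq U] in
theorem cnt_congr_row (ε : U → Bool) (x y : U → Fin 3) (i : Fin 3) (h : ∀ j, x j = i ↔ y j = i) :
    cnt ε x i = cnt ε y i := by
  unfold cnt
  apply sum_congr rfl
  intro j _
  by_cases h2 : x j = i
  · rw [if_pos h2, if_pos ((h j).1 h2)]
  · rw [if_neg h2, if_neg (fun k => h2 ((h j).2 k))]

/-- Number of negative columns in a finset. -/
def negCard (ε : U → Bool) (S : Finset U) : ℕ := (S.filter (fun j => ε j = false)).card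

theorem cnt_enc (ε : U → Bool) (a : Fin 3) (y : U → Fin 3) :
    cnt ε y (a + 1) = ((enc ε a y).card : ℤ) - (negCard ε (rowOf y a)ᶜ : ℤ) := by
  have h2 : ((rowOf y a)ᶜ.filter (fun j => ε j = false)) =
      univ.filter (fun j => y j ≠ a ∧ ε j = false) := by
    ext j; simp [rowOf]
  unfold cnt enc negCard
  rw [h2, card_filter, card_filter]
  push_cast
  rw [← sum_sub_distrib]
  apply sum_congr rfl
  intro j _
  rcases fin3_cases a (y j) with h | h | h <;> cases h3 : ε j <;>
    simp [h, fin3_ne1 a, fin3_ne2 a, (fin3_ne1 a).symm, (fin3_ne2 a).symm, fin3_ne12 a,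
      (fin3_ne12 a).symm]

omit [DecidableEq U] in
theorem cnt_total (ε : U → Bool) (a : Fin 3) (y : U → Fin 3) :
    cnt ε y a + cnt ε y (a + 1) + cnt ε y (a + 2) = ∑ j, (if ε j then (1 : ℤ) else -1) := by
  unfold cnt
  rw [← sum_add_distrib, ← sum_add_distrib]
  apply sum_congr rfl
  intro j _
  rcases fin3_cases a (y j) with h | h | h <;>
    simp [h, fin3_ne1 a, fin3_ne2 a, (fin3_ne1 a).symm, (fin3_ne2 a).symm, fin3_ne12 a,
      (fin3_ne12 a).symm]

/-- Decoding a subset of the right size gives a table. -/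
theorem dec_table {ε : U → Bool} {s : Fin 3 → ℤ} (a : Fin 3) (x : T3 ε s) (S : Finset U)
    (hS : S ∈ powersetCard (enc ε a x.1).card (rowOf x.1 a)ᶜ) (i : Fin 3) :
    ∑ j, (if dec ε a (rowOf x.1 a) S j = i then (if ε j then (1 : ℤ) else -1) else 0) = s i := by
  obtain ⟨hS1, hS2⟩ := mem_powersetCard.1 hS
  set d := dec ε a (rowOf x.1 a) S with hd
  have hx : ∀ i, cnt ε x.1 i = s i := x.2
  have hrow : rowOf d a = rowOf x.1 a := rowOf_dec ε a _ S
  have h0 : cnt ε d a = s a := by
    rw [← hx a]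
    apply cnt_congr_row
    intro j
    rw [hd, dec_eq_a]
    simp [rowOf]
  have h1 : cnt ε d (a + 1) = s (a + 1) := by
    rw [← hx (a + 1), cnt_enc, cnt_enc, hrow, hd, enc_dec ε a _ S hS1, hS2]
  have h2 : cnt ε d (a + 2) = s (a + 2) := by
    have e1 := cnt_total ε a d
    have e2 := cnt_total ε a x.1
    have e3 := hx a
    have e4 := hx (a + 1)
    have e5 := hx (a + 2)
    linarith
  change cnt ε d i = s i
  rcases fin3_cases a i with h | h | h <;> rw [h] <;> assumption

/-- Extension by zero of a function on tables. -/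
def extT {ε : U → Bool} {s : Fin 3 → ℤ} (φ : T3 ε s → ℝ) (y : U → Fin 3) : ℝ :=
  if h : ∀ i, ∑ j, (if y j = i then (if ε j then (1 : ℤ) else -1) else 0) = s i then φ ⟨y, h⟩ else 0

theorem enc_mem_layer {ε : U → Bool} {s : Fin 3 → ℤ} (a : Fin 3) (x y : T3 ε s)
    (h : t3Rel ε s a y x) : enc ε a y.1 ∈ powersetCard (enc ε a x.1).card (rowOf x.1 a)ᶜ := by
  have hrow : rowOf y.1 a = rowOf x.1 a := by
    ext j; simp only [rowOf, mem_filter, mem_univ, true_and]; exact h j
  refine mem_powersetCard.2 ⟨?_, ?_⟩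
  · intro j hj
    rw [← hrow, mem_compl]
    simp only [enc, mem_filter, mem_univ, true_and] at hj
    simp only [rowOf, mem_filter, mem_univ, true_and]
    rcases hj with ⟨h1, _⟩ | ⟨h1, _⟩
    · rw [h1]; exact fin3_ne1 a
    · rw [h1]; exact fin3_ne2 a
  · have hy : cnt ε y.1 (a + 1) = s (a + 1) := y.2 _
    have hx : cnt ε x.1 (a + 1) = s (a + 1) := x.2 _
    rw [cnt_enc, hrow] at hy
    rw [cnt_enc] at hx
    omega

theorem sum_cls_layer {ε : U → Bool} {s : Fin 3 → ℤ} (a : Fin 3) (x : T3 ε s) (φ : T3 ε s → ℝ) :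
    ∑ y ∈ cls (t3Rel ε s a) x, φ y =
      ∑ S ∈ powersetCard (enc ε a x.1).card (rowOf x.1 a)ᶜ, extT φ (dec ε a (rowOf x.1 a) S) := by
  classical
  refine sum_bij (fun y _ => enc ε a y.1) ?_ ?_ ?_ ?_
  · intro y hy
    exact enc_mem_layer a x y ((mem_cls _ _ _).1 hy)
  · intro y hy y' hy' h
    apply Subtype.ext
    have h1 : rowOf y.1 a = rowOf x.1 a := by
      ext j; simp only [rowOf, mem_filter, mem_univ, true_and]; exact ((mem_cls _ _ _).1 hy) j
    have h2 : rowOf y'.1 a = rowOf x.1 a := by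
      ext j; simp only [rowOf, mem_filter, mem_univ, true_and]; exact ((mem_cls _ _ _).1 hy') j
    rw [← dec_enc ε a y.1, ← dec_enc ε a y'.1, h1, h2]
    show dec ε a _ (enc ε a y.1) = dec ε a _ (enc ε a y'.1)
    rw [h]
  · intro S hS
    refine ⟨⟨dec ε a (rowOf x.1 a) S, dec_table a x S hS⟩, ?_, ?_⟩
    · rw [mem_cls]
      intro j
      show dec ε a (rowOf x.1 a) S j = a ↔ _
      rw [dec_eq_a]
      simp [rowOf]
    · exact enc_dec ε a _ S (mem_powersetCard.1 hS).1
  · intro y hy
    have h1 : rowOf y.1 a = rowOf x.1 a := by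
      ext j; simp only [rowOf, mem_filter, mem_univ, true_and]; exact ((mem_cls _ _ _).1 hy) j
    have h2 : dec ε a (rowOf x.1 a) (enc ε a y.1) = y.1 := by
      rw [← h1]; exact dec_enc ε a y.1
    rw [h2]
    unfold extT
    rw [dif_pos y.2]

theorem card_cls_layer {ε : U → Bool} {s : Fin 3 → ℤ} (a : Fin 3) (x : T3 ε s) :
    (cls (t3Rel ε s a) x).card = (powersetCard (enc ε a x.1).card (rowOf x.1 a)ᶜ).card := by
  classical
  refine card_bij (fun y _ => enc ε a y.1) ?_ ?_ ?_
  · intro y hy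
    exact enc_mem_layer a x y ((mem_cls _ _ _).1 hy)
  · intro y hy y' hy' h
    apply Subtype.ext
    have h1 : rowOf y.1 a = rowOf x.1 a := by
      ext j; simp only [rowOf, mem_filter, mem_univ, true_and]; exact ((mem_cls _ _ _).1 hy) j
    have h2 : rowOf y'.1 a = rowOf x.1 a := by
      ext j; simp only [rowOf, mem_filter, mem_univ, true_and]; exact ((mem_cls _ _ _).1 hy') j
    rw [← dec_enc ε a y.1, ← dec_enc ε a y'.1, h1, h2]
    show dec ε a _ (enc ε a y.1) = dec ε a _ (enc ε a y'.1)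
    rw [h]
  · intro S hS
    refine ⟨⟨dec ε a (rowOf x.1 a) S, dec_table a x S hS⟩, ?_, ?_⟩
    · rw [mem_cls]
      intro j
      show dec ε a (rowOf x.1 a) S j = a ↔ _
      rw [dec_eq_a]
      simp [rowOf]
    · exact enc_dec ε a _ S (mem_powersetCard.1 hS).1

theorem avg_eq_lMean {ε : U → Bool} {s : Fin 3 → ℤ} (a : Fin 3) (x : T3 ε s) (φ : T3 ε s → ℝ) :
    avg (t3Rel ε s a) φ x = lMean (rowOf x.1 a)ᶜ (enc ε a x.1).card
      (fun S => extT φ (dec ε a (rowOf x.1 a) S)) := by
  unfold avg lMean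
  rw [sum_cls_layer, card_cls_layer]

theorem pc_dec_one (ε : U → Bool) (a : Fin 3) (A S : Finset U) (hS : S ⊆ Aᶜ) :
    pc ε (dec ε a A S) (a + 1) true = posCard ε S := by
  unfold pc posCard
  congr 1
  ext j
  simp only [mem_filter, mem_univ, true_and]
  unfold dec
  by_cases h : j ∈ A
  · have : j ∉ S := fun h2 => (mem_compl.1 (hS h2)) h
    simp [h, this, (fin3_ne1 a).symm]
  · by_cases h2 : j ∈ S <;> cases h3 : ε j <;>
      simp [h, h2, fin3_ne12 a, (fin3_ne12 a).symm]

theorem pc_dec_two (ε : U → Bool) (a : Fin 3) (A S : Finset U) (hS : S ⊆ Aᶜ) :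
    pc ε (dec ε a A S) (a + 2) true + posCard ε S = posCard ε Aᶜ := by
  unfold pc posCard
  rw [← card_union_of_disjoint]
  · congr 1
    ext j
    simp only [mem_union, mem_filter, mem_univ, true_and, mem_compl]
    unfold dec
    by_cases h : j ∈ A
    · have : j ∉ S := fun h2 => (mem_compl.1 (hS h2)) h
      simp [h, this, (fin3_ne2 a).symm]
    · by_cases h2 : j ∈ S <;> cases h3 : ε j <;>
        simp [h, h2, fin3_ne12 a, (fin3_ne12 a).symm]
  · rw [disjoint_left]
    intro j h1 h2
    simp only [mem_filter, mem_univ, true_and] at h1 h2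
    unfold dec at h1
    have h3 : j ∉ A := fun h4 => (mem_compl.1 (hS h2.1)) h4
    simp [h3, h2.1, h2.2, fin3_ne12 a] at h1

section System3

variable {ε : U → Bool} {s : Fin 3 → ℤ} (g : Fin 3 → T3 ε s → ℝ) (κ : ℝ)

/-- **Step 2**: the coupling estimate between a row and the row with one more `+` and `-`. -/
theorem step2 (hκ : 1 < κ)
    (hg : ∀ a x, κ * g a x = avg (t3Rel ε s a) (fun y => g (a + 1) y + g (a + 2) y) x)
    (L : ℝ)
    (hL : ∀ i (y y' : T3 ε s), pc ε y'.1 i true = pc ε y.1 i true + 1 → |g i y' - g i y| ≤ L)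
    (hcount : ∀ i (y y' : T3 ε s), pc ε y.1 i true = pc ε y'.1 i true → g i y = g i y')
    (a : Fin 3) (x₁ x' : T3 ε s) (p n : U) (hpa : x'.1 p = a) (hεp : ε p = true)
    (hna : x'.1 n = a) (hεn : ε n = false)
    (hrow : ∀ j, x₁.1 j = a ↔ (x'.1 j = a ∧ j ≠ p ∧ j ≠ n)) :
    κ * |g a x₁ - g a x'| ≤ L := by
  have hκ0 : (0 : ℝ) < κ := by linarith
  have hpn : p ≠ n := by
    rintro rfl
    rw [hεp] at hεn
    exact absurd hεn (by simp)
  set A₁ := rowOf x₁.1 a with hA₁
  set A' := rowOf x'.1 a with hA'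
  set M' := A'ᶜ with hM'
  have hp' : p ∉ M' := by simp [hM', hA', rowOf, hpa]
  have hn' : n ∉ M' := by simp [hM', hA', rowOf, hna]
  have hM₁ : A₁ᶜ = insert p (insert n M') := by
    ext j
    simp only [hA₁, hM', hA', mem_compl, rowOf, mem_filter, mem_univ, true_and, mem_insert, hrow]
    tauto
  -- sizes
  have hneg : negCard ε A₁ᶜ = negCard ε M' + 1 := by
    rw [hM₁]
    unfold negCard
    rw [filter_insert, if_neg (by simp [hεp]), filter_insert, if_pos hεn,
      card_insert_of_notMem (by simp [hn'])]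
  have hpos : posCard ε A₁ᶜ = posCard ε M' + 1 := by
    rw [hM₁, posCard_insert ε _ p (by simp [hpn, hp']), posCard_insert ε _ n hn', if_pos hεp,
      if_neg (by simp [hεn])]
  have hK : (enc ε a x₁.1).card = (enc ε a x'.1).card + 1 := by
    have h1 : cnt ε x₁.1 (a + 1) = s (a + 1) := x₁.2 _
    have h2 : cnt ε x'.1 (a + 1) = s (a + 1) := x'.2 _
    rw [cnt_enc] at h1 h2
    rw [← hA₁, hneg] at h1
    rw [← hA', ← hM'] at h2
    push_cast at h1
    omega
  have hKle : (enc ε a x'.1).card ≤ M'.card := by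
    apply card_le_card
    intro j hj
    simp only [enc, mem_filter, mem_univ, true_and] at hj
    simp only [hM', hA', mem_compl, rowOf, mem_filter, mem_univ, true_and]
    rcases hj with ⟨h1, _⟩ | ⟨h1, _⟩
    · rw [h1]; exact fin3_ne1 a
    · rw [h1]; exact fin3_ne2 a
  set G : T3 ε s → ℝ := fun y => g (a + 1) y + g (a + 2) y with hG
  have e1 : κ * g a x₁ = lMean (insert p (insert n M')) ((enc ε a x'.1).card + 1)
      (fun S => extT G (dec ε a A₁ S)) := by
    rw [hg a x₁, avg_eq_lMean, ← hA₁, hM₁, hK]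
  have e2 : κ * g a x' = lMean M' (enc ε a x'.1).card (fun S => extT G (dec ε a A' S)) := by
    rw [hg a x', avg_eq_lMean]
  have e3 : κ * |g a x₁ - g a x'| = |κ * g a x₁ - κ * g a x'| := by
    rw [← mul_sub, abs_mul, abs_of_pos hκ0]
  rw [e3, e1, e2]
  apply layer_couple ε M' p n hp' hn' hpn hεp hεn _ hKle
  intro S hS S' hS' hle1 hle2
  -- the decoded tables
  have hS₁ : S ∈ powersetCard (enc ε a x₁.1).card (rowOf x₁.1 a)ᶜ := by
    rw [← hA₁, hM₁, hK]; exact hS
  have hS'₁ : S' ∈ powersetCard (enc ε a x'.1).card (rowOf x'.1 a)ᶜ := hS'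
  have t₁ := dec_table a x₁ S hS₁
  have t' := dec_table a x' S' hS'₁
  show |extT G (dec ε a A₁ S) - extT G (dec ε a A' S')| ≤ L
  unfold extT
  rw [dif_pos t₁, dif_pos t']
  set y : T3 ε s := ⟨dec ε a (rowOf x₁.1 a) S, t₁⟩ with hy
  set y' : T3 ε s := ⟨dec ε a (rowOf x'.1 a) S', t'⟩ with hy'
  have b1 : pc ε y.1 (a + 1) true = posCard ε S :=
    pc_dec_one ε a _ S (mem_powersetCard.1 hS₁).1
  have b2 : pc ε y'.1 (a + 1) true = posCard ε S' :=
    pc_dec_one ε a _ S' (mem_powersetCard.1 hS'₁).1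
  have c1 : pc ε y.1 (a + 2) true + posCard ε S = posCard ε A₁ᶜ :=
    pc_dec_two ε a _ S (mem_powersetCard.1 hS₁).1
  have c2 : pc ε y'.1 (a + 2) true + posCard ε S' = posCard ε M' :=
    pc_dec_two ε a _ S' (mem_powersetCard.1 hS'₁).1
  simp only [hG]
  by_cases hcase : posCard ε S = posCard ε S' + 1
  · have h1 := hL (a + 1) y' y (by omega)
    have h2 := hcount (a + 2) y y' (by omega)
    rw [h2]
    rwa [show g (a + 1) y + g (a + 2) y' - (g (a + 1) y' + g (a + 2) y') =
      g (a + 1) y - g (a + 1) y' by ring]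
  · have h1 := hL (a + 2) y' y (by omega)
    have h2 := hcount (a + 1) y y' (by omega)
    rw [h2]
    rwa [show g (a + 1) y' + g (a + 2) y - (g (a + 1) y' + g (a + 2) y') =
      g (a + 2) y - g (a + 2) y' by ring]

/-- **Rigidity**: all `g i` are constant. -/
theorem t3_rigid (hκ : 1 < κ)
    (hg : ∀ a x, κ * g a x = avg (t3Rel ε s a) (fun y => g (a + 1) y + g (a + 2) y) x)
    (i : Fin 3) (x y : T3 ε s) : g i x = g i y := by
  classical
  have hcount : ∀ i (y y' : T3 ε s), pc ε y.1 i true = pc ε y'.1 i true → g i y = g i y' :=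
    fun i y y' h => count_lemma g κ hκ hg i _ y y' rfl h
  have key := contraction_zero (α := Fin 3 × T3 ε s × T3 ε s)
    (fun t => pc ε t.2.2.1 t.1 true = pc ε t.2.1.1 t.1 true + 1)
    (fun t => |g t.1 t.2.2 - g t.1 t.2.1|) κ hκ (fun _ => abs_nonneg _)
    (by
      rintro L hL hbd ⟨a, x, x'⟩ (h : pc ε x'.1 a true = pc ε x.1 a true + 1)
      obtain ⟨x₁, p, n, hpa, hεp, hna, hεn, hrow, hpc⟩ := exists_move a x x' (by omega)
      have hL' : ∀ i (y y' : T3 ε s), pc ε y'.1 i true = pc ε y.1 i true + 1 →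
          |g i y' - g i y| ≤ L := fun i y y' h => hbd (i, y, y') h
      have h1 := step2 g κ hκ hg L hL' hcount a x₁ x' p n hpa hεp hna hεn hrow
      have h2 := hcount a x₁ x (by omega)
      show κ * |g a x' - g a x| ≤ L
      rw [← h2, abs_sub_comm]
      exact h1)
  have hunit : ∀ a (x x' : T3 ε s), pc ε x'.1 a true = pc ε x.1 a true + 1 → g a x' = g a x := by
    intro a x x' h
    have := key (a, x, x') h
    have h2 := abs_eq_zero.1 this
    linarith
  have hup : ∀ (t : ℕ) (x y : T3 ε s), pc ε y.1 i true = pc ε x.1 i true + t → g i y = g i x := by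
    intro t
    induction t with
    | zero =>
      intro x y h
      exact hcount i y x (by omega)
    | succ t ih =>
      intro x y h
      obtain ⟨y₁, _, _, _, _, _, _, _, hpc⟩ := exists_move i x y (by omega)
      have h1 := hunit i y₁ y (by omega)
      have h2 := ih x y₁ (by omega)
      rw [h1, h2]
  rcases le_total (pc ε x.1 i true) (pc ε y.1 i true) with h | h
  · exact (hup _ x y (Nat.add_sub_cancel' h).symm).symm
  · exact hup _ y x (Nat.add_sub_cancel' h).symm

end System3

section Final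

variable {ε : U → Bool} {s : Fin 3 → ℤ}

/-- The operator `T = P₀ + P₁ + P₂`. -/
noncomputable def t3Op (ε : U → Bool) (s : Fin 3 → ℤ) : (T3 ε s → ℝ) →ₗ[ℝ] (T3 ε s → ℝ) where
  toFun f := fun x => avg (t3Rel ε s 0) f x + avg (t3Rel ε s 1) f x + avg (t3Rel ε s 2) f x
  map_add' f f' := by
    funext x
    show avg _ (fun y => f y + f' y) x + avg _ (fun y => f y + f' y) x + avg _ (fun y => f y + f' y) x = _
    simp only [avg_add', Pi.add_apply]
    ring
  map_smul' c f := by
    funext x
    show avg _ (fun y => c * f y) x + avg _ (fun y => c * f y) x + avg _ (fun y => c * f y) x = _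
    simp only [avg_smul', Pi.smul_apply, smul_eq_mul, RingHom.id_apply]
    ring

theorem t3Op_apply (f : T3 ε s → ℝ) (x : T3 ε s) :
    t3Op ε s f x = avg (t3Rel ε s 0) f x + avg (t3Rel ε s 1) f x + avg (t3Rel ε s 2) f x := rfl

theorem t3Op_symm (f f' : T3 ε s → ℝ) : dot (t3Op ε s f) f' = dot f (t3Op ε s f') := by
  have h : ∀ (f : T3 ε s → ℝ), t3Op ε s f =
      fun x => avg (t3Rel ε s 0) f x + avg (t3Rel ε s 1) f x + avg (t3Rel ε s 2) f x := fun _ => rfl
  rw [h f, h f']
  rw [dot_add_left', dot_add_left', dot_add_right', dot_add_right', dot_avg_symm, dot_avg_symm,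
    dot_avg_symm]

theorem t3Op_mean (f : T3 ε s → ℝ) : ∑ x, t3Op ε s f x = 3 * ∑ x, f x := by
  simp only [t3Op_apply]
  rw [sum_add_distrib, sum_add_distrib, sum_avg, sum_avg, sum_avg]
  ring

/-- No eigenvalue above `2` on mean zero functions. -/
theorem t3_eigen_le (β : ℝ) (F : T3 ε s → ℝ) (hF0 : ∑ x, F x = 0) (hF : F ≠ 0)
    (hT : t3Op ε s F = β • F) : β ≤ 2 := by
  by_contra hβ
  rw [not_le] at hβ
  have hβ0 : 0 < β := by linarith
  set g : Fin 3 → T3 ε s → ℝ := fun i x => (1 / β) * avg (t3Rel ε s i) F x with hgdef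
  have hFsum : ∀ x, F x = g 0 x + g 1 x + g 2 x := by
    intro x
    have h := congrFun hT x
    rw [t3Op_apply, Pi.smul_apply, smul_eq_mul] at h
    simp only [hgdef]
    field_simp
    linarith
  have hFsum' : ∀ (a : Fin 3) x, F x = g a x + g (a + 1) x + g (a + 2) x := by
    intro a x
    rw [hFsum x]
    fin_cases a
    · simp
    · simp
      ring
    · simp
      ring
  have hgs : ∀ a x, (β - 1) * g a x =
      avg (t3Rel ε s a) (fun y => g (a + 1) y + g (a + 2) y) x := by
    intro a x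
    have h1 : avg (t3Rel ε s a) F x = avg (t3Rel ε s a) (g a) x +
        avg (t3Rel ε s a) (fun y => g (a + 1) y + g (a + 2) y) x := by
      rw [← avg_add']
      congr 1
      funext y
      rw [hFsum' a y]
      ring
    have h2 : avg (t3Rel ε s a) (g a) x = g a x := by
      simp only [hgdef]
      rw [avg_smul', avg_avg]
    have h3 : β * g a x = avg (t3Rel ε s a) F x := by
      simp only [hgdef]
      field_simp
    rw [h2, ← h3] at h1
    linarith
  have hconst := t3_rigid g (β - 1) (by linarith) hgs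
  -- `F` is constant, hence zero
  apply hF
  funext x
  have hc : ∀ y, F y = F x := by
    intro y
    rw [hFsum y, hFsum x, hconst 0 y x, hconst 1 y x, hconst 2 y x]
  have h0 : ((Fintype.card (T3 ε s) : ℕ) : ℝ) * F x = 0 := by
    have : ∑ y, F y = ∑ _y : T3 ε s, F x := sum_congr rfl (fun y _ => hc y)
    rw [this, sum_const, nsmul_eq_mul, card_univ] at hF0
    exact hF0
  have hcard : ((Fintype.card (T3 ε s) : ℕ) : ℝ) ≠ 0 := by
    have : 0 < Fintype.card (T3 ε s) := Fintype.card_pos_iff.2 ⟨x⟩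
    positivity
  simpa [hcard] using h0

theorem Qop_sub_const (r : Setoid (T3 ε s)) (F : T3 ε s → ℝ) (c : ℝ) :
    Qop r (fun x => F x - c) = Qop r F := by
  funext x
  unfold Qop avg
  rw [sum_sub_distrib, sum_const, nsmul_eq_mul]
  have := cls_card_pos r x
  field_simp
  ring

/-- **Three-row lemma.** -/
theorem t3_cross_nonneg (ε : U → Bool) (s : Fin 3 → ℤ) (F : T3 ε s → ℝ) :
    0 ≤ dot (Qop (t3Rel ε s 0) F) (Qop (t3Rel ε s 1) F)
      + dot (Qop (t3Rel ε s 0) F) (Qop (t3Rel ε s 2) F)
      + dot (Qop (t3Rel ε s 1) F) (Qop (t3Rel ε s 2) F) := by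
  classical
  -- center
  set c : ℝ := (∑ x, F x) / (Fintype.card (T3 ε s) : ℝ) with hc
  set h : T3 ε s → ℝ := fun x => F x - c with hh
  have hmean : ∑ x, h x = 0 := by
    simp only [hh]
    rw [sum_sub_distrib, sum_const, nsmul_eq_mul, card_univ]
    by_cases hcard : (Fintype.card (T3 ε s) : ℝ) = 0
    · have : IsEmpty (T3 ε s) := by
        apply Fintype.card_eq_zero_iff.1
        exact_mod_cast hcard
      simp
    · rw [hc]; field_simp; ring
  have hQ : ∀ r, Qop r F = Qop r h := fun r => (Qop_sub_const r F c).symm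
  rw [hQ, hQ, hQ]
  -- the bound `X ≤ 2 A`
  have hle : dot h (t3Op ε s h) ≤ 2 * dot h h := by
    by_cases h0 : h = 0
    · rw [h0]
      have : dot (0 : T3 ε s → ℝ) (t3Op ε s 0) = 0 := by simp [dot]
      rw [this]
      have : dot (0 : T3 ε s → ℝ) 0 = 0 := by simp [dot]
      rw [this]; simp
    · obtain ⟨β, G, hG0, hG, hT, hmax⟩ := exists_top_eigen (t3Op ε s) t3Op_symm
        (fun f hf => by rw [t3Op_mean, hf, mul_zero]) ⟨h, hmean, h0⟩
      have hβ := t3_eigen_le β G hG0 hG hT
      exact (hmax h hmean).trans (mul_le_mul_of_nonneg_right hβ (dot_self_nonneg h))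
  -- expand
  set q0 := Qop (t3Rel ε s 0) h with hq0
  set q1 := Qop (t3Rel ε s 1) h with hq1
  set q2 := Qop (t3Rel ε s 2) h with hq2
  set Th := t3Op ε s h with hTh
  set A := dot h h with hA
  set X := dot h Th with hX
  set W := dot Th Th with hW
  have hTh' : Th = fun x => 3 * h x - (q0 x + q1 x + q2 x) := by
    funext x
    simp only [hTh, t3Op_apply, hq0, hq1, hq2, Qop]
    ring
  have hsumq : dot (fun x => q0 x + q1 x + q2 x) (fun x => q0 x + q1 x + q2 x) = 9 * A - 6 * X + W := by
    have : (fun x => q0 x + q1 x + q2 x) = fun x => 3 * h x - Th x := by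
      funext x
      rw [hTh']; ring
    rw [this]
    simp only [dot_sub_left, dot_sub_right, dot_smul_left', dot_smul_right']
    rw [dot_comm Th h, hA, hX, hW]
    ring
  have hexp : dot (fun x => q0 x + q1 x + q2 x) (fun x => q0 x + q1 x + q2 x) =
      dot q0 q0 + dot q1 q1 + dot q2 q2 + 2 * (dot q0 q1 + dot q0 q2 + dot q1 q2) := by
    simp only [dot_add_left', dot_add_right']
    rw [dot_comm q1 q0, dot_comm q2 q0, dot_comm q2 q1]
    ring
  have hself : dot q0 q0 + dot q1 q1 + dot q2 q2 = 3 * A - X := by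
    have h0 := dot_Qop_self (t3Rel ε s 0) h
    have h1 := dot_Qop_self (t3Rel ε s 1) h
    have h2 := dot_Qop_self (t3Rel ε s 2) h
    rw [← hq0] at h0
    rw [← hq1] at h1
    rw [← hq2] at h2
    rw [← h0, ← h1, ← h2]
    have : Th = fun x => 3 * h x - (q0 x + q1 x + q2 x) := hTh'
    have hXe : X = dot h (fun x => 3 * h x - (q0 x + q1 x + q2 x)) := by rw [hX, ← this]
    rw [hXe, dot_sub_right, dot_smul_right', dot_add_right', dot_add_right']
    ring
  -- Cauchy-Schwarz
  have hCS : X ^ 2 ≤ A * W := by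
    have := Finset.sum_mul_sq_le_sq_mul_sq univ h Th
    simp only [hX, hA, hW, dot]
    simpa [sq] using this
  have hA0 : 0 ≤ A := dot_self_nonneg h
  have hW0 : 0 ≤ W := dot_self_nonneg Th
  have hmain : 0 ≤ 6 * A - 5 * X + W := by
    rcases eq_or_lt_of_le hA0 with hA1 | hA1
    · have hX0 : X = 0 := by
        have : X ^ 2 ≤ 0 := by rw [← hA1] at hCS; simpa using hCS
        nlinarith [sq_nonneg X]
      rw [← hA1, hX0]; simpa using hW0
    · have : 0 ≤ A * (6 * A - 5 * X + W) := by
        nlinarith [mul_nonneg (sub_nonneg.2 hle) (by linarith : (0 : ℝ) ≤ 3 * A - X)]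
      exact nonneg_of_mul_nonneg_right this hA1
  linarith

end Final

end Table

end Crest.Agent.SW
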