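/- S0453 package D (helper4): the triple-fibre isomorphism with 3-row tables. -/
import Crest.Agent.Lib.SW.Api
import Crest.Agent.Lib.SW.Avg
import Crest.Agent.Lib.SW.Table3

set_option autoImplicit false

namespace Crest.Agent.SW

open Finset Crest.SwitchChain

namespace TripleD

variable {n : ℕ}

/-- The three special vertices. -/
def tau (a b c : Fin n) : Fin 3 → Fin n := ![a, b, c]

@[simp] theorem tau_zero (a b c : Fin n) : tau a b c 0 = a := rfl
@[simp] theorem tau_one (a b c : Fin n) : tau a b c 1 = b := rfl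
@[simp] theorem tau_two (a b c : Fin n) : tau a b c 2 = c := rfl

/-- outside vertices -/
def Wv (a b c v : Fin n) : Prop := v ≠ a ∧ v ≠ b ∧ v ≠ c

/-- admissible columns -/
def colW (a b c : Fin n) : Option (Fin n) → Prop
  | some v => Wv a b c v
  | none => True

/-- entries of the 3 rows in a column; the virtual column `none` holds the opposite edge. -/
noncomputable def yy (a b c : Fin n) (E : Finset (Edge n)) : Fin 3 → Option (Fin n) → ℕ
  | i, some v => ent E (tau a b c i) v
  | i, none => ent E (tau a b c (i + 1)) (tau a b c (i + 2))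

/-- column sum -/
noncomputable def tt (a b c : Fin n) (E : Finset (Edge n)) (j : Option (Fin n)) : ℕ :=
  yy a b c E 0 j + yy a b c E 1 j + yy a b c E 2 j

/-- outside vertex set -/
def Wset (a b c : Fin n) : Finset (Fin n) := ((univ.erase a).erase b).erase c

theorem mem_Wset (a b c v : Fin n) : v ∈ Wset a b c ↔ Wv a b c v := by
  simp only [Wset, mem_erase, mem_univ, and_true, Wv]
  tauto

section distinct

variable {a b c : Fin n} (hab : a ≠ b) (hac : a ≠ c) (hbc : b ≠ c)
include hab hac hbc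

theorem sum_split {M : Type*} [AddCommMonoid M] (g : Fin n → M) :
    ∑ u, g u = g a + (g b + (g c + ∑ u ∈ Wset a b c, g u)) := by
  have h1 : b ∈ univ.erase a := mem_erase.mpr ⟨hab.symm, mem_univ b⟩
  have h2 : c ∈ (univ.erase a).erase b :=
    mem_erase.mpr ⟨hbc.symm, mem_erase.mpr ⟨hac.symm, mem_univ c⟩⟩
  rw [← add_sum_erase univ g (mem_univ a), ← add_sum_erase (univ.erase a) g h1,
    ← add_sum_erase ((univ.erase a).erase b) g h2]
  rfl

theorem tau_inj : Function.Injective (tau a b c) := by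
  intro i k h
  fin_cases i <;> fin_cases k <;> simp_all [tau]

theorem cases_vertex (u : Fin n) : Wv a b c u ∨ ∃ i, u = tau a b c i := by
  by_cases h1 : u = a
  · exact Or.inr ⟨0, h1⟩
  by_cases h2 : u = b
  · exact Or.inr ⟨1, h2⟩
  by_cases h3 : u = c
  · exact Or.inr ⟨2, h3⟩
  exact Or.inl ⟨h1, h2, h3⟩

/-- internal entry as virtual column entry -/
theorem ent_tau_tau (E : Finset (Edge n)) (i k : Fin 3) (hik : i ≠ k) :
    ent E (tau a b c i) (tau a b c k) = yy a b c E (-(i + k)) none := by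
  fin_cases i <;> fin_cases k <;> first | exact absurd rfl hik | skip
  all_goals simp [yy, tau]
  all_goals first | rfl | exact ent_symm _ _ _ | skip

end distinct

theorem Wv_ne_tau {a b c v : Fin n} (h : Wv a b c v) (i : Fin 3) : v ≠ tau a b c i := by
  rcases h with ⟨h1, h2, h3⟩
  fin_cases i
  · exact h1
  · exact h2
  · exact h3

/-- sum over `Fin 3` in terms of `p,q,-(p+q)`. -/
theorem sum3_perm (f : Fin 3 → ℕ) (p q : Fin 3) (hpq : p ≠ q) :
    f 0 + f 1 + f 2 = f p + f q + f (-(p + q)) := by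
  fin_cases p <;> fin_cases q
  · exact absurd rfl hpq
  · show f 0 + f 1 + f 2 = f 0 + f 1 + f 2; rfl
  · show f 0 + f 1 + f 2 = f 0 + f 2 + f 1; omega
  · show f 0 + f 1 + f 2 = f 1 + f 0 + f 2; omega
  · exact absurd rfl hpq
  · show f 0 + f 1 + f 2 = f 1 + f 2 + f 0; omega
  · show f 0 + f 1 + f 2 = f 2 + f 0 + f 1; omega
  · show f 0 + f 1 + f 2 = f 2 + f 1 + f 0; omega
  · exact absurd rfl hpq

theorem yy_le (a b c : Fin n) (E : Finset (Edge n)) (i : Fin 3) (j : Option (Fin n)) :
    yy a b c E i j ≤ 1 := by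
  cases j <;> exact ent_le_one _ _ _

/-- column code -/
def code (o : Bool) (s i : Fin 3) : ℕ :=
  if o then (if s = i then 1 else 0) else (if s = i then 0 else 1)

theorem code_le (o : Bool) (s i : Fin 3) : code o s i ≤ 1 := by
  unfold code; split_ifs <;> simp

theorem code_sum (o : Bool) (s : Fin 3) :
    code o s 0 + code o s 1 + code o s 2 = if o then 1 else 2 := by
  cases o <;> fin_cases s <;> simp [code]

theorem exists_code (y : Fin 3 → ℕ) (h : ∀ i, y i ≤ 1)
    (ht : y 0 + y 1 + y 2 = 1 ∨ y 0 + y 1 + y 2 = 2) :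
    ∃ s, ∀ i, y i = code (decide (y 0 + y 1 + y 2 = 1)) s i := by
  have h0 : y 0 = 0 ∨ y 0 = 1 := by have := h 0; omega
  have h1 : y 1 = 0 ∨ y 1 = 1 := by have := h 1; omega
  have h2 : y 2 = 0 ∨ y 2 = 1 := by have := h 2; omega
  rcases h0 with h0 | h0 <;> rcases h1 with h1 | h1 <;> rcases h2 with h2 | h2
  · exfalso; omega
  · exact ⟨2, by intro i; fin_cases i <;> simp [code, h0, h1, h2]⟩
  · exact ⟨1, by intro i; fin_cases i <;> simp [code, h0, h1, h2]⟩
  · exact ⟨0, by intro i; fin_cases i <;> simp [code, h0, h1, h2]⟩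
  · exact ⟨0, by intro i; fin_cases i <;> simp [code, h0, h1, h2]⟩
  · exact ⟨1, by intro i; fin_cases i <;> simp [code, h0, h1, h2]⟩
  · exact ⟨2, by intro i; fin_cases i <;> simp [code, h0, h1, h2]⟩
  · exfalso; omega

theorem eq_of_sum_extreme (y y' : Fin 3 → ℕ) (h : ∀ i, y i ≤ 1) (h' : ∀ i, y' i ≤ 1)
    (hs : y 0 + y 1 + y 2 = y' 0 + y' 1 + y' 2)
    (hn : ¬ (y 0 + y 1 + y 2 = 1 ∨ y 0 + y 1 + y 2 = 2)) (i : Fin 3) : y i = y' i := by
  have h0 := h 0; have h1 := h 1; have h2 := h 2
  have h0' := h' 0; have h1' := h' 1; have h2' := h' 2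
  have key : y 0 = y' 0 ∧ y 1 = y' 1 ∧ y 2 = y' 2 := by omega
  fin_cases i
  · exact key.1
  · exact key.2.1
  · exact key.2.2

theorem code_diff (o : Bool) (s s' i : Fin 3) :
    (code o s i : ℤ) - code o s' i =
      (if o then 1 else -1) * ((if s = i then 1 else 0) - (if s' = i then 1 else 0)) := by
  unfold code
  cases o <;> by_cases h : s = i <;> by_cases h' : s' = i <;> simp [h, h']

theorem code_eq_iff (o : Bool) (s s' i : Fin 3) :
    code o s i = code o s' i ↔ (s = i ↔ s' = i) := by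
  unfold code
  cases o <;> by_cases h : s = i <;> by_cases h' : s' = i <;> simp [h, h']

section table

open Classical

variable (a b c : Fin n) (G₀ : Finset (Edge n))

/-- predicate of real columns of the table -/
def colU (j : Option (Fin n)) : Prop :=
  colW a b c j ∧ (tt a b c G₀ j = 1 ∨ tt a b c G₀ j = 2)

/-- columns of the table -/
abbrev Ucol := {j : Option (Fin n) // colU a b c G₀ j}

/-- the sign of a column of the table -/
noncomputable def eps (j : Ucol a b c G₀) : Bool :=
  decide (tt a b c G₀ j.1 = 1) == j.1.isSome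

/-- weight of a column in the row sums -/
def wg (j : Option (Fin n)) : ℤ := if j.isSome then 1 else -1

/-- the assignment of the rows given a table -/
noncomputable def rep (x : Ucol a b c G₀ → Fin 3) (i : Fin 3) (j : Option (Fin n)) : ℕ :=
  if h : colU a b c G₀ j then code (decide (tt a b c G₀ j = 1)) (x ⟨j, h⟩) i else yy a b c G₀ i j

variable {a b c G₀}

theorem rep_mem (x : Ucol a b c G₀ → Fin 3) (i : Fin 3) (j : Ucol a b c G₀) :
    rep a b c G₀ x i j.1 = code (decide (tt a b c G₀ j.1 = 1)) (x j) i := by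
  unfold rep
  rw [dif_pos j.2]

theorem rep_not (x : Ucol a b c G₀ → Fin 3) (i : Fin 3) {j : Option (Fin n)}
    (h : ¬ colU a b c G₀ j) : rep a b c G₀ x i j = yy a b c G₀ i j := by
  unfold rep
  rw [dif_neg h]

theorem rep_le (x : Ucol a b c G₀ → Fin 3) (i : Fin 3) (j : Option (Fin n)) :
    rep a b c G₀ x i j ≤ 1 := by
  unfold rep
  split_ifs
  · exact code_le _ _ _
  · exact yy_le _ _ _ _ _ _

theorem rep_sum (x : Ucol a b c G₀ → Fin 3) (j : Option (Fin n)) :
    rep a b c G₀ x 0 j + rep a b c G₀ x 1 j + rep a b c G₀ x 2 j = tt a b c G₀ j := by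
  by_cases h : colU a b c G₀ j
  · have := rep_mem x (i := 0) ⟨j, h⟩
    simp only [rep_mem x _ ⟨j, h⟩]
    rw [code_sum]
    rcases h.2 with h2 | h2 <;> simp [h2]
  · rw [rep_not x _ h, rep_not x _ h, rep_not x _ h]; rfl

/-- row margin of an assignment -/
noncomputable def Mg (a b c : Fin n) (Y : Fin 3 → Option (Fin n) → ℕ) (i : Fin 3) : ℤ :=
  ∑ v ∈ Wset a b c, (Y i (some v) : ℤ) - (Y i none : ℤ)

theorem Mg_congr {Y Y' : Fin 3 → Option (Fin n) → ℕ}
    (h : ∀ i j, colW a b c j → Y i j = Y' i j) (i : Fin 3) : Mg a b c Y i = Mg a b c Y' i := by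
  unfold Mg
  rw [h i none trivial]
  congr 1
  apply sum_congr rfl
  intro v hv
  rw [h i (some v) ((mem_Wset a b c v).1 hv)]

/-- sign as integer -/
noncomputable def sg (j : Ucol a b c G₀) : ℤ := if eps a b c G₀ j then 1 else -1

theorem sg_eq (j : Ucol a b c G₀) :
    sg j = wg j.1 * (if decide (tt a b c G₀ j.1 = 1) then 1 else -1) := by
  unfold sg eps wg
  cases h : j.1.isSome <;> by_cases h' : tt a b c G₀ j.1 = 1 <;> simp [h, h']

/-- The margin identity. -/
theorem Mg_rep_diff (x x' : Ucol a b c G₀ → Fin 3) (i : Fin 3) :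
    Mg a b c (rep a b c G₀ x) i - Mg a b c (rep a b c G₀ x') i =
      ∑ j : Ucol a b c G₀, sg j * ((if x j = i then 1 else 0) - (if x' j = i then 1 else 0)) := by
  set hh : Option (Fin n) → ℤ := fun j =>
    if colW a b c j then wg j * ((rep a b c G₀ x i j : ℤ) - rep a b c G₀ x' i j) else 0 with hhdef
  have h1 : Mg a b c (rep a b c G₀ x) i - Mg a b c (rep a b c G₀ x') i = ∑ j, hh j := by
    rw [Fintype.sum_option]
    have h2 : ∑ v, hh (some v) =
        ∑ v ∈ Wset a b c, ((rep a b c G₀ x i (some v) : ℤ) - rep a b c G₀ x' i (some v)) := by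
      have : Wset a b c = univ.filter (fun v => Wv a b c v) := by
        ext v; rw [mem_Wset]; simp
      rw [this, sum_filter]
      apply sum_congr rfl
      intro v _
      simp only [hhdef, colW, wg, Option.isSome_some, if_true, one_mul]
    rw [h2]
    unfold Mg
    simp only [hhdef, colW, wg, Option.isSome_none, if_true, sum_sub_distrib]
    simp
    ring
  rw [h1]
  have h3 : ∑ j, hh j = ∑ j ∈ univ.filter (colU a b c G₀), hh j := by
    symm
    apply sum_filter_of_ne
    intro j _ hj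
    by_contra hU
    apply hj
    simp only [hhdef]
    rw [rep_not x _ hU, rep_not x' _ hU]
    simp
  rw [h3, sum_subtype (p := colU a b c G₀) _ (by intro j; simp)]
  apply sum_congr rfl
  intro j _
  have hW : colW a b c j.1 := j.2.1
  simp only [hhdef, if_pos hW]
  rw [rep_mem x, rep_mem x', code_diff, sg_eq]
  ring

end table

section build

variable {a b c : Fin n}

/-- index of a special vertex -/
noncomputable def idx (a b c u : Fin n) : Option (Fin 3) :=
  if u = a then some 0 else if u = b then some 1 else if u = c then some 2 else none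

theorem idx_tau (hab : a ≠ b) (hac : a ≠ c) (hbc : b ≠ c) (i : Fin 3) :
    idx a b c (tau a b c i) = some i := by
  fin_cases i
  · simp [idx]
  · simp [idx, hab.symm]
  · simp [idx, hac.symm, hbc.symm]

theorem idx_W {u : Fin n} (h : Wv a b c u) : idx a b c u = none := by
  simp [idx, h.1, h.2.1, h.2.2]

/-- matrix built from an assignment -/
noncomputable def bld (a b c : Fin n) (G₀ : Finset (Edge n)) (Y : Fin 3 → Option (Fin n) → ℕ)
    (u v : Fin n) : ℕ :=
  match idx a b c u, idx a b c v with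
  | some i, some k => if i = k then 0 else Y (-(i + k)) none
  | some i, none => Y i (some v)
  | none, some k => Y k (some u)
  | none, none => ent G₀ u v

variable (hab : a ≠ b) (hac : a ≠ c) (hbc : b ≠ c)
variable (G₀ : Finset (Edge n)) (Y : Fin 3 → Option (Fin n) → ℕ)
include hab hac hbc

theorem bld_tt (i k : Fin 3) :
    bld a b c G₀ Y (tau a b c i) (tau a b c k) = if i = k then 0 else Y (-(i + k)) none := by
  simp [bld, idx_tau hab hac hbc]

theorem bld_tW (i : Fin 3) {v : Fin n} (h : Wv a b c v) :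
    bld a b c G₀ Y (tau a b c i) v = Y i (some v) := by
  simp [bld, idx_tau hab hac hbc, idx_W h]

theorem bld_Wt (k : Fin 3) {u : Fin n} (h : Wv a b c u) :
    bld a b c G₀ Y u (tau a b c k) = Y k (some u) := by
  simp [bld, idx_tau hab hac hbc, idx_W h]

omit hab hac hbc in
theorem bld_WW {u v : Fin n} (h : Wv a b c u) (h' : Wv a b c v) :
    bld a b c G₀ Y u v = ent G₀ u v := by
  simp [bld, idx_W h, idx_W h']

theorem bld_symm (u v : Fin n) : bld a b c G₀ Y u v = bld a b c G₀ Y v u := by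
  rcases cases_vertex hab hac hbc u with hu | ⟨i, rfl⟩ <;>
    rcases cases_vertex hab hac hbc v with hv | ⟨k, rfl⟩
  · rw [bld_WW _ _ hu hv, bld_WW _ _ hv hu, ent_symm]
  · rw [bld_Wt hab hac hbc _ _ _ hu, bld_tW hab hac hbc _ _ _ hu]
  · rw [bld_tW hab hac hbc _ _ _ hv, bld_Wt hab hac hbc _ _ _ hv]
  · rw [bld_tt hab hac hbc, bld_tt hab hac hbc, add_comm i k]
    by_cases h : i = k
    · simp [h]
    · simp [h, Ne.symm h]

theorem bld_diag (u : Fin n) : bld a b c G₀ Y u u = 0 := by
  rcases cases_vertex hab hac hbc u with hu | ⟨i, rfl⟩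
  · rw [bld_WW _ _ hu hu, ent_self]
  · rw [bld_tt hab hac hbc]; simp

theorem bld_le (hY : ∀ i j, Y i j ≤ 1) (u v : Fin n) : bld a b c G₀ Y u v ≤ 1 := by
  rcases cases_vertex hab hac hbc u with hu | ⟨i, rfl⟩ <;>
    rcases cases_vertex hab hac hbc v with hv | ⟨k, rfl⟩
  · rw [bld_WW _ _ hu hv]; exact ent_le_one _ _ _
  · rw [bld_Wt hab hac hbc _ _ _ hu]; exact hY _ _
  · rw [bld_tW hab hac hbc _ _ _ hv]; exact hY _ _
  · rw [bld_tt hab hac hbc]
    split_ifs
    · simp
    · exact hY _ _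

/-- row sum of an outer vertex -/
theorem bld_row_W {v : Fin n} (hv : Wv a b c v) :
    ∑ u, bld a b c G₀ Y v u =
      Y 0 (some v) + Y 1 (some v) + Y 2 (some v) + ∑ u ∈ Wset a b c, ent G₀ v u := by
  rw [sum_split hab hac hbc]
  have h0 := bld_Wt hab hac hbc G₀ Y 0 hv
  have h1 := bld_Wt hab hac hbc G₀ Y 1 hv
  have h2 := bld_Wt hab hac hbc G₀ Y 2 hv
  simp only [tau_zero, tau_one, tau_two] at h0 h1 h2
  rw [h0, h1, h2]
  have : ∑ u ∈ Wset a b c, bld a b c G₀ Y v u = ∑ u ∈ Wset a b c, ent G₀ v u :=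
    sum_congr rfl (fun u hu => bld_WW _ _ hv ((mem_Wset a b c u).1 hu))
  rw [this]; ring

/-- row sum of a special vertex -/
theorem bld_row_tau (i : Fin 3) :
    ∑ u, bld a b c G₀ Y (tau a b c i) u + Y i none =
      Y 0 none + Y 1 none + Y 2 none + ∑ u ∈ Wset a b c, Y i (some u) := by
  rw [sum_split hab hac hbc]
  have hW : ∑ u ∈ Wset a b c, bld a b c G₀ Y (tau a b c i) u = ∑ u ∈ Wset a b c, Y i (some u) :=
    sum_congr rfl (fun u hu => bld_tW hab hac hbc _ _ _ ((mem_Wset a b c u).1 hu))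
  rw [hW]
  have h0 := bld_tt hab hac hbc G₀ Y i 0
  have h1 := bld_tt hab hac hbc G₀ Y i 1
  have h2 := bld_tt hab hac hbc G₀ Y i 2
  simp only [tau_zero, tau_one, tau_two] at h0 h1 h2
  rw [h0, h1, h2]
  fin_cases i
  · show (if (0 : Fin 3) = 0 then 0 else Y (-(0 + 0)) none) +
        ((if (0 : Fin 3) = 1 then 0 else Y 2 none) +
          ((if (0 : Fin 3) = 2 then 0 else Y 1 none) + ∑ u ∈ Wset a b c, Y 0 (some u))) + Y 0 none = _
    simp; ring
  · show (if (1 : Fin 3) = 0 then 0 else Y 2 none) +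
        ((if (1 : Fin 3) = 1 then 0 else Y (-(1 + 1)) none) +
          ((if (1 : Fin 3) = 2 then 0 else Y 0 none) + ∑ u ∈ Wset a b c, Y 1 (some u))) + Y 1 none = _
    simp; ring
  · show (if (2 : Fin 3) = 0 then 0 else Y 1 none) +
        ((if (2 : Fin 3) = 1 then 0 else Y 0 none) +
          ((if (2 : Fin 3) = 2 then 0 else Y (-(2 + 2)) none) + ∑ u ∈ Wset a b c, Y 2 (some u))) + Y 2 none = _
    simp; ring

/-- reconstruct a graph from its assignment -/
theorem bld_eq_ent (G : Finset (Edge n)) (hout : ∀ u v, Wv a b c u → Wv a b c v → ent G₀ u v = ent G u v)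
    (hY : ∀ i j, colW a b c j → Y i j = yy a b c G i j) (u v : Fin n) :
    bld a b c G₀ Y u v = ent G u v := by
  rcases cases_vertex hab hac hbc u with hu | ⟨i, rfl⟩ <;>
    rcases cases_vertex hab hac hbc v with hv | ⟨k, rfl⟩
  · rw [bld_WW _ _ hu hv, hout u v hu hv]
  · rw [bld_Wt hab hac hbc _ _ _ hu, hY k (some u) hu, ent_symm]; rfl
  · rw [bld_tW hab hac hbc _ _ _ hv, hY i (some v) hv]; rfl
  · rw [bld_tt hab hac hbc]
    by_cases h : i = k
    · subst h; simp
    · rw [if_neg h, hY _ none trivial, ent_tau_tau hab hac hbc G i k h]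

/-- row sum of a graph at a special vertex -/
theorem row_sum (E : Finset (Edge n)) (i : Fin 3) :
    ∑ u, ent E (tau a b c i) u + yy a b c E i none =
      yy a b c E 0 none + yy a b c E 1 none + yy a b c E 2 none +
        ∑ u ∈ Wset a b c, yy a b c E i (some u) := by
  have h := bld_row_tau hab hac hbc E (yy a b c E) i
  have h2 : ∀ u, bld a b c E (yy a b c E) (tau a b c i) u = ent E (tau a b c i) u := fun u =>
    bld_eq_ent hab hac hbc E _ E (fun _ _ _ _ => rfl) (fun _ _ _ => rfl) _ _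
  simp only [h2] at h
  exact h

/-- row sum of a graph at an outer vertex -/
theorem row_sum_W (E : Finset (Edge n)) {v : Fin n} (hv : Wv a b c v) :
    ∑ u, ent E v u = tt a b c E (some v) + ∑ u ∈ Wset a b c, ent E v u := by
  have h := bld_row_W hab hac hbc E (yy a b c E) hv
  have h2 : ∀ u, bld a b c E (yy a b c E) v u = ent E v u := fun u =>
    bld_eq_ent hab hac hbc E _ E (fun _ _ _ _ => rfl) (fun _ _ _ => rfl) _ _
  simp only [h2] at h
  exact h

end build

section kappa

variable {a b c : Fin n} {d : Fin n → ℕ}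

/-- The triple relation: all entries between outer vertices agree. -/
def kap (a b c : Fin n) (d : Fin n → ℕ) : Setoid (Om d) where
  r G H := ∀ u v, Wv a b c u → Wv a b c v → ent G.1 u v = ent H.1 u v
  iseqv := ⟨fun _ _ _ _ _ => rfl, fun h u v hu hv => (h u v hu hv).symm,
    fun h k u v hu hv => (h u v hu hv).trans (k u v hu hv)⟩

variable (hab : a ≠ b) (hac : a ≠ c) (hbc : b ≠ c)
include hab hac hbc

theorem tt_some_of_kap {G H : Om d} (h : (kap a b c d).r G H) {v : Fin n} (hv : Wv a b c v) :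
    tt a b c G.1 (some v) = tt a b c H.1 (some v) := by
  have hG := (mem_realizations_iff d G.1).mp G.2 v
  have hH := (mem_realizations_iff d H.1).mp H.2 v
  rw [row_sum_W hab hac hbc _ hv] at hG hH
  have : ∑ u ∈ Wset a b c, ent G.1 v u = ∑ u ∈ Wset a b c, ent H.1 v u :=
    sum_congr rfl (fun u hu => h v u hv ((mem_Wset a b c u).1 hu))
  omega

theorem tt_none_of_kap {G H : Om d} (h : (kap a b c d).r G H) :
    tt a b c G.1 none = tt a b c H.1 none := by
  have key : ∀ G : Om d, d a + d b + d c + 2 * 0 + tt a b c G.1 none =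
      3 * tt a b c G.1 none + ∑ u ∈ Wset a b c, tt a b c G.1 (some u) := by
    intro G
    have hd := (mem_realizations_iff d G.1).mp G.2
    have h0 := row_sum hab hac hbc G.1 0
    have h1 := row_sum hab hac hbc G.1 1
    have h2 := row_sum hab hac hbc G.1 2
    rw [show tau a b c 0 = a from rfl, hd a] at h0
    rw [show tau a b c 1 = b from rfl, hd b] at h1
    rw [show tau a b c 2 = c from rfl, hd c] at h2
    have h3 : ∑ u ∈ Wset a b c, tt a b c G.1 (some u) =
        ∑ u ∈ Wset a b c, yy a b c G.1 0 (some u) + ∑ u ∈ Wset a b c, yy a b c G.1 1 (some u) +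
          ∑ u ∈ Wset a b c, yy a b c G.1 2 (some u) := by
      unfold tt
      rw [sum_add_distrib, sum_add_distrib]
    have h4 : tt a b c G.1 none =
      yy a b c G.1 0 none + yy a b c G.1 1 none + yy a b c G.1 2 none := rfl
    omega
  have hG := key G
  have hH := key H
  have : ∑ u ∈ Wset a b c, tt a b c G.1 (some u) = ∑ u ∈ Wset a b c, tt a b c H.1 (some u) :=
    sum_congr rfl (fun u hu => tt_some_of_kap hab hac hbc h ((mem_Wset a b c u).1 hu))
  omega

theorem tt_of_kap {G H : Om d} (h : (kap a b c d).r G H) {j : Option (Fin n)}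
    (hj : colW a b c j) : tt a b c G.1 j = tt a b c H.1 j := by
  cases j with
  | none => exact tt_none_of_kap hab hac hbc h
  | some v => exact tt_some_of_kap hab hac hbc h hj

/-- `rowRel` refines `kap`. -/
theorem rowRel_kap (p q : Fin 3) {G H : Om d}
    (h : (rowRel (tau a b c p) (tau a b c q)).r G H) : (kap a b c d).r G H :=
  fun u v hu hv => h.1 u v (Wv_ne_tau hu p) (Wv_ne_tau hu q) (Wv_ne_tau hv p) (Wv_ne_tau hv q)

end kappa

section equivalence

open Classical

variable {a b c : Fin n} {d : Fin n → ℕ}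
variable (hab : a ≠ b) (hac : a ≠ c) (hbc : b ≠ c)
include hab hac hbc

/-- Every graph in the class has a table. -/
theorem exists_rep (G₀ G : Om d) (h : (kap a b c d).r G G₀) :
    ∃ x : Ucol a b c G₀.1 → Fin 3, ∀ i j, colW a b c j → rep a b c G₀.1 x i j = yy a b c G.1 i j := by
  have hex : ∀ j : Ucol a b c G₀.1, ∃ s : Fin 3, ∀ i,
      yy a b c G.1 i j.1 = code (decide (tt a b c G₀.1 j.1 = 1)) s i := by
    intro j
    have ht : tt a b c G.1 j.1 = tt a b c G₀.1 j.1 := tt_of_kap hab hac hbc h j.2.1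
    have := exists_code (fun i => yy a b c G.1 i j.1) (fun i => yy_le _ _ _ _ _ _)
      (by
        show tt a b c G.1 j.1 = 1 ∨ tt a b c G.1 j.1 = 2
        rw [ht]; exact j.2.2)
    obtain ⟨s, hs⟩ := this
    refine ⟨s, fun i => ?_⟩
    rw [hs i]
    congr 2
    show (tt a b c G.1 j.1 = 1) = (tt a b c G₀.1 j.1 = 1)
    rw [ht]
  choose x hx using hex
  refine ⟨x, fun i j hj => ?_⟩
  by_cases hU : colU a b c G₀.1 j
  · have := rep_mem x i ⟨j, hU⟩
    rw [this, hx ⟨j, hU⟩ i]
  · rw [rep_not x i hU]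
    have ht : tt a b c G.1 j = tt a b c G₀.1 j := tt_of_kap hab hac hbc h hj
    have hn : ¬ (tt a b c G₀.1 j = 1 ∨ tt a b c G₀.1 j = 2) := fun k => hU ⟨hj, k⟩
    exact eq_of_sum_extreme (fun i => yy a b c G₀.1 i j) (fun i => yy a b c G.1 i j)
      (fun i => yy_le _ _ _ _ _ _) (fun i => yy_le _ _ _ _ _ _) ht.symm hn i

omit hab hac hbc in
/-- the base table -/
noncomputable def x0 (hab : a ≠ b) (hac : a ≠ c) (hbc : b ≠ c) (G₀ : Om d) :
    Ucol a b c G₀.1 → Fin 3 :=
  Classical.choose (exists_rep hab hac hbc G₀ G₀ ((kap a b c d).refl G₀))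

theorem x0_spec (G₀ : Om d) (i : Fin 3) (j : Option (Fin n)) (hj : colW a b c j) :
    rep a b c G₀.1 (x0 hab hac hbc G₀) i j = yy a b c G₀.1 i j :=
  Classical.choose_spec (exists_rep hab hac hbc G₀ G₀ ((kap a b c d).refl G₀)) i j hj

omit hab hac hbc in
/-- margins of the base table -/
noncomputable def sv (hab : a ≠ b) (hac : a ≠ c) (hbc : b ≠ c) (G₀ : Om d) (i : Fin 3) : ℤ :=
  ∑ j, (if x0 hab hac hbc G₀ j = i then (if eps a b c G₀.1 j then (1 : ℤ) else -1) else 0)

theorem margin_iff (G₀ : Om d) (x : Ucol a b c G₀.1 → Fin 3) (i : Fin 3) :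
    (∑ j, (if x j = i then (if eps a b c G₀.1 j then (1 : ℤ) else -1) else 0)) = sv hab hac hbc G₀ i ↔
      Mg a b c (rep a b c G₀.1 x) i = Mg a b c (yy a b c G₀.1) i := by
  have h1 := Mg_rep_diff x (x0 hab hac hbc G₀) i
  rw [Mg_congr (fun i j hj => x0_spec hab hac hbc G₀ i j hj) i] at h1
  have h2 : ∑ j : Ucol a b c G₀.1, sg j * ((if x j = i then 1 else 0) -
      (if x0 hab hac hbc G₀ j = i then 1 else 0)) =
      (∑ j, (if x j = i then (if eps a b c G₀.1 j then (1 : ℤ) else -1) else 0)) -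
        sv hab hac hbc G₀ i := by
    unfold sv
    rw [← sum_sub_distrib]
    apply sum_congr rfl
    intro j _
    unfold sg
    by_cases h3 : x j = i <;> by_cases h4 : x0 hab hac hbc G₀ j = i <;> simp [h3, h4]
  rw [h2] at h1
  constructor
  · intro h; rw [h] at h1; linarith
  · intro h; rw [h] at h1; linarith

/-- The graph of a table. -/
noncomputable def gr (hab : a ≠ b) (hac : a ≠ c) (hbc : b ≠ c) (G₀ : Om d)
    (x : Ucol a b c G₀.1 → Fin 3) : Finset (Edge n) :=
  ofEnt (bld a b c G₀.1 (rep a b c G₀.1 x))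

theorem ent_gr (G₀ : Om d) (x : Ucol a b c G₀.1 → Fin 3) (u v : Fin n) :
    ent (gr hab hac hbc G₀ x) u v = bld a b c G₀.1 (rep a b c G₀.1 x) u v :=
  ent_ofEnt _ (bld_symm hab hac hbc _ _) (bld_diag hab hac hbc _ _)
    (bld_le hab hac hbc _ _ (rep_le x)) u v

theorem yy_gr (G₀ : Om d) (x : Ucol a b c G₀.1 → Fin 3) (i : Fin 3) (j : Option (Fin n))
    (hj : colW a b c j) : yy a b c (gr hab hac hbc G₀ x) i j = rep a b c G₀.1 x i j := by
  cases j with
  | some v =>
    show ent _ (tau a b c i) v = _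
    rw [ent_gr hab hac hbc, bld_tW hab hac hbc _ _ _ hj]
  | none =>
    show ent _ (tau a b c (i + 1)) (tau a b c (i + 2)) = _
    rw [ent_gr hab hac hbc, bld_tt hab hac hbc]
    have h1 : i + 1 ≠ i + 2 := by fin_cases i <;> decide
    rw [if_neg h1]
    have h2 : -(i + 1 + (i + 2)) = i := by fin_cases i <;> rfl
    rw [h2]

theorem gr_mem (G₀ : Om d) (x : Ucol a b c G₀.1 → Fin 3)
    (hx : ∀ i, Mg a b c (rep a b c G₀.1 x) i = Mg a b c (yy a b c G₀.1) i) :
    gr hab hac hbc G₀ x ∈ realizations d := by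
  rw [mem_realizations_iff]
  intro v
  simp only [ent_gr hab hac hbc]
  have hd := (mem_realizations_iff d G₀.1).mp G₀.2
  rcases cases_vertex hab hac hbc v with hv | ⟨i, rfl⟩
  · rw [bld_row_W hab hac hbc _ _ hv, rep_sum x (some v), ← hd v, row_sum_W hab hac hbc G₀.1 hv]
  · have h1 := bld_row_tau hab hac hbc G₀.1 (rep a b c G₀.1 x) i
    have h2 := row_sum hab hac hbc G₀.1 i
    rw [hd] at h2
    rw [rep_sum x none] at h1
    have h3 := hx i
    unfold Mg at h3
    have h4 : tt a b c G₀.1 none =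
      yy a b c G₀.1 0 none + yy a b c G₀.1 1 none + yy a b c G₀.1 2 none := rfl
    rw [← h4] at h2
    rw [← Nat.cast_sum, ← Nat.cast_sum] at h3
    omega

theorem Fin3_third : ∀ i p q : Fin 3, i ≠ p → i ≠ q → p ≠ q → i = -(p + q) := by decide

omit hab hac hbc in
theorem Fin3_ne_left : ∀ p q : Fin 3, p ≠ q → -(p + q) ≠ p := by decide

omit hab hac hbc in
theorem Fin3_ne_right : ∀ p q : Fin 3, p ≠ q → -(p + q) ≠ q := by decide

omit hab hac hbc in
theorem Fin3_swap : ∀ p q : Fin 3, p ≠ q → -(p + -(p + q)) = q := by decide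

omit hab hac hbc in
theorem Fin3_swap' : ∀ p q : Fin 3, p ≠ q → -(q + -(p + q)) = p := by decide

/-- The relation `rowRel` in terms of tables (graph level). -/
theorem rowRel_iff_of_rep (G₀ G H : Om d) (x x' : Ucol a b c G₀.1 → Fin 3)
    (hG : ∀ i j, colW a b c j → yy a b c G.1 i j = rep a b c G₀.1 x i j)
    (hH : ∀ i j, colW a b c j → yy a b c H.1 i j = rep a b c G₀.1 x' i j)
    (hκ : (kap a b c d).r G H) (p q : Fin 3) (hpq : p ≠ q) :
    (rowRel (tau a b c p) (tau a b c q)).r G H ↔ ∀ j, (x j = -(p + q) ↔ x' j = -(p + q)) := by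
  have hinj := tau_inj (a := a) (b := b) (c := c) hab hac hbc
  have hkp := Fin3_ne_left p q hpq
  have hkq := Fin3_ne_right p q hpq
  constructor
  · intro h j
    have hy : yy a b c G.1 (-(p + q)) j.1 = yy a b c H.1 (-(p + q)) j.1 := by
      rcases j with ⟨j, hj⟩
      cases j with
      | some v =>
        have hv : Wv a b c v := hj.1
        exact h.1 _ v (fun e => hkp (hinj e)) (fun e => hkq (hinj e)) (Wv_ne_tau hv p)
          (Wv_ne_tau hv q)
      | none =>
        show yy a b c G.1 (-(p + q)) none = yy a b c H.1 (-(p + q)) none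
        rw [← ent_tau_tau hab hac hbc _ p q hpq, ← ent_tau_tau hab hac hbc _ p q hpq]
        exact rowRel_ent_ab (fun e => hpq (hinj e)) h
    rw [hG _ _ j.2.1, hH _ _ j.2.1, rep_mem x, rep_mem x'] at hy
    exact (code_eq_iff _ _ _ _).1 hy
  · intro h
    have hk : ∀ j, colW a b c j →
        yy a b c G.1 (-(p + q)) j = yy a b c H.1 (-(p + q)) j := by
      intro j hj
      rw [hG _ _ hj, hH _ _ hj]
      by_cases hU : colU a b c G₀.1 j
      · have h1 := rep_mem x (-(p + q)) ⟨j, hU⟩
        have h2 := rep_mem x' (-(p + q)) ⟨j, hU⟩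
        rw [h1, h2]
        exact (code_eq_iff _ _ _ _).2 (h ⟨j, hU⟩)
      · rw [rep_not x _ hU, rep_not x' _ hU]
    have hvert : ∀ u, u ≠ tau a b c p → u ≠ tau a b c q →
        Wv a b c u ∨ u = tau a b c (-(p + q)) := by
      intro u h1 h2
      rcases cases_vertex hab hac hbc u with hu | ⟨i, rfl⟩
      · exact Or.inl hu
      · right
        rw [Fin3_third hab hac hbc i p q (fun e => h1 (by rw [e])) (fun e => h2 (by rw [e])) hpq]
    refine ⟨?_, ?_⟩
    · intro u v h1 h2 h3 h4
      rcases hvert u h1 h2 with hu | rfl <;> rcases hvert v h3 h4 with hv | rfl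
      · exact hκ u v hu hv
      · rw [ent_symm G.1, ent_symm H.1]
        exact hk (some u) hu
      · exact hk (some v) hv
      · simp
    · intro v h1 h2
      rcases hvert v h1 h2 with hv | rfl
      · have h3 := tt_some_of_kap hab hac hbc hκ hv
        have h4 := hk (some v) hv
        have h5 := sum3_perm (fun i => yy a b c G.1 i (some v)) p q hpq
        have h6 := sum3_perm (fun i => yy a b c H.1 i (some v)) p q hpq
        unfold tt at h3
        beta_reduce at h5 h6
        have e1 : yy a b c G.1 p (some v) = ent G.1 (tau a b c p) v := rfl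
        have e2 : yy a b c G.1 q (some v) = ent G.1 (tau a b c q) v := rfl
        have e3 : yy a b c H.1 p (some v) = ent H.1 (tau a b c p) v := rfl
        have e4 : yy a b c H.1 q (some v) = ent H.1 (tau a b c q) v := rfl
        omega
      · have h3 := tt_none_of_kap hab hac hbc hκ
        have h4 := hk none trivial
        have h5 := sum3_perm (fun i => yy a b c G.1 i none) p q hpq
        have h6 := sum3_perm (fun i => yy a b c H.1 i none) p q hpq
        unfold tt at h3
        beta_reduce at h5 h6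
        have e1 := ent_tau_tau hab hac hbc G.1 p (-(p + q)) (Ne.symm hkp)
        have e2 := ent_tau_tau hab hac hbc G.1 q (-(p + q)) (Ne.symm hkq)
        have e3 := ent_tau_tau hab hac hbc H.1 p (-(p + q)) (Ne.symm hkp)
        have e4 := ent_tau_tau hab hac hbc H.1 q (-(p + q)) (Ne.symm hkq)
        rw [Fin3_swap p q hpq] at e1 e3
        rw [Fin3_swap' p q hpq] at e2 e4
        omega

omit hab hac hbc in
/-- the map from tables to the class -/
noncomputable def inv (hab : a ≠ b) (hac : a ≠ c) (hbc : b ≠ c) (G₀ : Om d)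
    (x : T3 (eps a b c G₀.1) (sv hab hac hbc G₀)) : {y : Om d // (kap a b c d) y G₀} :=
  ⟨⟨gr hab hac hbc G₀ x.1, gr_mem hab hac hbc G₀ x.1
      (fun i => (margin_iff hab hac hbc G₀ x.1 i).1 (x.2 i))⟩,
    fun u v hu hv => by
      show ent (gr hab hac hbc G₀ x.1) u v = _
      rw [ent_gr hab hac hbc, bld_WW _ _ hu hv]⟩

theorem inv_bij (G₀ : Om d) : Function.Bijective (inv (d := d) hab hac hbc G₀) := by
  constructor
  · intro x x' h
    apply Subtype.ext
    funext j
    have hg : gr hab hac hbc G₀ x.1 = gr hab hac hbc G₀ x'.1 :=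
      congrArg (fun y : {y : Om d // (kap a b c d) y G₀} => y.1.1) h
    have h1 := yy_gr hab hac hbc G₀ x.1 (x.1 j) j.1 j.2.1
    have h2 := yy_gr hab hac hbc G₀ x'.1 (x.1 j) j.1 j.2.1
    rw [hg, h2, rep_mem x.1, rep_mem x'.1] at h1
    have h3 := (code_eq_iff _ _ _ _).1 h1
    first
      | exact (h3.2 rfl).symm
      | exact h3.2 rfl
      | exact (h3.1 rfl).symm
      | exact h3.1 rfl
  · rintro ⟨G, hG⟩
    obtain ⟨x, hx⟩ := exists_rep hab hac hbc G₀ G hG
    have hm : ∀ i, Mg a b c (rep a b c G₀.1 x) i = Mg a b c (yy a b c G₀.1) i := by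
      intro i
      rw [Mg_congr hx i]
      have h1 := row_sum hab hac hbc G.1 i
      have h2 := row_sum hab hac hbc G₀.1 i
      rw [(mem_realizations_iff d G.1).mp G.2] at h1
      rw [(mem_realizations_iff d G₀.1).mp G₀.2] at h2
      have h3 := tt_none_of_kap hab hac hbc hG
      unfold tt at h3
      unfold Mg
      rw [← Nat.cast_sum, ← Nat.cast_sum]
      omega
    refine ⟨⟨x, fun i => (margin_iff hab hac hbc G₀ x i).2 (hm i)⟩, ?_⟩
    apply Subtype.ext
    apply Subtype.ext
    apply graph_ext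
    intro u v
    show ent (gr hab hac hbc G₀ x) u v = _
    rw [ent_gr hab hac hbc]
    exact bld_eq_ent hab hac hbc _ _ G.1 (fun u v hu hv => (hG u v hu hv).symm) hx u v

/-- The relation on tables. -/
theorem rowRel_inv_iff (G₀ : Om d) (x x' : T3 (eps a b c G₀.1) (sv hab hac hbc G₀))
    (p q k : Fin 3) (hpq : p ≠ q) (hk : k = -(p + q)) :
    (rowRel (tau a b c p) (tau a b c q)).r (inv hab hac hbc G₀ x).1 (inv hab hac hbc G₀ x').1 ↔
      (t3Rel (eps a b c G₀.1) (sv hab hac hbc G₀) k).r x x' := by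
  subst hk
  exact rowRel_iff_of_rep hab hac hbc G₀ _ _ x.1 x'.1
    (fun i j hj => yy_gr hab hac hbc G₀ x.1 i j hj) (fun i j hj => yy_gr hab hac hbc G₀ x'.1 i j hj)
    ((kap a b c d).trans (inv hab hac hbc G₀ x).2 ((kap a b c d).symm (inv hab hac hbc G₀ x').2))
    p q hpq

end equivalence

end TripleD

open TripleD in
/-- **Package D.** -/
theorem triple_cross_nonneg {n : ℕ} {d : Fin n → ℕ} (a b c : Fin n)
    (hab : a ≠ b) (hac : a ≠ c) (hbc : b ≠ c) (f : Om d → ℝ) :
    0 ≤ dot (Qab a b f) (Qab a c f) + dot (Qab a b f) (Qab b c f)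
      + dot (Qab a c f) (Qab b c f) := by
  classical
  set φ : Om d → ℝ := fun G => Qab a b f G * Qab a c f G + Qab a b f G * Qab b c f G
    + Qab a c f G * Qab b c f G with hφ
  have h0 : dot (Qab a b f) (Qab a c f) + dot (Qab a b f) (Qab b c f)
      + dot (Qab a c f) (Qab b c f) = ∑ G, φ G := by
    unfold dot
    rw [← sum_add_distrib, ← sum_add_distrib]
  rw [h0]
  apply sum_nonneg_of_cls (kap a b c d) φ
  intro G₀
  set e := (Equiv.ofBijective _ (inv_bij hab hac hbc G₀)).symm with he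
  have hee : ∀ y, inv hab hac hbc G₀ (e y) = y := fun y =>
    (Equiv.ofBijective _ (inv_bij hab hac hbc G₀)).apply_symm_apply y
  have hrel : ∀ (p q k : Fin 3), p ≠ q → k = -(p + q) → ∀ y y' : {y // (kap a b c d) y G₀},
      (rowRel (tau a b c p) (tau a b c q)) y.1 y'.1 ↔
        (t3Rel (eps a b c G₀.1) (sv hab hac hbc G₀) k) (e y) (e y') := by
    intro p q k hpq hk y y'
    have := rowRel_inv_iff hab hac hbc G₀ (e y) (e y') p q k hpq hk
    rw [hee, hee] at this
    exact this
  rw [sum_cls_equiv (kap a b c d) G₀ e φ]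
  set F : T3 (eps a b c G₀.1) (sv hab hac hbc G₀) → ℝ := fun z => f (e.symm z).1 with hF
  have hQ : ∀ (p q k : Fin 3), p ≠ q → k = -(p + q) → ∀ z,
      Qab (tau a b c p) (tau a b c q) f (e.symm z).1 =
        Qop (t3Rel (eps a b c G₀.1) (sv hab hac hbc G₀) k) F z := by
    intro p q k hpq hk z
    exact Qop_transport (rowRel (tau a b c p) (tau a b c q)) (kap a b c d)
      (fun x y h => rowRel_kap hab hac hbc p q h) G₀ _ e (hrel p q k hpq hk) f z
  have hQ2 := hQ 0 1 2 (by decide) (by decide)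
  have hQ1 := hQ 0 2 1 (by decide) (by decide)
  have hQ0 := hQ 1 2 0 (by decide) (by decide)
  simp only [tau_zero, tau_one, tau_two] at hQ2 hQ1 hQ0
  have h1 := t3_cross_nonneg (eps a b c G₀.1) (sv hab hac hbc G₀) F
  have h2 : ∑ z, φ (e.symm z).1 =
      dot (Qop (t3Rel (eps a b c G₀.1) (sv hab hac hbc G₀) 0) F)
          (Qop (t3Rel (eps a b c G₀.1) (sv hab hac hbc G₀) 1) F)
        + dot (Qop (t3Rel (eps a b c G₀.1) (sv hab hac hbc G₀) 0) F)
          (Qop (t3Rel (eps a b c G₀.1) (sv hab hac hbc G₀) 2) F)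
        + dot (Qop (t3Rel (eps a b c G₀.1) (sv hab hac hbc G₀) 1) F)
          (Qop (t3Rel (eps a b c G₀.1) (sv hab hac hbc G₀) 2) F) := by
    unfold dot
    rw [← sum_add_distrib, ← sum_add_distrib]
    apply sum_congr rfl
    intro z _
    simp only [hφ, hQ2, hQ1, hQ0]
    ring
  rw [h2]
  exact h1

end Crest.Agent.SW
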