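/- S0453 final assembly (helper5): Bochner computation, Poincare inequality, TV bound. -/
import Crest.Agent.Lib.SW.Core
import Crest.Agent.Lib.SW.Api
import Crest.Agent.Lib.SW.Avg
import Crest.Agent.Lib.SW.Spectral
import Crest.Agent.Lib.SW.Connect
import Crest.Agent.Lib.SW.Triple
import Crest.Agent.Lib.SW.Block
import Crest.Agent.Lib.SW.Fibre
import Crest.Agent.Lib.SW.Chain
import Crest.Agent.Lib.SW.TV

set_option autoImplicit false
set_option linter.unusedVariables false
namespace Crest.Agent.SW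
open Finset Crest.SwitchChain

section Lin
variable {X : Type*} [Fintype X]

theorem fin_avg_add (r : Setoid X) (f g : X → ℝ) (x : X) :
    avg r (f + g) x = avg r f x + avg r g x := by
  unfold avg
  simp only [Pi.add_apply, sum_add_distrib, add_div]

theorem fin_avg_smul (r : Setoid X) (c : ℝ) (f : X → ℝ) (x : X) :
    avg r (c • f) x = c * avg r f x := by
  unfold avg
  simp only [Pi.smul_apply, smul_eq_mul, ← mul_sum, mul_div_assoc]

theorem Qop_add' (r : Setoid X) (f g : X → ℝ) : Qop r (f + g) = Qop r f + Qop r g := by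
  funext x
  simp only [Qop, Pi.add_apply, fin_avg_add]
  ring

theorem Qop_smul' (r : Setoid X) (c : ℝ) (f : X → ℝ) : Qop r (c • f) = c • Qop r f := by
  funext x
  simp only [Qop, Pi.smul_apply, smul_eq_mul, fin_avg_smul]
  ring

theorem Qop_const (r : Setoid X) (c : ℝ) : Qop r (fun _ => c) = 0 := by
  funext x
  show c - avg r (fun _ => c) x = 0
  rw [avg_of_const r _ x c (fun _ _ => rfl)]
  ring

theorem dot_sum_left' {ι : Type*} (s : Finset ι) (F : ι → X → ℝ) (h : X → ℝ) :
    dot (fun x => ∑ i ∈ s, F i x) h = ∑ i ∈ s, dot (F i) h := by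
  unfold dot
  simp only [sum_mul]
  rw [sum_comm]

theorem dot_sum_right' {ι : Type*} (s : Finset ι) (F : ι → X → ℝ) (h : X → ℝ) :
    dot h (fun x => ∑ i ∈ s, F i x) = ∑ i ∈ s, dot h (F i) := by
  unfold dot
  simp only [mul_sum]
  rw [sum_comm]

end Lin

variable {n : ℕ} {d : Fin n → ℕ}

theorem Qab_comm (a b : Fin n) (f : Om d → ℝ) : Qab a b f = Qab b a f := by
  have h : (rowRel a b : Setoid (Om d)) = rowRel b a := by
    apply Setoid.ext
    intro G H
    exact rowRel_comm a b G H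
  unfold Qab
  rw [h]

/-- The operator `L' = ∑_{a≠b} Q_ab`. -/
noncomputable def Lop (f : Om d → ℝ) : Om d → ℝ :=
  fun G => ∑ a, ∑ b, if a ≠ b then Qab a b f G else 0

noncomputable def LopL (d : Fin n → ℕ) : (Om d → ℝ) →ₗ[ℝ] (Om d → ℝ) where
  toFun := Lop
  map_add' f g := by
    funext G
    simp only [Lop, Pi.add_apply, Qab, Qop_add', ← sum_add_distrib]
    refine sum_congr rfl (fun a _ => sum_congr rfl (fun b _ => ?_))
    split_ifs <;> simp
  map_smul' c f := by
    funext G
    simp only [Lop, Pi.smul_apply, Qab, Qop_smul', RingHom.id_apply, smul_eq_mul, mul_sum]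
    refine sum_congr rfl (fun a _ => sum_congr rfl (fun b _ => ?_))
    split_ifs <;> simp

/-- Normalise the `if` into a function valued sum. -/
theorem Lop_eq (f : Om d → ℝ) :
    Lop f = fun G => ∑ a, ∑ b, (if a ≠ b then Qab a b f else 0) G := by
  funext G
  simp only [Lop]
  refine sum_congr rfl (fun a _ => sum_congr rfl (fun b _ => ?_))
  split_ifs <;> simp

theorem dot_Lop_left (f h : Om d → ℝ) :
    dot (Lop f) h = ∑ a, ∑ b, if a ≠ b then dot (Qab a b f) h else 0 := by
  rw [Lop_eq, dot_sum_left']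
  refine sum_congr rfl (fun a _ => ?_)
  rw [dot_sum_left']
  refine sum_congr rfl (fun b _ => ?_)
  split_ifs
  · rfl
  · simp [dot]

theorem dot_Lop_right (f h : Om d → ℝ) :
    dot h (Lop f) = ∑ a, ∑ b, if a ≠ b then dot h (Qab a b f) else 0 := by
  rw [Lop_eq, dot_sum_right']
  refine sum_congr rfl (fun a _ => ?_)
  rw [dot_sum_right']
  refine sum_congr rfl (fun b _ => ?_)
  split_ifs
  · rfl
  · simp [dot]

/-- `LL f = ∑_{a≠b} |Q_ab f|²`. -/
noncomputable def LLf (f : Om d → ℝ) : ℝ :=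
  ∑ a, ∑ b, if a ≠ b then dot (Qab a b f) (Qab a b f) else 0

theorem dot_Lop_self (f : Om d → ℝ) : dot f (Lop f) = LLf f := by
  rw [dot_Lop_right]
  unfold LLf
  refine sum_congr rfl (fun a _ => sum_congr rfl (fun b _ => ?_))
  split_ifs
  · exact dot_Qop_self _ _
  · rfl

theorem LLf_nonneg (f : Om d → ℝ) : 0 ≤ LLf f :=
  sum_nonneg (fun a _ => sum_nonneg (fun b _ => by
    split_ifs
    · exact dot_self_nonneg _
    · exact le_rfl))

theorem Lop_symm (f g : Om d → ℝ) : dot (Lop f) g = dot f (Lop g) := by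
  rw [dot_Lop_left, dot_Lop_right]
  refine sum_congr rfl (fun a _ => sum_congr rfl (fun b _ => ?_))
  split_ifs
  · exact dot_Qop_symm _ _ _
  · rfl

/-! ### Combinatorial splitting -/

/-- The vertices other than `a,b`. -/
abbrev Sab (a b : Fin n) : Finset (Fin n) := (univ.erase a).erase b

theorem mem_Sab {a b t : Fin n} : t ∈ Sab a b ↔ t ≠ a ∧ t ≠ b := by
  simp only [Sab, mem_erase, mem_univ, and_true, ne_eq]
  exact and_comm

/-- Splitting a sum over `c ≠ e` relative to the pair `a ≠ b`. -/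
theorem pair_expand (h : Fin n → Fin n → ℝ) (a b : Fin n) (hab : a ≠ b) :
    ∑ c, ∑ e, (if c ≠ e then h c e else 0) =
      h a b + h b a + ∑ t ∈ Sab a b, (h a t + h t a + h b t + h t b) +
        ∑ c ∈ Sab a b, ∑ e ∈ (Sab a b).erase c, h c e := by
  classical
  have split : ∀ φ : Fin n → ℝ, ∑ c, φ c = φ a + φ b + ∑ c ∈ Sab a b, φ c := by
    intro φ
    have h1 : φ a + ∑ c ∈ univ.erase a, φ c = ∑ c, φ c := add_sum_erase _ _ (mem_univ a)
    have h2 : φ b + ∑ c ∈ (univ.erase a).erase b, φ c = ∑ c ∈ univ.erase a, φ c :=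
      add_sum_erase _ _ (by simp [hab.symm])
    linarith
  rw [split (fun c => ∑ e, (if c ≠ e then h c e else 0))]
  have ha : ∑ e, (if a ≠ e then h a e else 0) = h a b + ∑ t ∈ Sab a b, h a t := by
    rw [split (fun e => if a ≠ e then h a e else 0)]
    simp only [ne_eq, not_true_eq_false, if_false, hab, not_false_eq_true, if_true, zero_add]
    congr 1
    refine sum_congr rfl (fun t ht => ?_)
    rw [if_pos]
    exact (mem_Sab.1 ht).1.symm
  have hb : ∑ e, (if b ≠ e then h b e else 0) = h b a + ∑ t ∈ Sab a b, h b t := by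
    rw [split (fun e => if b ≠ e then h b e else 0)]
    simp only [ne_eq, not_true_eq_false, if_false, hab.symm, not_false_eq_true, if_true, add_zero]
    congr 1
    refine sum_congr rfl (fun t ht => ?_)
    rw [if_pos]
    exact (mem_Sab.1 ht).2.symm
  have hc : ∀ c ∈ Sab a b, ∑ e, (if c ≠ e then h c e else 0) =
      h c a + h c b + ∑ e ∈ (Sab a b).erase c, h c e := by
    intro c hc
    obtain ⟨hca, hcb⟩ := mem_Sab.1 hc
    rw [split (fun e => if c ≠ e then h c e else 0)]
    simp only [ne_eq, hca, hcb, not_false_eq_true, if_true]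
    congr 1
    have h1 : (if c ≠ c then h c c else 0) + ∑ e ∈ (Sab a b).erase c, (if c ≠ e then h c e else 0)
        = ∑ e ∈ Sab a b, (if c ≠ e then h c e else 0) :=
      add_sum_erase (Sab a b) (fun e => if c ≠ e then h c e else 0) hc
    have h2 : ∑ e ∈ (Sab a b).erase c, (if c ≠ e then h c e else 0) =
        ∑ e ∈ (Sab a b).erase c, h c e := by
      refine sum_congr rfl (fun e he => ?_)
      rw [if_pos (ne_of_mem_erase he).symm]
    simp only [ne_eq, not_true_eq_false, if_false, zero_add] at h1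
    rw [← h1, h2]
  rw [ha, hb, sum_congr rfl hc, sum_add_distrib, sum_add_distrib]
  simp only [sum_add_distrib]
  ring

/-- Indicator form of the sum over four distinct indices. -/
def D4 (a b c e : Fin n) : Prop := a ≠ b ∧ a ≠ c ∧ a ≠ e ∧ b ≠ c ∧ b ≠ e ∧ c ≠ e

instance (a b c e : Fin n) : Decidable (D4 a b c e) := by unfold D4; infer_instance

/-- Indicator form of the sum over three distinct indices. -/
def D3 (a b c : Fin n) : Prop := a ≠ b ∧ a ≠ c ∧ b ≠ c

instance (a b c : Fin n) : Decidable (D3 a b c) := by unfold D3; infer_instance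

theorem sum_Sab_eq (a b : Fin n) (φ : Fin n → ℝ) :
    ∑ t ∈ Sab a b, φ t = ∑ t, if t ≠ a ∧ t ≠ b then φ t else 0 := by
  classical
  rw [← sum_filter]
  refine sum_congr ?_ (fun _ _ => rfl)
  ext t
  simp only [mem_filter, mem_univ, true_and, mem_Sab]

theorem sum_erase_eq (s : Finset (Fin n)) (c : Fin n) (φ : Fin n → ℝ) :
    ∑ t ∈ s.erase c, φ t = ∑ t ∈ s, if c ≠ t then φ t else 0 := by
  classical
  rw [← sum_filter]
  refine sum_congr ?_ (fun _ _ => rfl)
  ext t
  simp [ne_comm, and_comm]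

/-- The iterated sum used by the package statements in indicator form. -/
theorem sum4_eq (φ : Fin n → Fin n → Fin n → Fin n → ℝ) :
    (∑ a, ∑ b, if a ≠ b then ∑ c ∈ Sab a b, ∑ e ∈ (Sab a b).erase c, φ a b c e else 0) =
      ∑ a, ∑ b, ∑ c, ∑ e, if D4 a b c e then φ a b c e else 0 := by
  classical
  refine sum_congr rfl (fun a _ => sum_congr rfl (fun b _ => ?_))
  by_cases hab : a = b
  · subst hab
    simp [D4]
  · rw [if_pos hab, sum_Sab_eq]
    refine sum_congr rfl (fun c _ => ?_)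
    by_cases hc : c ≠ a ∧ c ≠ b
    · rw [if_pos hc, sum_erase_eq, sum_Sab_eq]
      refine sum_congr rfl (fun e _ => ?_)
      by_cases he : e ≠ a ∧ e ≠ b
      · by_cases hce : c = e
        · simp [hce, D4]
        · have : D4 a b c e := ⟨hab, hc.1.symm, he.1.symm, hc.2.symm, he.2.symm, hce⟩
          rw [if_pos this, if_pos he, if_pos hce]
      · have : ¬ D4 a b c e := fun h => he ⟨h.2.2.1.symm, h.2.2.2.2.1.symm⟩
        rw [if_neg this, if_neg he]
    · rw [if_neg hc]
      symm
      apply sum_eq_zero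
      intro e _
      rw [if_neg]
      exact fun h => hc ⟨h.2.1.symm, h.2.2.2.1.symm⟩

theorem D4_swap {a b c e : Fin n} : D4 a b c e ↔ D4 c e a b := by
  unfold D4
  constructor <;> (rintro ⟨h1, h2, h3, h4, h5, h6⟩; exact ⟨h6, h2.symm, h4.symm, h3.symm, h5.symm, h1⟩)

/-- Relabelling `(a,b,c,e) → (c,e,a,b)`. -/
theorem sum4_swap (φ : Fin n → Fin n → Fin n → Fin n → ℝ) :
    (∑ a, ∑ b, ∑ c, ∑ e, if D4 a b c e then φ c e a b else 0) =
      ∑ a, ∑ b, ∑ c, ∑ e, if D4 a b c e then φ a b c e else 0 := by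
  calc (∑ a, ∑ b, ∑ c, ∑ e, if D4 a b c e then φ c e a b else 0)
      = ∑ a, ∑ c, ∑ b, ∑ e, if D4 a b c e then φ c e a b else 0 :=
        sum_congr rfl (fun a _ => sum_comm)
    _ = ∑ c, ∑ a, ∑ b, ∑ e, if D4 a b c e then φ c e a b else 0 := sum_comm
    _ = ∑ c, ∑ a, ∑ e, ∑ b, if D4 a b c e then φ c e a b else 0 :=
        sum_congr rfl (fun c _ => sum_congr rfl (fun a _ => sum_comm))
    _ = ∑ c, ∑ e, ∑ a, ∑ b, if D4 a b c e then φ c e a b else 0 :=
        sum_congr rfl (fun c _ => sum_comm)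
    _ = ∑ c, ∑ e, ∑ a, ∑ b, if D4 c e a b then φ c e a b else 0 := by
        refine sum_congr rfl (fun c _ => sum_congr rfl (fun e _ => sum_congr rfl (fun a _ =>
          sum_congr rfl (fun b _ => ?_))))
        simp only [D4_swap (a := a)]

/-! ### The Bochner inequality -/

/-- Abbreviation for the pair correlations. -/
noncomputable def gg (f : Om d → ℝ) (a b c e : Fin n) : ℝ := dot (Qab a b f) (Qab c e f)

theorem gg_comm_right (f : Om d → ℝ) (a b c e : Fin n) : gg f a b c e = gg f a b e c := by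
  unfold gg; rw [Qab_comm c e]

theorem gg_comm_left (f : Om d → ℝ) (a b c e : Fin n) : gg f a b c e = gg f b a c e := by
  unfold gg; rw [Qab_comm a b]

/-- Expansion `|L'f|² = 2 LL + 2 X1 + A2`. -/
theorem dot_Lop_Lop (f : Om d → ℝ) :
    dot (Lop f) (Lop f) =
      ∑ a, ∑ b, if a ≠ b then
        (2 * gg f a b a b + 2 * ∑ t ∈ Sab a b, (gg f a b a t + gg f a b b t) +
          ∑ c ∈ Sab a b, ∑ e ∈ (Sab a b).erase c, gg f a b c e) else 0 := by
  rw [dot_Lop_left]
  refine sum_congr rfl (fun a _ => sum_congr rfl (fun b _ => ?_))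
  by_cases hab : a = b
  · simp [hab]
  · rw [if_pos hab, if_pos hab, dot_Lop_right]
    have := pair_expand (fun c e => gg f a b c e) a b hab
    have h2 : ∑ c, ∑ e, (if c ≠ e then dot (Qab a b f) (Qab c e f) else 0) =
        ∑ c, ∑ e, (if c ≠ e then gg f a b c e else 0) := rfl
    rw [h2, this]
    have h3 : ∀ t, gg f a b a t + gg f a b t a + gg f a b b t + gg f a b t b =
        2 * (gg f a b a t + gg f a b b t) := by
      intro t
      rw [gg_comm_right f a b t a, gg_comm_right f a b t b]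
      ring
    simp only [h3, ← mul_sum]
    rw [gg_comm_right f a b b a]
    ring

/-- Sum over triples, as an indicator sum. -/
theorem sum3_eq (φ : Fin n → Fin n → Fin n → ℝ) :
    (∑ a, ∑ b, if a ≠ b then ∑ t ∈ Sab a b, φ a b t else 0) =
      ∑ a, ∑ b, ∑ t, if D3 a b t then φ a b t else 0 := by
  classical
  refine sum_congr rfl (fun a _ => sum_congr rfl (fun b _ => ?_))
  by_cases hab : a = b
  · subst hab
    simp [D3]
  · rw [if_pos hab, sum_Sab_eq]
    refine sum_congr rfl (fun c _ => ?_)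
    by_cases hc : c ≠ a ∧ c ≠ b
    · rw [if_pos hc, if_pos]
      exact ⟨hab, hc.1.symm, hc.2.symm⟩
    · rw [if_neg hc, if_neg]
      exact fun h => hc ⟨h.2.1.symm, h.2.2.symm⟩

theorem sum3_swap12 (φ : Fin n → Fin n → Fin n → ℝ) :
    (∑ a, ∑ b, ∑ t, if D3 a b t then φ b a t else 0) =
      ∑ a, ∑ b, ∑ t, if D3 a b t then φ a b t else 0 := by
  rw [sum_comm]
  refine sum_congr rfl (fun a _ => sum_congr rfl (fun b _ => sum_congr rfl (fun t _ => ?_)))
  have : D3 b a t ↔ D3 a b t := by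
    unfold D3
    constructor <;> (rintro ⟨h1, h2, h3⟩; exact ⟨h1.symm, h3, h2⟩)
  simp only [this]

theorem sum3_swap23 (φ : Fin n → Fin n → Fin n → ℝ) :
    (∑ a, ∑ b, ∑ t, if D3 a b t then φ a t b else 0) =
      ∑ a, ∑ b, ∑ t, if D3 a b t then φ a b t else 0 := by
  refine sum_congr rfl (fun a _ => ?_)
  rw [sum_comm]
  refine sum_congr rfl (fun b _ => sum_congr rfl (fun t _ => ?_))
  have : D3 a t b ↔ D3 a b t := by
    unfold D3
    constructor <;> (rintro ⟨h1, h2, h3⟩; exact ⟨h2, h1, h3.symm⟩)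
  simp only [this]

/-- The cross terms are nonnegative. -/
theorem X1_nonneg (f : Om d → ℝ) :
    0 ≤ ∑ a, ∑ b, if a ≠ b then ∑ t ∈ Sab a b, (gg f a b a t + gg f a b b t) else 0 := by
  rw [sum3_eq (fun a b t => gg f a b a t + gg f a b b t)]
  set W := ∑ a, ∑ b, ∑ t, if D3 a b t then gg f a b b t else 0 with hW
  have h1 : (∑ a, ∑ b, ∑ t, if D3 a b t then gg f a b a t else 0) = W := by
    rw [hW, ← sum3_swap12 (fun a b t => gg f a b b t)]
    refine sum_congr rfl (fun a _ => sum_congr rfl (fun b _ => sum_congr rfl (fun t _ => ?_)))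
    rw [gg_comm_left f a b a t]
  have h2 : (∑ a, ∑ b, ∑ t, if D3 a b t then gg f a t b t else 0) = W := by
    rw [hW, ← sum3_swap23 (fun a b t => gg f a b b t)]
    refine sum_congr rfl (fun a _ => sum_congr rfl (fun b _ => sum_congr rfl (fun t _ => ?_)))
    rw [gg_comm_right f a t b t]
  have h3 : 0 ≤ ∑ a, ∑ b, ∑ t, if D3 a b t then
      (gg f a b a t + gg f a b b t + gg f a t b t) else 0 := by
    refine sum_nonneg (fun a _ => sum_nonneg (fun b _ => sum_nonneg (fun t _ => ?_)))
    split_ifs with h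
    · exact triple_cross_nonneg a b t h.1 h.2.1 h.2.2 f
    · exact le_rfl
  have hsplit : ∀ a b t, (if D3 a b t then (gg f a b a t + gg f a b b t + gg f a t b t) else 0) =
      (if D3 a b t then gg f a b a t else 0) + (if D3 a b t then gg f a b b t else 0) +
        (if D3 a b t then gg f a t b t else 0) := by
    intro a b t
    split_ifs <;> simp
  have hsplit2 : ∀ a b t, (if D3 a b t then (gg f a b a t + gg f a b b t) else 0) =
      (if D3 a b t then gg f a b a t else 0) + (if D3 a b t then gg f a b b t else 0) := by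
    intro a b t
    split_ifs <;> simp
  simp only [hsplit, sum_add_distrib] at h3
  simp only [hsplit2, sum_add_distrib]
  rw [h1, h2] at h3
  rw [h1]
  linarith

/-- The far-apart terms are at least `2 LL`. -/
theorem A2_lower (f : Om d → ℝ) :
    2 * LLf f ≤ ∑ a, ∑ b, if a ≠ b then
      ∑ c ∈ Sab a b, ∑ e ∈ (Sab a b).erase c, gg f a b c e else 0 := by
  rw [sum4_eq (fun a b c e => gg f a b c e)]
  have hsum : ∀ (φ ψ : Fin n → Fin n → Fin n → Fin n → ℝ),
      (∀ a b c e, D4 a b c e → φ a b c e ≤ ψ a b c e) →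
      (∑ a, ∑ b, ∑ c, ∑ e, if D4 a b c e then φ a b c e else 0) ≤
        ∑ a, ∑ b, ∑ c, ∑ e, if D4 a b c e then ψ a b c e else 0 := by
    intro φ ψ h
    refine sum_le_sum (fun a _ => sum_le_sum (fun b _ => sum_le_sum (fun c _ =>
      sum_le_sum (fun e _ => ?_))))
    split_ifs with hD
    · exact h a b c e hD
    · exact le_rfl
  have h1 := hsum (fun a b c e => SwT a b c e f - Neg a b c e f - Neg c e a b f)
    (fun a b c e => 2 * gg f a b c e) (by
      intro a b c e h
      exact block_ineq a b c e h.1 h.2.1 h.2.2.1 h.2.2.2.1 h.2.2.2.2.1 h.2.2.2.2.2 f)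
  have hsplit : ∀ a b c e, (if D4 a b c e then SwT a b c e f - Neg a b c e f - Neg c e a b f else 0)
      = (if D4 a b c e then SwT a b c e f else 0) - (if D4 a b c e then Neg a b c e f else 0)
        - (if D4 a b c e then Neg c e a b f else 0) := by
    intro a b c e
    split_ifs <;> simp
  have hsplit2 : ∀ a b c e, (if D4 a b c e then 2 * gg f a b c e else 0)
      = 2 * (if D4 a b c e then gg f a b c e else 0) := by
    intro a b c e
    split_ifs <;> simp
  simp only [hsplit, hsplit2, sum_sub_distrib, ← mul_sum] at h1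
  rw [sum4_swap (fun a b c e => Neg a b c e f)] at h1
  have h2 : 4 * LLf f ≤ ∑ a, ∑ b, ∑ c, ∑ e,
      if D4 a b c e then SwT a b c e f - 2 * Neg a b c e f else 0 := by
    rw [← sum4_eq (fun a b c e => SwT a b c e f - 2 * Neg a b c e f)]
    unfold LLf
    rw [mul_sum]
    refine sum_le_sum (fun a _ => ?_)
    rw [mul_sum]
    refine sum_le_sum (fun b _ => ?_)
    split_ifs with hab
    · exact fibre_sum a b hab f
    · simp
  have hsplit3 : ∀ a b c e, (if D4 a b c e then SwT a b c e f - 2 * Neg a b c e f else 0)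
      = (if D4 a b c e then SwT a b c e f else 0) - 2 * (if D4 a b c e then Neg a b c e f else 0) := by
    intro a b c e
    split_ifs <;> simp
  simp only [hsplit3, sum_sub_distrib, ← mul_sum] at h2
  linarith

/-- The Bochner inequality. -/
theorem bochner (f : Om d → ℝ) : 4 * dot f (Lop f) ≤ dot (Lop f) (Lop f) := by
  rw [dot_Lop_self, dot_Lop_Lop]
  have hsplit : ∀ a b, (if a ≠ b then
      (2 * gg f a b a b + 2 * ∑ t ∈ Sab a b, (gg f a b a t + gg f a b b t) +
          ∑ c ∈ Sab a b, ∑ e ∈ (Sab a b).erase c, gg f a b c e) else 0) =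
      2 * (if a ≠ b then gg f a b a b else 0) +
        2 * (if a ≠ b then ∑ t ∈ Sab a b, (gg f a b a t + gg f a b b t) else 0) +
        (if a ≠ b then ∑ c ∈ Sab a b, ∑ e ∈ (Sab a b).erase c, gg f a b c e else 0) := by
    intro a b
    split_ifs <;> simp
  have hS : ∀ P Q R : Fin n → Fin n → ℝ,
      (∑ a, ∑ b, (2 * P a b + 2 * Q a b + R a b)) =
        2 * (∑ a, ∑ b, P a b) + 2 * (∑ a, ∑ b, Q a b) + ∑ a, ∑ b, R a b := by
    intro P Q R
    simp only [sum_add_distrib, mul_sum]
  rw [sum_congr rfl (fun a _ => sum_congr rfl (fun b _ => hsplit a b)), hS]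
  have h1 := X1_nonneg f
  have h2 := A2_lower f
  have h3 : (∑ a, ∑ b, if a ≠ b then gg f a b a b else 0) = LLf f := rfl
  rw [h3]
  linarith

/-- Kernel of the Dirichlet form. -/
theorem ker_Lop (f : Om d → ℝ) (h : dot f (Lop f) = 0) (x y : Om d) : f x = f y := by
  rw [dot_Lop_self] at h
  have h1 := (sum_eq_zero_iff_of_nonneg (fun a _ => sum_nonneg (fun b _ => by
    split_ifs
    · exact dot_self_nonneg _
    · exact le_rfl))).1 h
  refine connected f (fun a b hab G => ?_) x y
  have h2 := h1 a (mem_univ a)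
  have h3 := (sum_eq_zero_iff_of_nonneg (fun b _ => by
    split_ifs
    · exact dot_self_nonneg _
    · exact le_rfl)).1 h2 b (mem_univ b)
  rw [if_pos hab] at h3
  exact dot_self_eq_zero h3 G

/-- The spectral gap for `L'`. -/
theorem gap_LL [Nonempty (Om d)] (f : Om d → ℝ) :
    4 * (dot f f - (∑ x, f x) ^ 2 / (Fintype.card (Om d) : ℝ)) ≤ LLf f := by
  have := spectral_of_bochner (LopL d) (fun f g => Lop_symm f g)
    (by
      funext G
      show Lop (fun _ => (1 : ℝ)) G = 0
      unfold Lop Qab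
      simp [Qop_const]) 4 (by norm_num)
    (fun f => by
      show 0 ≤ dot f (Lop f)
      rw [dot_Lop_self]
      exact LLf_nonneg f)
    (fun f => bochner f)
    (fun f h x y => ker_Lop f h x y) f
  have h2 : dot f (LopL d f) = LLf f := dot_Lop_self f
  rw [h2] at this
  exact this

theorem LL_le_SWT (f : Om d → ℝ) :
    4 * LLf f ≤ ∑ a, ∑ b, ∑ c, ∑ e, if D4 a b c e then SwT a b c e f else 0 := by
  rw [← sum4_eq (fun a b c e => SwT a b c e f)]
  unfold LLf
  rw [mul_sum]
  refine sum_le_sum (fun a _ => ?_)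
  rw [mul_sum]
  refine sum_le_sum (fun b _ => ?_)
  split_ifs with hab
  · exact fibre_gap a b hab f
  · simp

theorem SwT_nonneg (a b c e : Fin n) (f : Om d → ℝ) : 0 ≤ SwT a b c e f := by
  unfold SwT
  refine sum_nonneg (fun G _ => sum_nonneg (fun G' _ => ?_))
  split_ifs
  · exact sq_nonneg _
  · exact le_rfl

/-- **The Poincare inequality** of the statement. -/
theorem poincare_final (hn : 4 ≤ n) (hd : (realizations d).Nonempty)
    (f : Finset (Edge n) → ℝ) :
    ((realizations d).card : ℝ) * (∑ G ∈ realizations d, f G ^ 2) -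
        (∑ G ∈ realizations d, f G) ^ 2 ≤
      24 * (n : ℝ) ^ 2 * (n.choose 4 : ℝ) * (realizations d).card *
        ∑ G ∈ realizations d, f G * (f G - ∑ G' ∈ realizations d, kernel n G G' * f G') := by
  classical
  obtain ⟨G₀, hG₀⟩ := hd
  have : Nonempty (Om d) := ⟨⟨G₀, hG₀⟩⟩
  set F : Om d → ℝ := fun G => f G.1 with hF
  set N : ℝ := ((realizations d).card : ℝ) with hN
  have hNpos : 0 < N := by
    have : 0 < (realizations d).card := card_pos.mpr ⟨G₀, hG₀⟩
    rw [hN]; exact_mod_cast this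
  have hcard : (Fintype.card (Om d) : ℝ) = N := by
    rw [hN, Fintype.card_coe]
  have hs1 : dot F F = ∑ G ∈ realizations d, f G ^ 2 := by
    unfold dot
    rw [← Finset.sum_coe_sort (realizations d) (fun G => f G ^ 2)]
    exact sum_congr rfl (fun G _ => by simp only [hF]; ring)
  have hs2 : ∑ x, F x = ∑ G ∈ realizations d, f G := by
    rw [← Finset.sum_coe_sort (realizations d) f]
  have hgap := gap_LL F
  rw [hcard, hs1, hs2] at hgap
  have hlow := dirichlet_lower (d := d) hn f
  have hSW := LL_le_SWT F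
  have hsw2 : (∑ a, ∑ b, ∑ c, ∑ e, if D4 a b c e then SwT a b c e F else 0) =
      ∑ a, ∑ b, ∑ c, ∑ e, (if a ≠ b ∧ a ≠ c ∧ a ≠ e ∧ b ≠ c ∧ b ≠ e ∧ c ≠ e then
        SwT (d := d) a b c e (fun G => f G.1) else 0) := by
    refine sum_congr rfl (fun a _ => sum_congr rfl (fun b _ => sum_congr rfl (fun c _ =>
      sum_congr rfl (fun e _ => ?_))))
    by_cases h : D4 a b c e
    · rw [if_pos h, if_pos (show a ≠ b ∧ a ≠ c ∧ a ≠ e ∧ b ≠ c ∧ b ≠ e ∧ c ≠ e from h)]
    · rw [if_neg h, if_neg (show ¬ (a ≠ b ∧ a ≠ c ∧ a ≠ e ∧ b ≠ c ∧ b ≠ e ∧ c ≠ e) from h)]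
  rw [hsw2] at hSW
  set A := ∑ G ∈ realizations d, f G ^ 2 with hA
  set B := ∑ G ∈ realizations d, f G with hB
  set DD := ∑ G ∈ realizations d, f G * (f G - ∑ G' ∈ realizations d, kernel n G G' * f G') with hDD
  set C : ℝ := 24 * (n : ℝ) ^ 2 * (n.choose 4 : ℝ) with hC
  set SW := ∑ a, ∑ b, ∑ c, ∑ e, (if a ≠ b ∧ a ≠ c ∧ a ≠ e ∧ b ≠ c ∧ b ≠ e ∧ c ≠ e then
        SwT (d := d) a b c e (fun G => f G.1) else 0) with hSWdef
  have hSW0 : 0 ≤ SW := by
    refine sum_nonneg (fun a _ => sum_nonneg (fun b _ => sum_nonneg (fun c _ =>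
      sum_nonneg (fun e _ => ?_))))
    split_ifs
    · exact SwT_nonneg _ _ _ _ _
    · exact le_rfl
  have hCD : 0 ≤ C * DD := hSW0.trans hlow
  have h1 : A - B ^ 2 / N ≤ (C * DD) / 16 := by
    have : LLf F ≤ (C * DD) / 4 := by linarith
    linarith
  have h2 : N * A - B ^ 2 = N * (A - B ^ 2 / N) := by
    field_simp
  have h3 : C * N * DD = N * (C * DD) := by ring
  rw [h2, h3]
  refine mul_le_mul_of_nonneg_left ?_ hNpos.le
  linarith

end Crest.Agent.SW
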